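import Mathlib

/-!
# Row 180, linear algebra over a field (no other imports)
-/

set_option autoImplicit false

namespace Crest.Agent.R180

open Module

section

variable {F V W P : Type*} [Field F] [AddCommGroup V] [Module F V] [AddCommGroup W] [Module F W]
  [AddCommGroup P] [Module F P]

/-- the elements of `N` orthogonal to `R` -/
def lker (φ : V →ₗ[F] W →ₗ[F] F) (N : Submodule F V) (R : Submodule F W) : Submodule F V where
  carrier := {c | c ∈ N ∧ ∀ u ∈ R, φ c u = 0}
  add_mem' := by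
    rintro a b ⟨ha, ha'⟩ ⟨hb, hb'⟩
    exact ⟨N.add_mem ha hb, fun u hu => by simp [ha' u hu, hb' u hu]⟩
  zero_mem' := ⟨N.zero_mem, fun u _ => by simp⟩
  smul_mem' := by
    rintro c a ⟨ha, ha'⟩
    exact ⟨N.smul_mem c ha, fun u hu => by simp [ha' u hu]⟩

theorem mem_lker {φ : V →ₗ[F] W →ₗ[F] F} {N : Submodule F V} {R : Submodule F W} {c : V} :
    c ∈ lker φ N R ↔ c ∈ N ∧ ∀ u ∈ R, φ c u = 0 := Iff.rfl

theorem lker_le (φ : V →ₗ[F] W →ₗ[F] F) (N : Submodule F V) (R : Submodule F W) : lker φ N R ≤ N :=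
  fun _ h => h.1

instance lker_fd (φ : V →ₗ[F] W →ₗ[F] F) (N : Submodule F V) (R : Submodule F W) [FiniteDimensional F N] :
    FiniteDimensional F (lker φ N R) := Submodule.finiteDimensional_of_le (lker_le φ N R)

theorem lker_eq_map (φ : V →ₗ[F] W →ₗ[F] F) (N : Submodule F V) (R : Submodule F W) :
    lker φ N R = (LinearMap.ker (φ.domRestrict₁₂ N R)).map N.subtype := by
  ext c
  constructor
  · rintro ⟨hc, h⟩
    exact ⟨⟨c, hc⟩, LinearMap.ext fun u => h u u.2, rfl⟩
  · rintro ⟨c, hc, rfl⟩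
    exact ⟨c.2, fun u hu => LinearMap.congr_fun hc ⟨u, hu⟩⟩

theorem finrank_range_flip {A B : Type*} [AddCommGroup A] [Module F A] [AddCommGroup B] [Module F B]
    [FiniteDimensional F B] (Φ : A →ₗ[F] B →ₗ[F] F) :
    finrank F (LinearMap.range Φ.flip) = finrank F (LinearMap.range Φ) := by
  have e : Φ.flip = Φ.dualMap ∘ₗ (Module.evalEquiv F B).toLinearMap := by
    ext b a; rfl
  rw [e, LinearMap.range_comp_of_range_eq_top _ (LinearEquiv.range _)]
  exact LinearMap.finrank_range_dualMap_eq_finrank_range Φ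

/-- row rank = column rank -/
theorem rank_symm (φ : V →ₗ[F] W →ₗ[F] F) (N : Submodule F V) (R : Submodule F W)
    [FiniteDimensional F N] [FiniteDimensional F R] :
    finrank F N + finrank F (lker φ.flip R N) = finrank F R + finrank F (lker φ N R) := by
  rw [lker_eq_map, lker_eq_map, Submodule.finrank_map_subtype_eq, Submodule.finrank_map_subtype_eq]
  have h1 := LinearMap.finrank_range_add_finrank_ker (φ.domRestrict₁₂ N R)
  have h2 := LinearMap.finrank_range_add_finrank_ker (φ.flip.domRestrict₁₂ R N)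
  have h3 := finrank_range_flip (φ.domRestrict₁₂ N R)
  have e : (φ.domRestrict₁₂ N R).flip = φ.flip.domRestrict₁₂ R N := by
    ext b a; rfl
  rw [e] at h3
  omega

/-- a functional that vanishes on the left kernel is represented by an element of `R` -/
theorem dual_solve (φ : V →ₗ[F] W →ₗ[F] F) (N : Submodule F V) (R : Submodule F W) [FiniteDimensional F N]
    (ψ : V →ₗ[F] F) (h : ∀ c ∈ lker φ N R, ψ c = 0) : ∃ u ∈ R, ∀ c ∈ N, φ c u = ψ c := by
  have h1 : ψ.domRestrict N ∈
      (LinearMap.range (φ.flip.domRestrict₁₂ R N)).dualCoannihilator.dualAnnihilator := by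
    rw [Submodule.mem_dualAnnihilator]
    intro c hc
    rw [Submodule.mem_dualCoannihilator] at hc
    exact h c ⟨c.2, fun u hu => hc _ ⟨⟨u, hu⟩, rfl⟩⟩
  rw [Subspace.dualCoannihilator_dualAnnihilator_eq] at h1
  obtain ⟨u, hu⟩ := h1
  exact ⟨u, u.2, fun c hc => LinearMap.congr_fun hu ⟨c, hc⟩⟩

/-- the form `β` has rank at least `ρ` on `U` -/
def RkGe (β : V →ₗ[F] V →ₗ[F] F) (U : Submodule F V) (ρ : ℕ) : Prop :=
  finrank F (lker β U U) + ρ ≤ finrank F U

/-- `lker β U₁ U₂ ≤ lker β U U₂`, then `rank_symm` twice -/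
theorem lker_two (β : V →ₗ[F] V →ₗ[F] F) (U U₁ U₂ : Submodule F V) [FiniteDimensional F U]
    (h1 : U₁ ≤ U) (h2 : U₂ ≤ U) :
    finrank F (lker β U₁ U₂) + finrank F U₂ ≤ finrank F (lker β U U) + finrank F U := by
  have := Submodule.finiteDimensional_of_le h2
  have a1 : finrank F (lker β U₁ U₂) ≤ finrank F (lker β U U₂) :=
    Submodule.finrank_mono fun c hc => ⟨h1 hc.1, hc.2⟩
  have a2 : finrank F (lker β.flip U₂ U) ≤ finrank F (lker β.flip U U) :=
    Submodule.finrank_mono fun c hc => ⟨h2 hc.1, hc.2⟩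
  have a3 := rank_symm β U U₂
  have a4 := rank_symm β U U
  omega

theorem finrank_inf_ker_add (T : Submodule F V) [FiniteDimensional F T] (φ : V →ₗ[F] W) :
    finrank F (T ⊓ LinearMap.ker φ : Submodule F V) + finrank F (T.map φ) = finrank F T := by
  have h1 := LinearMap.finrank_range_add_finrank_ker (φ.domRestrict T)
  rw [LinearMap.range_domRestrict] at h1
  have e : (T ⊓ LinearMap.ker φ : Submodule F V) = (LinearMap.ker (φ.domRestrict T)).map T.subtype := by
    ext c
    constructor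
    · rintro ⟨hc, h⟩
      exact ⟨⟨c, hc⟩, h, rfl⟩
    · rintro ⟨c, hc, rfl⟩
      exact ⟨c.2, hc⟩
  rw [e, Submodule.finrank_map_subtype_eq]
  omega

/-- a generic perturbation of an injective map is injective -/
theorem exists_inj_pencil [Infinite F] {G : Type*} [AddCommGroup G] [Module F G] [FiniteDimensional F G]
    (α β : G →ₗ[F] W) (hα : LinearMap.ker α = ⊥) : ∃ ε : F, ε ≠ 0 ∧ Function.Injective (α + ε • β) := by
  obtain ⟨L, hL⟩ := LinearMap.exists_leftInverse_of_injective α hα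
  have hfin : ({μ | Module.End.HasEigenvalue (L ∘ₗ β) μ} ∪ {0} : Set F).Finite :=
    (Module.End.finite_hasEigenvalue (L ∘ₗ β)).union (Set.finite_singleton 0)
  obtain ⟨μ, hμ⟩ := hfin.exists_notMem
  simp only [Set.mem_union, Set.mem_ofPred_eq, Set.mem_singleton_iff, not_or] at hμ
  refine ⟨-μ⁻¹, neg_ne_zero.mpr (inv_ne_zero hμ.2), ?_⟩
  rw [← LinearMap.ker_eq_bot, LinearMap.ker_eq_bot']
  intro x hx
  by_contra hx0
  apply hμ.1
  have h1 : L (α x) = x := LinearMap.congr_fun hL x
  have h2 := congrArg L hx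
  simp only [LinearMap.add_apply, LinearMap.smul_apply, map_add, map_smul, h1, map_zero, neg_smul,
    LinearMap.neg_apply, map_neg] at h2
  refine Module.End.hasEigenvalue_of_hasEigenvector (x := x) ⟨?_, hx0⟩
  rw [Module.End.mem_eigenspace_iff]
  have h3 : x = μ⁻¹ • L (β x) := by rwa [add_neg_eq_zero] at h2
  change L (β x) = μ • x
  conv_rhs => rw [h3]
  rw [smul_smul, mul_inv_cancel₀ hμ.2, one_smul]

/-- if `A + ε B` never has larger rank on `N` than `A`, then `B` maps the kernel of `A` into the image of `A`.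
(Vectors `a i + ε b i` with `a i` independent stay independent for all but finitely many `ε`.) -/
theorem max_rank [Infinite F] (N : Submodule F P) [FiniteDimensional F N] (A B : P →ₗ[F] W)
    (h : ∀ ε : F, finrank F (N.map (A + ε • B)) ≤ finrank F (N.map A)) (c : P) (hc : c ∈ N) (hA : A c = 0) :
    B c ∈ N.map A := by
  by_contra hB
  obtain ⟨s, hs⟩ := LinearMap.exists_rightInverse_of_surjective (A.submoduleMap N)
    (LinearMap.range_eq_top.mpr (A.submoduleMap_surjective N))
  have hs' : ∀ w : N.map A, A (s w) = w := fun w => congrArg Subtype.val (LinearMap.congr_fun hs w)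
  obtain ⟨ε, hε, hinj⟩ := exists_inj_pencil (G := N.map A × F)
    ((N.map A).subtype.coprod (LinearMap.toSpanSingleton F W (B c)))
    (B ∘ₗ N.subtype ∘ₗ s ∘ₗ LinearMap.fst F _ _) (by
      rw [LinearMap.ker_eq_bot']
      rintro ⟨w, t⟩ hwt
      simp only [LinearMap.coprod_apply, Submodule.subtype_apply,
        LinearMap.toSpanSingleton_apply] at hwt
      have ht : t = 0 := by
        by_contra ht
        apply hB
        have : B c = (-t⁻¹) • (w : W) := by
          rw [eq_neg_of_add_eq_zero_left hwt, smul_neg, neg_smul, neg_neg, smul_smul,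
            inv_mul_cancel₀ ht, one_smul]
        rw [this]
        exact Submodule.smul_mem _ _ w.2
      subst ht
      rw [zero_smul, add_zero] at hwt
      exact Prod.ext (Subtype.ext hwt) rfl)
  have h1 := LinearMap.finrank_range_of_inj hinj
  have h2 : finrank F (LinearMap.range ((N.map A).subtype.coprod (LinearMap.toSpanSingleton F W (B c)) +
      ε • (B ∘ₗ N.subtype ∘ₗ s ∘ₗ LinearMap.fst F _ _))) ≤ finrank F (N.map (A + ε • B)) := by
    refine Submodule.finrank_mono ?_
    rintro _ ⟨⟨w, t⟩, rfl⟩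
    refine ⟨s w + (ε⁻¹ * t) • c, N.add_mem (s w).2 (N.smul_mem _ hc), ?_⟩
    simp only [LinearMap.add_apply, LinearMap.smul_apply, map_add, map_smul, hs', hA, smul_zero,
      zero_add, LinearMap.coprod_apply, Submodule.subtype_apply, LinearMap.toSpanSingleton_apply,
      LinearMap.comp_apply, LinearMap.fst_apply, smul_smul]
    rw [mul_assoc, mul_comm t, ← mul_assoc, inv_mul_cancel₀ hε, one_mul]
    abel
  have h3 := h ε
  rw [h1, Module.finrank_prod, Module.finrank_self] at h2
  omega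

/-- A pencil of forms of large rank has a point `e ∈ δ + U` with `c ↦ β c e` injective on `U`.
Take `e ∈ δ + U` for which `M e : c ↦ (β c e)|U` has the largest rank on `N`; if `M e c = 0`, `c ≠ 0`, then by
`max_rank` every `(β c u)|U`, `u ∈ U`, lies in the image of `M e`, of dimension `< finrank N`; use `lker_two`. -/
theorem pencil_one [Infinite F] (β : P →ₗ[F] V →ₗ[F] V →ₗ[F] F) (N : Submodule F P) [FiniteDimensional F N]
    (T U : Submodule F V) [FiniteDimensional F T] (hU : U ≤ T) (k ρ : ℕ)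
    (hρ : ∀ c ∈ N, c ≠ 0 → RkGe (β c) T ρ) (hk : finrank F T ≤ finrank F U + k)
    (h : 2 * k + finrank F N ≤ ρ) (δ : V) :
    ∃ e, e - δ ∈ U ∧ ∀ c ∈ N, (∀ u ∈ U, β c e u = 0) → c = 0 := by
  have := Submodule.finiteDimensional_of_le hU
  let M : V → P →ₗ[F] Module.Dual F U := fun e => U.subtype.dualMap ∘ₗ β.flip e
  obtain ⟨e, he, hmin⟩ := (InvImage.wf (fun e => finrank F N - finrank F (N.map (M e)))
    (wellFounded_lt (α := ℕ))).has_min {e | e - δ ∈ U} ⟨δ, by simp⟩
  refine ⟨e, he, fun c hc hce => ?_⟩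
  by_contra hc0
  have hMc : M e c = 0 := LinearMap.ext fun u => hce u u.2
  have hmax : ∀ u ∈ U, M u c ∈ N.map (M e) := by
    intro u hu
    refine max_rank N (M e) (M u) (fun ε => ?_) c hc hMc
    have h1 : e + ε • u - δ ∈ U := by
      rw [add_sub_right_comm]; exact U.add_mem he (U.smul_mem _ hu)
    have h2 := hmin _ h1
    have e1 : M (e + ε • u) = M e + ε • M u := by
      simp only [M, map_add, map_smul, LinearMap.comp_add, LinearMap.comp_smul]
    have h3 := Submodule.finrank_map_le (M (e + ε • u)) N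
    have h4 := Submodule.finrank_map_le (M e) N
    simp only [InvImage, not_lt] at h2
    rw [← e1]
    omega
  have h1 := finrank_inf_ker_add N (M e)
  have h2 : 0 < finrank F (N ⊓ LinearMap.ker (M e) : Submodule F P) := by
    have : FiniteDimensional F (N ⊓ LinearMap.ker (M e) : Submodule F P) :=
      Submodule.finiteDimensional_of_le inf_le_left
    rw [Nat.pos_iff_ne_zero, Ne, Submodule.finrank_eq_zero]
    intro h0
    have : c ∈ (N ⊓ LinearMap.ker (M e) : Submodule F P) := ⟨hc, hMc⟩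
    rw [h0] at this
    exact hc0 this
  have h3 := finrank_inf_ker_add U (U.subtype.dualMap ∘ₗ β c)
  have h4 : finrank F (U.map (U.subtype.dualMap ∘ₗ β c)) ≤ finrank F (N.map (M e)) := by
    refine Submodule.finrank_mono ?_
    rintro _ ⟨u, hu, rfl⟩
    exact hmax u hu
  have h5 : (U ⊓ LinearMap.ker (U.subtype.dualMap ∘ₗ β c) : Submodule F V) = lker (β c) U U := by
    ext u
    constructor
    · rintro ⟨hu, h⟩
      exact ⟨hu, fun v hv => LinearMap.congr_fun h ⟨v, hv⟩⟩
    · rintro ⟨hu, h⟩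
      exact ⟨hu, LinearMap.ext fun v => h v v.2⟩
  rw [h5] at h3
  have h6 := lker_two (β c) T U U hU hU
  have h7 := hρ c hc hc0
  unfold RkGe at h7
  omega

/-- `pencil_one` twice: first `e₁`; correct `δ₂` by `dual_solve` so that `β c e₁ δ₂' = 0` on `N`; then `e₂` in
`δ₂' + U₁`, `U₁ = {u ∈ U | ∀ c ∈ N, β c e₁ u = 0}` of codimension `≤ finrank N` in `U`. -/
theorem pencil_two [Infinite F] (β : P →ₗ[F] V →ₗ[F] V →ₗ[F] F) (N : Submodule F P) [FiniteDimensional F N]
    (T U : Submodule F V) [FiniteDimensional F T] (hU : U ≤ T) (k ρ : ℕ)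
    (hρ : ∀ c ∈ N, c ≠ 0 → RkGe (β c) T ρ) (hk : finrank F T ≤ finrank F U + k)
    (h : 2 * k + 3 * finrank F N ≤ ρ) (δ₁ δ₂ : V) :
    ∃ e₁ e₂, e₁ - δ₁ ∈ U ∧ e₂ - δ₂ ∈ U ∧ (∀ c ∈ N, β c e₁ e₂ = 0) ∧
      ∀ c₁ ∈ N, ∀ c₂ ∈ N, (∀ u ∈ U, β c₁ e₁ u + β c₂ e₂ u = 0) → c₁ = 0 ∧ c₂ = 0 := by
  have := Submodule.finiteDimensional_of_le hU
  obtain ⟨e₁, he₁, h₁⟩ := pencil_one β N T U hU k ρ hρ hk (by omega) δ₁
  have hbot : lker (β.flip e₁) N U = ⊥ := by
    rw [eq_bot_iff]
    intro c hc
    exact h₁ c hc.1 hc.2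
  obtain ⟨u, hu, hu'⟩ := dual_solve (β.flip e₁) N U (-((β.flip e₁).flip δ₂)) (by
    rw [hbot]
    intro c hc
    rw [Submodule.mem_bot] at hc
    rw [hc, map_zero])
  have hr := rank_symm (β.flip e₁) N U
  rw [hbot, finrank_bot] at hr
  have hU₁ := lker_le (β.flip e₁).flip U N
  obtain ⟨e₂, he₂, h₂⟩ := pencil_one β N T (lker (β.flip e₁).flip U N) (hU₁.trans hU)
    (k + finrank F N) ρ hρ (by omega) (by omega) (δ₂ + u)
  refine ⟨e₁, e₂, he₁, ?_, fun c hc => ?_, fun c₁ hc₁ c₂ hc₂ H => ?_⟩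
  · have : e₂ - δ₂ = e₂ - (δ₂ + u) + u := by abel
    rw [this]
    exact U.add_mem he₂.1 hu
  · have a1 : β c e₁ (e₂ - (δ₂ + u)) = 0 := he₂.2 c hc
    have a2 : β c e₁ u = -β c e₁ δ₂ := hu' c hc
    rw [map_sub, map_add, a2] at a1
    simpa using a1
  · have hc2 : c₂ = 0 := h₂ c₂ hc₂ fun v hv => by
      have a1 := H v hv.1
      have a2 : β c₁ e₁ v = 0 := hv.2 c₁ hc₁
      rwa [a2, zero_add] at a1
    refine ⟨h₁ c₁ hc₁ fun v hv => ?_, hc2⟩
    simpa [hc2] using H v hv

/-- upper bound by components -/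
theorem finrank_le_of_components {ι : Type*} (s : Finset ι) (Y : Submodule F V) (U : Submodule F W)
    [FiniteDimensional F U] (φ : ι → V →ₗ[F] W) (h1 : ∀ y ∈ Y, ∀ i ∈ s, φ i y ∈ U)
    (h2 : ∀ y ∈ Y, (∀ i ∈ s, φ i y = 0) → y = 0) :
    FiniteDimensional F Y ∧ finrank F Y ≤ s.card * finrank F U := by
  let Φ : Y →ₗ[F] (s → U) := LinearMap.pi fun i : s =>
    ((φ i).domRestrict Y).codRestrict U fun y => h1 y y.2 i i.2
  have hΦ : Function.Injective Φ := by
    rw [← LinearMap.ker_eq_bot, LinearMap.ker_eq_bot']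
    intro y hy
    exact Subtype.ext (h2 y y.2 fun i hi => congrArg Subtype.val (congrFun hy ⟨i, hi⟩))
  refine ⟨Module.Finite.of_injective Φ hΦ, ?_⟩
  have := LinearMap.finrank_le_finrank_of_injective hΦ
  rwa [Module.finrank_pi_fintype, Finset.sum_const, Finset.card_univ, Fintype.card_coe,
    smul_eq_mul] at this

/-- lower bound by components -/
theorem le_finrank_of_components {ι : Type*} (s : Finset ι) (Y : Submodule F V) (U : Submodule F W)
    [FiniteDimensional F Y] (ψ : ι → W →ₗ[F] V) (h1 : ∀ i ∈ s, ∀ u ∈ U, ψ i u ∈ Y)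
    (h2 : ∀ l : ι → W, (∀ i ∈ s, l i ∈ U) → ∑ i ∈ s, ψ i (l i) = 0 → ∀ i ∈ s, l i = 0) :
    s.card * finrank F U ≤ finrank F Y := by
  classical
  by_cases hU : FiniteDimensional F U
  swap
  · rw [Module.finrank_of_not_finite hU]; simp
  let Ψ : (s → U) →ₗ[F] V := ∑ i : s, ψ i ∘ₗ U.subtype ∘ₗ LinearMap.proj i
  have hΨ : ∀ l, Ψ l = ∑ i : s, ψ i (l i) := fun l => by
    simp only [Ψ, LinearMap.sum_apply, LinearMap.comp_apply, LinearMap.proj_apply,
      Submodule.subtype_apply]
  have hinj : Function.Injective Ψ := by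
    rw [← LinearMap.ker_eq_bot, LinearMap.ker_eq_bot']
    intro l hl
    have := h2 (fun i => if hi : i ∈ s then l ⟨i, hi⟩ else 0)
      (fun i hi => by simp [hi]) (by
        rw [← hl, hΨ, ← Finset.sum_coe_sort s]
        exact Finset.sum_congr rfl fun i _ => by simp)
    funext i
    have h := this i i.2
    simp only [i.2, dite_true] at h
    exact Subtype.ext h
  have a1 := LinearMap.finrank_range_of_inj hinj
  have a2 : finrank F (LinearMap.range Ψ) ≤ finrank F Y := by
    refine Submodule.finrank_mono ?_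
    rintro _ ⟨l, rfl⟩
    rw [hΨ]
    exact Y.sum_mem fun i _ => h1 i i.2 _ (l i).2
  rwa [a1, Module.finrank_pi_fintype, Finset.sum_const, Finset.card_univ, Fintype.card_coe,
    smul_eq_mul] at a2

/-- a finite product of submodules -/
theorem finrank_pi_submodule {ι : Type*} [Fintype ι] (U : ι → Submodule F V) [∀ i, FiniteDimensional F (U i)] :
    FiniteDimensional F (Submodule.pi Set.univ U) ∧
      finrank F (Submodule.pi Set.univ U) = ∑ i, finrank F (U i) := by
  let e : (∀ i, U i) ≃ₗ[F] Submodule.pi Set.univ U :=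
    { toFun := fun l => ⟨fun i => l i, fun i _ => (l i).2⟩
      map_add' := fun _ _ => rfl
      map_smul' := fun _ _ => rfl
      invFun := fun l i => ⟨l.1 i, l.2 i trivial⟩
      left_inv := fun _ => rfl
      right_inv := fun _ => rfl }
  exact ⟨Module.Finite.equiv e, by rw [← e.finrank_eq, Module.finrank_pi_fintype]⟩

end

end Crest.Agent.R180
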