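import Crest.Agent.R180.Lat
import Crest.Agent.R180.LinAlg

/-!
# Row 180, the finite-dimensional division algebras `D n S` and tensoring
-/

set_option autoImplicit false
set_option linter.unusedSectionVars false

namespace Crest.Agent.R180

open Module

/-- supported on monomials indexed inside `S` -/
def Sup (S : Finset ℕ) (y : A) : Prop := ∀ γ : G, zb.repr y γ ≠ 0 → gs γ ⊆ S

theorem co_A (y : A) (γ : G) : co y γ = zb.repr y γ := rfl

theorem τ_eq_repr (y : A) : τ y = zb.repr y 0 := rfl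

theorem repr_z (γ δ : G) : zb.repr (z γ) δ = if γ = δ then 1 else 0 := by
  unfold z
  rw [Module.Basis.repr_self, Finsupp.single_apply]

theorem A_ext {x y : A} (h : ∀ γ, zb.repr x γ = zb.repr y γ) : x = y := zb.repr.injective (Finsupp.ext h)

theorem Sup_iff_span {S : Finset ℕ} {y : A} : Sup S y ↔ y ∈ Submodule.span KK (zb '' {γ : G | gs γ ⊆ S}) := by
  rw [Module.Basis.mem_span_image]
  exact ⟨fun h γ hγ => h γ (Finsupp.mem_support_iff.1 hγ), fun h γ hγ => h (Finsupp.mem_support_iff.2 hγ)⟩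

theorem Sup_ind {S : Finset ℕ} {P : A → Prop} {y : A} (hy : Sup S y) (hb : ∀ γ, gs γ ⊆ S → P (z γ)) (h0 : P 0)
    (hadd : ∀ x y, P x → P y → P (x + y)) (hsmul : ∀ (c : KK) x, P x → P (c • x)) : P y := by
  rw [Sup_iff_span] at hy
  induction hy using Submodule.span_induction with
  | mem x hx =>
    obtain ⟨γ, hγ, rfl⟩ := hx
    exact hb γ hγ
  | zero => exact h0
  | add x y _ _ h1 h2 => exact hadd x y h1 h2
  | smul c x _ h1 => exact hsmul c x h1

theorem Sup.zero (S : Finset ℕ) : Sup S 0 := Sup_iff_span.2 (Submodule.zero_mem _)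

theorem Sup.add {S : Finset ℕ} {x y : A} (hx : Sup S x) (hy : Sup S y) : Sup S (x + y) :=
  Sup_iff_span.2 (Submodule.add_mem _ (Sup_iff_span.1 hx) (Sup_iff_span.1 hy))

theorem Sup.smul {S : Finset ℕ} (c : KK) {y : A} (hy : Sup S y) : Sup S (c • y) :=
  Sup_iff_span.2 (Submodule.smul_mem _ c (Sup_iff_span.1 hy))

theorem Sup_z {S : Finset ℕ} {γ : G} (h : gs γ ⊆ S) : Sup S (z γ) :=
  Sup_iff_span.2 (Submodule.subset_span ⟨γ, h, rfl⟩)

theorem Sup.mul {S : Finset ℕ} {x y : A} (hx : Sup S x) (hy : Sup S y) : Sup S (x * y) := by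
  refine Sup_ind (P := fun x => Sup S (x * y)) hx (fun γ hγ => ?_) ?_ ?_ ?_
  · refine Sup_ind (P := fun y => Sup S (z γ * y)) hy (fun δ hδ => ?_) ?_ ?_ ?_
    · rw [z_mul]
      exact Sup.smul _ (Sup_z ((gs_add γ δ).trans (Finset.union_subset hγ hδ)))
    · rw [mul_zero]; exact Sup.zero S
    · intro a b ha hb; rw [mul_add]; exact ha.add hb
    · intro c a ha; rw [mul_smul_comm]; exact ha.smul c
  · rw [zero_mul]; exact Sup.zero S
  · intro a b ha hb; rw [add_mul]; exact ha.add hb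
  · intro c a ha; rw [smul_mul_assoc]; exact ha.smul c

theorem Sup.one (S : Finset ℕ) : Sup S 1 := Sup_z (γ := 0) (by rw [gs_zero]; exact Finset.empty_subset S)

theorem Sup.mono {S S' : Finset ℕ} (h : S ⊆ S') {y : A} (hy : Sup S y) : Sup S' y :=
  fun γ hγ => (hy γ hγ).trans h

theorem Sup.mapc {S : Finset ℕ} (φ : KK →+ KK) {y : A} (hy : Sup S y) : Sup S (mapc φ y) := by
  intro γ hγ
  apply hy γ
  intro h0
  apply hγ
  rw [← co_A, co_mapc, co_A, h0, map_zero]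

theorem zero_mem_GF (S : Finset ℕ) : (0 : G) ∈ GF S := mem_GF.2 (by rw [gs_zero]; exact Finset.empty_subset S)

theorem add_mem_GF {S : Finset ℕ} {γ δ : G} (hγ : γ ∈ GF S) (hδ : δ ∈ GF S) : γ + δ ∈ GF S :=
  mem_GF.2 ((gs_add γ δ).trans (Finset.union_subset (mem_GF.1 hγ) (mem_GF.1 hδ)))

theorem neg_mem_GF {S : Finset ℕ} {γ : G} (hγ : γ ∈ GF S) : -γ ∈ GF S :=
  mem_GF.2 (by rw [gs_neg]; exact mem_GF.1 hγ)

theorem GF_mono {S S' : Finset ℕ} (h : S ⊆ S') {γ : G} (hγ : γ ∈ GF S) : γ ∈ GF S' :=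
  mem_GF.2 ((mem_GF.1 hγ).trans h)

theorem z_mul_disj {γ δ : G} (h : Disjoint (gs γ) (gs δ)) : z γ * z δ = z (γ + δ) := by
  rw [z_mul, cc_disj h, one_smul]

/-- the commutation factor -/
noncomputable def cf2 (γ δ : G) : KK := cc γ δ * (cc δ γ)⁻¹

theorem cf2_eq_one_iff {γ δ : G} : cf2 γ δ = 1 ↔ cc γ δ = cc δ γ := by
  unfold cf2
  rw [mul_inv_eq_one₀ (cc_ne δ γ)]

theorem cf2_add (ε γ δ : G) : cf2 (ε + γ) δ = cf2 ε δ * cf2 γ δ := by
  have h1 := cc_cocycle ε γ δ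
  have h2 := cc_cocycle δ ε γ
  have h3 := cc_cocycle ε δ γ
  rw [add_comm δ ε] at h2
  rw [add_comm δ γ] at h3
  have n1 := cc_ne ε γ
  have n2 := cc_ne δ (ε + γ)
  have n3 := cc_ne δ ε
  have n4 := cc_ne δ γ
  unfold cf2
  have key : cc (ε + γ) δ * cc δ ε * cc δ γ = cc ε δ * cc γ δ * cc δ (ε + γ) := by
    apply mul_left_cancel₀ n1
    linear_combination (cc δ ε * cc δ γ) * h1 - (cc γ δ * cc δ ε) * h3 + (cc γ δ * cc ε δ) * h2
  field_simp
  linear_combination key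

theorem conj_z (γ δ : G) : z γ * z δ * (z γ)⁻¹ = cf2 γ δ • z δ := by
  have h : z γ * z δ = cf2 γ δ • (z δ * z γ) := by
    rw [z_mul, z_mul, smul_smul, add_comm δ γ, cf2, inv_mul_cancel_right₀ (cc_ne δ γ)]
  rw [h, smul_mul_assoc, mul_inv_cancel_right₀ (z_ne γ)]

theorem exists_cf2_ne {S : Finset ℕ} {δ : G} {j : ℕ} (hj : j ∈ gs δ) (hS : j ∈ S) :
    ∃ ε ∈ GF S, cc δ ε ≠ cc ε δ := by
  have h1 : ∀ a b, gj j a b ∈ GF S := fun a b =>
    mem_GF.2 ((gs_gj j a b).trans (Finset.singleton_subset_iff.2 hS))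
  by_contra hc
  push Not at hc
  exact mem_gs.1 hj (Prod.ext ((cc_Y j δ).1 (hc _ (h1 0 1))) ((cc_X j δ).1 (hc _ (h1 1 0))))

theorem repr_z_mul (γ : G) (y : A) (ε : G) : zb.repr (z γ * y) (γ + ε) = cc γ ε * zb.repr y ε := by
  induction y using A_ind with
  | h0 => simp
  | hadd x x' h1 h2 => simp only [mul_add, map_add, Finsupp.add_apply, h1, h2]
  | hsmul c x h1 =>
    rw [mul_smul_comm, map_smul, map_smul, Finsupp.smul_apply, Finsupp.smul_apply, h1, smul_eq_mul, smul_eq_mul]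
    ring
  | hb δ =>
    rw [z_mul, map_smul, Finsupp.smul_apply, repr_z, repr_z, smul_eq_mul]
    by_cases h : δ = ε
    · rw [h]; simp
    · rw [if_neg h, if_neg (fun h' => h (add_left_cancel h')), mul_zero, mul_zero]

theorem repr_mul_z (γ : G) (y : A) (ε : G) : zb.repr (y * z γ) (ε + γ) = cc ε γ * zb.repr y ε := by
  induction y using A_ind with
  | h0 => simp
  | hadd x x' h1 h2 => simp only [add_mul, mul_add, map_add, Finsupp.add_apply, h1, h2]
  | hsmul c x h1 =>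
    rw [smul_mul_assoc, map_smul, map_smul, Finsupp.smul_apply, Finsupp.smul_apply, h1, smul_eq_mul, smul_eq_mul]
    ring
  | hb δ =>
    rw [z_mul, map_smul, Finsupp.smul_apply, repr_z, repr_z, smul_eq_mul]
    by_cases h : δ = ε
    · rw [h]; simp
    · rw [if_neg h, if_neg (fun h' => h (add_right_cancel h')), mul_zero, mul_zero]

/-- the division algebra `⨂ j ∈ S, (s (2j), s (2j+1))` over `K n` -/
noncomputable def D (n : ℕ) (S : Finset ℕ) : Subalgebra (F n) A where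
  carrier := {y | In n y ∧ Sup S y}
  mul_mem' := fun hx hy => ⟨hx.1.mul hy.1, hx.2.mul hy.2⟩
  add_mem' := fun hx hy => ⟨hx.1.add hy.1, hx.2.add hy.2⟩
  algebraMap_mem' := fun c => by
    rw [Algebra.algebraMap_eq_smul_one]
    exact ⟨In.smul c.2 (In.one n), (Sup.one S).smul (c : KK)⟩

theorem mem_D {n : ℕ} {S : Finset ℕ} {y : A} : y ∈ D n S ↔ In n y ∧ Sup S y := Iff.rfl

theorem D_In {n : ℕ} {S : Finset ℕ} {y : A} (h : y ∈ D n S) : In n y := h.1

theorem D_mono {n m : ℕ} {S S' : Finset ℕ} (h : n ≤ m) (hS : S ⊆ S') {y : A} (hy : y ∈ D n S) :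
    y ∈ D m S' := ⟨hy.1.mono h, hy.2.mono hS⟩

theorem z_mem_D (n : ℕ) {S : Finset ℕ} {γ : G} (h : γ ∈ GF S) : z γ ∈ D n S := ⟨In.z n γ, Sup_z (mem_GF.1 h)⟩

theorem z_inv_mem_D (n : ℕ) {S : Finset ℕ} {γ : G} (h : γ ∈ GF S) : (z γ)⁻¹ ∈ D n S := ⟨In.z_inv n γ, by rw [z_inv]; exact (Sup_z (mem_GF.1 (neg_mem_GF h))).smul _⟩

theorem smul_mem_D {n : ℕ} {S : Finset ℕ} {c : KK} (hc : c ∈ K n) {y : A} (hy : y ∈ D n S) :
    c • y ∈ D n S := (D n S).smul_mem hy (⟨c, hc⟩ : F n)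

theorem red_mem_D (n : ℕ) {m : ℕ} {S : Finset ℕ} {y : A} (hy : y ∈ D m S) : red n y ∈ D n S := ⟨red_In n y, hy.2.mapc _⟩

theorem cf_mem_D (n l : ℕ) {m : ℕ} {S : Finset ℕ} {y : A} (hy : y ∈ D m S) : cf n l y ∈ D n S := ⟨cf_In n l y, (hy.2.smul _).mapc _⟩

theorem θV_mem_D {n : ℕ} {S : Finset ℕ} {y : A} (hy : y ∈ D (n + 1) S) : θV n y ∈ D (n + 1) S := ⟨hy.1.θV, hy.2.mapc _⟩

theorem Sup.expand {S : Finset ℕ} {y : A} (hy : Sup S y) : y = ∑ γ ∈ GF S, zb.repr y γ • z γ := by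
  conv_lhs => rw [← zb.linearCombination_repr y]
  rw [Finsupp.linearCombination_apply]
  exact Finsupp.sum_of_support_subset _ (fun γ hγ => mem_GF.2 (hy γ (Finsupp.mem_support_iff.1 hγ))) _
    (fun γ _ => zero_smul _ _)

/-- expansion in monomials -/
theorem D_expand {n : ℕ} {S : Finset ℕ} {y : A} (hy : y ∈ D n S) :
    y = ∑ γ ∈ GF S, zb.repr y γ • z γ := hy.2.expand

/-- coordinates on `D n S` -/
noncomputable def Dco (n : ℕ) (S : Finset ℕ) : D n S →ₗ[F n] (GF S → F n) where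
  toFun y γ := ⟨zb.repr (y : A) γ, y.2.1 γ⟩
  map_add' x y := by
    funext γ
    apply Subtype.ext
    change zb.repr ((x : A) + (y : A)) γ = zb.repr (x : A) γ + zb.repr (y : A) γ
    rw [map_add, Finsupp.add_apply]
  map_smul' c y := by
    funext γ
    apply Subtype.ext
    change zb.repr ((c : KK) • (y : A)) γ = (c : KK) * zb.repr (y : A) γ
    rw [map_smul, Finsupp.smul_apply, smul_eq_mul]

theorem Dco_bij (n : ℕ) (S : Finset ℕ) : Function.Bijective (Dco n S) := by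
  constructor
  · intro x y h
    apply Subtype.ext
    rw [D_expand x.2, D_expand y.2]
    refine Finset.sum_congr rfl fun γ hγ => ?_
    have h1 : zb.repr (x : A) γ = zb.repr (y : A) γ := congrArg Subtype.val (congrFun h ⟨γ, hγ⟩)
    rw [h1]
  · intro f
    refine ⟨⟨∑ γ : GF S, (f γ : KK) • z γ, (D n S).sum_mem fun γ _ => smul_mem_D (f γ).2 (z_mem_D n γ.2)⟩, ?_⟩
    funext δ
    apply Subtype.ext
    change zb.repr (∑ γ : GF S, (f γ : KK) • z γ) δ = (f δ : KK)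
    rw [map_sum, Finsupp.finsetSum_apply, Finset.sum_eq_single δ]
    · rw [map_smul, Finsupp.smul_apply, repr_z, if_pos rfl, smul_eq_mul, mul_one]
    · intro γ _ hγ
      rw [map_smul, Finsupp.smul_apply, repr_z, if_neg (fun h => hγ (Subtype.ext h)), smul_zero]
    · intro h
      exact absurd (Finset.mem_univ δ) h

instance D_fd (n : ℕ) (S : Finset ℕ) : FiniteDimensional (F n) (D n S) := FiniteDimensional.of_injective (Dco n S) (Dco_bij n S).1

theorem finrank_D (n : ℕ) (S : Finset ℕ) : finrank (F n) (D n S) = ν S := by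
  rw [(LinearEquiv.ofBijective (Dco n S) (Dco_bij n S)).finrank_eq, Module.finrank_fintype_fun_eq_card,
    Fintype.card_coe, ν]

theorem Sup.comm {S S' : Finset ℕ} (h : Disjoint S S') {x y : A} (hx : Sup S x) (hy : Sup S' y) :
    x * y = y * x := by
  refine Sup_ind (P := fun x => x * y = y * x) hx (fun γ hγ => ?_) ?_ ?_ ?_
  · refine Sup_ind (P := fun y => z γ * y = y * z γ) hy (fun δ hδ => ?_) ?_ ?_ ?_
    · have h1 : Disjoint (gs γ) (gs δ) := h.mono hγ hδ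
      rw [z_mul_disj h1, z_mul_disj h1.symm, add_comm]
    · rw [mul_zero, zero_mul]
    · intro a b ha hb; rw [mul_add, add_mul, ha, hb]
    · intro c a ha; rw [mul_smul_comm, smul_mul_assoc, ha]
  · rw [mul_zero, zero_mul]
  · intro a b ha hb; rw [mul_add, add_mul, ha, hb]
  · intro c a ha; rw [mul_smul_comm, smul_mul_assoc, ha]

theorem D_comm {n m : ℕ} {S S' : Finset ℕ} (h : Disjoint S S') {x y : A} (hx : x ∈ D n S) (hy : y ∈ D m S') :
    x * y = y * x := Sup.comm h hx.2 hy.2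

theorem fd_of_le_D {n : ℕ} {S : Finset ℕ} (U : Submodule (F n) A) (h : ∀ y ∈ U, y ∈ D n S) :
    FiniteDimensional (F n) U := by
  have : FiniteDimensional (F n) (Subalgebra.toSubmodule (D n S)) := D_fd n S
  exact Submodule.finiteDimensional_of_le (S₂ := Subalgebra.toSubmodule (D n S)) h

theorem fdA_of_le_D {n : ℕ} {S : Finset ℕ} (B : Subalgebra (F n) A) (h : B ≤ D n S) :
    FiniteDimensional (F n) B := fd_of_le_D (Subalgebra.toSubmodule B) h

/-- a finite-dimensional subalgebra is closed under inverses -/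
theorem inv_mem_alg {n : ℕ} (B : Subalgebra (F n) A) [FiniteDimensional (F n) B] {y : A} (hy : y ∈ B) :
    y⁻¹ ∈ B := by
  have h1 : Module.Finite (F n) (Subalgebra.toSubmodule B) := ‹FiniteDimensional (F n) B›
  exact (IsIntegral.of_mem_of_fg B (Module.Finite.iff_fg.1 h1) y hy).inv_mem hy

/-- the trace form is nondegenerate on a subalgebra -/
theorem eq_zero_of_τ {n : ℕ} (B : Subalgebra (F n) A) [FiniteDimensional (F n) B] {y : A} (hy : y ∈ B)
    (h : ∀ c ∈ B, τ (c * y) = 0) : y = 0 := by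
  by_contra h0
  have h1 := h _ (inv_mem_alg B hy)
  rw [inv_mul_cancel₀ h0, τ_one] at h1
  exact one_ne_zero h1

theorem limit_D {n : ℕ} {S : Finset ℕ} (x : ℕ → A) (h1 : ∀ l, x l ∈ D (n + 1) S)
    (h2 : ∀ l, Od n l (x (l + 1) - x l)) : ∃ y ∈ D (n + 1) S, ∀ l, Od n l (y - x l) := by
  obtain ⟨y, hy1, hy2, hy3⟩ := exists_limit (V := A) (GF S) x (fun l γ h => mem_GF.2 ((h1 l).2 γ h))
    (fun l => (h1 l).1) h2
  exact ⟨y, ⟨hy1, fun γ h => mem_GF.1 (hy2 γ h)⟩, hy3⟩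

/-- averaging over the group: `∑ z_γ y z_γ⁻¹ = ν τ(y)` -/
theorem sum_conj {n : ℕ} {S : Finset ℕ} {y : A} (hy : y ∈ D n S) :
    ∑ γ ∈ GF S, z γ * y * (z γ)⁻¹ = ((ν S : KK) * τ y) • (1 : A) := by
  refine Sup_ind (P := fun y => ∑ γ ∈ GF S, z γ * y * (z γ)⁻¹ = ((ν S : KK) * τ y) • (1 : A)) hy.2
    (fun δ hδ => ?_) ?_ ?_ ?_
  · simp only [conj_z]
    rw [← Finset.sum_smul, τ_z]
    split_ifs with h0
    · subst h0
      rw [z_zero, mul_one, Finset.sum_congr rfl (g := fun _ => (1 : KK))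
        (fun γ _ => cf2_eq_one_iff.2 (by rw [cc_zero_left, cc_zero_right]))]
      simp [ν]
    · obtain ⟨j, hj⟩ : (gs δ).Nonempty := Finset.nonempty_iff_ne_empty.2 fun h => h0 (gs_eq_empty h)
      obtain ⟨ε, hε, hne⟩ := exists_cf2_ne hj (hδ hj)
      have h1 : ∑ γ ∈ GF S, cf2 γ δ = ∑ γ ∈ GF S, cf2 (ε + γ) δ := by
        symm
        refine Finset.sum_equiv (Equiv.addLeft ε) (fun γ => ⟨fun h => add_mem_GF hε h, fun h => ?_⟩) fun _ _ => rfl
        have h2 := add_mem_GF (neg_mem_GF hε) h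
        rwa [Equiv.coe_addLeft, neg_add_cancel_left] at h2
      simp only [cf2_add] at h1
      rw [← Finset.mul_sum] at h1
      have h2 : (1 - cf2 ε δ) * ∑ γ ∈ GF S, cf2 γ δ = 0 := by linear_combination h1
      have h3 : 1 - cf2 ε δ ≠ 0 := fun h => hne (cf2_eq_one_iff.1 (sub_eq_zero.1 h).symm).symm
      rw [(mul_eq_zero.1 h2).resolve_left h3, mul_zero, zero_smul, zero_smul]
  · simp
  · intro a b ha hb
    simp only [mul_add, add_mul, Finset.sum_add_distrib, map_add, add_smul]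
    rw [ha, hb]
  · intro c a ha
    simp only [mul_smul_comm, smul_mul_assoc, map_smul]
    rw [← Finset.smul_sum, ha, smul_smul, smul_eq_mul]

/-- conditional expectation onto the monomials indexed inside `S` -/
noncomputable def E (S : Finset ℕ) : A →ₗ[KK] A :=
  zb.constr KK (fun γ => if gs γ ⊆ S then z γ else 0)

theorem E_z (S : Finset ℕ) (γ : G) : E S (z γ) = if gs γ ⊆ S then z γ else 0 := by
  simp [E, z]

theorem repr_E (S : Finset ℕ) (y : A) (γ : G) :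
    zb.repr (E S y) γ = if gs γ ⊆ S then zb.repr y γ else 0 := by
  induction y using A_ind with
  | h0 => simp
  | hadd x x' h1 h2 =>
    rw [map_add, map_add, map_add, Finsupp.add_apply, Finsupp.add_apply, h1, h2]
    split_ifs <;> simp
  | hsmul c x h1 =>
    rw [map_smul, map_smul, map_smul, Finsupp.smul_apply, Finsupp.smul_apply, h1]
    split_ifs <;> simp
  | hb δ =>
    rw [E_z]
    by_cases h : δ = γ
    · subst h
      split_ifs <;> simp
    · split_ifs <;> simp [repr_z, h]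

theorem Sup_E (S : Finset ℕ) (y : A) : Sup S (E S y) := by
  intro γ hγ
  by_contra h
  rw [repr_E, if_neg h] at hγ
  exact hγ rfl

theorem Sup.E_eq {S : Finset ℕ} {y : A} (hy : Sup S y) : E S y = y := by
  apply A_ext
  intro γ
  rw [repr_E]
  split_ifs with h
  · rfl
  · by_contra h'
    exact h (hy γ (Ne.symm h'))

theorem gs_add_subset_iff {S : Finset ℕ} {γ : G} (hγ : gs γ ⊆ S) (δ : G) : gs (γ + δ) ⊆ S ↔ gs δ ⊆ S := by
  rw [← mem_GF] at *
  rw [← mem_GF]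
  refine ⟨fun h => ?_, fun h => add_mem_GF hγ h⟩
  have h2 := add_mem_GF (neg_mem_GF hγ) h
  rwa [neg_add_cancel_left] at h2

theorem Sup.E_mul_left {S : Finset ℕ} {a : A} (ha : Sup S a) (y : A) : E S (a * y) = a * E S y := by
  refine Sup_ind (P := fun a => E S (a * y) = a * E S y) ha (fun γ hγ => ?_) ?_ ?_ ?_
  · induction y using A_ind with
    | h0 => simp
    | hadd x x' h1 h2 => rw [mul_add, map_add, map_add, h1, h2, mul_add]
    | hsmul c x h1 => rw [mul_smul_comm, map_smul, map_smul, h1, mul_smul_comm]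
    | hb δ =>
      rw [z_mul, map_smul, E_z, E_z]
      simp only [gs_add_subset_iff hγ]
      split_ifs
      · rw [z_mul]
      · rw [smul_zero, mul_zero]
  · simp
  · intro a b ha hb; rw [add_mul, add_mul, map_add, ha, hb]
  · intro c a ha; rw [smul_mul_assoc, smul_mul_assoc, map_smul, ha]

theorem Sup.E_mul_right {S : Finset ℕ} {a : A} (ha : Sup S a) (y : A) : E S (y * a) = E S y * a := by
  refine Sup_ind (P := fun a => E S (y * a) = E S y * a) ha (fun γ hγ => ?_) ?_ ?_ ?_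
  · induction y using A_ind with
    | h0 => simp
    | hadd x x' h1 h2 => rw [add_mul, map_add, map_add, h1, h2, add_mul]
    | hsmul c x h1 => rw [smul_mul_assoc, map_smul, map_smul, h1, smul_mul_assoc]
    | hb δ =>
      rw [z_mul, map_smul, E_z, E_z, add_comm δ γ]
      simp only [gs_add_subset_iff hγ]
      split_ifs
      · rw [z_mul, add_comm δ γ]
      · rw [smul_zero, zero_mul]
  · simp
  · intro a b ha hb; rw [mul_add, mul_add, map_add, ha, hb]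
  · intro c a ha; rw [mul_smul_comm, mul_smul_comm, map_smul, ha]

theorem E_mem {n : ℕ} (S : Finset ℕ) {y : A} (hy : In n y) : E S y ∈ D n S := by
  refine ⟨fun γ => ?_, Sup_E S y⟩
  rw [co_A, repr_E]
  split_ifs
  · exact hy γ
  · exact (K n).zero_mem
theorem E_of_mem {n : ℕ} {S : Finset ℕ} {y : A} (hy : y ∈ D n S) : E S y = y := hy.2.E_eq
theorem E_mul_left {n : ℕ} {S : Finset ℕ} {a : A} (ha : a ∈ D n S) (y : A) : E S (a * y) = a * E S y := ha.2.E_mul_left y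
theorem E_mul_right {n : ℕ} {S : Finset ℕ} {a : A} (ha : a ∈ D n S) (y : A) : E S (y * a) = E S y * a := ha.2.E_mul_right y
theorem τ_E (S : Finset ℕ) (y : A) : τ (E S y) = τ y := by
  rw [τ_eq_repr, repr_E, if_pos (by rw [gs_zero]; exact Finset.empty_subset S), τ_eq_repr]
theorem E_E {S S' : Finset ℕ} (h : S ⊆ S') (y : A) : E S (E S' y) = E S y := by
  apply A_ext
  intro γ
  rw [repr_E, repr_E, repr_E]
  split_ifs with h1 h2
  · rfl
  · exact absurd (h1.trans h) h2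
  · rfl
theorem E_disj {n : ℕ} {S S' : Finset ℕ} (h : Disjoint S S') {y : A} (hy : y ∈ D n S') :
    E S y = τ y • (1 : A) := by
  refine Sup_ind (P := fun y => E S y = τ y • (1 : A)) hy.2 (fun γ hγ => ?_) ?_ ?_ ?_
  · rw [E_z, τ_z]
    by_cases h0 : γ = 0
    · subst h0
      rw [if_pos (by rw [gs_zero]; exact Finset.empty_subset S), if_pos rfl, one_smul, z_zero]
    · rw [if_neg h0, zero_smul, if_neg]
      intro h1
      exact h0 (gs_eq_empty (Finset.subset_empty.1 (h h1 hγ)))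
  · simp
  · intro a b ha hb; rw [map_add, map_add, ha, hb, add_smul]
  · intro c a ha; rw [map_smul, map_smul, ha, smul_smul, smul_eq_mul]
theorem E_comm {n : ℕ} {S S' : Finset ℕ} (h : Disjoint S S') {ω : A} (hω : ω ∈ D n S') (y : A) :
    E S (ω * y) = E S (y * ω) := by
  refine Sup_ind (P := fun ω => E S (ω * y) = E S (y * ω)) hω.2 (fun γ hγ => ?_) ?_ ?_ ?_
  · induction y using A_ind with
    | h0 => simp
    | hadd x x' h1 h2 => rw [add_mul, mul_add, map_add, map_add, h1, h2]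
    | hsmul c x h1 => rw [smul_mul_assoc, mul_smul_comm, map_smul, map_smul, h1]
    | hb δ =>
      rw [z_mul, z_mul, map_smul, map_smul, add_comm δ γ, E_z]
      split_ifs with h1
      · have h2 : Disjoint (gs (γ + δ)) (gs γ) := h.mono h1 hγ
        have h3 := cf2_add (-γ) (γ + δ) γ
        rw [neg_add_cancel_left, cf2_eq_one_iff.2 (cc_neg γ).symm,
          cf2_eq_one_iff.2 ((cc_disj h2).trans (cc_disj h2.symm).symm), one_mul] at h3
        rw [cf2_eq_one_iff.1 h3]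
      · rw [smul_zero, smul_zero]
  · simp
  · intro a b ha hb; rw [mul_add, add_mul, map_add, map_add, ha, hb]
  · intro c a ha; rw [mul_smul_comm, smul_mul_assoc, map_smul, map_smul, ha]
theorem red_E (n : ℕ) (S : Finset ℕ) (y : A) : red n (E S y) = E S (red n y) := by
  apply A_ext
  intro γ
  have e : ∀ x : A, zb.repr (red n x) γ = r n (zb.repr x γ) := fun x => by
    rw [← co_A, ← co_A, red, co_mapc]
  rw [e, repr_E, repr_E, e]
  split_ifs
  · rfl
  · exact map_zero _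
theorem Ig.E {n : ℕ} (S : Finset ℕ) {y : A} (hy : Ig n y) : Ig n (E S y) := by
  intro γ
  rw [co_A, repr_E]
  split_ifs
  · exact hy γ
  · exact (O n).zero_mem
theorem τ_mul_E {n : ℕ} {S : Finset ℕ} {y : A} (hy : y ∈ D n S) (c : A) : τ (c * y) = τ (E S c * y) := by
  rw [← E_mul_right hy, τ_E]
theorem τ_mul_disj {n m : ℕ} {S S' : Finset ℕ} (h : Disjoint S S') {x y : A} (hx : x ∈ D n S)
    (hy : y ∈ D m S') : τ (x * y) = τ x * τ y := by
  rw [τ_mul_E hy, E_disj h.symm hx, smul_mul_assoc, one_mul, map_smul, smul_eq_mul]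

/-- the component at `γ` over `D n S` -/
noncomputable def cmp (S : Finset ℕ) (γ : G) : A →ₗ[KK] A := E S ∘ₗ LinearMap.mulLeft KK (z γ)⁻¹

theorem cmp_apply (S : Finset ℕ) (γ : G) (y : A) : cmp S γ y = E S ((z γ)⁻¹ * y) := rfl
theorem cmp_zero (S : Finset ℕ) (y : A) : cmp S 0 y = E S y := by
  rw [cmp_apply, z_zero, inv_one, one_mul]
theorem cmp_mem {n : ℕ} (S : Finset ℕ) (γ : G) {y : A} (hy : In n y) : cmp S γ y ∈ D n S := E_mem S ((In.z_inv n γ).mul hy)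
theorem cmp_disj {n : ℕ} {S S' : Finset ℕ} {γ : G} (hγ : γ ∈ GF (S' \ S)) {ω : A} (hω : ω ∈ D n (S' \ S)) :
    cmp S γ ω = τ ((z γ)⁻¹ * ω) • (1 : A) := by
  rw [cmp_apply]
  exact E_disj Finset.disjoint_sdiff ((D n (S' \ S)).mul_mem (z_inv_mem_D n hγ) hω)

theorem cmp_mul_disj {n m : ℕ} {S S' : Finset ℕ} {γ : G} (hγ : γ ∈ GF (S' \ S)) {ω : A} (hω : ω ∈ D n (S' \ S))
    {u : A} (hu : u ∈ D m S) : cmp S γ (ω * u) = τ ((z γ)⁻¹ * ω) • u := by
  rw [cmp_apply, ← mul_assoc, E_mul_right hu, ← cmp_apply, cmp_disj hγ hω, smul_mul_assoc, one_mul]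

theorem τ_z_inv_mul (γ δ : G) : τ ((z γ)⁻¹ * z δ) = if γ = δ then 1 else 0 := by
  split_ifs with h
  · rw [h, inv_mul_cancel₀ (z_ne δ), τ_one]
  · rw [z_inv, smul_mul_assoc, z_mul, map_smul, map_smul, τ_z, if_neg (fun h' => h (neg_add_eq_zero.1 h')),
      smul_zero, smul_zero]

theorem cmp_z_mul' {n : ℕ} {S S' : Finset ℕ} {γ δ : G} (hγ : γ ∈ GF (S' \ S)) (hδ : δ ∈ GF (S' \ S)) {u : A}
    (hu : u ∈ D n S) : cmp S γ (z δ * u) = if γ = δ then u else 0 := by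
  rw [cmp_mul_disj hγ (z_mem_D 0 hδ) hu, τ_z_inv_mul]
  split_ifs
  · rw [one_smul]
  · rw [zero_smul]

theorem sum_cmp {n : ℕ} {S S' : Finset ℕ} (h : S ⊆ S') {y : A} (hy : y ∈ D n S') :
    ∑ γ ∈ GF (S' \ S), z γ * cmp S γ y = y := by
  refine Sup_ind (P := fun y => ∑ γ ∈ GF (S' \ S), z γ * cmp S γ y = y) hy.2 (fun ε hε => ?_) ?_ ?_ ?_
  · obtain ⟨a, b, e, ha, hb⟩ := exists_split S ε
    have ha' : a ∈ GF S := mem_GF.2 (ha.trans Finset.inter_subset_right)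
    have hb' : b ∈ GF (S' \ S) := mem_GF.2 (hb.trans (Finset.sdiff_subset_sdiff hε le_rfl))
    have e2 : z ε = z b * z a := by
      rw [z_mul_disj (Finset.sdiff_disjoint.mono (mem_GF.1 hb') (mem_GF.1 ha')), add_comm, e]
    rw [e2, Finset.sum_eq_single_of_mem b hb']
    · rw [cmp_z_mul' hb' hb' (z_mem_D 0 ha'), if_pos rfl]
    · intro γ hγ hne
      rw [cmp_z_mul' hγ hb' (z_mem_D 0 ha'), if_neg hne, mul_zero]
  · simp
  · intro a b ha hb
    simp only [map_add, mul_add, Finset.sum_add_distrib]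
    rw [ha, hb]
  · intro c a ha
    simp only [map_smul, mul_smul_comm]
    rw [← Finset.smul_sum, ha]
theorem cmp_z_mul {n : ℕ} {S S' : Finset ℕ} {γ δ : G} (hγ : γ ∈ GF (S' \ S)) (hδ : δ ∈ GF (S' \ S)) {u : A}
    (hu : u ∈ D n S) : cmp S γ (z δ * u) = if γ = δ then u else 0 := cmp_z_mul' hγ hδ hu
theorem cmp_mul_right {n : ℕ} {S : Finset ℕ} (γ : G) (y : A) {a : A} (ha : a ∈ D n S) :
    cmp S γ (y * a) = cmp S γ y * a := by
  rw [cmp_apply, ← mul_assoc, E_mul_right ha, cmp_apply]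
theorem cmp_mul_left {n : ℕ} {S S' : Finset ℕ} {γ : G} (hγ : γ ∈ GF (S' \ S)) {a : A} (ha : a ∈ D n S) (y : A) :
    cmp S γ (a * y) = a * cmp S γ y := by
  rw [cmp_apply, ← mul_assoc, ← D_comm Finset.disjoint_sdiff ha (z_inv_mem_D 0 hγ), mul_assoc, E_mul_left ha,
    cmp_apply]
theorem cmp_cmp {S₀ S S' : Finset ℕ} (h : S₀ ⊆ S) {γ δ : G} (hγ : γ ∈ GF (S \ S₀)) (hδ : δ ∈ GF (S' \ S))
    (y : A) : cmp S₀ γ (cmp S δ y) = cmp S₀ (γ + δ) y := by
  have h1 : Disjoint (gs δ) (gs γ) :=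
    Finset.sdiff_disjoint.mono (mem_GF.1 hδ) ((mem_GF.1 hγ).trans Finset.sdiff_subset)
  rw [cmp_apply, cmp_apply, cmp_apply, ← E_mul_left (z_inv_mem_D 0 (GF_mono Finset.sdiff_subset hγ)), E_E h,
    ← mul_assoc, ← mul_inv_rev, z_mul_disj h1, add_comm]
theorem red_cmp (n : ℕ) (S : Finset ℕ) (γ : G) (y : A) : red n (cmp S γ y) = cmp S γ (red n y) := by
  rw [cmp_apply, cmp_apply, red_E, red_mul_left (In.z_inv n γ)]
theorem Ig.cmp {n : ℕ} (S : Finset ℕ) (γ : G) {y : A} (hy : Ig n y) : Ig n (cmp S γ y) := Ig.E S ((In.z_inv n γ).ig.mul hy)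
theorem eq_zero_of_cmp {n : ℕ} {S S' : Finset ℕ} (h : S ⊆ S') {y : A} (hy : y ∈ D n S')
    (h0 : ∀ γ ∈ GF (S' \ S), cmp S γ y = 0) : y = 0 := by
  rw [← sum_cmp h hy]
  exact Finset.sum_eq_zero fun γ hγ => by rw [h0 γ hγ, mul_zero]

/-- an element that commutes with the monomials indexed in `S' \ S` lies in `D n S` (use `cc_X`, `cc_Y`) -/
theorem mem_D_of_comm {n : ℕ} {S S' : Finset ℕ} (h : S ⊆ S') {y : A} (hy : y ∈ D n S')
    (hc : ∀ γ ∈ GF (S' \ S), z γ * y = y * z γ) : y ∈ D n S := by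
  refine ⟨hy.1, fun ε hε j hj => ?_⟩
  by_contra hjS
  obtain ⟨γ, hγ, hne⟩ := exists_cf2_ne (S := S' \ S) hj (Finset.mem_sdiff.2 ⟨hy.2 ε hε hj, hjS⟩)
  have h1 := repr_z_mul γ y ε
  rw [hc γ hγ, add_comm, repr_mul_z] at h1
  exact hne (mul_right_cancel₀ hε h1)

/-- `U ⊗ D n (S' \ S)` -/
noncomputable def ext {n : ℕ} (S S' : Finset ℕ) (U : Submodule (F n) A) : Submodule (F n) A where
  carrier := {y | y ∈ D n S' ∧ ∀ γ ∈ GF (S' \ S), cmp S γ y ∈ U}
  add_mem' := fun hx hy => ⟨(D n S').add_mem hx.1 hy.1, fun γ hγ => by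
    rw [map_add]; exact U.add_mem (hx.2 γ hγ) (hy.2 γ hγ)⟩
  zero_mem' := ⟨(D n S').zero_mem, fun γ _ => by rw [map_zero]; exact U.zero_mem⟩
  smul_mem' := fun c y hy => ⟨(D n S').smul_mem hy.1 c, fun γ hγ => by
    have e : cmp S γ (c • y) = c • cmp S γ y := map_smul (cmp S γ) (c : KK) y
    rw [e]; exact U.smul_mem c (hy.2 γ hγ)⟩

section
variable {n : ℕ} {S S' : Finset ℕ} {U : Submodule (F n) A}

theorem mem_ext {y : A} : y ∈ ext S S' U ↔ y ∈ D n S' ∧ ∀ γ ∈ GF (S' \ S), cmp S γ y ∈ U := Iff.rfl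

instance ext_fd : FiniteDimensional (F n) (ext S S' U) := fd_of_le_D _ (fun _ h => h.1)

theorem z_mul_mem_ext (h : S ⊆ S') (hU : ∀ y ∈ U, y ∈ D n S) {δ : G} (hδ : δ ∈ GF (S' \ S)) {u : A}
    (hu : u ∈ U) : z δ * u ∈ ext S S' U := by
  refine ⟨(D n S').mul_mem (z_mem_D n (GF_mono Finset.sdiff_subset hδ)) (D_mono le_rfl h (hU u hu)),
    fun γ hγ => ?_⟩
  rw [cmp_z_mul hγ hδ (hU u hu)]
  split_ifs
  · exact hu
  · exact U.zero_mem

theorem finrank_ext (h : S ⊆ S') (hU : ∀ y ∈ U, y ∈ D n S) :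
    finrank (F n) (ext S S' U) = finrank (F n) U * ν (S' \ S) := by
  have : FiniteDimensional (F n) U := fd_of_le_D U hU
  rw [mul_comm, ν]
  apply le_antisymm
  · exact (finrank_le_of_components (GF (S' \ S)) (ext S S' U) U (fun γ => (cmp S γ).restrictScalars (F n))
      (fun y hy γ hγ => hy.2 γ hγ) (fun y hy h0 => eq_zero_of_cmp h hy.1 h0)).2
  · refine le_finrank_of_components (GF (S' \ S)) (ext S S' U) U (fun γ => LinearMap.mulLeft (F n) (z γ))
      (fun γ hγ u hu => z_mul_mem_ext h hU hγ hu) (fun l hl h0 γ hγ => ?_)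
    have h1 := congrArg (cmp S γ) h0
    rw [map_sum, map_zero, Finset.sum_eq_single_of_mem γ hγ] at h1
    · rwa [LinearMap.mulLeft_apply, cmp_z_mul hγ hγ (hU _ (hl γ hγ)), if_pos rfl] at h1
    · intro δ hδ hne
      rw [LinearMap.mulLeft_apply, cmp_z_mul hγ hδ (hU _ (hl δ hδ)), if_neg (Ne.symm hne)]
theorem ext_mono {U' : Submodule (F n) A} (h : U ≤ U') : ext S S' U ≤ ext S S' U' := fun _ hy => ⟨hy.1, fun γ hγ => h (hy.2 γ hγ)⟩
theorem ext_mono_S {S'' : Finset ℕ} (h : S ⊆ S') (h' : S' ⊆ S'') : ext S S' U ≤ ext S S'' U := by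
  intro y hy
  refine ⟨D_mono le_rfl h' hy.1, fun γ hγ => ?_⟩
  rw [← sum_cmp h hy.1, map_sum]
  refine U.sum_mem fun δ hδ => ?_
  rw [cmp_z_mul hγ (GF_mono (Finset.sdiff_subset_sdiff h' le_rfl) hδ) (cmp_mem S δ hy.1.1)]
  split_ifs
  · exact hy.2 δ hδ
  · exact U.zero_mem
theorem mem_ext_of_mem (h : S ⊆ S') (hU : ∀ y ∈ U, y ∈ D n S) {u : A} (hu : u ∈ U) : u ∈ ext S S' U := by
  have h1 := z_mul_mem_ext h hU (zero_mem_GF _) hu
  rwa [z_zero, one_mul] at h1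
theorem mul_mem_ext (h : S ⊆ S') {ω y : A} (hω : ω ∈ D n (S' \ S)) (hy : y ∈ ext S S' U) :
    ω * y ∈ ext S S' U := by
  refine ⟨(D n S').mul_mem (D_mono le_rfl Finset.sdiff_subset hω) hy.1, fun γ hγ => ?_⟩
  rw [← sum_cmp h hy.1, Finset.mul_sum, map_sum]
  refine U.sum_mem fun δ hδ => ?_
  have h1 : ω * z δ ∈ D n (S' \ S) := (D n _).mul_mem hω (z_mem_D n hδ)
  rw [← mul_assoc, cmp_mul_disj hγ h1 (cmp_mem S δ hy.1.1)]
  exact U.smul_mem (⟨_, ((In.z_inv n γ).mul h1.1).τ⟩ : F n) (hy.2 δ hδ)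
theorem E_mem_of_ext {y : A} (hy : y ∈ ext S S' U) : E S y ∈ U := by
  rw [← cmp_zero]
  exact hy.2 0 (zero_mem_GF _)
theorem ext_self (hU : ∀ y ∈ U, y ∈ D n S) : ext S S U = U := by
  refine le_antisymm (fun y hy => ?_) (fun u hu => mem_ext_of_mem le_rfl hU hu)
  rw [← E_of_mem hy.1]
  exact E_mem_of_ext hy
theorem ext_ext {S₀ : Finset ℕ} (h₀ : S₀ ⊆ S) (h : S ⊆ S') : ext S S' (ext S₀ S U) = ext S₀ S' U := by
  ext y
  constructor
  · intro hy
    refine ⟨hy.1, fun ε hε => ?_⟩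
    obtain ⟨a, b, e, ha, hb⟩ := exists_split S ε
    have hε' := mem_GF.1 hε
    have ha' : a ∈ GF (S \ S₀) := mem_GF.2 fun j hj =>
      Finset.mem_sdiff.2 ⟨(Finset.mem_inter.1 (ha hj)).2, (Finset.mem_sdiff.1 (hε' (Finset.mem_inter.1 (ha hj)).1)).2⟩
    have hb' : b ∈ GF (S' \ S) := mem_GF.2
      (hb.trans (Finset.sdiff_subset_sdiff (hε'.trans Finset.sdiff_subset) le_rfl))
    rw [e, ← cmp_cmp h₀ ha' hb']
    exact (hy.2 b hb').2 a ha'
  · intro hy
    refine ⟨hy.1, fun δ hδ => ⟨cmp_mem S δ hy.1.1, fun γ hγ => ?_⟩⟩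
    rw [cmp_cmp h₀ hγ hδ]
    exact hy.2 _ (add_mem_GF (GF_mono (Finset.sdiff_subset_sdiff h le_rfl) hγ)
      (GF_mono (Finset.sdiff_subset_sdiff le_rfl h₀) hδ))
theorem red_mem_ext {m k : ℕ} (hk : n ≤ k) (hU : ∀ y ∈ U, In n y) {y : A} (hy : y ∈ ext S S' (bc m U)) :
    red k y ∈ ext S S' (bc k U) := by
  refine ⟨red_mem_D k hy.1, fun γ hγ => ?_⟩
  rw [← red_cmp]
  exact red_mem_bc hk m hU (hy.2 γ hγ)
theorem ext_bc_le {m k : ℕ} (hm : n ≤ m) (hk : m ≤ k) (h : S ⊆ S') (hU : ∀ y ∈ U, y ∈ D n S) :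
    ext S S' (bc k U) ≤ bc k (ext S S' (bc m U)) := by
  have hU' : ∀ y ∈ bc m U, y ∈ D m S := by
    have h1 : bc m U ≤ Subalgebra.toSubmodule (D m S) :=
      Submodule.span_le.2 fun u hu => D_mono hm le_rfl (hU u hu)
    exact fun y hy => h1 hy
  have _ := hk
  intro y hy
  rw [← sum_cmp h hy.1]
  refine Submodule.sum_mem _ fun γ hγ => ?_
  have h1 : bc k U ≤ (bc k (ext S S' (bc m U))).comap (LinearMap.mulLeft (F k) (z γ)) :=
    Submodule.span_le.2 fun u hu => le_bc k (z_mul_mem_ext h hU' hγ (le_bc m hu))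
  exact h1 (hy.2 γ hγ)
theorem ext_bc_mono {m k : ℕ} (hk : m ≤ k) {y : A} (hy : y ∈ ext S S' (bc m U)) :
    y ∈ ext S S' (bc k U) := by
  refine ⟨D_mono hk le_rfl hy.1, fun γ hγ => ?_⟩
  rw [← bc_bc hk]
  exact le_bc k (hy.2 γ hγ)
/-- orthogonality passes to the tensor product -/
theorem τ_ext (h : S ⊆ S') {U' : Submodule (F n) A} (hU : ∀ y ∈ U, y ∈ D n S) (hU' : ∀ y ∈ U', y ∈ D n S)
    (h0 : ∀ c ∈ U, ∀ u ∈ U', τ (c * u) = 0) {c y : A} (hc : c ∈ ext S S' U) (hy : y ∈ ext S S' U') :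
    τ (c * y) = 0 := by
  have _ := hU
  rw [← sum_cmp h hy.1, Finset.mul_sum, map_sum]
  refine Finset.sum_eq_zero fun δ hδ => ?_
  rw [← mul_assoc, τ_mul_E (hU' _ (hy.2 δ hδ)), ← E_comm Finset.disjoint_sdiff (z_mem_D n hδ)]
  exact h0 _ (E_mem_of_ext (mul_mem_ext h (z_mem_D n hδ) hc)) _ (hy.2 δ hδ)
/-- left multiplication by a fixed element of `D n S` -/
theorem mul_mem_ext_map (h : S ⊆ S') {U' : Submodule (F n) A} {a : A} (ha : a ∈ D n S)
    (hUU : ∀ u ∈ U, a * u ∈ U') {y : A} (hy : y ∈ ext S S' U) : a * y ∈ ext S S' U' := by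
  refine ⟨(D n S').mul_mem (D_mono le_rfl h ha) hy.1, fun γ hγ => ?_⟩
  rw [cmp_mul_left hγ ha]
  exact hUU _ (hy.2 γ hγ)

end

/-- `B ⊗ D n (S' \ S)` for a subalgebra -/
noncomputable def extA {n : ℕ} {S S' : Finset ℕ} (h : S ⊆ S') (B : Subalgebra (F n) A) (hB : B ≤ D n S) :
    Subalgebra (F n) A where
  carrier := ext S S' (Subalgebra.toSubmodule B)
  mul_mem' := by
    intro x y hx hy
    have hx' : x ∈ ext S S' (Subalgebra.toSubmodule B) := hx
    have hy' : y ∈ ext S S' (Subalgebra.toSubmodule B) := hy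
    change x * y ∈ ext S S' (Subalgebra.toSubmodule B)
    rw [← sum_cmp h hx'.1, Finset.sum_mul]
    refine Submodule.sum_mem _ fun γ hγ => ?_
    rw [mul_assoc]
    exact mul_mem_ext h (z_mem_D n hγ)
      (mul_mem_ext_map h (hB (hx'.2 γ hγ)) (fun u hu => B.mul_mem (hx'.2 γ hγ) hu) hy')
  add_mem' := fun hx hy => (ext S S' (Subalgebra.toSubmodule B)).add_mem hx hy
  algebraMap_mem' := fun c => mem_ext_of_mem h (fun _ hy => hB hy) (B.algebraMap_mem c)

theorem mem_extA {n : ℕ} {S S' : Finset ℕ} {h : S ⊆ S'} {B : Subalgebra (F n) A} {hB : B ≤ D n S} {y : A} :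
    y ∈ extA h B hB ↔ y ∈ ext S S' (Subalgebra.toSubmodule B) := Iff.rfl

/-! ### tuples -/

section tuples

variable {ι : Type} [Fintype ι]

/-- tuples in `D n S` -/
noncomputable def DV (n : ℕ) (S : Finset ℕ) (ι : Type) : Submodule (F n) (ι → A) :=
  Submodule.pi Set.univ (fun _ => Subalgebra.toSubmodule (D n S))

theorem mem_DV {n : ℕ} {S : Finset ℕ} {y : ι → A} : y ∈ DV n S ι ↔ ∀ i, y i ∈ D n S := by
  simp [DV, Submodule.mem_pi]

instance DV_fd (n : ℕ) (S : Finset ℕ) : FiniteDimensional (F n) (DV n S ι) := by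
  have : FiniteDimensional (F n) (Subalgebra.toSubmodule (D n S)) := D_fd n S
  exact (finrank_pi_submodule (fun _ : ι => Subalgebra.toSubmodule (D n S))).1
theorem finrank_DV (n : ℕ) (S : Finset ℕ) : finrank (F n) (DV n S ι) = Fintype.card ι * ν S := by
  have : FiniteDimensional (F n) (Subalgebra.toSubmodule (D n S)) := D_fd n S
  have h1 := (finrank_pi_submodule (fun _ : ι => Subalgebra.toSubmodule (D n S))).2
  have h2 : finrank (F n) (Subalgebra.toSubmodule (D n S)) = ν S := finrank_D n S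
  rw [h2, Finset.sum_const, Finset.card_univ, smul_eq_mul] at h1
  exact h1
theorem DV_In {n : ℕ} {S : Finset ℕ} {y : ι → A} (h : y ∈ DV n S ι) : In n y := In_pi.2 fun i => (mem_DV.1 h i).1
theorem DV_mono {n m : ℕ} {S S' : Finset ℕ} (h : n ≤ m) (hS : S ⊆ S') {y : ι → A} (hy : y ∈ DV n S ι) :
    y ∈ DV m S' ι := mem_DV.2 fun i => D_mono h hS (mem_DV.1 hy i)
theorem smul_mem_DV {n : ℕ} {S : Finset ℕ} {c : KK} (hc : c ∈ K n) {y : ι → A} (hy : y ∈ DV n S ι) :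
    c • y ∈ DV n S ι := (DV n S ι).smul_mem (⟨c, hc⟩ : F n) hy
theorem mul_mem_DV {n : ℕ} {S : Finset ℕ} {ω : A} (hω : ω ∈ D n S) {y : ι → A} (hy : y ∈ DV n S ι) :
    ω • y ∈ DV n S ι := mem_DV.2 fun i => (D n S).mul_mem hω (mem_DV.1 hy i)
theorem red_mem_DV (n : ℕ) {m : ℕ} {S : Finset ℕ} {y : ι → A} (hy : y ∈ DV m S ι) : red n y ∈ DV n S ι := mem_DV.2 fun i => by rw [red_pi]; exact red_mem_D n (mem_DV.1 hy i)
theorem cf_mem_DV (n l : ℕ) {m : ℕ} {S : Finset ℕ} {y : ι → A} (hy : y ∈ DV m S ι) : cf n l y ∈ DV n S ι := mem_DV.2 fun i => by rw [cf_pi]; exact cf_mem_D n l (mem_DV.1 hy i)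
theorem θV_mem_DV {n : ℕ} {S : Finset ℕ} {y : ι → A} (hy : y ∈ DV (n + 1) S ι) :
    θV n y ∈ DV (n + 1) S ι := mem_DV.2 fun i => by rw [θV_pi]; exact θV_mem_D (mem_DV.1 hy i)
theorem fd_of_le_DV {n : ℕ} {S : Finset ℕ} (U : Submodule (F n) (ι → A)) (h : U ≤ DV n S ι) :
    FiniteDimensional (F n) U := Submodule.finiteDimensional_of_le h
theorem limit_DV {n : ℕ} {S : Finset ℕ} (x : ℕ → ι → A) (h1 : ∀ l, x l ∈ DV (n + 1) S ι)
    (h2 : ∀ l, Od n l (x (l + 1) - x l)) : ∃ y ∈ DV (n + 1) S ι, ∀ l, Od n l (y - x l) := by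
  have h3 : ∀ i, ∃ y ∈ D (n + 1) S, ∀ l, Od n l (y - x l i) := fun i =>
    limit_D (fun l => x l i) (fun l => mem_DV.1 (h1 l) i) (fun l => Od_pi.1 (h2 l) i)
  choose y hy1 hy2 using h3
  exact ⟨y, mem_DV.2 hy1, fun l => Od_pi.2 fun i => hy2 i l⟩
theorem eq_zero_of_pair {n : ℕ} {S : Finset ℕ} {c : ι → A} (hc : c ∈ DV n S ι)
    (h : ∀ y ∈ DV n S ι, pair c y = 0) : c = 0 := by
  classical
  funext i
  refine eq_zero_of_τ (D n S) (mem_DV.1 hc i) fun d hd => ?_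
  have h1 := h (Pi.single i d) (mem_DV.2 fun j => by
    by_cases hj : j = i
    · subst hj
      rwa [Pi.single_eq_same]
    · rw [Pi.single_eq_of_ne hj]
      exact (D n S).zero_mem)
  rw [pair, Finset.sum_eq_single i, Pi.single_eq_same] at h1
  · rw [τ_comm, h1]
  · intro j _ hj
    rw [Pi.single_eq_of_ne hj, mul_zero, map_zero]
  · intro h2
    exact absurd (Finset.mem_univ i) h2

/-- componentwise `cmp` -/
noncomputable def cmpV (S : Finset ℕ) (γ : G) : (ι → A) →ₗ[KK] (ι → A) := (cmp S γ).compLeft ι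

theorem cmpV_apply (S : Finset ℕ) (γ : G) (y : ι → A) (i : ι) : cmpV S γ y i = cmp S γ (y i) := rfl

/-- componentwise `E` -/
noncomputable def EV (S : Finset ℕ) : (ι → A) →ₗ[KK] (ι → A) := (E S).compLeft ι

theorem EV_apply (S : Finset ℕ) (y : ι → A) (i : ι) : EV S y i = E S (y i) := rfl
theorem cmpV_eq (S : Finset ℕ) (γ : G) (y : ι → A) : cmpV S γ y = EV S ((z γ)⁻¹ • y) := rfl
theorem cmpV_mem {n : ℕ} (S : Finset ℕ) (γ : G) {y : ι → A} (hy : In n y) : cmpV S γ y ∈ DV n S ι := mem_DV.2 fun i => cmp_mem S γ (In_pi.1 hy i)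
theorem EV_mem {n : ℕ} (S : Finset ℕ) {y : ι → A} (hy : In n y) : EV S y ∈ DV n S ι := mem_DV.2 fun i => E_mem S (In_pi.1 hy i)
theorem sum_cmpV {n : ℕ} {S S' : Finset ℕ} (h : S ⊆ S') {y : ι → A} (hy : y ∈ DV n S' ι) :
    ∑ γ ∈ GF (S' \ S), z γ • cmpV S γ y = y := by
  funext i
  rw [Finset.sum_apply]
  exact sum_cmp h (mem_DV.1 hy i)
/-- moving a factor from the disjoint part across the pairing -/
theorem pair_smul_disj {n m : ℕ} {S S' : Finset ℕ} (h : Disjoint S S') {ω : A} (hω : ω ∈ D m S') (c : ι → A)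
    {y : ι → A} (hy : y ∈ DV n S ι) : pair c (ω • y) = pair (EV S (ω • c)) y := by
  unfold pair
  refine Finset.sum_congr rfl fun i _ => ?_
  change τ (c i * (ω * y i)) = τ (E S (ω * c i) * y i)
  rw [← mul_assoc, τ_mul_E (mem_DV.1 hy i), E_comm h hω]
theorem pair_smul_disj' {n m k : ℕ} {S S' : Finset ℕ} (h : Disjoint S S') {ω : A} (hω : ω ∈ D m S') {c : ι → A}
    (hc : c ∈ DV k S ι) {y : ι → A} (hy : y ∈ DV n S ι) : pair c (ω • y) = τ ω * pair c y := by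
  rw [pair_smul_disj h hω c hy, ← pair_smul_left]
  congr 1
  funext i
  change E S (ω * c i) = τ ω • c i
  rw [E_mul_right (mem_DV.1 hc i), E_disj h hω, smul_mul_assoc, one_mul]

/-- `U ⊗ D n (S' \ S)` for tuples -/
noncomputable def extV {n : ℕ} (S S' : Finset ℕ) (U : Submodule (F n) (ι → A)) : Submodule (F n) (ι → A) where
  carrier := {y | y ∈ DV n S' ι ∧ ∀ γ ∈ GF (S' \ S), cmpV S γ y ∈ U}
  add_mem' := fun hx hy => ⟨(DV n S' ι).add_mem hx.1 hy.1, fun γ hγ => by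
    rw [map_add]; exact U.add_mem (hx.2 γ hγ) (hy.2 γ hγ)⟩
  zero_mem' := ⟨(DV n S' ι).zero_mem, fun γ _ => by rw [map_zero]; exact U.zero_mem⟩
  smul_mem' := fun c y hy => ⟨(DV n S' ι).smul_mem c hy.1, fun γ hγ => by
    have e : cmpV S γ (c • y) = c • cmpV S γ y := map_smul (cmpV S γ) (c : KK) y
    rw [e]; exact U.smul_mem c (hy.2 γ hγ)⟩

variable {n : ℕ} {S S' : Finset ℕ} {U : Submodule (F n) (ι → A)}

theorem mem_extV {y : ι → A} : y ∈ extV S S' U ↔ y ∈ DV n S' ι ∧ ∀ γ ∈ GF (S' \ S), cmpV S γ y ∈ U := Iff.rfl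

theorem extV_le : extV S S' U ≤ DV n S' ι := fun _ h => h.1

instance extV_fd : FiniteDimensional (F n) (extV S S' U) := fd_of_le_DV _ extV_le

theorem cmpV_smul_disj {m : ℕ} {γ : G} (hγ : γ ∈ GF (S' \ S)) {ω : A} (hω : ω ∈ D m (S' \ S)) {u : ι → A}
    (hu : u ∈ DV n S ι) : cmpV S γ (ω • u) = τ ((z γ)⁻¹ * ω) • u := by
  funext i
  exact cmp_mul_disj hγ hω (mem_DV.1 hu i)

theorem smul_mem_extV' (h : S ⊆ S') (hU : U ≤ DV n S ι) {ω : A} (hω : ω ∈ D n (S' \ S)) {u : ι → A}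
    (hu : u ∈ U) : ω • u ∈ extV S S' U := by
  refine ⟨mul_mem_DV (D_mono le_rfl Finset.sdiff_subset hω) (DV_mono le_rfl h (hU hu)), fun γ hγ => ?_⟩
  rw [cmpV_smul_disj hγ hω (hU hu)]
  exact U.smul_mem (⟨_, ((In.z_inv n γ).mul hω.1).τ⟩ : F n) hu

theorem finrank_extV (h : S ⊆ S') (hU : U ≤ DV n S ι) :
    finrank (F n) (extV S S' U) = finrank (F n) U * ν (S' \ S) := by
  have : FiniteDimensional (F n) U := fd_of_le_DV U hU
  rw [mul_comm, ν]
  apply le_antisymm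
  · refine (finrank_le_of_components (GF (S' \ S)) (extV S S' U) U (fun γ => (cmpV S γ).restrictScalars (F n))
      (fun y hy γ hγ => hy.2 γ hγ) (fun y hy h0 => ?_)).2
    funext i
    exact eq_zero_of_cmp h (mem_DV.1 hy.1 i) fun γ hγ => congrFun (h0 γ hγ) i
  · refine le_finrank_of_components (GF (S' \ S)) (extV S S' U) U
      (fun γ => (LinearMap.mulLeft (F n) (z γ)).compLeft ι)
      (fun γ hγ u hu => smul_mem_extV' h hU (z_mem_D n hγ) hu) (fun l hl h0 γ hγ => ?_)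
    have h0' : ∑ δ ∈ GF (S' \ S), z δ • l δ = 0 := h0
    have h1 := congrArg (cmpV S γ) h0'
    rw [map_sum, map_zero, Finset.sum_eq_single_of_mem γ hγ] at h1
    · rwa [cmpV_smul_disj hγ (z_mem_D 0 hγ) (hU (hl γ hγ)), τ_z_inv_mul, if_pos rfl, one_smul] at h1
    · intro δ hδ hne
      rw [cmpV_smul_disj hγ (z_mem_D 0 hδ) (hU (hl δ hδ)), τ_z_inv_mul, if_neg (Ne.symm hne), zero_smul]
theorem extV_mono {U' : Submodule (F n) (ι → A)} (h : U ≤ U') : extV S S' U ≤ extV S S' U' := fun _ hy => ⟨hy.1, fun γ hγ => h (hy.2 γ hγ)⟩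
theorem smul_mem_extV (h : S ⊆ S') (hU : U ≤ DV n S ι) {ω : A} (hω : ω ∈ D n (S' \ S)) {u : ι → A}
    (hu : u ∈ U) : ω • u ∈ extV S S' U := smul_mem_extV' h hU hω hu

end tuples

end Crest.Agent.R180
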