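import Mathlib

/-!
# Row 180, abstract lemmas on finite-dimensional subalgebras of domains
-/

set_option autoImplicit false

namespace Crest.Agent.R180

open Module Polynomial

variable {F R : Type*} [Field F] [Ring R] [Algebra F R]

theorem dv_finrank_comap (L B : Subalgebra F R) (h : L ≤ B) :
    finrank F (L.comap B.val) = finrank F L :=
  (Submodule.comapSubtypeEquivOfLe (p := Subalgebra.toSubmodule L)
    (q := Subalgebra.toSubmodule B) h).finrank_eq

theorem dv_finrank_le {a : R} {p : F[X]} (hp : p.Monic) (h : aeval a p = 0) :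
    finrank F (Algebra.adjoin F {a}) ≤ p.natDegree := by
  classical
  rw [← Subalgebra.finrank_toSubmodule, ← Submodule.span_range_natDegree_eq_adjoin hp h]
  exact (finrank_span_finset_le_card _).trans (Finset.card_image_le.trans (by simp))

variable [IsDomain R]

theorem dv_dvd [FiniteDimensional F R] (L : Subalgebra F R) : finrank F L ∣ finrank F R := by
  let _ := divisionRingOfFiniteDimensional F L
  exact Dvd.intro _ (Module.finrank_mul_finrank F L R)

/-- Cayley-Hamilton for right multiplication over a commutative subalgebra -/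
theorem dv_ch [FiniteDimensional F R] (L : Subalgebra F R) (hc : ∀ x y : L, x * y = y * x) (a : R) :
    ∃ (N : ℕ) (l : ℕ → R), finrank F L * N = finrank F R ∧ l N = 1 ∧
      ∀ y, ∑ i ∈ Finset.range (N + 1), l i * y * a ^ i = 0 := by
  let _ : CommRing L := { (inferInstance : Ring L) with mul_comm := hc }
  let _ : Field L := fieldOfFiniteDimensional F L
  have : Module.Finite L R := Module.Finite.of_restrictScalars_finite F L R
  let T : R →ₗ[L] R :=
    { toFun := fun y => y * a
      map_add' := fun x y => add_mul x y a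
      map_smul' := fun l y => mul_assoc (l : R) y a }
  have hT : ∀ (i : ℕ) (y : R), (T ^ i) y = y * a ^ i := fun i => by
    induction i with
    | zero => simp
    | succ i ih =>
      intro y
      rw [pow_succ', Module.End.mul_apply, ih, pow_succ, ← mul_assoc]
      rfl
  refine ⟨finrank L R, fun i => (T.charpoly.coeff i : L), Module.finrank_mul_finrank F L R, ?_,
    fun y => ?_⟩
  · rw [← T.charpoly_natDegree]
    exact congrArg Subtype.val T.charpoly_monic.coeff_natDegree
  · have h := LinearMap.congr_fun T.aeval_self_charpoly y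
    rw [aeval_eq_sum_range, T.charpoly_natDegree, LinearMap.sum_apply] at h
    refine Eq.trans (Finset.sum_congr rfl fun i _ => ?_) h
    rw [LinearMap.smul_apply, hT, mul_assoc]
    rfl

variable [CharZero F]

theorem dv_prim (C : Subalgebra F R) [FiniteDimensional F C] (hc : ∀ x y : C, x * y = y * x) :
    (∃ α ∈ C, Algebra.adjoin F {α} = C) ∧ Finite (Subalgebra F C) := by
  let _ : CommRing C := { (inferInstance : Ring C) with mul_comm := hc }
  let _ : Field C := fieldOfFiniteDimensional F C
  obtain ⟨α, hα⟩ := Field.exists_primitive_element F C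
  have := Field.finite_intermediateField_of_exists_primitive_element F C ⟨α, hα⟩
  refine ⟨⟨α, α.2, ?_⟩, Finite.of_equiv _ subalgebraEquivIntermediateField.toEquiv.symm⟩
  have h1 : Algebra.adjoin F {α} = ⊤ := by
    rw [← IntermediateField.adjoin_simple_toSubalgebra_of_isAlgebraic
      (Algebra.IsAlgebraic.isAlgebraic α), hα, IntermediateField.top_toSubalgebra]
  have h2 := congrArg (Subalgebra.map C.val) h1
  rwa [AlgHom.map_adjoin_singleton, Algebra.map_top, Subalgebra.range_val] at h2

theorem dv_prim_mem (C : Subalgebra F R) [FiniteDimensional F C] (hc : ∀ x y : C, x * y = y * x)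
    (V : Submodule F R) (hV : ∀ v ∈ V, v ∈ C) :
    ∃ v ∈ V, Algebra.adjoin F {v} = Algebra.adjoin F (V : Set R) := by
  have := (dv_prim C hc).2
  have : Infinite F := CharZero.infinite F
  obtain ⟨v, hv⟩ := Submodule.exists_forall_notMem_of_forall_ne_top
    (ι := {E : Subalgebra F C // ¬ ∀ v ∈ V, v ∈ E.map C.val})
    (fun E => (Subalgebra.toSubmodule (E.1.map C.val)).comap V.subtype) fun E hE =>
      E.2 fun v hv => (hE.ge (Submodule.mem_top (x := (⟨v, hv⟩ : V))))
  refine ⟨v, v.2, le_antisymm (Algebra.adjoin_mono (by simp)) (Algebra.adjoin_le fun w hw => ?_)⟩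
  have e : (Algebra.adjoin F {(⟨v, hV v v.2⟩ : C)}).map C.val = Algebra.adjoin F {(v : R)} :=
    AlgHom.map_adjoin_singleton _ _
  by_contra hn
  refine hv ⟨Algebra.adjoin F {(⟨v, hV v v.2⟩ : C)}, fun h => hn (e ▸ h w hw)⟩ ?_
  change (v : R) ∈ Subalgebra.map _ _
  rw [e]
  exact Algebra.self_mem_adjoin_singleton F _

omit [IsDomain R] [CharZero F] in
/-- the Casimir element of a symmetric algebra -/
theorem dv_casimir [FiniteDimensional F R] (t : R →ₗ[F] F) (ht : ∀ x y, t (x * y) = t (y * x))
    (hn : ∀ x, (∀ y, t (x * y) = 0) → x = 0) :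
    ∃ a a' : Fin (finrank F R) → R, (∀ i, t (a i * a' i) = 1) ∧
      ∀ {M : Type*} [AddCommGroup M] [Module F M] (f : R →ₗ[F] R →ₗ[F] M) (y : R),
        ∑ i, f (y * a i) (a' i) = ∑ i, f (a i) (a' i * y) := by
  let β : LinearMap.BilinForm F R := (LinearMap.mul F R).compr₂ t
  have hβ : β.Nondegenerate := ⟨hn, fun y h => hn y fun x => by rw [ht]; exact h x⟩
  let b := Module.finBasis F R
  let b' := β.dualBasis hβ b
  have h1 : ∀ i j, t (b' i * b j) = if j = i then 1 else 0 := β.apply_dualBasis_left hβ b
  have h2 : ∀ x i, b'.repr x i = t (x * b i) := β.dualBasis_repr_apply hβ b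
  have h3 : ∀ x k, b.repr x k = t (b' k * x) := fun x k => by
    conv_rhs => rw [← b.sum_repr x]
    rw [Finset.mul_sum, map_sum]
    simp [h1]
  refine ⟨b, b', fun i => by rw [ht, h1, if_pos rfl], fun f y => ?_⟩
  calc ∑ i, f (y * b i) (b' i) = ∑ i, ∑ k, t (b' k * y * b i) • f (b k) (b' i) := by
        refine Finset.sum_congr rfl fun i _ => ?_
        conv_lhs => rw [← b.sum_repr (y * b i)]
        simp [h3, mul_assoc]
    _ = ∑ k, f (b k) (b' k * y) := by
        rw [Finset.sum_comm]
        refine Finset.sum_congr rfl fun k _ => ?_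
        conv_rhs => rw [← b'.sum_repr (b' k * y)]
        simp [h2]

end Crest.Agent.R180
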