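import Crest.Agent.R180.DS
import Crest.Agent.R180.DivAux

/-!
# Row 180, tools for finite-dimensional subalgebras of the division ring `A`
-/

set_option autoImplicit false
set_option linter.unusedSectionVars false

namespace Crest.Agent.R180

open Module Polynomial

/-- centraliser inside `D n S` -/
noncomputable def Cen (n : ℕ) (S : Finset ℕ) (s : Set A) : Subalgebra (F n) A :=
  D n S ⊓ Subalgebra.centralizer (F n) s

theorem mem_Cen {n : ℕ} {S : Finset ℕ} {s : Set A} {y : A} :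
    y ∈ Cen n S s ↔ y ∈ D n S ∧ ∀ g ∈ s, g * y = y * g := by
  simp [Cen, Algebra.mem_inf, Subalgebra.mem_centralizer_iff]

theorem Cen_le (n : ℕ) (S : Finset ℕ) (s : Set A) : Cen n S s ≤ D n S := inf_le_left

instance Cen_fd (n : ℕ) (S : Finset ℕ) (s : Set A) : FiniteDimensional (F n) (Cen n S s) :=
  fdA_of_le_D _ (Cen_le n S s)

/-- the field generated by one element -/
noncomputable abbrev Lf (n : ℕ) (a : A) : Subalgebra (F n) A := Algebra.adjoin (F n) {a}

theorem Lf_comm {n : ℕ} {a y c : A} (hy : y ∈ Lf n a) (hc : a * c = c * a) : y * c = c * y :=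
  (Algebra.commute_of_mem_adjoin_singleton_of_commute hy (show Commute c a from hc.symm)).symm

theorem Lf_comm' {n : ℕ} {a : A} (x y : Lf n a) : x * y = y * x :=
  Subtype.ext (Lf_comm x.2 (Lf_comm y.2 rfl).symm)

theorem Lf_le {n : ℕ} {a : A} {B : Subalgebra (F n) A} (ha : a ∈ B) : Lf n a ≤ B :=
  Algebra.adjoin_le (Set.singleton_subset_iff.2 ha)

theorem self_mem_Lf (n : ℕ) (a : A) : a ∈ Lf n a := Algebra.self_mem_adjoin_singleton _ a

instance toSubmodule_fd {n : ℕ} (B : Subalgebra (F n) A) [h : FiniteDimensional (F n) B] :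
    FiniteDimensional (F n) (Subalgebra.toSubmodule B) := h

theorem Lf_le_Cen {n : ℕ} {S : Finset ℕ} {a : A} (ha : a ∈ D n S) : Lf n a ≤ Cen n S {a} :=
  Lf_le (mem_Cen.2 ⟨ha, by simp⟩)

theorem aeval_mem_Lf {n : ℕ} (a : A) (p : (F n)[X]) : aeval a p ∈ Lf n a :=
  Polynomial.aeval_mem_adjoin_singleton _ a

theorem finrank_alg_pos {n : ℕ} (B : Subalgebra (F n) A) [FiniteDimensional (F n) B] :
    0 < finrank (F n) B := Module.finrank_pos

/-- `b` is the orthogonal projection of `y` to `B` -/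
def IsPr {n : ℕ} (B : Subalgebra (F n) A) (y b : A) : Prop := b ∈ B ∧ ∀ c ∈ B, τ (c * y) = τ (c * b)

/-- `dual_solve` for `tB n` on `B × B` -/
theorem exists_isPr {n : ℕ} {S : Finset ℕ} (B : Subalgebra (F n) A) (hB : B ≤ D n S) {y : A} (hy : In n y) :
    ∃ b, IsPr B y b := by
  have := fdA_of_le_D B hB
  obtain ⟨u, hu, h⟩ := dual_solve (tB n) (Subalgebra.toSubmodule B) (Subalgebra.toSubmodule B)
    ((tB n).flip y) fun c hc => by
      rw [eq_zero_of_τ B hc.1 fun u hu => by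
        rw [τ_comm]; exact (tB_eq_zero (hB hc.1).1 (hB hu).1).1 (hc.2 u hu), map_zero]
  refine ⟨u, hu, fun c hc => ?_⟩
  rw [← tB_In (hB hc).1 hy, ← tB_In (hB hc).1 (hB hu).1, h c hc, LinearMap.flip_apply]

theorem IsPr.unique {n : ℕ} {B : Subalgebra (F n) A} [FiniteDimensional (F n) B] {y b b' : A}
    (h : IsPr B y b) (h' : IsPr B y b') : b = b' :=
  sub_eq_zero.1 (eq_zero_of_τ B (sub_mem h.1 h'.1) fun c hc => by
    rw [mul_sub, map_sub, ← h.2 c hc, ← h'.2 c hc, sub_self])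

/-- The projection of an integral element is integral.  Normalise `c • b`; if `c⁻¹` is not integral then `r n c = 0`,
while `c * τ ((c • b)⁻¹ * y) = 1` with `(c • b)⁻¹` integral (`Ig.inv`, `inv_mem_alg`). -/
theorem IsPr.red {n m : ℕ} (h : n ≤ m) {S : Finset ℕ} {B : Subalgebra (F m) A} (hB : B ≤ D m S) {y b : A}
    (hb : IsPr B y b) (hy : Ig n y) : Ig n b ∧ IsPr (RedA h B) (red n y) (red n b) := by
  have := fdA_of_le_D B hB
  have hig : Ig n b := by
    by_cases h0 : b = 0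
    · rw [h0]; exact Ig.zero n
    obtain ⟨c, hc, hc0, h1, h2⟩ := normalise n h0 (hB hb.1).1
    have h3 : (c • b)⁻¹ ∈ B := inv_mem_alg B (B.smul_mem hb.1 (⟨c, hc⟩ : F m))
    have e : b = c⁻¹ • c • b := by rw [smul_smul, inv_mul_cancel₀ hc0, one_smul]
    have h4 : τ ((c • b)⁻¹ * y) = c⁻¹ := by
      rw [hb.2 _ h3]
      nth_rewrite 2 [e]
      rw [mul_smul_comm, inv_mul_cancel₀ (smul_ne_zero hc0 h0), map_smul, τ_one, smul_eq_mul,
        mul_one]
    rw [e]
    exact Ig.smul (h4 ▸ ((Ig.inv h1 h2).1.mul hy).τ) h1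
  refine ⟨hig, ⟨b, hb.1, hig, rfl⟩, ?_⟩
  rintro _ ⟨c, hc, hc', rfl⟩
  rw [← red_mul hc' hy, ← red_mul hc' hig, τ_red, τ_red, hb.2 c hc]

/-- `B` is a vector space over the division ring `L` -/
theorem finrank_dvd {n : ℕ} (L B : Subalgebra (F n) A) [FiniteDimensional (F n) B] (h : L ≤ B) :
    finrank (F n) L ∣ finrank (F n) B :=
  dv_finrank_comap L B h ▸ dv_dvd (L.comap B.val)

/-- Every element lies in a self-centralising `F n [B]`: take a commutative subalgebra of largest dimension containing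
`B'`; it is a field, and `B` is a primitive element. -/
theorem exists_max_comm {n : ℕ} {S : Finset ℕ} {B' : A} (hB' : B' ∈ D n S) :
    ∃ B ∈ D n S, B' ∈ Lf n B ∧ ∀ y ∈ D n S, y * B = B * y → y ∈ Lf n B := by
  classical
  have hfd : ∀ {B : A}, B ∈ D n S → FiniteDimensional (F n) (Lf n B) := fun hB =>
    fdA_of_le_D _ (Lf_le hB)
  have hex : ∃ k, ∃ B ∈ D n S, B' ∈ Lf n B ∧ ν S ≤ finrank (F n) (Lf n B) + k :=
    ⟨ν S, B', hB', self_mem_Lf n B', Nat.le_add_left _ _⟩
  obtain ⟨B, hB, h1, h2⟩ := Nat.find_spec hex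
  refine ⟨B, hB, h1, fun y hy hc => ?_⟩
  have hC : Algebra.adjoin (F n) {B, y} ≤ D n S := Algebra.adjoin_le (by
    rintro _ (rfl | rfl)
    exacts [hB, hy])
  have := fdA_of_le_D _ hC
  have hcomm : ∀ a ∈ ({B, y} : Set A), ∀ b ∈ ({B, y} : Set A), Commute a b := by
    rintro _ (rfl | rfl) _ (rfl | rfl)
    exacts [rfl, hc.symm, hc, rfl]
  obtain ⟨α, hα, e⟩ := (dv_prim (Algebra.adjoin (F n) {B, y}) fun a b => Subtype.ext
    (Algebra.commute_of_mem_adjoin_of_forall_mem_commute b.2 fun b hb =>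
      (Algebra.commute_of_mem_adjoin_of_forall_mem_commute a.2 (hcomm b hb)).symm)).1
  have hle : Lf n B ≤ Lf n α := Lf_le (e.ge (Algebra.subset_adjoin (by simp)))
  have := hfd (hC hα)
  have h3 : finrank (F n) (Lf n α) ≤ finrank (F n) (Lf n B) := by
    by_contra hlt
    have h4 : finrank (F n) (Lf n α) ≤ ν S :=
      finrank_D n S ▸ Submodule.finrank_mono (s := Subalgebra.toSubmodule (Lf n α))
        (t := Subalgebra.toSubmodule (D n S)) (Lf_le (hC hα))
    exact Nat.find_min hex (m := Nat.find hex - 1) (by omega) ⟨α, hC hα, hle h1, by omega⟩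
  rw [Subalgebra.eq_of_le_of_finrank_le hle h3]
  exact e.ge (Algebra.subset_adjoin (by simp))

/-- `[F(a) : F]² ≤ dim D`.  View `D n S` as a vector space over `L = Lf n a` by right multiplication, of dimension
`N = ν / d`; Cayley-Hamilton for left multiplication by `a` gives `∑ a^i y l_i = 0` for all `y`, `l_N = 1`; multiply by
`z γ * b`, put `y = (z γ)⁻¹` and sum over `γ` (`sum_conj`): `∑ τ (b a^i) l_i = 0`; apply `τ`: the monic polynomial
`∑ τ(l_i) T^i` of degree `N` kills `a`, so `d ≤ N`. -/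
theorem deg_sq_le {n : ℕ} {S : Finset ℕ} {a : A} (ha : a ∈ D n S) :
    finrank (F n) (Lf n a) ^ 2 ≤ ν S := by
  obtain ⟨N, l, h1, h2, h3⟩ := dv_ch ((Lf n a).comap (D n S).val)
    (fun x y => Subtype.ext (Subtype.ext (Lf_comm x.2 (Lf_comm y.2 rfl).symm))) ⟨a, ha⟩
  rw [dv_finrank_comap _ _ (Lf_le ha), finrank_D] at h1
  have h4 : ∑ i ∈ Finset.range (N + 1), τ (l i) • a ^ i = 0 := by
    have h5 : ∑ γ ∈ GF S, ∑ i ∈ Finset.range (N + 1), z γ * l i * (z γ)⁻¹ * a ^ i = 0 := by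
      refine Finset.sum_eq_zero fun γ hγ => ?_
      have h6 := congrArg (fun x : D n S => z γ * x) (h3 ⟨_, z_inv_mem_D n hγ⟩)
      simpa [Finset.mul_sum, mul_assoc] using h6
    rw [Finset.sum_comm] at h5
    simp only [← Finset.sum_mul, sum_conj (l _).2, smul_mul_assoc, one_mul, mul_smul,
      ← Finset.smul_sum] at h5
    exact (smul_eq_zero.1 h5).resolve_left (Nat.cast_ne_zero.2 (ν_pos S).ne')
  have hd : (∑ i ∈ Finset.range N, monomial i (⟨τ (l i), (l i).2.1.τ⟩ : F n)).degree < N := by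
    refine (degree_sum_le _ _).trans_lt ((Finset.sup_lt_iff (WithBot.bot_lt_coe _)).2 fun i hi => ?_)
    exact (degree_monomial_le _ _).trans_lt (by exact_mod_cast Finset.mem_range.1 hi)
  have h7 := dv_finrank_le (a := a) (monic_X_pow_add hd) (by
    rw [Finset.sum_range_succ, h2, OneMemClass.coe_one, τ_one, one_smul, add_comm] at h4
    simpa [aeval_monomial, ← Algebra.smul_def, F_smul] using h4)
  rw [natDegree_add_eq_left_of_degree_lt (by rwa [degree_X_pow]), natDegree_X_pow] at h7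
  rw [← h1, sq]
  exact Nat.mul_le_mul_left _ h7

/-- the orthogonal of the centraliser is `[D, a]` (`dual_solve` for `(c, ξ) ↦ τ (c (ξ a - a ξ))`, then remove the
projection of `ξ` to the centraliser) -/
theorem exists_ad {n : ℕ} {S : Finset ℕ} {a y : A} (ha : a ∈ D n S) (hy : y ∈ D n S)
    (h : ∀ c ∈ Cen n S {a}, τ (c * y) = 0) :
    ∃ ξ ∈ D n S, (∀ c ∈ Cen n S {a}, τ (c * ξ) = 0) ∧ y = ξ * a - a * ξ := by
  have hm : ∀ u ∈ D n S, u * a - a * u ∈ D n S := fun u hu =>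
    sub_mem (mul_mem hu ha) (mul_mem ha hu)
  obtain ⟨u, hu, h1⟩ := dual_solve
    ((tB n).compl₂ (LinearMap.mulRight (F n) a - LinearMap.mulLeft (F n) a))
    (Subalgebra.toSubmodule (D n S)) (Subalgebra.toSubmodule (D n S)) ((tB n).flip y)
    fun c hc => (tB_eq_zero hc.1.1 hy.1).2 (h c (mem_Cen.2 ⟨hc.1, fun g hg => by
      rw [Set.mem_singleton_iff.1 hg]
      refine sub_eq_zero.1 (eq_zero_of_τ (D n S) (sub_mem (mul_mem ha hc.1) (mul_mem hc.1 ha))
        fun u hu => ?_)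
      have h2 := (tB_eq_zero hc.1.1 (hm u hu).1).1 (hc.2 u hu)
      rw [mul_sub, map_sub] at h2 ⊢
      rwa [← mul_assoc u a, τ_comm (u * a), τ_comm u, mul_assoc c a]⟩))
  have e : y = u * a - a * u :=
    sub_eq_zero.1 (eq_zero_of_τ (D n S) (sub_mem hy (hm u hu)) fun c hc => by
      rw [mul_sub, map_sub, ← tB_In hc.1 hy.1, ← tB_In hc.1 (hm u hu).1, sub_eq_zero]
      exact congrArg Subtype.val (h1 c hc).symm)
  obtain ⟨b, hb, hb'⟩ := exists_isPr (Cen n S {a}) (Cen_le n S _) hu.1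
  refine ⟨u - b, sub_mem hu (Cen_le n S _ hb), fun c hc => by
    rw [mul_sub, map_sub, hb' c hc, sub_self], ?_⟩
  rw [e, sub_mul, mul_sub, (mem_Cen.1 hb).2 a rfl]
  abel

/-- Derivations of a subalgebra are inner.  Basis `a i` of `B`, dual basis `a' i` for the trace form;
`y * a i = ∑ k, τ (a' k * y * a i) • a k` and `a' k * y = ∑ i, τ (a' k * y * a i) • a' i`;
`ζ = ∑ a i * a' i` commutes with `B` and has trace `dim B ≠ 0`; `ξ = (∑ ∂(a i) * a' i) * ζ⁻¹`. -/
theorem inner_of_rel {n : ℕ} {S : Finset ℕ} (B : Subalgebra (F n) A) (hB : B ≤ D n S) (Rel : A → A → Prop)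
    (hfun : ∀ y y₁ y₂, Rel y y₁ → Rel y y₂ → y₁ = y₂) (htot : ∀ y ∈ B, ∃ y' ∈ D n S, Rel y y')
    (hadd : ∀ a a' b b', Rel a a' → Rel b b' → Rel (a + b) (a' + b'))
    (hsmul : ∀ (c : F n) a a', Rel a a' → Rel (c • a) (c • a'))
    (hmul : ∀ a a' b b', Rel a a' → Rel b b' → Rel (a * b) (a' * b + a * b')) :
    ∃ ξ ∈ D n S, ∀ y ∈ B, ∀ y', Rel y y' → y' = ξ * y - y * ξ := by
  have := fdA_of_le_D B hB
  choose f hf1 hf2 using htot
  let d : B →ₗ[F n] A :=
    { toFun := fun y => f y y.2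
      map_add' := fun x y => hfun _ _ _ (hf2 _ (x + y).2) (hadd _ _ _ _ (hf2 _ x.2) (hf2 _ y.2))
      map_smul' := fun c x => hfun _ _ _ (hf2 _ (c • x).2) (hsmul c _ _ (hf2 _ x.2)) }
  have hd : ∀ x y : B, d (x * y) = d x * y + x * d y := fun x y =>
    hfun _ _ _ (hf2 _ (x * y).2) (hmul _ _ _ _ (hf2 _ x.2) (hf2 _ y.2))
  have ht : ∀ x : B, ((tB n 1 ∘ₗ B.val.toLinearMap) x : KK) = τ x := fun x =>
    (tB_In (In.one n) (hB x.2).1).trans (by rw [one_mul])
  obtain ⟨a, a', h1, h2⟩ := dv_casimir (tB n 1 ∘ₗ B.val.toLinearMap)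
    (fun x y => Subtype.ext (by rw [ht, ht, MulMemClass.coe_mul, MulMemClass.coe_mul, τ_comm])) fun x hx =>
      Subtype.ext (eq_zero_of_τ B x.2 fun c hc => by
        have h1 := ht (x * ⟨c, hc⟩)
        rw [hx, MulMemClass.coe_mul] at h1
        rw [τ_comm]
        exact h1.symm)
  have hζ : (∑ i, a i * a' i : B) ≠ 0 := fun h0 => by
    have h3 := congrArg (tB n 1 ∘ₗ B.val.toLinearMap) h0
    rw [map_sum, map_zero] at h3
    simp only [h1, Finset.sum_const, Finset.card_univ, Fintype.card_fin, nsmul_eq_mul, mul_one,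
      Nat.cast_eq_zero] at h3
    exact (finrank_alg_pos B).ne' h3
  have hζ' : ((∑ i, a i * a' i : B) : A) ≠ 0 := fun h0 => hζ (Subtype.ext h0)
  refine ⟨(∑ i, d (a i) * a' i) * ((∑ i, a i * a' i : B) : A)⁻¹,
    mul_mem (sum_mem fun i _ => mul_mem (hf1 (a i) (a i).2) (hB (a' i).2))
      (hB (inv_mem_alg B (Subtype.property _))), fun y hy y' hy' => ?_⟩
  have e1 : y' = d ⟨y, hy⟩ := hfun _ _ _ hy' (hf2 y hy)
  have e2 : y * ((∑ i, a i * a' i : B) : A) = ((∑ i, a i * a' i : B) : A) * y := by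
    have h3 := congrArg Subtype.val (h2 (LinearMap.mul (F n) B) ⟨y, hy⟩)
    simpa [Finset.mul_sum, Finset.sum_mul, mul_assoc] using h3
  have e3 : y' * ((∑ i, a i * a' i : B) : A) + y * ∑ i, d (a i) * a' i =
      (∑ i, d (a i) * a' i) * y := by
    have h3 := h2 ((LinearMap.mul (F n) A).compl₁₂ d B.val.toLinearMap) ⟨y, hy⟩
    simpa [hd, ← e1, Finset.mul_sum, Finset.sum_mul, mul_assoc, add_mul,
      Finset.sum_add_distrib] using h3
  have e4 : ((∑ i, a i * a' i : B) : A)⁻¹ * y = y * ((∑ i, a i * a' i : B) : A)⁻¹ :=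
    (Commute.inv_right₀ e2).symm
  rw [mul_assoc, e4, ← mul_assoc, ← mul_assoc, ← sub_mul, ← e3, add_sub_cancel_right,
    mul_inv_cancel_right₀ hζ']

theorem isIntegral_D {n : ℕ} {S : Finset ℕ} {a : A} (ha : a ∈ D n S) : IsIntegral (F n) a :=
  IsIntegral.of_mem_of_fg (D n S) (Submodule.FG.of_finite) a ha

theorem minpoly_facts {n : ℕ} {S : Finset ℕ} {a : A} (ha : a ∈ D n S) :
    (minpoly (F n) a).Monic ∧ aeval a (derivative (minpoly (F n) a)) ≠ 0 ∧
      (minpoly (F n) a = X ∨ (minpoly (F n) a).coeff 0 ≠ 0) := by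
  have hi := isIntegral_D ha
  refine ⟨minpoly.monic hi, fun h => ?_, ?_⟩
  · have h1 : derivative (minpoly (F n) a) ≠ 0 := fun h0 =>
      (minpoly.natDegree_pos hi).ne' (derivative_eq_zero.1 h0)
    exact (minpoly.degree_le_of_ne_zero _ _ h1 h).not_gt
      (degree_derivative_lt (minpoly.ne_zero hi))
  · by_cases h : a = 0
    · left; rw [h, minpoly.zero]
    · exact Or.inr (minpoly.coeff_zero_ne_zero hi h)

/-- A subspace that generates a (commutative) field contains a primitive element: finitely many intermediate fields,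
and a vector space over an infinite field is not a finite union of proper subspaces. -/
theorem exists_primitive_mem {n : ℕ} {S : Finset ℕ} {a : A} (ha : a ∈ D n S) (V : Submodule (F n) A)
    (hV : ∀ v ∈ V, v ∈ Lf n a) : ∃ v ∈ V, Lf n v = Algebra.adjoin (F n) (V : Set A) :=
  have := fdA_of_le_D _ (Lf_le ha)
  dv_prim_mem (Lf n a) Lf_comm' V hV

/-- `e + 1` vectors `v^k g` in a space of dimension `≤ e`: the degree of `v` is at most `e` -/
theorem pow_chain {n : ℕ} {S : Finset ℕ} {v g : A} (hv : v ∈ D n S) (hg : g ∈ Lf n v) (h0 : g ≠ 0)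
    (N : Submodule (F n) A) [FiniteDimensional (F n) N] {e : ℕ} (he : finrank (F n) N ≤ e)
    (h : ∀ k ≤ e, v ^ k * g ∈ N) : ∀ y ∈ Lf n v, y ∈ N := by
  classical
  have := fdA_of_le_D _ (Lf_le hv)
  have hi := isIntegral_D hv
  have h1 : ¬ LinearIndependent (F n) fun k : Fin (e + 1) =>
      (⟨v ^ (k : ℕ) * g, h k (Nat.lt_succ_iff.1 k.2)⟩ : N) := fun hl => by
    have := hl.fintype_card_le_finrank
    rw [Fintype.card_fin] at this
    omega
  obtain ⟨c, hc, i, hci⟩ := Fintype.not_linearIndependent_iff.1 h1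
  have h2 : (minpoly (F n) v).natDegree ≤ e := by
    have h3 : (∑ k : Fin (e + 1), monomial (k : ℕ) (c k)) ≠ 0 := fun h0 => by
      have := congrArg (coeff · i) h0
      simp only [finsetSum_coeff, coeff_monomial, Fin.val_inj, Finset.sum_ite_eq',
        Finset.mem_univ, if_true, coeff_zero] at this
      exact hci this
    refine (natDegree_le_natDegree (minpoly.degree_le_of_ne_zero _ _ h3 ?_)).trans
      (natDegree_sum_le_of_forall_le _ _ fun k _ =>
        (natDegree_monomial_le _).trans (Nat.lt_succ_iff.1 k.2))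
    refine (mul_eq_zero.1 ?_).resolve_right h0
    have h4 := congrArg Subtype.val hc
    simpa [aeval_monomial, ← Algebra.smul_def, Finset.sum_mul] using h4
  intro y hy
  have h5 : y * g⁻¹ ∈ Subalgebra.toSubmodule (Lf n v) :=
    (Lf n v).mul_mem hy (inv_mem_alg _ hg)
  rw [← Submodule.span_range_natDegree_eq_adjoin (minpoly.monic hi) (minpoly.aeval _ _)] at h5
  have h6 : Submodule.span (F n) ((Finset.image (v ^ ·)
      (Finset.range (minpoly (F n) v).natDegree) : Finset A) : Set A) ≤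
      N.comap (LinearMap.mulRight (F n) g) := Submodule.span_le.2 fun x hx => by
    obtain ⟨k, hk, rfl⟩ := Finset.mem_image.1 (Finset.mem_coe.1 hx)
    exact h k (by have := Finset.mem_range.1 hk; omega)
  simpa [h0] using h6 h5

/-- the annihilator of `u R` in `B` -/
def Ann {n : ℕ} (B : Submodule (F n) A) (u : A) (R : Submodule (F n) A) : Submodule (F n) A where
  carrier := {μ | μ ∈ B ∧ ∀ ρ ∈ R, τ (μ * u * ρ) = 0}
  add_mem' := fun ha hb => ⟨add_mem ha.1 hb.1, fun ρ hρ => by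
    rw [add_mul, add_mul, map_add, ha.2 ρ hρ, hb.2 ρ hρ, add_zero]⟩
  zero_mem' := ⟨zero_mem _, fun ρ _ => by rw [zero_mul, zero_mul, map_zero]⟩
  smul_mem' := fun c _ ha => ⟨B.smul_mem c ha.1, fun ρ hρ => by
    rw [F_smul, smul_mul_assoc, smul_mul_assoc, map_smul, ha.2 ρ hρ, smul_zero]⟩

theorem mem_Ann {n : ℕ} {B R : Submodule (F n) A} {u μ : A} :
    μ ∈ Ann B u R ↔ μ ∈ B ∧ ∀ ρ ∈ R, τ (μ * u * ρ) = 0 := Iff.rfl

theorem Ann_le {n : ℕ} (B R : Submodule (F n) A) (u : A) : Ann B u R ≤ B := fun _ h => h.1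

instance Ann_fd {n : ℕ} (B R : Submodule (F n) A) (u : A) [FiniteDimensional (F n) B] :
    FiniteDimensional (F n) (Ann B u R) := Submodule.finiteDimensional_of_le (Ann_le B R u)

/-- `rank_symm` and nondegeneracy -/
theorem finrank_Ann {n : ℕ} {S : Finset ℕ} (B : Subalgebra (F n) A) (hB : B ≤ D n S) {u : A} (hu : u ≠ 0)
    (R : Submodule (F n) A) (hR : ∀ ρ ∈ R, u * ρ ∈ B) :
    finrank (F n) (Ann (Subalgebra.toSubmodule B) u R) + finrank (F n) R = finrank (F n) B := by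
  have := fdA_of_le_D B hB
  have : FiniteDimensional (F n) R := Module.Finite.of_injective
    ((LinearMap.mulLeft (F n) u).restrict (p := R) (q := Subalgebra.toSubmodule B) hR)
    fun x y hxy => Subtype.ext (mul_left_cancel₀ hu (congrArg Subtype.val hxy))
  have h1 := rank_symm ((tB n).compl₂ (LinearMap.mulLeft (F n) u)) (Subalgebra.toSubmodule B) R
  have e1 : lker ((tB n).compl₂ (LinearMap.mulLeft (F n) u)) (Subalgebra.toSubmodule B) R =
      Ann (Subalgebra.toSubmodule B) u R := by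
    ext μ
    refine and_congr_right fun hμ => forall₂_congr fun ρ hρ => ?_
    rw [mul_assoc]
    exact tB_eq_zero (hB hμ).1 (hB (hR ρ hρ)).1
  have e2 : lker ((tB n).compl₂ (LinearMap.mulLeft (F n) u)).flip R (Subalgebra.toSubmodule B) =
      ⊥ := (Submodule.eq_bot_iff _).2 fun ρ hρ =>
    (mul_eq_zero.1 (eq_zero_of_τ B (hR ρ hρ.1) fun c hc =>
      (tB_eq_zero (hB hc).1 (hB (hR ρ hρ.1)).1).1 (hρ.2 c hc))).resolve_left hu
  rw [e1, e2, finrank_bot, Subalgebra.finrank_toSubmodule] at h1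
  omega

/-- double orthogonal -/
theorem mem_of_perp {n : ℕ} {S : Finset ℕ} (B : Subalgebra (F n) A) (hB : B ≤ D n S) (U : Submodule (F n) A)
    (hU : ∀ u ∈ U, u ∈ B) {y : A} (hy : y ∈ B)
    (h : ∀ c ∈ B, (∀ u ∈ U, τ (c * u) = 0) → τ (c * y) = 0) : y ∈ U := by
  have := fdA_of_le_D B hB
  obtain ⟨u, hu, h1⟩ := dual_solve (tB n) (Subalgebra.toSubmodule B) U ((tB n).flip y)
    fun c hc => (tB_eq_zero (hB hc.1).1 (hB hy).1).2 (h c hc.1 fun u hu =>
      (tB_eq_zero (hB hc.1).1 (hB (hU u hu)).1).1 (hc.2 u hu))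
  rwa [sub_eq_zero.1 (eq_zero_of_τ B (sub_mem hy (hU u hu)) fun c hc => by
    rw [mul_sub, map_sub, ← tB_In (hB hc).1 (hB hy).1, ← tB_In (hB hc).1 (hB (hU u hu)).1,
      h1 c hc, LinearMap.flip_apply, sub_self])]

/-- if no nonzero element of `N` is orthogonal to `R`, then `R` is large -/
theorem finrank_le_of_nondeg {n : ℕ} {S : Finset ℕ} (N R : Submodule (F n) A) (hN : ∀ c ∈ N, c ∈ D n S)
    (hR : ∀ c ∈ R, c ∈ D n S) (h : ∀ c ∈ N, (∀ ρ ∈ R, τ (c * ρ) = 0) → c = 0) :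
    finrank (F n) N ≤ finrank (F n) R ∧
      ∀ y ∈ R, y ≠ 0 → (∀ c ∈ N, τ (c * y) = 0) → finrank (F n) N + 1 ≤ finrank (F n) R := by
  have := fd_of_le_D N hN
  have := fd_of_le_D R hR
  have h1 := rank_symm (tB n) N R
  have e : lker (tB n) N R = ⊥ := (Submodule.eq_bot_iff _).2 fun c hc => h c hc.1 fun ρ hρ =>
    (tB_eq_zero (hN c hc.1).1 (hR ρ hρ).1).1 (hc.2 ρ hρ)
  rw [e, finrank_bot] at h1
  refine ⟨by omega, fun y hy h0 h2 => ?_⟩
  have h3 : finrank (F n) (lker (tB n).flip R N) ≠ 0 := fun h3 =>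
    h0 ((Submodule.eq_bot_iff _).1 (Submodule.finrank_eq_zero.1 h3) y
      ⟨hy, fun c hc => (tB_eq_zero (hN c hc).1 (hR y hy).1).2 (h2 c hc)⟩)
  omega

/-- powers of `η` independent over `L` -/
theorem finrank_mul_le {n : ℕ} (L B : Subalgebra (F n) A) [FiniteDimensional (F n) B] (h : L ≤ B) {η : A}
    (hη : η ∈ B) (m : ℕ)
    (hi : ∀ l : ℕ → A, (∀ i < m, l i ∈ L) → ∑ i ∈ Finset.range m, l i * η ^ i = 0 → ∀ i < m, l i = 0) :
    finrank (F n) L * m ≤ finrank (F n) B := by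
  have h1 := le_finrank_of_components (Finset.range m) (Subalgebra.toSubmodule B)
    (Subalgebra.toSubmodule L) (fun i => LinearMap.mulRight (F n) (η ^ i))
    (fun i _ u hu => by
      rw [LinearMap.mulRight_apply, Subalgebra.mem_toSubmodule]
      exact mul_mem (h hu) (pow_mem hη i)) fun l hl h0 i hi' =>
      hi l (fun i hi => hl i (Finset.mem_range.2 hi)) h0 i (Finset.mem_range.1 hi')
  rwa [Finset.card_range, mul_comm] at h1

end Crest.Agent.R180
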