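import Crest.Agent.R180.Prop

/-!
# Row 180, the invariants of an element `a` at a point, and the endpoint lemma
-/

set_option autoImplicit false
set_option linter.unusedSectionVars false

namespace Crest.Agent.R180

open Module Polynomial

theorem Fsmul {n : ℕ} {V : Type} [AddCommGroup V] [Module KK V] (c : F n) (y : V) : c • y = (c : KK) • y := rfl

theorem smul_mem_alg {n : ℕ} (B : Subalgebra (F n) A) {c : KK} (hc : c ∈ K n) {y : A} (hy : y ∈ B) :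
    c • y ∈ B := B.smul_mem hy (⟨c, hc⟩ : F n)

theorem smul_mem_sub {n : ℕ} {V : Type} [AddCommGroup V] [Module KK V] (U : Submodule (F n) V) {c : KK}
    (hc : c ∈ K n) {y : V} (hy : y ∈ U) : c • y ∈ U := U.smul_mem (⟨c, hc⟩ : F n) hy

theorem aeval_mem_alg {n m : ℕ} (h : n ≤ m) (B : Subalgebra (F m) A) {x : A} (hx : x ∈ B) (p : (F n)[X]) :
    aeval x p ∈ B := by
  rw [aeval_eq_sum_range]
  refine B.sum_mem fun k _ => ?_
  rw [Fsmul]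
  exact smul_mem_alg B (K_mono h (p.coeff k).2) (B.pow_mem hx k)

theorem aeval_comm {n : ℕ} {x c : A} (h : x * c = c * x) (p : (F n)[X]) : aeval x p * c = c * aeval x p :=
  Lf_comm (aeval_mem_Lf x p) h

theorem mem_Lf_self (n : ℕ) (x : A) : x ∈ Lf n x := Algebra.subset_adjoin (Set.mem_singleton x)

theorem comm_inv {x c : A} (h : x * c = c * x) : x⁻¹ * c = c * x⁻¹ :=
  (Commute.inv_left₀ (show Commute x c from h)).eq

theorem mem_Cen1 {n : ℕ} {S : Finset ℕ} {x y : A} : y ∈ Cen n S {x} ↔ y ∈ D n S ∧ x * y = y * x := by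
  simp [mem_Cen]

theorem mem_Cen2 {n : ℕ} {S : Finset ℕ} {x x' y : A} :
    y ∈ Cen n S {x, x'} ↔ y ∈ D n S ∧ x * y = y * x ∧ x' * y = y * x' := by
  simp [mem_Cen]

theorem finrank_alg_mono {n : ℕ} {B B' : Subalgebra (F n) A} [FiniteDimensional (F n) B'] (h : B ≤ B') :
    finrank (F n) B ≤ finrank (F n) B' := by
  have : FiniteDimensional (F n) (Subalgebra.toSubmodule B') := ‹_›
  exact Submodule.finrank_mono (show Subalgebra.toSubmodule B ≤ Subalgebra.toSubmodule B' from h)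

theorem alg_eq_of_le {n : ℕ} {B B' : Subalgebra (F n) A} [FiniteDimensional (F n) B'] (h : B ≤ B')
    (h' : finrank (F n) B' ≤ finrank (F n) B) : B = B' := by
  have : FiniteDimensional (F n) (Subalgebra.toSubmodule B') := ‹_›
  exact Subalgebra.toSubmodule_injective
    (Submodule.eq_of_le_of_finrank_le (show Subalgebra.toSubmodule B ≤ Subalgebra.toSubmodule B' from h) h')

theorem arith_min {g g' d d' m : ℕ} (hd : 0 < d') (hg : 0 < g * d) (h1 : d * m ≤ d') (h2 : g ≤ g')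
    (h3 : g' * d' ≤ g * d * m) : g' = g ∧ d' = d * m := by
  have hg' : 0 < g := Nat.pos_of_ne_zero fun h0 => by simp [h0] at hg
  have q1 : g * (d * m) ≤ g * d' := Nat.mul_le_mul_left _ h1
  have q2 : g * d' ≤ g' * d' := Nat.mul_le_mul_right _ h2
  rw [mul_assoc] at h3
  exact ⟨Nat.eq_of_mul_eq_mul_right hd (by omega), Nat.eq_of_mul_eq_mul_left hg' (by omega)⟩

/-- the field generated by the value of `a` -/
noncomputable abbrev LL (a : NP) (P : Pt) : Subalgebra (F P.n) A := Lf P.n (a.eval P.X)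

/-- its centraliser -/
noncomputable abbrev CC (a : NP) (P : Pt) : Subalgebra (F P.n) A := Cen P.n P.S {a.eval P.X}

/-- its minimal polynomial `p` -/
noncomputable def pp (a : NP) (P : Pt) : (F P.n)[X] := minpoly (F P.n) (a.eval P.X)

/-- the term `p(a)` -/
noncomputable def gg (a : NP) (P : Pt) : NP := NP.poly (pp a P) a

/-- `p'(a)` -/
noncomputable def dp (a : NP) (P : Pt) : A := aeval (a.eval P.X) (derivative (pp a P))

noncomputable def gam (a : NP) (P : Pt) : ℕ := finrank (F P.n) (CC a P) / finrank (F P.n) (LL a P)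

namespace Sys

variable (𝔖 : Sys) (a : NP)

/-- projections to the centraliser of the derivatives of `a` along tangent vectors -/
noncomputable def WW (P : Pt) : Submodule (F P.n) A where
  carrier := {b | ∃ δ ∈ 𝔖.Tan P.n P.S P.X, IsPr (CC a P) (a.d1 P.X δ) b}
  add_mem' := by
    rintro b b' ⟨δ, hδ, hb, hb'⟩ ⟨δ', hδ', hc, hc'⟩
    refine ⟨δ + δ', add_mem hδ hδ', add_mem hb hc, fun c hc0 => ?_⟩
    rw [NP.d1_add, mul_add, mul_add, map_add, map_add, hb' c hc0, hc' c hc0]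
  zero_mem' := ⟨0, zero_mem _, zero_mem _, fun c _ => by
    rw [← NP.d1L_apply, map_zero]⟩
  smul_mem' := by
    rintro l b ⟨δ, hδ, hb, hb'⟩
    refine ⟨l • δ, Submodule.smul_mem _ l hδ, Subalgebra.smul_mem _ hb l, fun c hc0 => ?_⟩
    rw [Fsmul, Fsmul, NP.d1_smul, mul_smul_comm, mul_smul_comm, map_smul, map_smul, hb' c hc0]

/-- the algebra generated by the ratios -/
noncomputable def L0 (P : Pt) : Subalgebra (F P.n) A :=
  Algebra.adjoin (F P.n) {y | ∃ w₁ ∈ 𝔖.WW a P, ∃ w₂ ∈ 𝔖.WW a P, y = w₁ * w₂⁻¹}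

noncomputable def n0 (P : Pt) : ℕ := finrank (F P.n) (𝔖.L0 a P)

noncomputable def bb (P : Pt) : ℕ := finrank (F P.n) (LL a P) / 𝔖.n0 a P

noncomputable def ee (P : Pt) : ℕ := 𝔖.n0 a P - finrank (F P.n) (𝔖.WW a P)

def Nz (P : Pt) : Prop := ∃ j : ℕ, ∃ δ ∈ 𝔖.Tan P.n P.S P.X, τ (a.eval P.X ^ j * a.d1 P.X δ) ≠ 0

/-- derivatives of a term along tangent vectors -/
noncomputable def DG (g : NP) (P : Pt) : Submodule (F P.n) A :=
  (𝔖.Tan P.n P.S P.X).map ((NP.d1L P.X g).restrictScalars (F P.n))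

/-- tangent vectors that keep `p(a) = 0` -/
noncomputable def T0 (P : Pt) : Submodule (F P.n) V2 :=
  𝔖.Tan P.n P.S P.X ⊓ LinearMap.ker ((NP.d1L P.X (gg a P)).restrictScalars (F P.n))

def MinG (P : Pt) : Prop := ∀ P', 𝔖.Reach P P' → gam a P ≤ gam a P'

def MinB (P : Pt) : Prop := ∀ P', 𝔖.Reach P P' → gam a P' = gam a P → 𝔖.bb a P ≤ 𝔖.bb a P'

def MinE (P : Pt) : Prop :=
  3 * 𝔖.ee a P ≤ 𝔖.n0 a P ∧ ∀ P', 𝔖.Reach P P' → gam a P' = gam a P → 𝔖.bb a P' = 𝔖.bb a P →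
    3 * 𝔖.ee a P' ≤ 𝔖.n0 a P' → 𝔖.ee a P ≤ 𝔖.ee a P'

structure Base (P : Pt) (ρ : ℕ) : Prop where
  st : 𝔖.St P ρ
  cin : a.cin P.n
  ming : 𝔖.MinG a P
  minb : 𝔖.MinB a P

/-- `L₀[η]` -/
noncomputable def L0e (P : Pt) (η : A) : Subalgebra (F P.n) A :=
  Algebra.adjoin (F P.n) ((𝔖.L0 a P : Set A) ∪ {η})

/-- the conclusions of the endpoint lemma -/
structure EPC (P : Pt) (w η : A) (m : ℕ) (P'' : Pt) : Prop where
  gam_eq : gam a P'' = gam a P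
  bb_eq : 𝔖.bb a P'' = 𝔖.bb a P
  n0_eq : 𝔖.n0 a P'' = 𝔖.n0 a P * m
  cen : ∀ c ∈ Cen P.n P''.S {a.eval P.X, η}, ∃ c' ∈ CC a P'', Ig P.n c' ∧ red P.n c' = c
  l0 : ∀ y ∈ 𝔖.L0 a P'', Ig P.n y → red P.n y ∈ 𝔖.L0e a P η
  wl : ∃ w' ∈ 𝔖.WW a P'', Ig P.n w' ∧ red P.n w' = w
  c2 : ∀ ρ ∈ Red P.n (𝔖.DG (gg a P) P''), ∃ l ∈ 𝔖.L0e a P η,
    ∀ c ∈ Cen P.n P''.S {a.eval P.X, η}, τ (c * ρ) = τ (c * (dp a P * w * l))
  c3 : 𝔖.ee a P'' ≤ finrank (F P.n)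
    (Ann (Subalgebra.toSubmodule (𝔖.L0e a P η)) (dp a P * w)⁻¹ (Red P.n (𝔖.DG (gg a P) P'')))

variable {𝔖 a} {P P' : Pt} {ρ : ℕ}

theorem mem_WW {b : A} : b ∈ 𝔖.WW a P ↔ ∃ δ ∈ 𝔖.Tan P.n P.S P.X, IsPr (CC a P) (a.d1 P.X δ) b := Iff.rfl

theorem mem_DG {g : NP} {y : A} : y ∈ 𝔖.DG g P ↔ ∃ δ ∈ 𝔖.Tan P.n P.S P.X, g.d1 P.X δ = y := Iff.rfl

theorem mem_T0 {δ : V2} : δ ∈ 𝔖.T0 a P ↔ δ ∈ 𝔖.Tan P.n P.S P.X ∧ (gg a P).d1 P.X δ = 0 := Iff.rfl

theorem T0_le : 𝔖.T0 a P ≤ 𝔖.Tan P.n P.S P.X := inf_le_left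

instance T0_fd : FiniteDimensional (F P.n) (𝔖.T0 a P) := Submodule.finiteDimensional_of_le T0_le

instance DG_fd {g : NP} : FiniteDimensional (F P.n) (𝔖.DG g P) := by unfold DG; infer_instance

theorem WW_le_CC {b : A} (hb : b ∈ 𝔖.WW a P) : b ∈ CC a P := by
  obtain ⟨δ, _, h⟩ := hb
  exact h.1

instance WW_fd : FiniteDimensional (F P.n) (𝔖.WW a P) := fd_of_le_D _ fun _ h => Cen_le _ _ _ (WW_le_CC h)

theorem L0_le_CC : 𝔖.L0 a P ≤ CC a P := by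
  refine Algebra.adjoin_le ?_
  rintro y ⟨w₁, h₁, w₂, h₂, rfl⟩
  exact mul_mem (WW_le_CC h₁) (inv_mem_alg _ (WW_le_CC h₂))

theorem L0_le_D : 𝔖.L0 a P ≤ D P.n P.S := L0_le_CC.trans (Cen_le _ _ _)

instance L0_fd : FiniteDimensional (F P.n) (𝔖.L0 a P) := fdA_of_le_D _ L0_le_D

theorem n0_pos : 0 < 𝔖.n0 a P := finrank_alg_pos _

theorem eval_mem_D (hP : 𝔖.POk P) (ha : a.cin P.n) : a.eval P.X ∈ D P.n P.S :=
  NP.eval_mem _ (mem_DV.1 hP.2) ha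

theorem LL_le_CC (hP : 𝔖.POk P) (ha : a.cin P.n) : LL a P ≤ CC a P := Lf_le_Cen (eval_mem_D hP ha)

theorem LL_le_D (hP : 𝔖.POk P) (ha : a.cin P.n) : LL a P ≤ D P.n P.S := (LL_le_CC hP ha).trans (Cen_le _ _ _)

theorem LL_fd (hP : 𝔖.POk P) (ha : a.cin P.n) : FiniteDimensional (F P.n) (LL a P) :=
  fdA_of_le_D _ (LL_le_D hP ha)

theorem gg_eval' (X' : V2) : (gg a P).eval X' = aeval (a.eval X') (pp a P) := eval_poly _ _ _

theorem gg_d1 (X' δ : V2) : (gg a P).d1 X' δ = dP (pp a P) (a.eval X') (a.d1 X' δ) := d1_poly _ _ _ _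

theorem gg_cin (ha : a.cin P.n) : (gg a P).cin P.n := NP.cin_poly _ ha

theorem gg_eval : (gg a P).eval P.X = 0 := by
  rw [gg_eval']
  exact minpoly.aeval _ _

theorem dp_ne (hP : 𝔖.POk P) (ha : a.cin P.n) : dp a P ≠ 0 := (minpoly_facts (eval_mem_D hP ha)).2.1

theorem dp_mem : dp a P ∈ LL a P := aeval_mem_Lf _ _

/-- for `c` commuting with the value of `a` at any `X'` -/
theorem τ_gg {X' δ : V2} {c : A} (hc : c * a.eval X' = a.eval X' * c) :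
    τ (c * (gg a P).d1 X' δ) = τ (c * aeval (a.eval X') (derivative (pp a P)) * a.d1 X' δ) := by
  rw [gg_d1, τ_dP _ hc]

theorem d1_mem_D (hP : 𝔖.POk P) {g : NP} (hg : g.cin P.n) {δ : V2} (hδ : δ ∈ DV P.n P.S (Fin 2)) :
    g.d1 P.X δ ∈ D P.n P.S := NP.d1_mem _ (mem_DV.1 hP.2) (mem_DV.1 hδ) hg

theorem exists_WW (hP : 𝔖.POk P) (ha : a.cin P.n) {δ : V2} (hδ : δ ∈ DV P.n P.S (Fin 2)) :
    ∃ b, IsPr (CC a P) (a.d1 P.X δ) b := exists_isPr _ (Cen_le _ _ _) (D_In (d1_mem_D hP ha hδ))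

/-- `dg δ = p'(a) π(da δ)`: both sides lie in the centraliser (`dP_comm`) and have the same traces against it -/
theorem dg_of_isPr (hP : 𝔖.POk P) (ha : a.cin P.n) {δ : V2} (hδ : δ ∈ DV P.n P.S (Fin 2)) {b : A}
    (hb : IsPr (CC a P) (a.d1 P.X δ) b) : (gg a P).d1 P.X δ = dp a P * b := by
  have hdp : dp a P ∈ CC a P := LL_le_CC hP ha dp_mem
  have h1 : (gg a P).d1 P.X δ ∈ CC a P := by
    refine mem_Cen1.2 ⟨d1_mem_D hP (gg_cin ha) hδ, ?_⟩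
    have := dP_comm (pp a P) (a.eval P.X) (a.d1 P.X δ)
    rw [← gg_eval', gg_eval, ← gg_d1] at this
    simpa [sub_eq_zero] using this
  rw [← sub_eq_zero]
  refine eq_zero_of_τ (CC a P) (sub_mem h1 (mul_mem hdp hb.1)) fun c hc => ?_
  rw [mul_sub, map_sub, τ_gg (mem_Cen1.1 hc).2.symm, sub_eq_zero, ← mul_assoc]
  exact hb.2 _ (mul_mem hc hdp)

theorem mem_DG_gg (hP : 𝔖.POk P) (ha : a.cin P.n) {y : A} :
    y ∈ 𝔖.DG (gg a P) P ↔ ∃ w ∈ 𝔖.WW a P, y = dp a P * w := by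
  constructor
  · rintro ⟨δ, hδ, rfl⟩
    obtain ⟨b, hb⟩ := exists_WW hP ha (Tan_le hδ)
    exact ⟨b, ⟨δ, hδ, hb⟩, dg_of_isPr hP ha (Tan_le hδ) hb⟩
  · rintro ⟨w, ⟨δ, hδ, hb⟩, rfl⟩
    exact ⟨δ, hδ, dg_of_isPr hP ha (Tan_le hδ) hb⟩

theorem finrank_DG_gg (hP : 𝔖.POk P) (ha : a.cin P.n) :
    finrank (F P.n) (𝔖.DG (gg a P) P) = finrank (F P.n) (𝔖.WW a P) := by
  have : 𝔖.DG (gg a P) P = (𝔖.WW a P).map (LinearMap.mulLeft (F P.n) (dp a P)) := by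
    ext y
    rw [mem_DG_gg hP ha]
    simp [eq_comm]
  rw [this]
  exact LinearEquiv.finrank_eq (Submodule.equivMapOfInjective (LinearMap.mulLeft (F P.n) (dp a P))
    (mul_right_injective₀ (dp_ne hP ha)) _).symm

theorem DG_mem_D (hP : 𝔖.POk P) {g : NP} (hg : g.cin P.n) {y : A} (hy : y ∈ 𝔖.DG g P) : y ∈ D P.n P.S := by
  obtain ⟨δ, hδ, rfl⟩ := hy
  exact d1_mem_D hP hg (Tan_le hδ)

theorem finrank_Tan_T0 (hP : 𝔖.POk P) (ha : a.cin P.n) :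
    finrank (F P.n) (𝔖.Tan P.n P.S P.X) = finrank (F P.n) (𝔖.T0 a P) + finrank (F P.n) (𝔖.WW a P) := by
  rw [← finrank_DG_gg hP ha]
  exact (finrank_inf_ker_add _ _).symm

/-- right multiplication by `w⁻¹` embeds `WW` in `L0` -/
theorem finrank_WW_le : finrank (F P.n) (𝔖.WW a P) ≤ 𝔖.n0 a P := by
  by_cases h : ∃ w ∈ 𝔖.WW a P, w ≠ 0
  · obtain ⟨w, hw, w0⟩ := h
    have : FiniteDimensional (F P.n) (Subalgebra.toSubmodule (𝔖.L0 a P)) := L0_fd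
    have h1 : (𝔖.WW a P).map (LinearMap.mulRight (F P.n) w⁻¹) ≤ Subalgebra.toSubmodule (𝔖.L0 a P) := by
      rintro _ ⟨y, hy, rfl⟩
      exact Algebra.subset_adjoin ⟨y, hy, w, hw, rfl⟩
    have h2 := Submodule.finrank_mono h1
    rw [← LinearEquiv.finrank_eq
      (Submodule.equivMapOfInjective _ (mul_left_injective₀ (inv_ne_zero w0)) _)] at h2
    exact h2
  · have : 𝔖.WW a P = ⊥ := by
      rw [eq_bot_iff]
      intro w hw
      by_contra h0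
      exact h ⟨w, hw, h0⟩
    rw [this, finrank_bot]
    exact Nat.zero_le _

theorem gam_mul (hP : 𝔖.POk P) (ha : a.cin P.n) :
    finrank (F P.n) (CC a P) = gam a P * finrank (F P.n) (LL a P) :=
  (Nat.div_mul_cancel (finrank_dvd _ _ (LL_le_CC hP ha))).symm

theorem Nz.reach (h : 𝔖.St P ρ) (ha : a.cin P.n) (hz : 𝔖.Nz a P) (hr : 𝔖.Reach P P') : 𝔖.Nz a P' := by
  obtain ⟨j, δ, hδ, hne⟩ := hz
  obtain ⟨u, hu, hig, hred⟩ := h.lift hr hδ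
  have he := hr.ext h.ok
  refine ⟨j, u, hu, fun h0 => hne ?_⟩
  have h1 := NP.eval_ig he.ig ha
  have := τ_red P.n (a.eval P'.X ^ j * a.d1 P'.X u)
  rw [h0, map_zero, red_mul (h1.pow j) (NP.d1_ig he.ig hig ha), red_pow h1, NP.red_eval he.ig ha,
    NP.red_d1 he.ig hig ha, he.red_eq, hred] at this
  exact this

theorem Nz.exists_w (hP : 𝔖.POk P) (ha : a.cin P.n) (hz : 𝔖.Nz a P) : ∃ w ∈ 𝔖.WW a P, w ≠ 0 := by
  obtain ⟨j, δ, hδ, hne⟩ := hz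
  obtain ⟨b, hb⟩ := exists_WW hP ha (Tan_le hδ)
  refine ⟨b, ⟨δ, hδ, hb⟩, fun h0 => hne ?_⟩
  rw [hb.2 _ (pow_mem (LL_le_CC hP ha (mem_Lf_self _ _)) j), h0, mul_zero, map_zero]

/-- If `b ∈ WW` is not in `LL`, move along a tangent vector with projection `b` (`triv_move`): the reduction of the new
`LL` contains `a` and `p'(a) b` (from `t⁻¹ p(a')`, `eval_expand1`), the reduction of the new `CC` lies in `CC`; so `gam`
drops. -/
theorem WW_le_LL (h : 𝔖.St P ρ) (ha : a.cin P.n) (hg : 𝔖.MinG a P) {b : A} (hb : b ∈ 𝔖.WW a P) :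
    b ∈ LL a P := by
  by_contra hnb
  obtain ⟨δ, hδ, hpr⟩ := hb
  obtain ⟨X', hm, hv, -⟩ := triv_move h.ok h.good.ev h.reg hδ
  have hod := hm.od2 h.ok
  rw [hv] at hod
  set P' : Pt := ⟨P.n + 1, P.S, X'⟩ with hP'
  have hok' : 𝔖.POk P' := hm.pok h.ok
  have ha' : a.cin P'.n := NP.cin_mono (Nat.le_succ _) ha
  have hig := hm.ig h.ok
  have hle : P.n ≤ P'.n := Nat.le_succ _
  have := LL_fd h.ok ha
  have := LL_fd hok' ha'
  have hred : red P.n (a.eval X') = a.eval P.X := by rw [NP.red_eval hig ha, hm.red_eq h.ok]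
  -- the centraliser does not grow
  have hC : finrank (F P'.n) (CC a P') ≤ finrank (F P.n) (CC a P) := by
    rw [← (finrank_RedA hle (CC a P') fun y hy => D_In (Cen_le _ _ _ hy)).2]
    refine finrank_alg_mono ?_
    rintro _ ⟨y, hy, hyi, rfl⟩
    obtain ⟨hy1, hy2⟩ := mem_Cen1.1 hy
    refine mem_Cen1.2 ⟨red_mem_D _ hy1, ?_⟩
    rw [← hred, ← red_mul (NP.eval_ig hig ha) hyi, ← red_mul hyi (NP.eval_ig hig ha)]
    exact congrArg _ hy2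
  -- the field grows
  obtain ⟨hfd, hL⟩ := finrank_RedA hle (LL a P') fun y hy => D_In (LL_le_D hok' ha' hy)
  have hsub : LL a P ≤ RedA hle (LL a P') := Lf_le ⟨_, mem_Lf_self _ _, NP.eval_ig hig ha, hred⟩
  have hb' : b ∈ RedA hle (LL a P') := by
    have h1 := eval_expand1 (gg_cin ha) (DV_In h.ok.2) (DV_In (Tan_le hδ)) hod
    rw [gg_eval, sub_zero, dg_of_isPr h.ok ha (Tan_le hδ) hpr] at h1
    have hin : In P.n (dp a P * b) := D_In (mul_mem (LL_le_D h.ok ha dp_mem) (Cen_le _ _ _ hpr.1))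
    have h2 : Od P.n 1 ((gg a P).eval X') := by
      have := (h1.mono (by norm_num : 1 ≤ 2)).add (hin.ig.tpow 1)
      simpa using this
    have h3 : cf P.n 1 ((gg a P).eval X') = dp a P * b := by
      have := h1.cf_eq_zero
      rw [cf_sub, sub_eq_zero] at this
      rw [this, ← pow_one (t P.n), cf_tpow_In 1 hin]
    have h4 : dp a P * b ∈ RedA hle (LL a P') := by
      refine ⟨(t P.n)⁻¹ ^ 1 • (gg a P).eval X', ?_, h2, h3⟩
      refine smul_mem_alg _ (pow_mem (inv_mem (t_mem _)) _) ?_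
      rw [gg_eval']
      exact aeval_mem_alg hle _ (mem_Lf_self _ _) _
    have h5 := mul_mem (inv_mem_alg _ (hsub dp_mem)) h4
    rwa [← mul_assoc, inv_mul_cancel₀ (dp_ne h.ok ha), one_mul] at h5
  have hlt : finrank (F P.n) (LL a P) < finrank (F P'.n) (LL a P') := by
    rw [← hL]
    by_contra hcon
    exact hnb (alg_eq_of_le hsub (not_lt.1 hcon) ▸ hb')
  have hg' := hg P' hm.reach
  have e1 := gam_mul h.ok ha
  have e2 := gam_mul hok' ha'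
  have hpos := finrank_alg_pos (CC a P)
  have hgpos : 0 < gam a P := Nat.pos_of_ne_zero fun h0 => by rw [h0, zero_mul] at e1; omega
  have : gam a P * finrank (F P.n) (LL a P) < gam a P' * finrank (F P'.n) (LL a P') :=
    lt_of_lt_of_le (Nat.mul_lt_mul_of_pos_left hlt hgpos) (Nat.mul_le_mul_right _ hg')
  omega

theorem L0_le_LL (h : 𝔖.St P ρ) (ha : a.cin P.n) (hg : 𝔖.MinG a P) : 𝔖.L0 a P ≤ LL a P := by
  have := LL_fd h.ok ha
  refine Algebra.adjoin_le ?_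
  rintro y ⟨w₁, h₁, w₂, h₂, rfl⟩
  exact mul_mem (WW_le_LL h ha hg h₁) (inv_mem_alg _ (WW_le_LL h ha hg h₂))

theorem bb_mul (h : 𝔖.St P ρ) (ha : a.cin P.n) (hg : 𝔖.MinG a P) :
    finrank (F P.n) (LL a P) = 𝔖.bb a P * 𝔖.n0 a P := by
  have := LL_fd h.ok ha
  exact (Nat.div_mul_cancel (finrank_dvd _ _ (L0_le_LL h ha hg))).symm

theorem inv_mul_mem_L0 (h : 𝔖.St P ρ) (ha : a.cin P.n) (hg : 𝔖.MinG a P) {w w₁ : A} (hw : w ∈ 𝔖.WW a P)
    (hw₁ : w₁ ∈ 𝔖.WW a P) : w⁻¹ * w₁ ∈ 𝔖.L0 a P := by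
  rw [comm_inv (Lf_comm (WW_le_LL h ha hg hw) (mem_Cen1.1 (WW_le_CC hw₁)).2)]
  exact Algebra.subset_adjoin ⟨w₁, hw₁, w, hw, rfl⟩

theorem DG_inv_mem_L0 (h : 𝔖.St P ρ) (ha : a.cin P.n) (hg : 𝔖.MinG a P) {w y : A} (hw : w ∈ 𝔖.WW a P)
    (hy : y ∈ 𝔖.DG (gg a P) P) : (dp a P * w)⁻¹ * y ∈ 𝔖.L0 a P := by
  obtain ⟨w₁, hw₁, rfl⟩ := (mem_DG_gg h.ok ha).1 hy
  rw [mul_inv_rev, mul_assoc, ← mul_assoc (dp a P)⁻¹, inv_mul_cancel₀ (dp_ne h.ok ha), one_mul]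
  exact inv_mul_mem_L0 h ha hg hw hw₁

/-- `L₀[η]` is commutative and commutes with what commutes with `a` and `η` -/
theorem L0e_comm (h : 𝔖.St P ρ) (ha : a.cin P.n) (hg : 𝔖.MinG a P) {η y c : A} (hy : y ∈ 𝔖.L0e a P η)
    (h1 : a.eval P.X * c = c * a.eval P.X) (h2 : η * c = c * η) : y * c = c * y := by
  have : 𝔖.L0e a P η ≤ Subalgebra.centralizer (F P.n) {c} := by
    refine Algebra.adjoin_le ?_
    rintro x (hx | rfl)
    · simpa [Set.mem_centralizer_iff] using (Lf_comm (L0_le_LL h ha hg hx) h1).symm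
    · simpa [Set.mem_centralizer_iff] using h2.symm
  simpa [Subalgebra.mem_centralizer_iff, eq_comm] using this hy

theorem L0e_le_ext {S' : Finset ℕ} (hS : P.S ⊆ S') {η : A}
    (hη : η ∈ ext P.S S' (Subalgebra.toSubmodule (𝔖.L0 a P))) {y : A} (hy : y ∈ 𝔖.L0e a P η) :
    y ∈ ext P.S S' (Subalgebra.toSubmodule (𝔖.L0 a P)) := by
  have : 𝔖.L0e a P η ≤ extA hS (𝔖.L0 a P) L0_le_D := by
    refine Algebra.adjoin_le ?_
    rintro x (hx | rfl)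
    · exact mem_ext_of_mem hS (fun _ h => L0_le_D h) hx
    · exact hη
  exact this hy

/-- The endpoint lemma.  With `R = RedA` to level `P.n`, `a'' = a(X'')`, `g'' = p(a'')`, `Cη = Cen {a, η}`:
`R CC'' ≤ Cη` (commutes with `a''` and `g''`), `R LL'' ∋ a, p'(a) w η` so `dim LL'' ≥ d m` (`finrank_mul_le`); `MinG` and
`gam_mul` force equalities, so `R CC'' = Cη` and `WW'' ≤ LL''`.  Elements of `WW` lift (`St.lift`, `IsPr.red`; for
`c ∈ Cη` use `τ_mul_E`, `E c ∈ CC`), so `R L0'' ⊇ L0`; the projection of `da δ°` with `red (dg δ°) = p'(a) w η` is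
`p'(a'')⁻¹` times the projection of `dg δ°` (`τ_gg`) and reduces to `w η`, so `η ∈ R L0''`; `MinB` gives
`R L0'' = L0e`.  `c2`: project `dg δ` to `CC''`.  `c3`: reduce `Ann L0'' w''⁻¹ WW''` (`finrank_Ann`, `finrank_Red`). -/
theorem Base.ep (h : 𝔖.Base a P ρ) {w η : A} {m : ℕ} {P'' : Pt} (hw : w ∈ 𝔖.WW a P) (hw0 : w ≠ 0)
    (hr : 𝔖.Reach P P'') (hη : EtaOK P.n P.S P''.S (a.eval P.X) η m)
    (hlead : ∃ c ∈ K P''.n, Ig P.n (c • (gg a P).eval P''.X) ∧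
      red P.n (c • (gg a P).eval P''.X) = dp a P * w * η)
    (h4 : dp a P * w * η ∈ Red P.n (𝔖.DG (gg a P) P'')) : 𝔖.EPC a P w η m P'' := by
  have hok := h.st.ok
  have ha := h.cin
  have he := hr.ext hok
  have hle := he.le
  have hok'' := hr.pok hok
  have ha'' : a.cin P''.n := NP.cin_mono hle ha
  have hst'' := h.st.reach hr
  have hia : Ig P.n (a.eval P''.X) := NP.eval_ig he.ig ha
  have hra : red P.n (a.eval P''.X) = a.eval P.X := by rw [NP.red_eval he.ig ha, he.red_eq]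
  have := LL_fd hok ha
  have := LL_fd hok'' ha''
  have hdp0 := dp_ne hok ha
  have hwL : dp a P * w ∈ LL a P := mul_mem dp_mem (WW_le_LL h.st ha h.ming hw)
  have hw0' : dp a P * w ≠ 0 := mul_ne_zero hdp0 hw0
  obtain ⟨c₀, hc₀, hgi, hgr⟩ := hlead
  have hLη : ∀ y ∈ LL a P, y ∈ Cen P.n P''.S {a.eval P.X, η} := fun y hy =>
    mem_Cen2.2 ⟨D_mono le_rfl he.sub (LL_le_D hok ha hy), (Lf_comm hy rfl).symm, (Lf_comm hy hη.comm).symm⟩
  have hηC : η ∈ Cen P.n P''.S {a.eval P.X, η} := mem_Cen2.2 ⟨hη.mem, hη.comm, rfl⟩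
  -- step 1
  obtain ⟨hfC, hdC⟩ := finrank_RedA hle (CC a P'') fun y hy => D_In (Cen_le _ _ _ hy)
  have s1 : RedA hle (CC a P'') ≤ Cen P.n P''.S {a.eval P.X, η} := by
    rintro _ ⟨y, hy, hyi, rfl⟩
    obtain ⟨hy1, hy2⟩ := mem_Cen1.1 hy
    have e1 : a.eval P.X * red P.n y = red P.n y * a.eval P.X := by
      rw [← hra, ← red_mul hia hyi, ← red_mul hyi hia, hy2]
    refine mem_Cen2.2 ⟨red_mem_D _ hy1, e1, ?_⟩
    have e2 : dp a P * w * η * red P.n y = red P.n y * (dp a P * w * η) := by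
      rw [← hgr, ← red_mul hgi hyi, ← red_mul hyi hgi, smul_mul_assoc, mul_smul_comm, gg_eval',
        aeval_comm hy2]
    apply mul_left_cancel₀ hw0'
    rw [← mul_assoc, e2, ← mul_assoc, ← mul_assoc (dp a P * w), Lf_comm hwL e1]
  -- step 2
  obtain ⟨hfL, hdL⟩ := finrank_RedA hle (LL a P'') fun y hy => D_In (LL_le_D hok'' ha'' hy)
  have hsub : LL a P ≤ RedA hle (LL a P'') := Lf_le ⟨_, mem_Lf_self _ _, hia, hra⟩
  have hηL : η ∈ RedA hle (LL a P'') := by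
    have h1 : dp a P * w * η ∈ RedA hle (LL a P'') := by
      refine ⟨_, smul_mem_alg _ hc₀ ?_, hgi, hgr⟩
      rw [gg_eval']
      exact aeval_mem_alg hle _ (mem_Lf_self _ _) _
    have h5 := mul_mem (inv_mem_alg _ (hsub hwL)) h1
    rwa [← mul_assoc, inv_mul_cancel₀ hw0', one_mul] at h5
  have s2 : finrank (F P.n) (LL a P) * m ≤ finrank (F P''.n) (LL a P'') :=
    hdL ▸ finrank_mul_le _ _ hsub hηL m fun l hl => hη.ind l fun i hi => LL_le_D hok ha (hl i hi)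
  -- step 3
  have e1 := gam_mul hok ha
  have e2 := gam_mul hok'' ha''
  have hγ := h.ming P'' hr
  have hC1 : finrank (F P''.n) (CC a P'') ≤ finrank (F P.n) (CC a P) * m :=
    hdC ▸ (finrank_alg_mono s1).trans hη.cen
  obtain ⟨hgam, hd⟩ := arith_min (finrank_alg_pos (LL a P'')) (e1 ▸ finrank_alg_pos (CC a P)) s2 hγ
    (by rw [← e2, ← e1]; exact hC1)
  have hRC : RedA hle (CC a P'') = Cen P.n P''.S {a.eval P.X, η} := by
    refine alg_eq_of_le s1 (hη.cen.trans ?_)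
    rw [hdC, e2, e1, hgam, hd, mul_assoc]
  -- step 4
  have hming'' : 𝔖.MinG a P'' := fun P₃ h₃ => hgam ▸ h.ming P₃ (hr.trans h₃)
  -- step 5
  have s5 : ∀ w₁ ∈ 𝔖.WW a P, ∃ w' ∈ 𝔖.WW a P'', Ig P.n w' ∧ red P.n w' = w₁ := by
    intro w₁ hw₁
    obtain ⟨δ, hδ, hpr⟩ := id hw₁
    obtain ⟨u, hu, hui, hur⟩ := h.st.lift hr hδ
    obtain ⟨b, hb⟩ := exists_WW hok'' ha'' (Tan_le hu)
    obtain ⟨hbi, hb'⟩ := hb.red hle (Cen_le _ _ _) (NP.d1_ig he.ig hui ha)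
    refine ⟨b, ⟨u, hu, hb⟩, hbi, ?_⟩
    rw [hRC, NP.red_d1 he.ig hui ha, he.red_eq, hur] at hb'
    refine hb'.unique ⟨hLη _ (WW_le_LL h.st ha h.ming hw₁), fun c hc => ?_⟩
    obtain ⟨hc1, hc2, -⟩ := mem_Cen2.1 hc
    have hEc : E P.S c ∈ CC a P := by
      refine mem_Cen1.2 ⟨E_mem _ (D_In hc1), ?_⟩
      rw [← E_mul_left (eval_mem_D hok ha), ← E_mul_right (eval_mem_D hok ha), hc2]
    rw [τ_mul_E (d1_mem_D hok ha (Tan_le hδ)), τ_mul_E (Cen_le _ _ _ hpr.1), hpr.2 _ hEc]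
  -- step 6
  obtain ⟨hdi, hdr⟩ := hia.aeval (derivative (pp a P))
  rw [hra] at hdr
  change red P.n _ = dp a P at hdr
  have hdC'' : aeval (a.eval P''.X) (derivative (pp a P)) ∈ CC a P'' :=
    aeval_mem_alg hle _ (LL_le_CC hok'' ha'' (mem_Lf_self _ _)) _
  have hd0 : aeval (a.eval P''.X) (derivative (pp a P)) ≠ 0 := fun h0 => hdp0 (by rw [← hdr, h0, map_zero])
  have s6 : ∀ u ∈ 𝔖.Tan P''.n P''.S P''.X, Ig P.n ((gg a P).d1 P''.X u) →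
      ∃ b ∈ 𝔖.WW a P'', Ig P.n b ∧
        IsPr (Cen P.n P''.S {a.eval P.X, η}) (red P.n ((gg a P).d1 P''.X u)) (dp a P * red P.n b) := by
    intro u hu hi
    obtain ⟨b, hb⟩ := exists_WW hok'' ha'' (Tan_le hu)
    have hb2 : IsPr (CC a P'') ((gg a P).d1 P''.X u) (aeval (a.eval P''.X) (derivative (pp a P)) * b) := by
      refine ⟨mul_mem hdC'' hb.1, fun c hc => ?_⟩
      rw [τ_gg (mem_Cen1.1 hc).2.symm, hb.2 _ (mul_mem hc hdC''), mul_assoc]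
    obtain ⟨h1, h2⟩ := hb2.red hle (Cen_le _ _ _) hi
    have hbi : Ig P.n b := by
      have := (hdi.inv (hdr ▸ hdp0)).1.mul h1
      rwa [← mul_assoc, inv_mul_cancel₀ hd0, one_mul] at this
    refine ⟨b, ⟨u, hu, hb⟩, hbi, ?_⟩
    rwa [hRC, red_mul hdi hbi, hdr] at h2
  -- step 7
  obtain ⟨w', hw', hwi, hwr⟩ := s5 w hw
  obtain ⟨hwii, hwir⟩ := hwi.inv (hwr ▸ hw0)
  rw [hwr] at hwir
  obtain ⟨hf0, hd0'⟩ := finrank_RedA hle (𝔖.L0 a P'') fun y hy => D_In (L0_le_D hy)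
  have hrat : ∀ b ∈ 𝔖.WW a P'', Ig P.n b → w⁻¹ * red P.n b ∈ RedA hle (𝔖.L0 a P'') := fun b hb hbi =>
    ⟨w'⁻¹ * b, inv_mul_mem_L0 hst'' ha'' hming'' hw' hb, hwii.mul hbi, by rw [red_mul hwii hbi, hwir]⟩
  have s7 : 𝔖.L0e a P η ≤ RedA hle (𝔖.L0 a P'') := by
    refine Algebra.adjoin_le ?_
    rintro x (hx | rfl)
    · refine (Algebra.adjoin_le ?_ : 𝔖.L0 a P ≤ RedA hle (𝔖.L0 a P'')) hx
      rintro y ⟨w₁, h₁, w₂, h₂, rfl⟩
      by_cases h20 : w₂ = 0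
      · rw [h20, inv_zero, mul_zero]
        exact zero_mem _
      · obtain ⟨u₁, hu₁, hi₁, hr₁⟩ := s5 w₁ h₁
        obtain ⟨u₂, hu₂, hi₂, hr₂⟩ := s5 w₂ h₂
        obtain ⟨h3, h4⟩ := hi₂.inv (hr₂ ▸ h20)
        exact ⟨u₁ * u₂⁻¹, Algebra.subset_adjoin ⟨u₁, hu₁, u₂, hu₂, rfl⟩, hi₁.mul h3,
          by rw [red_mul hi₁ h3, h4, hr₁, hr₂]⟩
    · obtain ⟨y, hy, hi, hred⟩ := (mem_Red hle).1 h4
      obtain ⟨u, hu, rfl⟩ := mem_DG.1 hy
      obtain ⟨b, hb, hbi, hpr⟩ := s6 u hu hi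
      have h1 : dp a P * red P.n b = dp a P * w * x :=
        hpr.unique ⟨mul_mem (hLη _ hwL) hηC, fun c _ => by rw [hred]⟩
      have h2 : red P.n b = w * x := mul_left_cancel₀ hdp0 (by rw [h1, mul_assoc])
      have := hrat b hb hbi
      rwa [h2, ← mul_assoc, inv_mul_cancel₀ hw0, one_mul] at this
  have hfe : FiniteDimensional (F P.n) (𝔖.L0e a P η) := by
    have : FiniteDimensional (F P.n) (Subalgebra.toSubmodule (RedA hle (𝔖.L0 a P''))) := hf0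
    exact Submodule.finiteDimensional_of_le
      (show Subalgebra.toSubmodule (𝔖.L0e a P η) ≤ Subalgebra.toSubmodule (RedA hle (𝔖.L0 a P'')) from s7)
  have s7a : 𝔖.n0 a P * m ≤ finrank (F P.n) (𝔖.L0e a P η) := by
    have h1 : 𝔖.L0 a P ≤ 𝔖.L0e a P η := fun y hy => Algebra.subset_adjoin (Or.inl hy)
    have h2 : η ∈ 𝔖.L0e a P η := Algebra.subset_adjoin (Or.inr rfl)
    have := finrank_mul_le (𝔖.L0 a P) (𝔖.L0e a P η) h1 h2 m fun l hl => hη.ind l fun i hi => L0_le_D (hl i hi)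
    rw [n0]
    exact this
  have s7b : finrank (F P.n) (𝔖.L0e a P η) ≤ 𝔖.n0 a P'' := by
    have := finrank_alg_mono s7
    rw [hd0'] at this
    rw [n0]
    exact this
  -- step 8
  have f1 := bb_mul h.st ha h.ming
  have f2 := bb_mul hst'' ha'' hming''
  have hb := h.minb P'' hr hgam
  obtain ⟨hbb, hn⟩ := arith_min (n0_pos (P := P'')) (f1 ▸ finrank_alg_pos (LL a P)) (s7a.trans s7b) hb
    (by rw [← f2, ← f1, hd])
  have hR0 : 𝔖.L0e a P η = RedA hle (𝔖.L0 a P'') := by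
    refine alg_eq_of_le s7 ?_
    rw [hd0', ← n0, hn]
    exact s7a
  refine ⟨hgam, hbb, hn, fun c hc => ?_, fun y hy hi => ?_, ⟨w', hw', hwi, hwr⟩, fun ρ' hρ' => ?_, ?_⟩
  · rw [← hRC] at hc
    exact hc
  · rw [hR0]
    exact ⟨y, hy, hi, rfl⟩
  · obtain ⟨y, hy, hi, rfl⟩ := (mem_Red hle).1 hρ'
    obtain ⟨u, hu, rfl⟩ := mem_DG.1 hy
    obtain ⟨b, hb, hbi, hpr⟩ := s6 u hu hi
    refine ⟨w⁻¹ * red P.n b, hR0 ▸ hrat b hb hbi, fun c hc => ?_⟩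
    rw [mul_assoc (dp a P), ← mul_assoc w, mul_inv_cancel₀ hw0, one_mul]
    exact hpr.2 c hc
  · have hw'0 : w' ≠ 0 := fun h0 => hw0 (by rw [← hwr, h0, map_zero])
    have g1 := finrank_Ann (𝔖.L0 a P'') L0_le_D (inv_ne_zero hw'0) (𝔖.WW a P'')
      fun y hy => inv_mul_mem_L0 hst'' ha'' hming'' hw' hy
    have : FiniteDimensional (F P''.n) (Subalgebra.toSubmodule (𝔖.L0 a P'')) := L0_fd
    have : FiniteDimensional (F P.n) (Subalgebra.toSubmodule (𝔖.L0e a P η)) := hfe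
    obtain ⟨-, g2⟩ := finrank_Red hle (Ann (Subalgebra.toSubmodule (𝔖.L0 a P'')) w'⁻¹ (𝔖.WW a P''))
      fun y hy => D_In (L0_le_D hy.1)
    have g3 : Red P.n (Ann (Subalgebra.toSubmodule (𝔖.L0 a P'')) w'⁻¹ (𝔖.WW a P'')) ≤
        Ann (Subalgebra.toSubmodule (𝔖.L0e a P η)) (dp a P * w)⁻¹ (Red P.n (𝔖.DG (gg a P) P'')) := by
      intro x hx
      obtain ⟨μ, hμ, hμi, rfl⟩ := (mem_Red hle).1 hx
      refine ⟨?_, fun ρ' hρ' => ?_⟩
      · rw [hR0]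
        exact ⟨μ, hμ.1, hμi, rfl⟩
      · obtain ⟨y, hy, hi, rfl⟩ := (mem_Red hle).1 hρ'
        obtain ⟨u, hu, rfl⟩ := mem_DG.1 hy
        obtain ⟨b, hb⟩ := exists_WW hok'' ha'' (Tan_le hu)
        have k0 : red P.n (aeval (a.eval P''.X) (derivative (pp a P)) * w') = dp a P * w := by
          rw [red_mul hdi hwi, hdr, hwr]
        obtain ⟨k1, k2⟩ := (hdi.mul hwi).inv (k0 ▸ hw0')
        rw [k0] at k2
        have hcC : μ * (aeval (a.eval P''.X) (derivative (pp a P)) * w')⁻¹ ∈ CC a P'' :=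
          mul_mem (L0_le_CC hμ.1) (inv_mem_alg _ (mul_mem hdC'' (WW_le_CC hw')))
        rw [← k2, ← red_mul hμi k1, ← red_mul (hμi.mul k1) hi, τ_red]
        rw [τ_gg (mem_Cen1.1 hcC).2.symm, mul_inv_rev, mul_assoc μ, mul_assoc w'⁻¹, inv_mul_cancel₀ hd0, mul_one,
          hb.2 _ (mul_mem (L0_le_CC hμ.1) (inv_mem_alg _ (WW_le_CC hw'))), hμ.2 b ⟨u, hu, hb⟩, map_zero]
    have g4 := Submodule.finrank_mono g3
    rw [g2] at g4
    rw [ee, n0]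
    exact le_trans (Nat.sub_le_of_le_add g1.ge) g4

theorem Base.of_epc (h : 𝔖.Base a P ρ) {w η : A} {m : ℕ} {P'' : Pt} (hr : 𝔖.Reach P P'')
    (he : 𝔖.EPC a P w η m P'') : 𝔖.Base a P'' (ρ * ν (P''.S \ P.S)) :=
  ⟨h.st.reach hr, NP.cin_mono (hr.ext h.st.ok).le h.cin,
    fun P₃ h₃ => he.gam_eq ▸ h.ming P₃ (hr.trans h₃),
    fun P₃ h₃ hg => he.bb_eq ▸ h.minb P₃ (hr.trans h₃) (hg.trans he.gam_eq)⟩

theorem EPC.ee_ge {w η : A} {m : ℕ} {P'' : Pt} (he : 𝔖.EPC a P w η m P'') (hE : 𝔖.MinE a P)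
    (hr : 𝔖.Reach P P'') : 𝔖.ee a P ≤ 𝔖.ee a P'' := by
  by_contra hcon
  refine hcon (hE.2 P'' hr he.gam_eq he.bb_eq ?_)
  have h1 : 0 < 𝔖.n0 a P'' := n0_pos
  have h2 := he.n0_eq
  have hm : 1 ≤ m := Nat.pos_of_ne_zero fun h0 => by rw [h0, mul_zero] at h2; omega
  have h3 : 𝔖.n0 a P * 1 ≤ 𝔖.n0 a P * m := Nat.mul_le_mul_left _ hm
  have := hE.1
  omega

/-- a vector of `T ⊗ Δ` with prescribed derivative -/
theorem St.exists_ker_of_ext (h : 𝔖.St P ρ) {S' : Finset ℕ} (hS : P.S ⊆ S') {g : NP} (hg : g.cin P.n) {y : A}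
    (hy : y ∈ ext P.S S' (𝔖.DG g P)) : ∃ δ ∈ 𝔖.Ker P.n S' P.X, g.d1 P.X δ = y := by
  have : ∀ γ : G, ∃ δ : V2, γ ∈ GF (S' \ P.S) → δ ∈ 𝔖.Tan P.n P.S P.X ∧ g.d1 P.X δ = cmp P.S γ y := by
    intro γ
    by_cases hγ : γ ∈ GF (S' \ P.S)
    · obtain ⟨δ, h1, h2⟩ := hy.2 γ hγ
      exact ⟨δ, fun _ => ⟨h1, h2⟩⟩
    · exact ⟨0, fun h => absurd h hγ⟩
  choose δ hδ using this
  refine ⟨∑ γ ∈ GF (S' \ P.S), z γ • δ γ, ?_, ?_⟩
  · rw [Ker_ext h.ok.1 h.ok.2 hS]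
    refine Submodule.sum_mem _ fun γ hγ => smul_mem_extV hS Ker_le (z_mem_D _ hγ) ?_
    rw [← h.Tan_eq]
    exact (hδ γ hγ).1
  · rw [← NP.d1L_apply, map_sum, ← sum_cmp hS hy.1]
    refine Finset.sum_congr rfl fun γ hγ => ?_
    rw [NP.d1L_apply, NP.d1_mul fun i =>
      (D_comm Finset.disjoint_sdiff (mem_DV.1 h.ok.2 i) (z_mem_D P.n hγ)).symm, (hδ γ hγ).2]

/-- `DG ⊗ Δ` lies in the reduction of the new `DG` when the corrections are killed by `dg` (`Move.lift_weak`) -/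
theorem St.ext_DG_lift (h : 𝔖.St P ρ) {S' : Finset ℕ} {X' : V2} (hm : 𝔖.Move P S' X') {g : NP} (hg : g.cin P.n)
    {W₀ : Submodule (F P.n) V2} (hstd : 𝔖.Std P.n S' P.X (cf P.n 1 (X' - P.X)) W₀)
    (hW : ∀ w ∈ W₀, g.d1 P.X w = 0) {y : A} (hy : y ∈ ext P.S S' (𝔖.DG g P)) :
    ∃ u ∈ 𝔖.Tan (P.n + 1) S' X', Ig P.n u ∧ g.d1 P.X (red P.n u) = y := by
  obtain ⟨δ, hδ, rfl⟩ := h.exists_ker_of_ext hm.sub hg hy
  obtain ⟨u, hu, w, hw, hig, hred⟩ := hm.lift_weak h.ok hstd hδ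
  exact ⟨u, hu, hig, by rw [hred, NP.d1_add, hW w hw, add_zero]⟩

theorem St.d1_mem_ext (h : 𝔖.St P ρ) {S' : Finset ℕ} (hS : P.S ⊆ S') {g : NP} (hg : g.cin P.n) {δ : V2}
    (hδ : δ ∈ 𝔖.Ker P.n S' P.X) : g.d1 P.X δ ∈ ext P.S S' (𝔖.DG g P) := by
  refine ⟨NP.d1_mem _ (mem_DV.1 (DV_mono le_rfl hS h.ok.2)) (mem_DV.1 (Ker_le hδ)) hg, fun γ hγ => ?_⟩
  rw [Ker_ext h.ok.1 h.ok.2 hS] at hδ
  rw [NP.cmp_d1 h.ok.2 hγ δ hg]
  exact ⟨_, Ker_le_Tan (hδ.2 γ hγ), rfl⟩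

end Sys

end Crest.Agent.R180
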