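import Crest.Agent.R180.Div

/-!
# Row 180, the two kinds of leading terms `η`
-/

set_option autoImplicit false
set_option linter.unusedSectionVars false

namespace Crest.Agent.R180

open Module

/-- `η ∈ D n S'` commutes with `a`, has degree `≥ m` over `D n S` and a centraliser of the matching size -/
structure EtaOK (n : ℕ) (S S' : Finset ℕ) (a η : A) (m : ℕ) : Prop where
  mem : η ∈ D n S'
  comm : a * η = η * a
  cen : finrank (F n) (Cen n S' {a, η}) ≤ finrank (F n) (Cen n S {a}) * m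
  ind : ∀ l : ℕ → A, (∀ i < m, l i ∈ D n S) → ∑ i ∈ Finset.range m, l i * η ^ i = 0 → ∀ i < m, l i = 0

/-- A self-centralising `B` in the disjoint factor.  Let `m = dim F[B]` and `b i ∈ F[B]` dual to the powers `B^k`,
`k < m` (`dual_solve`, power basis).  `ind`: `E S (b k * ∑ l i * B^i) = l k`.  `cen`: `y ↦ (E S (b i * y))_i` maps
into the centraliser of `a` and is injective: expanding `y` over `D n (S' \ S)` (`sum_cmp` with the roles swapped;
`S' \ (S' \ S) = S`) the components commute with `B`, so lie in `F[B]`. -/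
theorem eta_B {n : ℕ} {S S' : Finset ℕ} (h : S ⊆ S') {a B : A} (ha : a ∈ D n S) (hB : B ∈ D n (S' \ S))
    (hmax : ∀ y ∈ D n (S' \ S), y * B = B * y → y ∈ Lf n B) :
    EtaOK n S S' a B (finrank (F n) (Lf n B)) := by
  have hd : Disjoint S (S' \ S) := Finset.disjoint_sdiff
  have hL : Lf n B ≤ D n (S' \ S) := (Lf_le_Cen hB).trans (Cen_le _ _ _)
  have := fdA_of_le_D _ hL
  have hsp := Submodule.span_range_natDegree_eq_adjoin (minpoly_facts hB).1 (minpoly.aeval (F n) B)
  have hli := linearIndependent_pow (K := F n) B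
  replace hsp : Submodule.span (F n) (Set.range fun i : Fin (minpoly (F n) B).natDegree =>
      B ^ (i : ℕ)) = Subalgebra.toSubmodule (Lf n B) := by
    rw [← hsp]
    congr 1
    ext y
    simp only [Finset.coe_image, Finset.coe_range, Set.mem_image, Set.mem_Iio, Set.mem_range]
    exact ⟨fun ⟨i, e⟩ => ⟨i, i.2, e⟩, fun ⟨i, hi, e⟩ => ⟨⟨i, hi⟩, e⟩⟩
  have hm : finrank (F n) (Lf n B) = (minpoly (F n) B).natDegree := by
    rw [← Subalgebra.finrank_toSubmodule, ← hsp, finrank_span_eq_card hli, Fintype.card_fin]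
  rw [hm]
  have : FiniteDimensional (F n) (Subalgebra.toSubmodule (Cen n S {a})) := Cen_fd n S {a}
  refine ⟨D_mono le_rfl Finset.sdiff_subset hB, D_comm hd ha hB, ?_, fun l hl h0 i hi => ?_⟩
  · have := (finrank_le_of_components (Finset.range (minpoly (F n) B).natDegree)
      (Subalgebra.toSubmodule (Cen n S' {a, B})) (Subalgebra.toSubmodule (Cen n S {a}))
      (fun i => (E S ∘ₗ LinearMap.mulLeft KK (B ^ i)).restrictScalars (F n))
      (fun y hy i _ => ?_) fun y hy h0 => ?_).2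
    · rwa [Finset.card_range, mul_comm] at this
    · obtain ⟨hy1, hy2⟩ := mem_Cen.mp hy
      refine mem_Cen.mpr ⟨E_mem S ((D_In (pow_mem hB i)).mul (D_In hy1)), ?_⟩
      rintro _ rfl
      change _ * E S (B ^ i * y) = E S (B ^ i * y) * _
      rw [← E_mul_left ha, ← E_mul_right ha, ← mul_assoc, D_comm hd ha (pow_mem hB i), mul_assoc,
        hy2 _ (by simp), mul_assoc]
    · obtain ⟨hy1, hy2⟩ := mem_Cen.mp hy
      have h1 : ∀ b ∈ Lf n B, E S (b * y) = 0 := fun b hb => by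
        have hb' : b ∈ Subalgebra.toSubmodule (Lf n B) := hb
        rw [← hsp] at hb'
        clear hb
        induction hb' using Submodule.span_induction with
        | mem x hx =>
          obtain ⟨i, rfl⟩ := hx
          exact h0 i (Finset.mem_range.mpr i.2)
        | zero => simp
        | add x x' _ _ e1 e2 => rw [add_mul, map_add, e1, e2, add_zero]
        | smul c x _ e1 => rw [F_smul, smul_mul_assoc, map_smul, e1, smul_zero]
      refine eq_zero_of_cmp (S := S' \ S) Finset.sdiff_subset hy1 fun γ hγ => ?_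
      rw [Finset.sdiff_sdiff_eq_self h] at hγ
      have hc := z_inv_mem_D n hγ
      rw [cmp_apply]
      generalize (z γ)⁻¹ = c at hc
      refine eq_zero_of_τ (Lf n B) (hmax _ (E_mem _ ((D_In hc).mul (D_In hy1))) ?_) fun b hb => ?_
      · rw [← E_mul_left hB, ← E_mul_right hB, mul_assoc, ← hy2 B (by simp), ← mul_assoc,
          D_comm hd hc hB, mul_assoc]
      · rw [← E_mul_left (hL hb), τ_E, ← mul_assoc, ← D_comm hd hc (hL hb), mul_assoc, ← τ_E S,
          E_mul_left hc, h1 b hb, mul_zero, map_zero]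
  · refine eq_zero_of_τ (D n S) (hl i hi) fun c hc => ?_
    have h1 := congrArg (fun y => E (S' \ S) (c * y)) h0
    simp only [mul_zero, map_zero, Finset.mul_sum, map_sum] at h1
    rw [Finset.sum_range] at h1
    have := Fintype.linearIndependent_iff.mp hli
      (fun k => ⟨τ (c * l k), ((D_In hc).mul (D_In (hl k k.2))).τ⟩) (by
        rw [← h1]
        refine Finset.sum_congr rfl fun k _ => ?_
        rw [← mul_assoc, E_mul_right (pow_mem hB k), E_disj hd.symm (mul_mem hc (hl k k.2)),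
          smul_mul_assoc, one_mul]
        rfl) ⟨i, hi⟩
    exact congrArg Subtype.val this

/-- the two generators of the `j`-th symbol algebra -/
noncomputable def xj (j : ℕ) : A := z (gj j 1 0)
noncomputable def yj (j : ℕ) : A := z (gj j 0 1)

theorem gj_mem_GF {S : Finset ℕ} {j : ℕ} (hj : j ∉ S) (a b : ZMod (j + 2)) :
    gj j a b ∈ GF (insert j S \ S) := by
  rw [Finset.insert_sdiff_of_notMem _ hj, Finset.sdiff_self]
  exact mem_GF.mpr (gs_gj j a b)

theorem xj_mem (n : ℕ) {S : Finset ℕ} {j : ℕ} (hj : j ∉ S) : xj j ∈ D n (insert j S \ S) :=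
  z_mem_D n (gj_mem_GF hj _ _)

theorem yj_mem (n : ℕ) {S : Finset ℕ} {j : ℕ} (hj : j ∉ S) : yj j ∈ D n (insert j S \ S) :=
  z_mem_D n (gj_mem_GF hj _ _)

theorem ν_insert {S : Finset ℕ} {j : ℕ} (hj : j ∉ S) : ν (insert j S \ S) = (j + 2) ^ 2 := by
  rw [Finset.insert_sdiff_of_notMem _ hj, Finset.sdiff_self]
  exact ν_single j

theorem eta_cmp_zl (S : Finset ℕ) (δ ε : G) (y : A) :
    cmp S (δ + ε) (z δ * y) = cc δ ε • cmp S ε y := by
  have : z (δ + ε) = (cc δ ε)⁻¹ • (z δ * z ε) := by rw [z_mul, inv_smul_smul₀ (cc_ne _ _)]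
  rw [cmp_apply, cmp_apply, ← map_smul, this, smul_inv₀, inv_inv, mul_inv_rev, smul_mul_assoc,
    mul_assoc, inv_mul_cancel_left₀ (z_ne _)]

theorem eta_cmp_zr {S S' : Finset ℕ} {δ : G} (hδ : δ ∈ GF (S' \ S)) (ε : G) (y : A) :
    cmp S (ε + δ) (y * z δ) = cc ε δ • cmp S ε y := by
  have : z (ε + δ) = (cc ε δ)⁻¹ • (z ε * z δ) := by rw [z_mul, inv_smul_smul₀ (cc_ne _ _)]
  rw [cmp_apply, cmp_apply, ← map_smul, ← mul_assoc, ← E_comm Finset.disjoint_sdiff (z_mem_D 0 hδ),
    this, smul_inv₀, inv_inv, mul_inv_rev, smul_mul_assoc, mul_smul_comm, mul_assoc,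
    mul_inv_cancel_left₀ (z_ne _)]

theorem eta_eq_gj {S : Finset ℕ} {j : ℕ} (hj : j ∉ S) {γ : G} (h : γ ∈ GF (insert j S \ S)) :
    γ = gj j (γ j).1 (γ j).2 := by
  rw [Finset.insert_sdiff_of_notMem _ hj, Finset.sdiff_self] at h
  exact eq_gj (mem_GF.mp h)

/-- if all commutators `[x, ω] c`, `[y, ω] c` have zero expectation, then `c` lies in `D n S` -/
theorem mem_D_of_E_comm {n : ℕ} {S : Finset ℕ} {j : ℕ} (hj : j ∉ S) {c : A} (hc : c ∈ D n (insert j S))
    (h1 : ∀ ω ∈ D n (insert j S \ S), E S ((xj j * ω - ω * xj j) * c) = 0)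
    (h2 : ∀ ω ∈ D n (insert j S \ S), E S ((yj j * ω - ω * yj j) * c) = 0) : c ∈ D n S := by
  have key : ∀ δ ∈ GF (insert j S \ S), (∀ ω ∈ D n (insert j S \ S),
      E S ((z δ * ω - ω * z δ) * c) = 0) → ∀ ε ∈ GF (insert j S \ S), cc ε δ ≠ cc δ ε →
        cmp S ε c = 0 := fun δ hδ h ε hε hne => by
    have h3 := h _ (z_inv_mem_D n (show ε + δ ∈ GF (insert j S \ S) from mem_GF.mpr
      ((gs_add _ _).trans (Finset.union_subset (mem_GF.mp hε) (mem_GF.mp hδ)))))
    rw [sub_mul, map_sub, mul_assoc, E_comm Finset.disjoint_sdiff (z_mem_D n hδ), mul_assoc,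
      mul_assoc, ← cmp_apply, ← cmp_apply, eta_cmp_zr hδ, add_comm, eta_cmp_zl, ← sub_smul] at h3
    exact (smul_eq_zero.mp h3).resolve_left (sub_ne_zero.mpr hne)
  rw [← sum_cmp (Finset.subset_insert j S) hc]
  refine sum_mem fun γ hγ => ?_
  by_cases h0 : γ = 0
  · rw [h0, z_zero, one_mul]; exact cmp_mem _ _ (D_In hc)
  have : cmp S γ c = 0 := by
    by_contra hne
    apply h0
    have e1 := (cc_X j γ).mp (by_contra fun h => hne (key _ (gj_mem_GF hj _ _) h1 γ hγ h))
    have e2 := (cc_Y j γ).mp (by_contra fun h => hne (key _ (gj_mem_GF hj _ _) h2 γ hγ h))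
    rw [eta_eq_gj hj hγ, e1, e2, gj_zero]
  rw [this, mul_zero]
  exact zero_mem _

/-- The commutation chain.  Compare the components at `gj j a' b'` of `η μ = μ η`: for `b' ≠ 0`,
`μ_(a'-1, b') = κ • v * μ_(a', b'-1)` with `κ ≠ 0 ↔ a' ≠ 0` (`cc_X`, `cc_Y`). -/
theorem chain {n : ℕ} {S : Finset ℕ} {j : ℕ} (hj : j ∉ S) {v μ : A} (hv : v ∈ D n S)
    (hμ : μ ∈ D n (insert j S)) (hc : (xj j + v * yj j) * μ = μ * (xj j + v * yj j)) (hvμ : v * μ = μ * v)
    (a : ZMod (j + 2)) (k : ℕ) (hk : k < j + 2) :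
    ∃ κ ∈ K n, cmp S (gj j (a - k) k) μ = κ • (v ^ k * cmp S (gj j a 0) μ) ∧ (k ≤ a.val → κ ≠ 0) := by
  induction k with
  | zero => exact ⟨1, one_mem _, by simp, fun _ => one_ne_zero⟩
  | succ k ih =>
    obtain ⟨κ, hκ, e, hne⟩ := ih (by omega)
    have hX := gj_mem_GF hj 1 0
    have hY := gj_mem_GF hj 0 1
    have hγ := gj_mem_GF hj (a - k) (k + 1)
    have e1 : gj j (a - k) (k + 1) = gj j 1 0 + gj j (a - (k + 1 : ℕ)) (k + 1 : ℕ) := by
      rw [gj_add]; congr 1 <;> push_cast <;> ring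
    have e2 : gj j (a - k) (k + 1) = gj j 0 1 + gj j (a - k) k := by
      rw [gj_add]; congr 1 <;> ring
    have h1 := congrArg (cmp S (gj j (a - k) (k + 1))) hc
    rw [add_mul, mul_add, mul_assoc, ← mul_assoc μ, ← hvμ, mul_assoc, map_add, map_add,
      cmp_mul_left hγ hv, cmp_mul_left hγ hv, xj, yj] at h1
    have a1 := eta_cmp_zl S (gj j 1 0) (gj j (a - (k + 1 : ℕ)) (k + 1 : ℕ)) μ
    have a2 := eta_cmp_zr hX (gj j (a - (k + 1 : ℕ)) (k + 1 : ℕ)) μ
    have a3 := eta_cmp_zl S (gj j 0 1) (gj j (a - k) k) μ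
    have a4 := eta_cmp_zr hY (gj j (a - k) k) μ
    rw [add_comm] at a2 a4
    rw [← e1] at a1 a2
    rw [← e2] at a3 a4
    rw [a1, a2, a3, a4, e] at h1
    have hK : ∀ γ δ, cc γ δ ∈ K n := fun γ δ => K_mono (Nat.zero_le n) (cc_mem γ δ)
    have c1 : cc (gj j 1 0) (gj j (a - (k + 1 : ℕ)) (k + 1 : ℕ)) -
        cc (gj j (a - (k + 1 : ℕ)) (k + 1 : ℕ)) (gj j 1 0) ≠ 0 := fun h => by
      have := (cc_X j _).mp (sub_eq_zero.mp h).symm
      rw [gj_apply, ZMod.natCast_eq_zero_iff] at this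
      exact absurd (Nat.le_of_dvd (by omega) this) (by omega)
    refine ⟨(cc (gj j 1 0) (gj j (a - (k + 1 : ℕ)) (k + 1 : ℕ)) -
        cc (gj j (a - (k + 1 : ℕ)) (k + 1 : ℕ)) (gj j 1 0))⁻¹ *
        ((cc (gj j (a - k) k) (gj j 0 1) - cc (gj j 0 1) (gj j (a - k) k)) * κ),
      mul_mem (inv_mem (sub_mem (hK _ _) (hK _ _))) (mul_mem (sub_mem (hK _ _) (hK _ _)) hκ), ?_,
      fun hka => mul_ne_zero (inv_ne_zero c1) (mul_ne_zero (fun h => ?_) (hne (by omega)))⟩
    · rw [mul_smul, eq_inv_smul_iff₀ c1, pow_succ', mul_assoc]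
      simp only [mul_smul_comm] at h1
      rw [sub_smul, sub_eq_iff_eq_add, mul_smul, sub_smul, sub_add_eq_add_sub, eq_sub_iff_add_eq,
        h1, add_comm]
    · have := (cc_Y j _).mp (sub_eq_zero.mp h)
      rw [gj_apply, sub_eq_zero] at this
      rw [this, ZMod.val_natCast_of_lt (by omega)] at hka
      omega

theorem eta_zero_of_chain {n : ℕ} {S : Finset ℕ} {j : ℕ} (hj : j ∉ S) {v μ : A} (hv : v ∈ D n S)
    (hμ : μ ∈ D n (insert j S)) (hc : (xj j + v * yj j) * μ = μ * (xj j + v * yj j))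
    (hvμ : v * μ = μ * v) (h0 : ∀ a, cmp S (gj j a 0) μ = 0) : μ = 0 := by
  refine eq_zero_of_cmp (Finset.subset_insert j S) hμ fun γ hγ => ?_
  obtain ⟨κ, -, e, -⟩ := chain hj hv hμ hc hvμ ((γ j).1 + (γ j).2) (γ j).2.val (ZMod.val_lt _)
  rw [ZMod.natCast_zmod_val, add_sub_cancel_right, ← eta_eq_gj hj hγ, h0, mul_zero, smul_zero] at e
  exact e

/-- `cen`: `μ ↦ (cmp S (gj j a 0) μ)_a` is injective by `chain`.  `ind`: `η^i - x^i` lies in the span over
`D n S` of the `z (gj j a b)` with `1 ≤ b.val ≤ i`, so `cmp S (gj j k 0) (∑ l i η^i)` is a nonzero multiple of `l k`. -/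
theorem eta_xy {n : ℕ} {S : Finset ℕ} {j : ℕ} (hj : j ∉ S) {a v : A} (ha : a ∈ D n S) (hv : v ∈ Lf n a) :
    EtaOK n S (insert j S) a (xj j + v * yj j) (j + 2) := by
  have hS := Finset.subset_insert j S
  have hd : Disjoint S (insert j S \ S) := Finset.disjoint_sdiff
  have hvD : v ∈ D n S := Cen_le _ _ _ (Lf_le_Cen ha hv)
  have hx := xj_mem n hj
  have hy := yj_mem n hj
  have : FiniteDimensional (F n) (Subalgebra.toSubmodule (Cen n S {a})) := Cen_fd n S {a}
  have : Fact (1 < j + 2) := ⟨by omega⟩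
  refine ⟨add_mem (D_mono le_rfl Finset.sdiff_subset hx) (mul_mem (D_mono le_rfl hS hvD)
    (D_mono le_rfl Finset.sdiff_subset hy)), ?_, ?_, fun l hl h0 i hi => ?_⟩
  · rw [mul_add, add_mul, D_comm hd ha hx, ← mul_assoc, ← Lf_comm hv rfl, mul_assoc,
      D_comm hd ha hy, mul_assoc]
  · have := (finrank_le_of_components (Finset.univ : Finset (ZMod (j + 2)))
      (Subalgebra.toSubmodule (Cen n (insert j S) {a, xj j + v * yj j}))
      (Subalgebra.toSubmodule (Cen n S {a}))
      (fun i => (cmp S (gj j i 0)).restrictScalars (F n)) (fun μ hμ i _ => ?_) fun μ hμ h0 => ?_).2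
    · rwa [Finset.card_univ, ZMod.card, mul_comm] at this
    · obtain ⟨h1, h2⟩ := mem_Cen.mp hμ
      refine mem_Cen.mpr ⟨cmp_mem _ _ (D_In h1), ?_⟩
      rintro _ rfl
      change _ * cmp S _ μ = cmp S _ μ * _
      rw [← cmp_mul_left (gj_mem_GF hj _ _) ha, ← cmp_mul_right _ _ ha, h2 _ (by simp)]
    · obtain ⟨h1, h2⟩ := mem_Cen.mp hμ
      exact eta_zero_of_chain hj hvD h1 (h2 _ (by simp)) (Lf_comm hv (h2 _ (by simp)))
        fun i => h0 i (Finset.mem_univ _)
  · have step : ∀ (k : ℕ) (a b : ZMod (j + 2)), cmp S (gj j a b) ((xj j + v * yj j) ^ (k + 1)) =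
        cc (gj j 1 0) (gj j (a - 1) b) • cmp S (gj j (a - 1) b) ((xj j + v * yj j) ^ k) +
        cc (gj j 0 1) (gj j a (b - 1)) • (v * cmp S (gj j a (b - 1)) ((xj j + v * yj j) ^ k)) := by
      intro k a b
      rw [pow_succ', add_mul, map_add, mul_assoc, cmp_mul_left (gj_mem_GF hj _ _) hvD,
        ← mul_smul_comm, ← eta_cmp_zl, ← eta_cmp_zl, gj_add, gj_add]
      simp [xj, yj]
    have base : ∀ a b : ZMod (j + 2), cmp S (gj j a b) 1 = if a = 0 ∧ b = 0 then 1 else 0 := by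
      intro a b
      have := cmp_z_mul (gj_mem_GF hj a b) (gj_mem_GF hj 0 0) (one_mem (D n S))
      rw [gj_zero, z_zero, one_mul] at this
      rw [this]
      congr 1
      refine propext ⟨fun h => ?_, fun h => by rw [h.1, h.2, gj_zero]⟩
      have := gj_apply j a b
      rw [h] at this
      exact Prod.mk_eq_zero.mp this.symm
    have hQ : ∀ (k : ℕ) (a b : ZMod (j + 2)), k < b.val →
        cmp S (gj j a b) ((xj j + v * yj j) ^ k) = 0 := by
      intro k
      induction k with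
      | zero =>
        intro a b hb
        rw [pow_zero, base, if_neg]
        rintro ⟨-, rfl⟩
        simp at hb
      | succ k ih =>
        intro a b hb
        have : (b - 1).val = b.val - 1 := by
          rw [ZMod.val_sub (by rw [ZMod.val_one]; omega), ZMod.val_one]
        rw [step, ih _ _ (by omega), ih _ _ (by omega)]
        simp
    have hR : ∀ k : ℕ, k < j + 2 → ∃ κ : KK, κ ≠ 0 ∧ ∀ a : ZMod (j + 2),
        cmp S (gj j a 0) ((xj j + v * yj j) ^ k) = if a = k then κ • 1 else 0 := by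
      intro k
      induction k with
      | zero => exact fun _ => ⟨1, one_ne_zero, fun a => by rw [pow_zero, base]; simp⟩
      | succ k ih =>
        intro hk
        obtain ⟨κ, hκ, e⟩ := ih (by omega)
        refine ⟨cc (gj j 1 0) (gj j k 0) * κ, mul_ne_zero (cc_ne _ _) hκ, fun a => ?_⟩
        rw [step, hQ k a (0 - 1) (by rw [zero_sub, ZMod.val_neg_one]; omega), e, mul_zero, smul_zero,
          add_zero]
        push_cast
        by_cases h : a = k + 1
        · simp [h, mul_smul]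
        · rw [if_neg h, if_neg fun h' => h (sub_eq_iff_eq_add.mp h'), smul_zero]
    have h1 := congrArg (cmp S (gj j i 0)) h0
    obtain ⟨κ, hκ, e⟩ := hR i hi
    rw [map_sum, map_zero, Finset.sum_eq_single i, cmp_mul_left (gj_mem_GF hj _ _) (hl i hi), e,
      if_pos rfl, mul_smul_comm, mul_one] at h1
    · exact (smul_eq_zero.mp h1).resolve_left hκ
    · intro k hk hki
      have hk := Finset.mem_range.mp hk
      obtain ⟨κ', -, e'⟩ := hR k hk
      rw [cmp_mul_left (gj_mem_GF hj _ _) (hl k hk), e', if_neg, mul_zero]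
      intro h
      have := congrArg ZMod.val h
      rw [ZMod.val_natCast_of_lt hi, ZMod.val_natCast_of_lt hk] at this
      exact hki this.symm
    · exact fun h => absurd (Finset.mem_range.mpr hi) h

/-- only the components `cmp S (gj j a 0)` with `a.val < e` survive -/
theorem finrank_le_of_chain {n : ℕ} {S : Finset ℕ} {j : ℕ} (hj : j ∉ S) {v : A} (hv : v ∈ D n S)
    (N Y : Submodule (F n) A) [FiniteDimensional (F n) N] (e : ℕ)
    (hN : ∀ g ∈ N, (∀ k ≤ e, v ^ k * g ∈ N) → g = 0)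
    (hY : ∀ μ ∈ Y, μ ∈ ext S (insert j S) N ∧ (xj j + v * yj j) * μ = μ * (xj j + v * yj j) ∧ v * μ = μ * v) :
    finrank (F n) Y ≤ e * finrank (F n) N := by
  have := (finrank_le_of_components (Finset.univ.filter fun a : ZMod (j + 2) => a.val < e) Y N
    (fun i => (cmp S (gj j i 0)).restrictScalars (F n))
    (fun μ hμ i _ => (hY μ hμ).1.2 _ (gj_mem_GF hj _ _)) fun μ hμ h0 => ?_).2
  · refine this.trans (Nat.mul_le_mul_right _ ?_)
    rw [← Finset.card_range e]
    exact Finset.card_le_card_of_injOn ZMod.val (fun a ha => by simpa using ha)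
      (ZMod.val_injective _).injOn
  · obtain ⟨h1, h2, h3⟩ := hY μ hμ
    refine eta_zero_of_chain hj hv h1.1 h2 h3 fun a => ?_
    by_cases ha : a.val < e
    · exact h0 a (by simpa using ha)
    refine hN _ (h1.2 _ (gj_mem_GF hj _ _)) fun k hk => ?_
    obtain ⟨κ, hκ, e1, hne⟩ := chain hj hv h1.1 h2 h3 a k (by have := a.val_lt; omega)
    rw [← inv_smul_eq_iff₀ (hne (by omega))] at e1
    rw [← e1]
    exact N.smul_mem (⟨κ⁻¹, inv_mem hκ⟩ : F n) (h1.2 _ (gj_mem_GF hj _ _))

end Crest.Agent.R180
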