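import Crest.Agent.R180.Grow

/-!
# Row 180, the limit division ring

Work in the ring `Filter.Germ atTop A`.  `𝔄` is the subring of the germs of `m ↦ u.eval (P m).X` for terms `u` with
constants in `C`.  It is countable (terms over a countable set: `NP.cs`; enumerate `C` and map a countable type of
terms onto them, or induct on depth), has characteristic zero, and the constant germs of elements of `C` are central.
Every element is killed by a monic polynomial with such coefficients, either `X` or with invertible constant term, so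
`𝔄` is a division ring (`DivisionRing.ofIsUnitOrEqZero`) that is algebraic over its centre `Z` and generated by the two
variables.  Suppose it is finite-dimensional over `Z`.  Let `κ = Subring.closure C ⊆ KK`, which maps into `Z`; `Z` is
integral over `κ`.  With a basis `e i` of `𝔄` over `Z`, adjoin to `κ` the structure constants and the coordinates of
`1, x, y`: this `κ₁` is a finite `κ`-module (`Algebra.finite_adjoin_of_finite_of_isIntegral`), the `κ₁`-span of the
`e i` contains `1` and is stable under left multiplication by all of `𝔄` (induction on terms), so `𝔄` is a finite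
`κ`-module, spanned by germs of terms `u 1, …, u N`.  The finitely many relations `1 = ∑ λ u`, `x_k u_i = ∑ λ u` hold at
all large `m` with `λ ∈ K (P m).n`, so `gen (P m)` lies in the span of the `(u j).eval (P m).X` and `dimg (P m) ≤ N`.
-/

set_option autoImplicit false
set_option linter.unusedSectionVars false

namespace Crest.Agent.R180

open Module Polynomial Filter

/-- Artin–Tate type facts for an integral two-generated division algebra -/
theorem final_abs (κ D : Type) [CommRing κ] [DivisionRing D] [Algebra κ D] [Algebra.IsIntegral κ D] (x y : D)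
    (h : Algebra.adjoin κ ({x, y} : Set D) = ⊤) :
    Algebra.IsAlgebraic (Subring.center D) D ∧ Algebra.adjoin (Subring.center D) ({x, y} : Set D) = ⊤ ∧
      (FiniteDimensional (Subring.center D) D → Module.Finite κ D) := by
  classical
  let : Algebra κ (Subring.center D) := ((algebraMap κ D).codRestrict (Subring.center D) fun c =>
    Subring.mem_center_iff.2 fun g => (Algebra.commutes c g).symm).toAlgebra
  have : IsScalarTower κ (Subring.center D) D := IsScalarTower.of_algebraMap_eq fun _ => rfl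
  have : Algebra.IsIntegral (Subring.center D) D :=
    ⟨fun a => (Algebra.IsIntegral.isIntegral (R := κ) a).tower_top⟩
  refine ⟨inferInstance, ?_, fun hf => ?_⟩
  · rw [eq_top_iff]
    intro a _
    have ha : a ∈ Algebra.adjoin κ ({x, y} : Set D) := h ▸ Algebra.mem_top
    have := Algebra.adjoin_le (R := κ) (S := (Algebra.adjoin (Subring.center D) ({x, y} : Set D)).restrictScalars κ)
      (s := {x, y}) (Algebra.subset_adjoin (R := Subring.center D))
    exact this ha
  · obtain ⟨B, hB, hB'⟩ := exists_subalgebra_of_fg κ (Subring.center D) D ⟨{x, y}, by simpa using h⟩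
      (Module.finite_def.1 hf)
    have : Algebra.IsIntegral κ (Subring.center D) := ⟨fun z =>
      (isIntegral_algHom_iff (IsScalarTower.toAlgHom κ (Subring.center D) D) Subtype.val_injective).1
        (Algebra.IsIntegral.isIntegral _)⟩
    have : Algebra.FiniteType κ B := (Subalgebra.fg_iff_finiteType B).1 hB
    have : Algebra.IsIntegral κ B := ⟨fun z =>
      (isIntegral_algHom_iff B.val Subtype.val_injective).1 (Algebra.IsIntegral.isIntegral _)⟩
    have : Module.Finite κ B := Algebra.IsIntegral.finite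
    have : Module.Finite B D := Module.finite_def.2 hB'
    exact Module.Finite.trans B D

/-- germs of sequences -/
def GA : Type := Germ (atTop : Filter ℕ) A

noncomputable instance : Ring GA := inferInstanceAs (Ring (Germ (atTop : Filter ℕ) A))

noncomputable def GA.mk0 : (ℕ → A) →+* GA := Germ.coeRingHom atTop

theorem GA.mk0_surj : Function.Surjective GA.mk0 := fun x => Germ.inductionOn x fun f => ⟨f, rfl⟩

noncomputable instance : Algebra KK GA := (GA.mk0.comp (algebraMap KK (ℕ → A))).toAlgebra' fun c x => by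
  obtain ⟨f, rfl⟩ := GA.mk0_surj x
  rw [RingHom.comp_apply, ← map_mul, ← map_mul, Algebra.commutes]

noncomputable def GA.mk : (ℕ → A) →ₐ[KK] GA := { GA.mk0 with commutes' := fun _ => rfl }

theorem GA.mk_surj : Function.Surjective GA.mk := GA.mk0_surj

theorem GA.mk_eq {f g : ℕ → A} : GA.mk f = GA.mk g ↔ ∀ᶠ m in atTop, f m = g m := Germ.coe_eq

instance : Nontrivial GA := ⟨⟨GA.mk 0, GA.mk 1, fun h => by
  obtain ⟨m, hm⟩ := (GA.mk_eq.1 h).exists
  exact zero_ne_one hm⟩⟩

instance : CharZero GA := charZero_of_injective_algebraMap (algebraMap KK GA).injective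

theorem final_terms (P : ℕ → Pt) (C : Set KK) (h0 : (0 : KK) ∈ C) (h1 : (1 : KK) ∈ C) (h2 : (-1 : KK) ∈ C) {a : GA}
    (ha : a ∈ Algebra.adjoin (Subring.closure C) (Set.range fun i => GA.mk fun m => (P m).X i)) :
    ∃ u : NP, u.cs (· ∈ C) ∧ GA.mk (fun m => u.eval (P m).X) = a := by
  induction ha using Algebra.adjoin_induction with
  | mem x hx =>
    obtain ⟨i, rfl⟩ := hx
    exact ⟨.var i, trivial, rfl⟩
  | algebraMap c =>
    obtain ⟨c, hc⟩ := c
    change ∃ u : NP, u.cs (· ∈ C) ∧ GA.mk (fun m => u.eval (P m).X) = algebraMap KK GA c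
    induction hc using Subring.closure_induction with
    | mem c hc => exact ⟨.const c, hc, rfl⟩
    | zero => exact ⟨.const 0, h0, rfl⟩
    | one => exact ⟨.const 1, h1, rfl⟩
    | add x y _ _ hx hy =>
      obtain ⟨a, ha, e⟩ := hx
      obtain ⟨b, hb, e'⟩ := hy
      exact ⟨.add a b, ⟨ha, hb⟩, by rw [map_add, ← e, ← e', ← map_add]; rfl⟩
    | neg x _ hx =>
      obtain ⟨a, ha, e⟩ := hx
      refine ⟨.mul (.const (-1)) a, ⟨h2, ha⟩, ?_⟩
      rw [map_neg, ← e, ← map_neg]
      congr 1
      funext m
      simp [NP.eval]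
    | mul x y _ _ hx hy =>
      obtain ⟨a, ha, e⟩ := hx
      obtain ⟨b, hb, e'⟩ := hy
      exact ⟨.mul a b, ⟨ha, hb⟩, by rw [map_mul, ← e, ← e', ← map_mul]; rfl⟩
  | add x y _ _ hx hy =>
    obtain ⟨a, ha, rfl⟩ := hx
    obtain ⟨b, hb, rfl⟩ := hy
    exact ⟨.add a b, ⟨ha, hb⟩, by rw [← map_add]; rfl⟩
  | mul x y _ _ hx hy =>
    obtain ⟨a, ha, rfl⟩ := hx
    obtain ⟨b, hb, rfl⟩ := hy
    exact ⟨.mul a b, ⟨ha, hb⟩, by rw [← map_mul]; rfl⟩

theorem final_poly (C : Set KK) {k : ℕ} (p : (F k)[X]) (hm : p.Monic) (hX : p = X ∨ p.coeff 0 ≠ 0)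
    (hc : ∀ i, (p.coeff i : KK) ∈ C) (hi : (p.coeff 0 : KK)⁻¹ ∈ C) (f : ℕ → A)
    (hf : ∀ᶠ m in atTop, aeval (f m) p = 0) :
    ∃ q : (Subring.closure C)[X], q.Monic ∧ aeval (GA.mk f) q = 0 ∧ (GA.mk f = 0 ∨ IsUnit (q.coeff 0)) := by
  obtain ⟨q, hq, -, hq'⟩ := lifts_and_natDegree_eq_and_monic (f := algebraMap (Subring.closure C) KK)
    (p := p.map (algebraMap (F k) KK)) ((lifts_iff_coeff_lifts _).2 fun n =>
      ⟨⟨p.coeff n, Subring.subset_closure (hc n)⟩, by rw [coeff_map]; rfl⟩) (hm.map _)
  refine ⟨q, hq', ?_, hX.imp (fun h => ?_) fun h => ?_⟩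
  · rw [← aeval_map_algebraMap KK, hq, aeval_algHom_apply, ← map_zero GA.mk, GA.mk_eq]
    refine hf.mono fun m hm => ?_
    have := aeval_algHom_apply (Pi.evalAlgHom KK (fun _ : ℕ => A) m) f (p.map (algebraMap (F k) KK))
    rw [aeval_map_algebraMap] at this
    exact this.symm.trans hm
  · rw [← map_zero GA.mk, GA.mk_eq]
    exact hf.mono fun m hm => by simpa [h] using hm
  · have e : ((q.coeff 0 : Subring.closure C) : KK) = p.coeff 0 := by
      have := congrArg (fun r => coeff r 0) hq
      simp only [coeff_map] at this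
      exact this
    refine IsUnit.of_mul_eq_one ⟨_, Subring.subset_closure hi⟩ (Subtype.ext ?_)
    rw [Subring.coe_mul, e]
    exact mul_inv_cancel₀ fun h' => h (Subtype.ext h')

theorem isUnit_of_aeval {κ D : Type} [CommRing κ] [Ring D] [Algebra κ D] {a : D} {q : κ[X]} (h : aeval a q = 0)
    (hq : IsUnit (q.coeff 0)) : IsUnit a := by
  have e := congrArg (aeval a) (X_mul_divX_add q)
  have e' := congrArg (aeval a) (divX_mul_X_add q)
  rw [h, map_add, map_mul, aeval_X, aeval_C, add_eq_zero_iff_eq_neg] at e e'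
  have hu := (hq.map (algebraMap κ D)).neg
  obtain ⟨b, hb⟩ := hu.exists_right_inv
  obtain ⟨c, hc⟩ := hu.exists_left_inv
  exact isUnit_iff_exists_and_exists.2 ⟨⟨aeval a q.divX * b, by rw [← mul_assoc, e, hb]⟩,
    ⟨c * aeval a q.divX, by rw [mul_assoc, e', hc]⟩⟩

theorem final_not_finite (P : ℕ → Pt) (C : Set KK) (hK : ∀ c ∈ C, ∀ᶠ m in atTop, c ∈ K (P m).n)
    (hd : ∀ m, m ≤ dimg (P m)) (B : Subalgebra (Subring.closure C) GA)
    (hB : ∀ i, (GA.mk fun m => (P m).X i) ∈ B) : ¬ Module.Finite (Subring.closure C) B := by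
  intro hf
  have hK' : ∀ c : Subring.closure C, ∀ᶠ m in atTop, (c : KK) ∈ K (P m).n := by
    rintro ⟨c, hc⟩
    change ∀ᶠ m in atTop, c ∈ K (P m).n
    induction hc using Subring.closure_induction with
    | mem c hc => exact hK c hc
    | zero => exact .of_forall fun m => zero_mem _
    | one => exact .of_forall fun m => one_mem _
    | add x y _ _ hx hy => exact (hx.and hy).mono fun m h => add_mem h.1 h.2
    | neg x _ hx => exact hx.mono fun m h => neg_mem h
    | mul x y _ _ hx hy => exact (hx.and hy).mono fun m h => mul_mem h.1 h.2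
  obtain ⟨N, s, hs⟩ := Module.Finite.exists_fin (R := Subring.closure C) (M := B)
  choose f hf using fun j => GA.mk_surj (s j : GA)
  have key : ∀ g : ℕ → A, GA.mk g ∈ B →
      ∀ᶠ m in atTop, g m ∈ Submodule.span (F (P m).n) (Set.range fun j => f j m) := by
    intro g hg
    obtain ⟨c, hc⟩ := (Submodule.mem_span_range_iff_exists_fun _).1
      (hs ▸ Submodule.mem_top : (⟨_, hg⟩ : B) ∈ Submodule.span (Subring.closure C) (Set.range s))
    have e : GA.mk (∑ j, (c j : KK) • f j) = GA.mk g := by
      have := congrArg Subtype.val hc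
      simp only [AddSubmonoidClass.coe_finsetSum, Subalgebra.coe_smul] at this
      rw [map_sum, ← this]
      exact Finset.sum_congr rfl fun j _ => by rw [map_smul, hf]; rfl
    filter_upwards [GA.mk_eq.1 e, eventually_all.2 fun j => hK' (c j)] with m h1 h2
    rw [← h1, Finset.sum_apply]
    exact Submodule.sum_mem _ fun j _ =>
      Submodule.smul_mem _ (⟨c j, h2 j⟩ : F (P m).n) (Submodule.subset_span ⟨j, rfl⟩)
  obtain ⟨m, h1, h2, h3⟩ := ((key 1 (by rw [map_one]; exact B.one_mem)).and ((eventually_all.2 fun i =>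
    eventually_all.2 fun j => key ((fun m => (P m).X i) * f j) (by
      rw [map_mul, hf]; exact B.mul_mem (hB i) (s j).2)).and (eventually_gt_atTop N))).exists
  set V := Submodule.span (F (P m).n) (Set.range fun j => f j m) with hV
  have h4 : ∀ a ∈ gen (P m), ∀ v ∈ V, a * v ∈ V := by
    intro a ha
    induction ha using Algebra.adjoin_induction with
    | mem x hx =>
      obtain ⟨i, rfl⟩ := hx
      intro v hv
      refine (Submodule.span_le (p := V.comap (LinearMap.mulLeft (F (P m).n) ((P m).X i)))).2 ?_ hv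
      rintro _ ⟨j, rfl⟩
      exact h2 i j
    | algebraMap c => exact fun v hv => by rw [← Algebra.smul_def]; exact V.smul_mem c hv
    | add x y _ _ hx hy => exact fun v hv => by rw [add_mul]; exact V.add_mem (hx v hv) (hy v hv)
    | mul x y _ _ hx hy => exact fun v hv => by rw [mul_assoc]; exact hx _ (hy v hv)
  have : Module.Finite (F (P m).n) V := Module.Finite.span_of_finite _ (Set.finite_range _)
  have h5 : Subalgebra.toSubmodule (gen (P m)) ≤ V := fun a ha => by simpa using h4 a ha 1 h1
  have h6 := (Submodule.finrank_mono h5).trans (finrank_range_le_card fun j => f j m)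
  rw [Subalgebra.finrank_toSubmodule, Fintype.card_fin] at h6
  exact absurd ((hd m).trans h6) (not_le.2 h3)

theorem final (P : ℕ → Pt) (C : Set KK) (hC : C.Countable) (h0 : (0 : KK) ∈ C) (h1 : (1 : KK) ∈ C)
    (h2 : (-1 : KK) ∈ C) (hK : ∀ c ∈ C, ∀ᶠ m in atTop, c ∈ K (P m).n) (hd : ∀ m, m ≤ dimg (P m))
    (hp : ∀ a : NP, a.cs (· ∈ C) → ∃ (k : ℕ) (p : (F k)[X]), p.Monic ∧ (p = X ∨ p.coeff 0 ≠ 0) ∧
      (∀ i, (p.coeff i : KK) ∈ C) ∧ (p.coeff 0 : KK)⁻¹ ∈ C ∧
        ∀ᶠ m in atTop, aeval (a.eval (P m).X) p = 0) :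
    ∃ (D : Type) (_ : DivisionRing D), Countable D ∧ CharZero D ∧
      Algebra.IsAlgebraic (Subring.center D) D ∧
      (∃ x y : D, Algebra.adjoin (Subring.center D) ({x, y} : Set D) = ⊤) ∧
      ¬ FiniteDimensional (Subring.center D) D := by
  let x : Fin 2 → GA := fun i => GA.mk fun m => (P m).X i
  let B := Algebra.adjoin (Subring.closure C) (Set.range x)
  have hq : ∀ a : B, ∃ q : (Subring.closure C)[X], q.Monic ∧ aeval a q = 0 ∧ (a = 0 ∨ IsUnit (q.coeff 0)) := by
    rintro ⟨a, ha⟩
    obtain ⟨u, hu, rfl⟩ := final_terms P C h0 h1 h2 ha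
    obtain ⟨k, p, hm, hX, hc, hi, hf⟩ := hp u hu
    obtain ⟨q, hq1, hq2, hq3⟩ := final_poly C p hm hX hc hi _ hf
    exact ⟨q, hq1, Subtype.ext ((aeval_algHom_apply B.val _ q).symm.trans hq2), hq3.imp_left Subtype.ext⟩
  let : DivisionRing B := DivisionRing.ofIsUnitOrEqZero fun a => by
    obtain ⟨q, -, h, h'⟩ := hq a
    exact h'.symm.imp_left (isUnit_of_aeval h)
  have : Algebra.IsIntegral (Subring.closure C) B := ⟨fun a => by
    obtain ⟨q, h, h', -⟩ := hq a
    exact ⟨q, h, h'⟩⟩
  have hx : ∀ i, x i ∈ B := fun i => Algebra.subset_adjoin ⟨i, rfl⟩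
  obtain ⟨a1, a2, a3⟩ := final_abs (Subring.closure C) B ⟨x 0, hx 0⟩ ⟨x 1, hx 1⟩ (by
    apply Subalgebra.map_injective (f := B.val) Subtype.val_injective
    rw [AlgHom.map_adjoin, Algebra.map_top, Subalgebra.range_val, Set.image_pair]
    congr 1
    ext a
    simp [Fin.exists_fin_two, eq_comm])
  refine ⟨B, inferInstance, ?_, inferInstance, a1, ⟨_, _, a2⟩, fun h =>
    final_not_finite P C hK hd B hx (a3 h)⟩
  have c1 : Cardinal.mk (Subring.closure C) ≤ Cardinal.aleph0 :=
    (Cardinal.mk_le_mk_of_subset (Subring.closure_le (t := (Subfield.closure C).toSubring).2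
      Subfield.subset_closure)).trans ((Subfield.cardinalMk_closure_le_max C).trans
        (max_le (Cardinal.le_aleph0_iff_set_countable.2 hC) le_rfl))
  exact Cardinal.mk_le_aleph0_iff.1 ((Algebra.cardinalMk_adjoin_le _ _).trans (sup_le (sup_le c1
    (Cardinal.le_aleph0_iff_set_countable.2 (Set.finite_range x).countable)) le_rfl))

end Crest.Agent.R180
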