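import Crest.Agent.R180.Sp

/-!
# Row 180, the pencil of the new system after a special move

Notation in the docstrings: `P = (n, S, X)` the point before the move, `P' = (n+1, S', X')`, `a₀ = a(X)`, `a' = a(X')`,
`g = gg a P`, `w̃ = p'(a₀) w`, `η = x + v y`, `m = j + 2`, `μ = m²`.
-/

set_option autoImplicit false
set_option linter.unusedSectionVars false

namespace Crest.Agent.R180

open Module Polynomial

namespace Sys

variable {𝔖 : Sys} {a : NP} {P : Pt} {ρ : ℕ} {j : ℕ} {w v : A} {X' : V2}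

/-- the point after the move -/
abbrev Pt' (P : Pt) (j : ℕ) (X' : V2) : Pt := ⟨P.n + 1, insert j P.S, X'⟩

/-- what commutes with `a'` reduces to something that commutes with `a₀` and `w̃ η` -/
private theorem Sp.red_comm (hs : 𝔖.Sp a P j w v X') (h : 𝔖.Base a P ρ) {y : A} (hy : Ig P.n y)
    (hc : y * a.eval X' = a.eval X' * y) :
    red P.n y * a.eval P.X = a.eval P.X * red P.n y ∧
      red P.n y * (dp a P * w * (xj j + v * yj j)) = (dp a P * w * (xj j + v * yj j)) * red P.n y := by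
  have hi := hs.mv.ig h.st.ok
  have h1 := NP.eval_ig hi h.cin
  have h2 := NP.red_eval hi h.cin
  rw [hs.mv.red_eq h.st.ok] at h2
  obtain ⟨h3, h4⟩ := hs.lead' h
  have h5 : (gg a P).eval X' * y = y * (gg a P).eval X' := by
    have := Lf_comm (aeval_mem_Lf (a.eval X') (pp a P)) hc.symm
    rwa [← eval_poly] at this
  constructor
  · rw [← h2, ← red_mul hy h1, ← red_mul h1 hy, hc]
  · rw [← h4, cf, ← red_mul hy h3, ← red_mul h3 hy, mul_smul_comm, smul_mul_assoc, h5]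

private theorem Base.dpw_comm (h : 𝔖.Base a P ρ) (hw : w ∈ 𝔖.WW a P) {ζ : A}
    (hζ : a.eval P.X * ζ = ζ * a.eval P.X) : dp a P * w * ζ = ζ * (dp a P * w) :=
  Lf_comm (mul_mem dp_mem (WW_le_LL h.st h.cin h.ming hw)) hζ

/-- `τ_gg` solved for `τ (c da δ)` -/
private theorem τ_da (hP : 𝔖.POk P) (ha : a.cin P.n) {c : A} (hc : c * a.eval P.X = a.eval P.X * c) (δ : V2) :
    τ (c * a.d1 P.X δ) = τ (c * (dp a P)⁻¹ * (gg a P).d1 P.X δ) := by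
  have h1 : Commute (dp a P) (a.eval P.X) := Lf_comm dp_mem rfl
  have h2 : Commute (c * (dp a P)⁻¹) (a.eval P.X) := Commute.mul_left hc h1.inv_left₀
  rw [τ_gg h2]
  change _ = τ (c * (dp a P)⁻¹ * dp a P * _)
  rw [inv_mul_cancel_right₀ (dp_ne hP ha)]

private theorem ig_tinv {n : ℕ} {y : A} (hy : In (n + 1) y) (h1 : Ig n y) (h2 : red n y = 0) :
    Ig n ((t n)⁻¹ • y) := by
  have h3 : Ig n ((t n)⁻¹ ^ (0 + 1) • y) := (Od_zero_iff.2 h1).succ hy (by rwa [cf_zero_eq])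
  rwa [zero_add, pow_one] at h3

/-- `da δ = [ξ, a']` with `ξ` orthogonal to the centraliser (`exists_ad`; the projection of `da δ` is `0` by
`dg_of_isPr` at `P'`).  Normalise `λ ξ`, with reduction `ζ ≠ 0` orthogonal to `Cen {a₀, η}` (`EPC.cen`).  If `ξ` is
not integral, `r λ = 0`, so `ζ` commutes with `a₀`, hence not with `w̃ η`; from
`dg δ = ξ g(X') - g(X') ξ` (`dP_ad`) and `Sp.lead'`, `(λ / t) dg δ` reduces to `[ζ, w̃ η] ≠ 0`, so `t / λ` is integral. -/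
theorem Sp.xi (hs : 𝔖.Sp a P j w v X') (h : 𝔖.Base a P ρ) {δ : V2} (hδ : δ ∈ 𝔖.T0 a (Pt' P j X'))
    (hig : Ig P.n δ) :
    ∃ ξ ∈ D (P.n + 1) (insert j P.S), a.d1 X' δ = ξ * a.eval X' - a.eval X' * ξ ∧ Ig P.n (t P.n • ξ) ∧
      red P.n (t P.n • ξ) ∈ Cen P.n (insert j P.S) {a.eval P.X} ∧
      red P.n (t P.n • ξ) * (dp a P * w * (xj j + v * yj j)) -
          (dp a P * w * (xj j + v * yj j)) * red P.n (t P.n • ξ) = (gg a P).d1 P.X (red P.n δ) ∧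
      ((gg a P).d1 P.X (red P.n δ) = 0 → Ig P.n ξ) := by
  have hP' : 𝔖.POk (Pt' P j X') := hs.mv.pok h.st.ok
  have ha' : a.cin (Pt' P j X').n := NP.cin_mono (Nat.le_succ _) h.cin
  have hi := hs.mv.ig h.st.ok
  have hδD : δ ∈ DV (P.n + 1) (insert j P.S) (Fin 2) := hδ.1.1
  have hy : a.d1 X' δ ∈ D (P.n + 1) (insert j P.S) := NP.d1_mem _ (mem_DV.1 hs.mv.mem) (mem_DV.1 hδD) ha'
  obtain ⟨b, hb⟩ := exists_isPr (CC a (Pt' P j X')) (Cen_le _ _ _) (D_In hy)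
  have hb0 : b = 0 := by
    have h1 := dg_of_isPr hP' ha' hδD hb
    rw [(mem_T0.1 hδ).2] at h1
    exact (mul_eq_zero.1 h1.symm).resolve_left (dp_ne hP' ha')
  obtain ⟨ξ, hξ, hξo, e⟩ := exists_ad (eval_mem_D hP' ha') hy fun c hc => by
    rw [hb.2 c hc, hb0, mul_zero, map_zero]
  change a.d1 X' δ = ξ * a.eval X' - a.eval X' * ξ at e
  obtain ⟨hG, hGc⟩ := hs.lead' h
  have hG1 : Ig P.n ((t P.n)⁻¹ • (gg a P).eval X') := by
    have : Ig P.n ((t P.n)⁻¹ ^ 1 • (gg a P).eval X') := hG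
    rwa [pow_one] at this
  rw [cf, pow_one] at hGc
  have hdg : (gg a P).d1 X' δ = ξ * (gg a P).eval X' - (gg a P).eval X' * ξ := by
    rw [gg, d1_poly, e, dP_ad, eval_poly]
  have ha1 := NP.eval_ig hi h.cin
  have ha2 := NP.red_eval hi h.cin
  rw [hs.mv.red_eq h.st.ok] at ha2
  have hg2 := NP.red_d1 hi hig (gg_cin h.cin)
  rw [hs.mv.red_eq h.st.ok] at hg2
  have key : ∀ μ ∈ O P.n, r P.n μ = 0 → Ig P.n (μ • ξ) →
      red P.n (μ • ξ) ∈ Cen P.n (insert j P.S) {a.eval P.X} ∧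
      red P.n (μ • ξ) * (dp a P * w * (xj j + v * yj j)) - (dp a P * w * (xj j + v * yj j)) * red P.n (μ • ξ) =
        red P.n ((μ * (t P.n)⁻¹) • (gg a P).d1 X' δ) ∧
      (red P.n ((μ * (t P.n)⁻¹) • (gg a P).d1 X' δ) = 0 → red P.n (μ • ξ) = 0) := by
    intro μ hμ hr hμξ
    have k0 : red P.n (μ • ξ) ∈ D P.n (insert j P.S) := ⟨red_In _ _, (hξ.2.smul μ).mapc _⟩
    have k1 : a.eval P.X * red P.n (μ • ξ) = red P.n (μ • ξ) * a.eval P.X := by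
      have h1 := red_smul hμ (NP.d1_ig hi hig h.cin)
      rw [hr, zero_smul, e, smul_sub, ← smul_mul_assoc, ← mul_smul_comm, map_sub, red_mul hμξ ha1,
        red_mul ha1 hμξ, ha2, sub_eq_zero] at h1
      exact h1.symm
    have k2 : red P.n (μ • ξ) * (dp a P * w * (xj j + v * yj j)) -
        (dp a P * w * (xj j + v * yj j)) * red P.n (μ • ξ) = red P.n ((μ * (t P.n)⁻¹) • (gg a P).d1 X' δ) := by
      rw [← hGc, ← red_mul hμξ hG1, ← red_mul hG1 hμξ, ← map_sub, hdg, smul_sub, smul_mul_smul_comm,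
        smul_mul_smul_comm, mul_comm (t P.n)⁻¹]
    refine ⟨mem_Cen.2 ⟨k0, fun g hg => by rw [hg]; exact k1⟩, k2, fun h0 => ?_⟩
    rw [h0, ← mul_assoc, ← h.dpw_comm hs.hw k1, mul_assoc, mul_assoc (dp a P * w), ← mul_sub] at k2
    have k3 := sub_eq_zero.1
      ((mul_eq_zero.1 k2).resolve_left (mul_ne_zero (dp_ne h.st.ok h.cin) hs.w0))
    refine eq_zero_of_τ (Cen P.n (insert j P.S) {a.eval P.X, xj j + v * yj j}) (mem_Cen.2 ⟨k0, ?_⟩) fun c hc => ?_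
    · rintro g (rfl | rfl)
      · exact k1
      · exact k3.symm
    · obtain ⟨c', hc', hci, rfl⟩ := (hs.epc h).cen c hc
      rw [← red_mul hci hμξ, τ_red, mul_smul_comm, map_smul, hξo c' hc', smul_zero, map_zero]
  have htξ : Ig P.n (t P.n • ξ) := by
    by_cases h0 : ξ = 0
    · rw [h0, smul_zero]; exact Ig.zero _
    obtain ⟨l, -, hl0, hli, hlr⟩ := normalise P.n h0 (D_In hξ)
    have h1 : (l * (t P.n)⁻¹)⁻¹ ∈ O P.n := by
      refine (O_total P.n (l * (t P.n)⁻¹)).elim (fun h2 => inv_mem_O h2 fun h3 => hlr ?_) id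
      have h4 : l = t P.n * (l * (t P.n)⁻¹) := by rw [mul_comm, inv_mul_cancel_right₀ (t_ne _)]
      refine (key l (h4 ▸ mul_mem (t_O _) h2) (by rw [h4, r_mul (t_O _) h2, r_t, zero_mul]) hli).2.2 ?_
      rw [red_smul h2 (NP.d1_ig hi hig (gg_cin h.cin)), h3, zero_smul]
    have h2 := hli.smul h1
    rwa [smul_smul, mul_inv, inv_inv, mul_right_comm, inv_mul_cancel₀ hl0, one_mul] at h2
  obtain ⟨k1, k2, k3⟩ := key _ (t_O _) (r_t _) htξ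
  rw [mul_inv_cancel₀ (t_ne _), one_smul, hg2] at k2 k3
  refine ⟨ξ, hξ, e, htξ, k1, k2, fun h0 => ?_⟩
  have h1 := ig_tinv (D_In (smul_mem_D (t_mem _) hξ)) htξ (k3 h0)
  rwa [smul_smul, inv_mul_cancel₀ (t_ne _), one_smul] at h1

/-- a member of the new pencil, written as `(c, α)` with `α = c₀ q'(a')` -/
structure PenD (𝔖 : Sys) (a : NP) (P' : Pt) (c : Fin 𝔖.N → A) (α : A) : Prop where
  hc : c ∈ 𝔖.NT P'.n P'.S
  cen : α ∈ CC a P'
  l0 : ∀ w' ∈ 𝔖.WW a P', α * w' ∈ 𝔖.L0 a P'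
  kills : ∀ δ ∈ DV P'.n P'.S (Fin 2), pair c (𝔖.df P'.X δ) + τ (α * a.d1 P'.X δ) = 0

/-- `R` lies in the radical of the form of `(c, α)` on `T0` -/
def Rad (𝔖 : Sys) (a : NP) (P' : Pt) (c : Fin 𝔖.N → A) (α : A) (R : Submodule (F P'.n) V2) : Prop :=
  R ≤ 𝔖.T0 a P' ∧ ∀ δ ∈ R, ∀ δ' ∈ 𝔖.T0 a P', ∀ ξ : A, a.d1 P'.X δ' = ξ * a.eval P'.X - a.eval P'.X * ξ →
    pair c (𝔖.f2 P'.X δ δ') + τ (α * a.d2 P'.X δ δ') + τ (α * a.d1 P'.X δ * ξ) = 0

theorem PenD.smul {P' : Pt} {c : Fin 𝔖.N → A} {α : A} (h : PenD 𝔖 a P' c α) {l : KK} (hl : l ∈ K P'.n) :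
    PenD 𝔖 a P' (l • c) (l • α) := by
  refine ⟨Submodule.smul_mem _ (⟨l, hl⟩ : F P'.n) h.hc, Subalgebra.smul_mem _ h.cen (⟨l, hl⟩ : F P'.n),
    fun w' hw' => ?_, fun δ hδ => ?_⟩
  · rw [smul_mul_assoc]
    exact Subalgebra.smul_mem _ (h.l0 w' hw') (⟨l, hl⟩ : F P'.n)
  · rw [pair_smul_left, smul_mul_assoc, map_smul, smul_eq_mul, ← mul_add, h.kills δ hδ, mul_zero]

theorem Rad.smul {P' : Pt} {c : Fin 𝔖.N → A} {α : A} {R : Submodule (F P'.n) V2} (h : Rad 𝔖 a P' c α R)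
    (l : KK) : Rad 𝔖 a P' (l • c) (l • α) R := by
  refine ⟨h.1, fun δ hδ δ' hδ' ξ e => ?_⟩
  rw [pair_smul_left, smul_mul_assoc, smul_mul_assoc, smul_mul_assoc, map_smul, map_smul, smul_eq_mul,
    smul_eq_mul, ← mul_add, ← mul_add, h.2 δ hδ δ' hδ' ξ e, mul_zero]

private theorem NewData.c0 {P' : Pt} (d : 𝔖.NewData a P') {c : Fin (𝔖.N + 1) → A}
    (hc : c ∈ (𝔖.cons d.block).Pen P'.n P'.S P'.X) :
    c 0 ∈ 𝔖.NTa a P' d.w ∧ c 0 * a.eval P'.X = a.eval P'.X * c 0 := by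
  have h1 : c 0 ∈ d.block.NT := by
    rw [← Block.sT_base]
    exact (cons_mem_NT.1 hc.1).1
  exact ⟨h1, ((mem_Cen.1 (NTa_le_CC d.pok d.cin d.hw h1)).2 _ rfl).symm⟩

/-- `τ_gg` at `P'`; `c 0 = l (q'(a') w)⁻¹` and everything commutes in `LL` -/
theorem NewData.penD {P' : Pt} {ρ' : ℕ} (d : 𝔖.NewData a P') (h : 𝔖.St P' ρ') (hg : 𝔖.MinG a P')
    {c : Fin (𝔖.N + 1) → A} (hc : c ∈ (𝔖.cons d.block).Pen P'.n P'.S P'.X) :
    PenD 𝔖 a P' (Fin.tail c) (c 0 * dp a P') := by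
  obtain ⟨h1, h2⟩ := d.c0 hc
  refine ⟨(cons_mem_NT.1 hc.1).2,
    mul_mem (NTa_le_CC d.pok d.cin d.hw h1) (Lf_le_Cen (eval_mem_D d.pok d.cin) dp_mem), fun w' hw' => ?_,
    fun δ hδ => ?_⟩
  · obtain ⟨l, hl, e⟩ := mem_NTa.1 h1
    rw [← e, mul_inv_rev, ← mul_assoc, inv_mul_cancel_right₀ (dp_ne d.pok d.cin), mul_assoc]
    exact mul_mem hl (inv_mul_mem_L0 h d.cin hg d.hw hw')
  · have h3 := hc.2 δ hδ
    rw [cons_df] at h3
    have h4 := (pair_cons c _ _).symm.trans h3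
    change τ (c 0 * (gg a P').d1 P'.X δ) + _ = 0 at h4
    rw [τ_gg h2, add_comm] at h4
    exact h4

/-- `d2_poly`, `τ_dP`, `d2P_ad` and `dg δ = 0`; `NewData.Tan_eq`, `bet_eq_zero` -/
theorem NewData.rad {P' : Pt} {ρ' : ℕ} (d : 𝔖.NewData a P') (h : 𝔖.St P' ρ') (hg : 𝔖.MinG a P')
    {c : Fin (𝔖.N + 1) → A} (hc : c ∈ (𝔖.cons d.block).Pen P'.n P'.S P'.X) :
    Rad 𝔖 a P' (Fin.tail c) (c 0 * dp a P')
      (lker ((𝔖.cons d.block).bet P'.n P'.X c) (𝔖.T0 a P') (𝔖.T0 a P')) := by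
  have _ := hg
  obtain ⟨-, h2⟩ := d.c0 hc
  refine ⟨lker_le _ _ _, fun δ hδ δ' hδ' ξ e => ?_⟩
  have hok : (𝔖.cons d.block).Ok P'.n P'.S := cons_ok.2 ⟨⟨le_rfl, subset_rfl⟩, h.ok.1⟩
  have h3 := (bet_eq_zero hok h.ok.2 (NT_le hc.1) hδ.1.1.1 hδ'.1.1).1 (hδ.2 δ' hδ')
  rw [cons_f2] at h3
  have h4 := (pair_cons c _ _).symm.trans h3
  change τ (c 0 * (NP.poly (pp a P') a).d2 P'.X δ δ') + _ = 0 at h4
  have h5 : (NP.poly (pp a P') a).d1 P'.X δ = 0 := (mem_T0.1 hδ.1).2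
  rw [d1_poly] at h5
  rw [d2_poly, e, d2P_ad, h5, zero_mul, sub_zero, mul_add, map_add, τ_dP _ h2, τ_dP _ h2, ← mul_assoc] at h4
  change τ (c 0 * dp a P' * _) + τ (c 0 * dp a P' * _ * _) + _ = 0 at h4
  linear_combination h4

/-- `finrank_Tan_T0`, `finrank_WW_le` at `P'` and `EPC.n0_eq` -/
theorem Sp.codim (hs : 𝔖.Sp a P j w v X') (h : 𝔖.Base a P ρ) :
    finrank (F (P.n + 1)) (𝔖.Tan (P.n + 1) (insert j P.S) X') ≤
      finrank (F (P.n + 1)) (𝔖.T0 a (Pt' P j X')) + 𝔖.n0 a P * (j + 2) := by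
  have h1 := finrank_Tan_T0 (P := Pt' P j X') (hs.mv.pok h.st.ok) (NP.cin_mono (Nat.le_succ _) h.cin)
  have h2 := finrank_WW_le (𝔖 := 𝔖) (a := a) (P := Pt' P j X')
  rw [(hs.epc h).n0_eq] at h2
  exact h1.le.trans (Nat.add_le_add_left h2 _)

private theorem fr_T0 (R : Submodule (F (P.n + 1)) V2) (hR : R ≤ 𝔖.T0 a (Pt' P j X')) :
    FiniteDimensional (F P.n) (Red P.n R) ∧ finrank (F P.n) (Red P.n R) = finrank (F (P.n + 1)) R := by
  have h1 : R ≤ DV (P.n + 1) (insert j P.S) (Fin 2) := fun _ hy => (hR hy).1.1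
  have := fd_of_le_DV _ h1
  exact finrank_Red (Nat.le_succ _) R fun y hy => DV_In (h1 hy)

private theorem Sp.red_T0 (hs : 𝔖.Sp a P j w v X') (h : 𝔖.Base a P ρ) :
    Red P.n (𝔖.T0 a (Pt' P j X')) ≤ 𝔖.Ker P.n (insert j P.S) P.X :=
  (Red_mono _ T0_le).trans (h.st.red_Tan hs.mv).1

private theorem Base.fr_ext (h : 𝔖.Base a P ρ) (hj : j ∉ P.S) :
    finrank (F P.n) (ext P.S (insert j P.S) (𝔖.DG (gg a P) P)) = finrank (F P.n) (𝔖.WW a P) * (j + 2) ^ 2 := by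
  rw [finrank_ext (Finset.subset_insert _ _) fun y hy => DG_mem_D h.st.ok (gg_cin h.cin) hy,
    finrank_DG_gg h.st.ok h.cin, ν_insert hj]

private theorem Sp.image1 (hs : 𝔖.Sp a P j w v X') (h : 𝔖.Base a P ρ) :
    (Red P.n (𝔖.T0 a (Pt' P j X'))).map ((NP.d1L P.X (gg a P)).restrictScalars (F P.n)) ≤
        ext P.S (insert j P.S) (𝔖.DG (gg a P) P) := by
  rintro _ ⟨δ, hδ, rfl⟩
  exact h.st.d1_mem_ext hs.mv.sub (gg_cin h.cin) (hs.red_T0 h hδ)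

/-- Case `red α = 0`.  Then `α = t α₁`; `red c` kills `df X` and `sym v W₀` (divide `kills` by `t`; the `α₁` term
reduces to `τ (ᾱ₁ da w) = τ (ᾱ₁ p'(a₀)⁻¹ dg w) = 0` by `τ_gg`, `Sp.dg_W`), so it is in the old pencil
(`St.pen_of_std`).  With `U₁ = Red T0'`, `U₂ = U₁ ⊓ ker dg`: `Red R ≤ lker (bet (red c)) U₁ U₂` (`Sp.xi`, `ξ` integral);
`lker_two`, `rkGe_ext`, `St.red_Tan`, `Sp.codim`, `St.d1_mem_ext`, `finrank_ext`. -/
theorem Sp.case_old (hs : 𝔖.Sp a P j w v X') (h : 𝔖.Base a P ρ) {c : Fin 𝔖.N → A} {α : A}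
    (hp : PenD 𝔖 a (Pt' P j X') c α) (hc : Ig P.n c) (hα : Ig P.n α) (h0 : red P.n α = 0) (h1 : red P.n c ≠ 0)
    {R : Submodule (F (P.n + 1)) V2} (hR : Rad 𝔖 a (Pt' P j X') c α R) :
    finrank (F (P.n + 1)) R + ρ * (j + 2) ^ 2 ≤ finrank (F (P.n + 1)) (𝔖.T0 a (Pt' P j X')) +
      2 * (𝔖.n0 a P * (j + 2)) + 𝔖.n0 a P * (j + 2) ^ 2 := by
  obtain ⟨hok, hX⟩ := h.st.ok
  have hm := hs.mv
  have hok' := hok.mono le_rfl hm.sub
  have hX' := DV_mono le_rfl hm.sub hX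
  have hi := hm.ig h.st.ok
  have hre := hm.red_eq h.st.ok
  have hz : ∀ y : A, Ig P.n y → r P.n (τ (α * y)) = 0 := fun y hy => by
    rw [← τ_red, red_mul hα hy, h0, zero_mul, map_zero]
  have hk : 𝔖.Kills P.n (insert j P.S) P.X (red P.n c) := fun δ hδ => by
    have h2 : Ig P.n (𝔖.df X' δ) := Ig_pi.2 fun i => NP.d1_ig hi (DV_In hδ).ig (hok.cin i)
    have h3 : red P.n (𝔖.df X' δ) = 𝔖.df P.X δ := funext fun i => by
      rw [red_pi, df_apply, NP.red_d1 hi (DV_In hδ).ig (hok.cin i), hre, red_of_In (DV_In hδ), df_apply]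
    have h4 := congrArg (r P.n) (hp.kills δ (DV_mono (Nat.le_succ _) le_rfl hδ))
    rw [map_add, hz _ (NP.d1_ig hi (DV_In hδ).ig h.cin), add_zero, map_zero] at h4
    rw [← h3, pair_red hc h2]
    exact h4
  have hα1 := ig_tinv (D_In (Cen_le _ _ _ hp.cen)) hα h0
  have hα2 := (hs.red_comm h hα1 (by
    rw [smul_mul_assoc, mul_smul_comm]
    exact congrArg _ ((mem_Cen.1 hp.cen).2 _ rfl).symm)).1
  have hsy : ∀ u ∈ extV P.S (insert j P.S) (𝔖.T0 a P),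
      pair (red P.n c) (𝔖.sym P.X (cf P.n 1 (X' - P.X)) u) = 0 := fun u hu => by
    have hu' := hs.std.1 hu
    have hsm := DV_In (sym_mem hok' hX' (hm.vel_mem h.st.ok) hu'.1)
    have e1 := df_expand hok' (DV_In hX') (DV_In (hm.vel_mem h.st.ok)) (hm.od2 h.st.ok) (DV_In hu'.1) (In.zero _)
    rw [smul_zero, add_zero, map_zero, add_zero, show 𝔖.df P.X u = 0 from hu'.2, sub_zero] at e1
    have e2 := Od.tinv (k := 1) (l := 1) e1
    rw [pow_one, smul_sub, smul_smul, inv_mul_cancel₀ (t_ne _), one_smul] at e2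
    have e3 : red P.n ((t P.n)⁻¹ • 𝔖.df X' u) = 𝔖.sym P.X (cf P.n 1 (X' - P.X)) u := by
      have e4 := Od.cf_eq_zero (l := 0) e2
      rwa [cf_zero_eq, map_sub, sub_eq_zero, red_of_In hsm] at e4
    have e5 : Ig P.n ((t P.n)⁻¹ • 𝔖.df X' u) := by
      have e6 := e2.ig.add hsm.ig
      rwa [sub_add_cancel] at e6
    have e6 : r P.n ((t P.n)⁻¹ * τ (α * a.d1 X' u)) = 0 := by
      have e7 := NP.d1_ig hi (DV_In hu'.1).ig h.cin
      rw [← smul_eq_mul, ← map_smul, ← smul_mul_assoc, ← τ_red, red_mul hα1 e7,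
        NP.red_d1 hi (DV_In hu'.1).ig h.cin, hre, red_of_In (DV_In hu'.1), τ_da h.st.ok h.cin hα2,
        hs.dg_W h hu, mul_zero, map_zero]
    have e7 : pair c (𝔖.df X' u) + τ (α * a.d1 X' u) = 0 := hp.kills u (DV_mono (Nat.le_succ _) le_rfl hu'.1)
    rw [← e3, pair_red hc e5, pair_smul_right, eq_neg_of_add_eq_zero_left e7, mul_neg, map_neg, e6, neg_zero]
  have hpen := h.st.pen_of_std hm.sub (hm.vel_ker h.st.ok h.st.good) hs.std (red_mem_NT hok' hp.hc) hk hsy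
  have f1 := rkGe_ext hok hX hm.sub (NT_le hpen.1) Tan_le (h.st.qq _ hpen h1)
  rw [h.st.Tan_eq, ← Ker_ext hok hX hm.sub, ν_insert hs.hj] at f1
  have f2 := (h.st.red_Tan hm).2
  rw [ν_insert hs.hj] at f2
  have f3 := hs.codim h
  obtain ⟨fd1, f4⟩ := fr_T0 R hR.1
  obtain ⟨fd2, f5⟩ := fr_T0 (𝔖.T0 a (Pt' P j X')) le_rfl
  have f6 := finrank_inf_ker_add (Red P.n (𝔖.T0 a (Pt' P j X'))) ((NP.d1L P.X (gg a P)).restrictScalars (F P.n))
  have f7 := Submodule.finrank_mono (hs.image1 h)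
  rw [h.fr_ext hs.hj] at f7
  have f8 := Nat.mul_le_mul_right ((j + 2) ^ 2) (finrank_WW_le (𝔖 := 𝔖) (a := a) (P := P))
  have f9 := lker_two (𝔖.bet P.n P.X (red P.n c)) _ _
    (Red P.n (𝔖.T0 a (Pt' P j X')) ⊓ LinearMap.ker ((NP.d1L P.X (gg a P)).restrictScalars (F P.n)))
    (hs.red_T0 h) (inf_le_left.trans (hs.red_T0 h))
  have f10 : Red P.n R ≤ lker (𝔖.bet P.n P.X (red P.n c)) (Red P.n (𝔖.T0 a (Pt' P j X')))
      (Red P.n (𝔖.T0 a (Pt' P j X')) ⊓ LinearMap.ker ((NP.d1L P.X (gg a P)).restrictScalars (F P.n))) := by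
    intro x hx
    refine ⟨Red_mono _ hR.1 hx, fun y hy => ?_⟩
    obtain ⟨δ, hδ, hδi, rfl⟩ := (mem_Red (Nat.le_succ _)).1 hx
    obtain ⟨δ', hδ', hδi', rfl⟩ := (mem_Red (Nat.le_succ _)).1 hy.1
    obtain ⟨ξ, -, e, -, -, -, hξ⟩ := hs.xi h hδ' hδi'
    have e1 := congrArg (r P.n) (hR.2 δ hδ δ' hδ' ξ e)
    rw [map_add, map_add, hz _ (NP.d2_ig hi hδi hδi' h.cin), mul_assoc,
      hz _ ((NP.d1_ig hi hδi h.cin).mul (hξ hy.2)), add_zero, add_zero, map_zero] at e1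
    have e2 : Ig P.n (𝔖.f2 X' δ δ') := Ig_pi.2 fun i => NP.d2_ig hi hδi hδi' (hok.cin i)
    have e3 : red P.n (𝔖.f2 X' δ δ') = 𝔖.f2 P.X (red P.n δ) (red P.n δ') := funext fun i => by
      rw [red_pi, f2_apply, f2_apply, NP.red_d2 hi hδi hδi' (hok.cin i), hre]
    refine Subtype.ext ?_
    rw [bet_val, ← e3, pair_red hc e2]
    exact (congrArg (r P.n) e1).trans (map_zero _)
  have f11 := Submodule.finrank_mono f10
  unfold RkGe at f1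
  rw [add_mul, mul_assoc] at f1
  omega

/-- the image `Y = dg (Red T0')` lies in `DG ⊗ Δ` and has codimension at most `n₀ m` there (`St.ext_DG_lift`) -/
theorem Sp.image (hs : 𝔖.Sp a P j w v X') (h : 𝔖.Base a P ρ) :
    (Red P.n (𝔖.T0 a (Pt' P j X'))).map ((NP.d1L P.X (gg a P)).restrictScalars (F P.n)) ≤
        ext P.S (insert j P.S) (𝔖.DG (gg a P) P) ∧
      finrank (F P.n) (𝔖.WW a P) * (j + 2) ^ 2 ≤
        finrank (F P.n) ((Red P.n (𝔖.T0 a (Pt' P j X'))).map ((NP.d1L P.X (gg a P)).restrictScalars (F P.n))) +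
          𝔖.n0 a P * (j + 2) := by
  refine ⟨hs.image1 h, ?_⟩
  obtain ⟨fd1, f1⟩ := finrank_Red (Nat.le_succ P.n) (𝔖.Tan (P.n + 1) (insert j P.S) X') fun y hy => DV_In hy.1
  obtain ⟨fd2, f2⟩ := fr_T0 (𝔖.T0 a (Pt' P j X')) le_rfl
  have f3 := finrank_inf_ker_add (Red P.n (𝔖.T0 a (Pt' P j X'))) ((NP.d1L P.X (gg a P)).restrictScalars (F P.n))
  have f4 := finrank_inf_ker_add (Red P.n (𝔖.Tan (P.n + 1) (insert j P.S) X'))
    ((NP.d1L P.X (gg a P)).restrictScalars (F P.n))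
  have f5 : ext P.S (insert j P.S) (𝔖.DG (gg a P) P) ≤
      (Red P.n (𝔖.Tan (P.n + 1) (insert j P.S) X')).map ((NP.d1L P.X (gg a P)).restrictScalars (F P.n)) := by
    intro y hy
    obtain ⟨u, hu, hi, e⟩ := h.st.ext_DG_lift hs.mv (gg_cin h.cin) hs.std (fun u hu => hs.dg_W h hu) hy
    exact ⟨_, red_mem_Red hu hi, e⟩
  have f6 := Submodule.finrank_mono f5
  rw [h.fr_ext hs.hj] at f6
  have f7 : Red P.n (𝔖.T0 a (Pt' P j X')) ⊓ LinearMap.ker ((NP.d1L P.X (gg a P)).restrictScalars (F P.n)) ≤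
      Red P.n (𝔖.Tan (P.n + 1) (insert j P.S) X') ⊓
        LinearMap.ker ((NP.d1L P.X (gg a P)).restrictScalars (F P.n)) :=
    inf_le_inf_right _ (Red_mono _ T0_le)
  have f8 := Submodule.finrank_mono f7
  have f9 := hs.codim h
  simp only [Nat.succ_eq_add_one] at f1
  omega

/-- Linear algebra in `C ⊗ Δ`.  `B` a subalgebra containing `η`, `u ≠ 0` commuting with the centraliser `C'`, `Y ≤ u B`,
every element of `Y` a commutator `[ζ, u η]` with `ζ ∈ C'`.  Then the elements of `B` orthogonal to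
`Z = {ζ ∈ C' | [ζ, u η] ∈ Y}` form a space of dimension `≤ dim B - dim Y` (`rank_symm` on `Z × B`; an element of `Z`
orthogonal to `B` commutes with `u η`). -/
theorem ann_comm_le {n : ℕ} {S : Finset ℕ} (C' B : Subalgebra (F n) A) (hC : C' ≤ D n S) (hB : B ≤ D n S)
    {u η : A} (hu : u ≠ 0) (hη : η ∈ B) (huC : ∀ ζ ∈ C', u * ζ = ζ * u) (Y : Submodule (F n) A)
    (hY : ∀ y ∈ Y, u⁻¹ * y ∈ B) (hY' : ∀ y ∈ Y, ∃ ζ ∈ C', ζ * (u * η) - (u * η) * ζ = y)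
    (M : Submodule (F n) A) (hM : ∀ b ∈ M, b ∈ B ∧ ∀ ζ ∈ C', ζ * (u * η) - (u * η) * ζ ∈ Y → τ (ζ * b) = 0) :
    finrank (F n) M + finrank (F n) Y ≤ finrank (F n) B := by
  have := fdA_of_le_D C' hC
  have := fdA_of_le_D B hB
  let ad : A →ₗ[F n] A := LinearMap.mulRight (F n) (u * η) - LinearMap.mulLeft (F n) (u * η)
  have had : ∀ ζ, ad ζ = ζ * (u * η) - u * η * ζ := fun _ => rfl
  let Z : Submodule (F n) A := Subalgebra.toSubmodule C' ⊓ Y.comap ad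
  have : FiniteDimensional (F n) Z := fd_of_le_D _ fun y hy => hC hy.1
  have : FiniteDimensional (F n) (Subalgebra.toSubmodule B) := fd_of_le_D _ fun y hy => hB hy
  have f1 := rank_symm (tB n) Z (Subalgebra.toSubmodule B)
  have f2 := finrank_inf_ker_add Z ad
  have f3 : Z.map ad = Y := by
    refine le_antisymm ?_ fun y hy => ?_
    · rintro _ ⟨ζ, hζ, rfl⟩
      exact hζ.2
    · obtain ⟨ζ, hζ, e⟩ := hY' y hy
      exact ⟨ζ, ⟨hζ, show ad ζ ∈ Y by rw [had, e]; exact hy⟩, e⟩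
  have f4 : M ≤ lker (tB n).flip (Subalgebra.toSubmodule B) Z := fun b hb =>
    ⟨(hM b hb).1, fun ζ hζ => (tB_eq_zero (D_In (hC hζ.1)) (D_In (hB (hM b hb).1))).2 ((hM b hb).2 ζ hζ.1 hζ.2)⟩
  have f5 : lker (tB n) Z (Subalgebra.toSubmodule B) ≤ Z ⊓ LinearMap.ker ad := by
    intro ζ hζ
    refine ⟨hζ.1, ?_⟩
    have h1 : ∀ b ∈ B, τ (ζ * b) = 0 := fun b hb =>
      (tB_eq_zero (D_In (hC hζ.1.1)) (D_In (hB hb))).1 (hζ.2 b hb)
    have h2 : u⁻¹ * ad ζ = ζ * η - η * ζ := by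
      rw [had, ← mul_assoc ζ, ← huC ζ hζ.1.1, mul_assoc u, mul_assoc u, ← mul_sub, inv_mul_cancel_left₀ hu]
    have h3 := eq_zero_of_τ B (hY _ hζ.1.2) fun b hb => by
      rw [h2, mul_sub, map_sub, τ_comm b, mul_assoc, h1 _ (mul_mem hη hb), ← mul_assoc, τ_comm,
        h1 _ (mul_mem hb hη), sub_zero]
    exact (mul_eq_zero.1 h3).resolve_left (inv_ne_zero hu)
  have f6 := Submodule.finrank_mono f4
  have f7 := Submodule.finrank_mono f5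
  rw [f3] at f2
  have f8 : finrank (F n) (Subalgebra.toSubmodule B) = finrank (F n) B := rfl
  omega

/-- Case `ᾱ = red α ≠ 0`.  Multiply the form by `t` and reduce: `τ (ζ' ᾱ p'(a₀)⁻¹ dg δ̄) = 0` for `δ ∈ R`.  So
`δ̄ ↦ ᾱ p'(a₀)⁻¹ dg δ̄` maps `Red R` into the space `M` of `ann_comm_le` (`B = L0 ⊗ Δ`, `u = w̃`; `ᾱ w ∈ L0e` by
`EPC.wl`, `EPC.l0`), with kernel inside `Red T0' ⊓ ker dg`; `Sp.image`. -/
theorem Sp.case_new (hs : 𝔖.Sp a P j w v X') (h : 𝔖.Base a P ρ) {c : Fin 𝔖.N → A} {α : A}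
    (hp : PenD 𝔖 a (Pt' P j X') c α) (hc : Ig P.n c) (hα : Ig P.n α) (h0 : red P.n α ≠ 0)
    {R : Submodule (F (P.n + 1)) V2} (hR : Rad 𝔖 a (Pt' P j X') c α R) :
    finrank (F (P.n + 1)) R + 𝔖.n0 a P * (j + 2) ^ 2 ≤ finrank (F (P.n + 1)) (𝔖.T0 a (Pt' P j X')) +
      2 * (𝔖.ee a P * (j + 2) ^ 2) + 2 * (𝔖.n0 a P * (j + 2)) := by
  obtain ⟨hok, hX⟩ := h.st.ok
  have hm := hs.mv
  have hi := hm.ig h.st.ok
  have hre := hm.red_eq h.st.ok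
  have hdp := dp_ne h.st.ok h.cin
  have hu0 := mul_ne_zero hdp hs.w0
  obtain ⟨c1, c2⟩ := hs.red_comm h hα ((mem_Cen.1 hp.cen).2 _ rfl).symm
  have c3 : Commute (dp a P) (dp a P * w * (xj j + v * yj j)) := by
    have e1 := (hs.red_comm h (NP.eval_ig hi h.cin) rfl).2
    rw [NP.red_eval hi h.cin, hre] at e1
    exact Lf_comm dp_mem e1
  have c4 : red P.n α * w ∈ extA hm.sub (𝔖.L0 a P) L0_le_D := by
    obtain ⟨w', hw', hwi, e⟩ := (hs.epc h).wl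
    have e1 := (hs.epc h).l0 _ (hp.l0 w' hw') (hα.mul hwi)
    rw [red_mul hα hwi, e] at e1
    exact L0e_le_ext hm.sub (hs.eta_mem h) e1
  have c5 : ∀ y ∈ (Red P.n (𝔖.T0 a (Pt' P j X'))).map ((NP.d1L P.X (gg a P)).restrictScalars (F P.n)),
      (dp a P * w)⁻¹ * y ∈ extA hm.sub (𝔖.L0 a P) L0_le_D := fun y hy =>
    mul_mem_ext_map hm.sub (inv_mem_alg (D P.n P.S) (Cen_le _ _ _ (dpw_mem_CC h.st.ok h.cin hs.hw)))
      (fun u hu => DG_inv_mem_L0 h.st h.cin h.ming hs.hw hu) (hs.image1 h hy)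
  let ψ : V2 →ₗ[F P.n] A := LinearMap.mulLeft (F P.n) (red P.n α * (dp a P)⁻¹) ∘ₗ
    (NP.d1L P.X (gg a P)).restrictScalars (F P.n)
  have hψ : ∀ δ, ψ δ = red P.n α * (dp a P)⁻¹ * (gg a P).d1 P.X δ := fun _ => rfl
  have f1 := ann_comm_le (Cen P.n (insert j P.S) {a.eval P.X}) (extA hm.sub (𝔖.L0 a P) L0_le_D) (Cen_le _ _ _)
    (fun y hy => (mem_extA.1 hy).1) hu0 (mem_extA.2 (hs.eta_mem h))
    (fun ζ hζ => h.dpw_comm hs.hw ((mem_Cen.1 hζ).2 _ rfl)) _ c5 (by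
      rintro _ ⟨x, hx, rfl⟩
      obtain ⟨δ, hδ, hδi, rfl⟩ := (mem_Red (Nat.le_succ _)).1 hx
      obtain ⟨ξ, -, -, -, k1, k2, -⟩ := hs.xi h hδ hδi
      exact ⟨_, k1, k2⟩) ((Red P.n R).map ψ) (by
      rintro _ ⟨x, hx, rfl⟩
      refine ⟨?_, ?_⟩
      · have e1 := mul_mem c4 (c5 _ ⟨x, Red_mono _ hR.1 hx, rfl⟩)
        rwa [mul_inv_rev, mul_assoc w⁻¹, mul_assoc, mul_inv_cancel_left₀ hs.w0, ← mul_assoc] at e1
      rintro ζ hζ ⟨y, hy, e⟩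
      obtain ⟨δ, hδ, hδi, rfl⟩ := (mem_Red (Nat.le_succ _)).1 hx
      obtain ⟨δ', hδ', hδi', rfl⟩ := (mem_Red (Nat.le_succ _)).1 hy
      obtain ⟨ξ, -, -, -, -, k2, -⟩ := hs.xi h (hR.1 hδ) hδi
      obtain ⟨ξ', -, e', k0', k1', k2', -⟩ := hs.xi h hδ' hδi'
      have e1 : τ (red P.n (t P.n • ξ') * ψ (red P.n δ)) = 0 := by
        have e2 := congrArg (fun s => r P.n (t P.n * s)) (hR.2 δ hδ δ' hδ' ξ' e')
        have e3 : Ig P.n (𝔖.f2 X' δ δ') := Ig_pi.2 fun i => NP.d2_ig hi hδi hδi' (hok.cin i)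
        have e4 := NP.d1_ig hi hδi h.cin
        simp only [mul_add, map_add, mul_zero, map_zero] at e2
        rw [r_mul (t_O _) (pair_O hc e3), r_mul (t_O _) (hα.mul (NP.d2_ig hi hδi hδi' h.cin)).τ, r_t, zero_mul,
          zero_mul, zero_add, zero_add, ← smul_eq_mul, ← map_smul, ← mul_smul_comm, ← τ_red,
          red_mul (hα.mul e4) k0', red_mul hα e4, NP.red_d1 hi hδi h.cin, hre, τ_comm, ← mul_assoc,
          τ_da h.st.ok h.cin (Commute.mul_left ((mem_Cen.1 k1').2 _ rfl).symm c1)] at e2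
        rw [hψ, ← mul_assoc, ← mul_assoc]
        exact e2
      have e2 : Commute (ζ - red P.n (t P.n • ξ')) (dp a P * w * (xj j + v * yj j)) := by
        have e3 : ζ * (dp a P * w * (xj j + v * yj j)) - (dp a P * w * (xj j + v * yj j)) * ζ = _ :=
          e.symm.trans k2'.symm
        change _ * _ = _ * _
        rw [sub_mul, mul_sub, sub_eq_sub_iff_sub_eq_sub, e3]
      have e3 := ((e2.mul_left c2).mul_left c3.inv_left₀).eq
      have e4 : τ ((ζ - red P.n (t P.n • ξ')) * ψ (red P.n δ)) = 0 := by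
        rw [hψ, ← mul_assoc, ← mul_assoc, ← k2, mul_sub, map_sub, ← mul_assoc, τ_comm, ← mul_assoc, ← e3,
          ← mul_assoc _ _ (red P.n (t P.n • ξ)), sub_self]
      rwa [sub_mul, map_sub, e1, sub_zero] at e4)
  obtain ⟨fd1, f2⟩ := fr_T0 R hR.1
  obtain ⟨fd2, f3⟩ := fr_T0 (𝔖.T0 a (Pt' P j X')) le_rfl
  have f4 := finrank_inf_ker_add (Red P.n (𝔖.T0 a (Pt' P j X'))) ((NP.d1L P.X (gg a P)).restrictScalars (F P.n))
  have f5 := finrank_inf_ker_add (Red P.n R) ψ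
  have f6 : Red P.n R ⊓ LinearMap.ker ψ ≤
      Red P.n (𝔖.T0 a (Pt' P j X')) ⊓ LinearMap.ker ((NP.d1L P.X (gg a P)).restrictScalars (F P.n)) :=
    fun x hx => ⟨Red_mono _ hR.1 hx.1,
      (mul_eq_zero.1 ((hψ x).symm.trans hx.2)).resolve_left (mul_ne_zero h0 (inv_ne_zero hdp))⟩
  have f7 := Submodule.finrank_mono f6
  have f8 := (hs.image h).2
  have f9 : finrank (F P.n) (extA hm.sub (𝔖.L0 a P) L0_le_D) = 𝔖.n0 a P * (j + 2) ^ 2 := by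
    rw [← ν_insert hs.hj]
    exact finrank_ext (U := Subalgebra.toSubmodule (𝔖.L0 a P)) hm.sub fun y hy => L0_le_D hy
  have f10 : 𝔖.n0 a P * (j + 2) ^ 2 = 𝔖.ee a P * (j + 2) ^ 2 + finrank (F P.n) (𝔖.WW a P) * (j + 2) ^ 2 := by
    rw [← add_mul, ee, Nat.sub_add_cancel finrank_WW_le]
  omega

/-- normalise the tuple `Fin.cons α c`, then the two cases and arithmetic -/
theorem Sp.newQQ (hs : 𝔖.Sp a P j w v X') (h : 𝔖.Base a P ρ) (hE : 3 * 𝔖.ee a P ≤ 𝔖.n0 a P)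
    (hρ : 𝔖.n0 a P < ρ) (d : 𝔖.NewData a (Pt' P j X')) (he : 𝔖.ee a (Pt' P j X') ≤ 𝔖.ee a P)
    (hj : 2 * 𝔖.n0 a P + 3 * (𝔖.h + 𝔖.ee a P) + 2 ≤ j + 2) :
    (𝔖.cons d.block).QQ (Pt' P j X') ((𝔖.cons d.block).h + 2) := by
  have h' := h.of_epc hs.mv.reach (hs.epc h)
  intro c hc hc0
  change Fin (𝔖.N + 1) → A at c
  have hp := d.penD h'.st h'.ming hc
  have hr := d.rad h'.st h'.ming hc
  have hT := d.Tan_eq h'.st h'.ming
  have hh : (𝔖.cons d.block).h ≤ 𝔖.ee a P + 𝔖.h := by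
    rw [cons_h, d.h_eq h'.st h'.ming]
    exact Nat.add_le_add_right he _
  have h1 : (Fin.cons (c 0 * dp a (Pt' P j X')) (Fin.tail c) : Fin (𝔖.N + 1) → A) ≠ 0 := fun e => hc0 <| by
    rw [← Fin.cons_self_tail c, (mul_eq_zero.1 (congrFun e 0)).resolve_right (dp_ne d.pok d.cin)]
    exact funext fun i : Fin (𝔖.N + 1) => Fin.cases rfl (fun k => congrFun e k.succ) i
  have h2 : In (P.n + 1) (Fin.cons (c 0 * dp a (Pt' P j X')) (Fin.tail c) : Fin (𝔖.N + 1) → A) :=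
    In_pi.2 fun i => Fin.cases (D_In (Cen_le _ _ _ hp.cen)) (fun k => In_pi.1 (DV_In (NT_le hp.hc)) k) i
  obtain ⟨l, hl, -, hli, hlr⟩ := normalise P.n h1 h2
  have h3 : Ig P.n (l • (c 0 * dp a (Pt' P j X'))) := Ig_pi.1 hli 0
  have h4 : Ig P.n (l • Fin.tail c) := Ig_pi.2 fun k => Ig_pi.1 hli k.succ
  have hm : (2 * 𝔖.n0 a P + (3 * (𝔖.h + 𝔖.ee a P) + 2)) * (j + 2) ≤ (j + 2) ^ 2 := by
    rw [sq]
    exact Nat.mul_le_mul_right _ (by omega)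
  have hm' : 3 * (𝔖.h + 𝔖.ee a P) + 2 ≤ (3 * (𝔖.h + 𝔖.ee a P) + 2) * (j + 2) :=
    Nat.le_mul_of_pos_right _ (by omega)
  rw [add_mul, mul_assoc] at hm
  unfold RkGe
  rw [hT]
  have key : finrank (F (P.n + 1)) (lker ((𝔖.cons d.block).bet (P.n + 1) X' c) (𝔖.T0 a (Pt' P j X'))
      (𝔖.T0 a (Pt' P j X'))) + (j + 2) ^ 2 ≤
      finrank (F (P.n + 1)) (𝔖.T0 a (Pt' P j X')) + 2 * (𝔖.n0 a P * (j + 2)) := by
    by_cases h0 : red P.n (l • (c 0 * dp a (Pt' P j X'))) = 0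
    · have h5 : red P.n (l • Fin.tail c) ≠ 0 := fun e => hlr <| funext fun i => by
        rw [red_pi]
        exact Fin.cases h0 (fun k => (red_pi P.n (l • Fin.tail c) k).symm.trans (congrFun e k)) i
      have h6 := hs.case_old h (hp.smul hl) h4 h3 h0 h5 (hr.smul l)
      have h7 := Nat.mul_le_mul_right ((j + 2) ^ 2) (Nat.succ_le_of_lt hρ)
      rw [Nat.succ_mul] at h7
      change finrank (F (P.n + 1)) (lker ((𝔖.cons d.block).bet (P.n + 1) X' c) _ _) + _ ≤ _ at h6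
      omega
    · have h6 := hs.case_new h (hp.smul hl) h4 h3 h0 (hr.smul l)
      have h7 : 2 * 𝔖.ee a P + 1 ≤ 𝔖.n0 a P := by
        have := n0_pos (𝔖 := 𝔖) (a := a) (P := P)
        omega
      have h8 := Nat.mul_le_mul_right ((j + 2) ^ 2) h7
      rw [add_mul, one_mul, mul_assoc] at h8
      change finrank (F (P.n + 1)) (lker ((𝔖.cons d.block).bet (P.n + 1) X' c) _ _) + _ ≤ _ at h6
      omega
  change finrank (F (P.n + 1)) (lker ((𝔖.cons d.block).bet (P.n + 1) X' c) _ _) + _ ≤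
    finrank (F (P.n + 1)) (𝔖.T0 a (Pt' P j X'))
  omega

end Sys

end Crest.Agent.R180
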