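import Crest.Agent.R180.NewGood
import Crest.Agent.R180.NewQ

/-!
# Row 180, freezing one element; growth
-/

set_option autoImplicit false
set_option linter.unusedSectionVars false

namespace Crest.Agent.R180

open Module Polynomial

namespace Sys

variable {𝔖 : Sys} {a : NP} {P P' : Pt} {ρ : ℕ}

/-- along a move `x = τ (a'^j)` has `θ x = 0` (`τ_θV`, `θV_eval`, `d1_pw`, `τ_dpow`, `Move.θ_mem`), so `x = r x` -/
theorem St.τ_pow_const (h : 𝔖.St P ρ) (ha : a.cin P.n) (hz : ∀ P', 𝔖.Reach P P' → ¬ 𝔖.Nz a P')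
    (hr : 𝔖.Reach P P') (k : ℕ) : τ (a.eval P'.X ^ k) = τ (a.eval P.X ^ k) := by
  induction hr with
  | refl => rfl
  | @tail Q Q' hQ hs ih =>
    obtain ⟨S', X', rfl, hm⟩ := hs
    rw [← ih]
    have hQs := h.reach hQ
    have haQ : a.cin Q.n := NP.cin_mono (Reach.ext h.ok hQ).le ha
    have hX' : In (Q.n + 1) X' := DV_In hm.mem
    have hin : In (Q.n + 1) (a.eval X' ^ k) := (NP.eval_In hX' (NP.cin_mono (Nat.le_succ _) haQ)).pow k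
    have hθ : θ Q.n (τ (a.eval X' ^ k)) = 0 := by
      rw [← τ_θV, ← eval_pw, NP.θV_eval X' (NP.cin_pw haQ k), d1_pw]
      cases k with
      | zero => simp [dpow]
      | succ k =>
        have h1 := τ_dpow (c := 1) (x := a.eval X') (by simp) (a.d1 X' (θV Q.n X')) k
        rw [one_mul, one_mul] at h1
        rw [h1]
        have h2 : τ (a.eval X' ^ k * a.d1 X' (θV Q.n X')) = 0 := by
          by_contra h3
          exact hz ⟨Q.n + 1, S', X'⟩ (Reach.trans hQ hm.reach) ⟨k, _, hm.θ_mem hQs.ok hQs.good, h3⟩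
        rw [h2, mul_zero]
    have h4 := eq_r_of_θ hin.τ hθ
    have hig := hm.ig hQs.ok
    show τ (a.eval X' ^ k) = τ (a.eval Q.X ^ k)
    rw [← h4, ← τ_red, red_pow (NP.eval_ig hig haQ), NP.red_eval hig haQ, hm.red_eq hQs.ok]

/-- `p(a')` is orthogonal to all powers of `a'`, hence to `Lf a'` -/
theorem St.caseB (h : 𝔖.St P ρ) (ha : a.cin P.n) (hz : ∀ P', 𝔖.Reach P P' → ¬ 𝔖.Nz a P')
    (hr : 𝔖.Reach P P') : (gg a P).eval P'.X = 0 := by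
  have he := Reach.ext h.ok hr
  have hP' := Reach.pok h.ok hr
  have ha' : a.cin P'.n := NP.cin_mono he.le ha
  have hD := eval_mem_D hP' ha'
  have : FiniteDimensional (F P'.n) (Lf P'.n (a.eval P'.X)) :=
    fdA_of_le_D _ ((Lf_le_Cen hD).trans (Cen_le _ _ _))
  have hpow : ∀ i : ℕ, τ (a.eval P'.X ^ i * (gg a P).eval P'.X) = 0 := by
    intro i
    have h0 : τ (a.eval P.X ^ i * (gg a P).eval P.X) = 0 := by rw [gg_eval, mul_zero, map_zero]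
    rw [← h0, gg, eval_poly, eval_poly, aeval_sum, aeval_sum, Finset.mul_sum, Finset.mul_sum, map_sum, map_sum]
    refine Finset.sum_congr rfl fun k _ => ?_
    rw [mul_smul_comm, mul_smul_comm, map_smul, map_smul, ← pow_add, ← pow_add, h.τ_pow_const ha hz hr]
  refine eq_zero_of_τ (Lf P'.n (a.eval P'.X)) ?_ fun c hc => ?_
  · rw [gg, eval_poly, aeval_sum]
    refine Subalgebra.sum_mem _ fun k _ => ?_
    have h1 : a.eval P'.X ^ k ∈ Lf P'.n (a.eval P'.X) := pow_mem (Algebra.self_mem_adjoin_singleton _ _) k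
    exact Subalgebra.smul_mem _ h1 (⟨_, K_mono he.le ((pp a P).coeff k).2⟩ : F P'.n)
  · rw [Lf, Algebra.adjoin_singleton_eq_range_aeval] at hc
    obtain ⟨q, rfl⟩ := hc
    show τ (aeval (a.eval P'.X) q * _) = 0
    rw [aeval_sum, Finset.sum_mul, map_sum]
    refine Finset.sum_eq_zero fun k _ => ?_
    rw [smul_mul_assoc, map_smul, hpow, smul_zero]

/-- a block without test elements -/
noncomputable def botBlock (a : NP) (P : Pt) (ha : a.cin P.n) : Block where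
  f := gg a P
  n0 := P.n
  S0 := P.S
  NT := ⊥
  NA := ⊥
  hf := gg_cin ha
  hle := le_rfl
  hD := fun c hc => by rw [(Submodule.mem_bot _).1 hc]; exact zero_mem _

theorem botBlock_h (ha : a.cin P.n) : (botBlock a P ha).h = 0 := Nat.sub_self _

theorem St.cons_bot (h : 𝔖.St P ρ) (ha : a.cin P.n)
    (hz : ∀ P', 𝔖.Reach P P' → (gg a P).eval P'.X = 0) : (𝔖.cons (botBlock a P ha)).St P ρ := by
  have hT : (botBlock a P ha).sT P.n P.S = ⊥ := Block.sT_base (b := botBlock a P ha)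
  have hA : (botBlock a P ha).sA P.n P.S = ⊥ := Block.sA_base (b := botBlock a P ha)
  have hp : ∀ (c : Fin (𝔖.N + 1) → A), c 0 = 0 → ∀ (y₀ : A) (y : Fin 𝔖.N → A),
      pair c (Fin.cons y₀ y : Fin (𝔖.N + 1) → A) = pair (Fin.tail c) y := by
    intro c hc y₀ y
    rw [pair_cons, hc, zero_mul, map_zero, zero_add]
  have hk : ∀ (c : Fin (𝔖.N + 1) → A), c 0 = 0 → (𝔖.cons (botBlock a P ha)).Kills P.n P.S P.X c →
      𝔖.Kills P.n P.S P.X (Fin.tail c) := by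
    intro c hc h1 δ hδ
    have h2 := h1 δ hδ
    rw [cons_df] at h2
    exact (hp c hc _ _).symm.trans h2
  have h0 : ∀ (c : Fin (𝔖.N + 1) → A), c 0 = 0 → Fin.tail c = 0 → c = 0 := fun c h1 h2 =>
    funext fun i => Fin.cases h1 (fun j => congrFun h2 j) i
  have hTan : (𝔖.cons (botBlock a P ha)).Tan P.n P.S P.X = 𝔖.Tan P.n P.S P.X := by
    ext δ
    rw [cons_mem_Tan, hA]
    refine ⟨fun h1 => h1.1, fun h1 => ⟨h1, fun c hc => ?_⟩⟩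
    rw [(Submodule.mem_bot _).1 hc, zero_mul, map_zero]
  refine ⟨⟨cons_ok.2 ⟨⟨le_rfl, subset_rfl⟩, h.ok.1⟩, h.ok.2⟩, fun c hc hkc => ?_, fun P' hr => ?_,
    fun c hc hc0 => ?_, ?_⟩
  · obtain ⟨h1, h2⟩ := cons_mem_NA.1 hc
    rw [hA] at h1
    exact h0 c h1 (h.reg _ h2 (hk c h1 hkc))
  · rw [cons_ev, h.good P' hr.of_cons]
    have h1 : (botBlock a P ha).f.eval P'.X = 0 := hz P' hr.of_cons
    rw [h1]
    exact funext fun i : Fin (𝔖.N + 1) => Fin.cases rfl (fun _ => rfl) i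
  · obtain ⟨h1, h2⟩ := cons_mem_NT.1 hc.1
    rw [hT] at h1
    have h3 := h.qq (Fin.tail c) ⟨h2, hk c h1 hc.2⟩ fun h4 => hc0 (h0 c h1 h4)
    have h5 : (𝔖.cons (botBlock a P ha)).bet P.n P.X c = 𝔖.bet P.n P.X (Fin.tail c) := by
      refine LinearMap.ext₂ fun δ δ' => Subtype.ext ?_
      rw [bet_val, bet_val, cons_f2]
      exact congrArg _ (hp c h1 _ _)
    rw [h5, hTan, cons_h, botBlock_h, zero_add]
    exact h3
  · rw [cons_finrank_NT, hT, finrank_bot, zero_add]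
    exact h.small

/-- the rank bound is large against `√ν` and `h` -/
def Big (𝔖 : Sys) (P : Pt) (ρ : ℕ) : Prop := 16 * ν P.S ≤ ρ ^ 2 ∧ 2 * 𝔖.h + 2 ≤ ρ

theorem Big.reach (hP : 𝔖.POk P) (h : 𝔖.Big P ρ) (hr : 𝔖.Reach P P') :
    𝔖.Big P' (ρ * ν (P'.S \ P.S)) := by
  have h1 := ν_sdiff (Reach.ext hP hr).sub
  have h2 := ν_pos (P'.S \ P.S)
  obtain ⟨h3, h4⟩ := h
  refine ⟨?_, h4.trans (Nat.le_mul_of_pos_right _ h2)⟩
  rw [h1, mul_pow, ← mul_assoc]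
  exact Nat.mul_le_mul h3 (Nat.le_self_pow two_ne_zero _)

/-- `deg_sq_le` -/
theorem Big.le (hP : 𝔖.POk P) (ha : a.cin P.n) (h : 𝔖.Big P ρ) :
    2 * finrank (F P.n) (LL a P) + 𝔖.h ≤ ρ := by
  have h1 := deg_sq_le (eval_mem_D hP ha)
  obtain ⟨h3, h4⟩ := h
  have h5 : (4 * finrank (F P.n) (LL a P)) ^ 2 ≤ ρ ^ 2 := by
    rw [mul_pow]
    exact (Nat.mul_le_mul_left 16 h1).trans h3
  have h6 := (Nat.pow_le_pow_iff_left two_ne_zero).1 h5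
  omega

theorem exists_fresh (S : Finset ℕ) (M : ℕ) : ∃ j, j ∉ S ∧ M ≤ j := by
  refine ⟨S.sup id + 1 + M, fun h => ?_, by omega⟩
  have h1 : id (S.sup id + 1 + M) ≤ S.sup id := Finset.le_sup h
  simp only [id] at h1
  omega

/-- `St.big_move` with `T₀ = Tan`, `δ₁ = δ₂ = 0` and a large `j` -/
theorem St.exists_big (h : 𝔖.St P ρ) (hρ : 𝔖.h + 2 ≤ ρ) :
    ∃ P' ρ', 𝔖.Reach P P' ∧ 𝔖.St P' ρ' ∧ 𝔖.Big P' ρ' := by
  obtain ⟨j, hj, hM⟩ := exists_fresh P.S (16 * ν P.S)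
  obtain ⟨e₁, e₂, X', -, -, hm, -⟩ := h.big_move hj (T₀ := 𝔖.Tan P.n P.S P.X) le_rfl (k := 0) le_rfl (by omega)
    (zero_mem _) (zero_mem _)
  refine ⟨_, _, hm.reach, h.move hm, ?_, ?_⟩
  · show 16 * ν (insert j P.S) ≤ _
    rw [ν_sdiff hm.sub, ν_insert hj, ← mul_assoc, mul_pow, sq ((j + 2) ^ 2), ← mul_assoc]
    refine Nat.mul_le_mul_right _ ?_
    have h1 : 1 ≤ ρ ^ 2 := Nat.one_le_pow _ _ (by omega)
    have h2 : j + 2 ≤ (j + 2) ^ 2 := Nat.le_self_pow two_ne_zero _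
    calc 16 * ν P.S ≤ 1 * (j + 2) ^ 2 := by omega
      _ ≤ _ := Nat.mul_le_mul_right _ h1
  · rw [ν_insert hj]
    have h2 : 2 ^ 2 ≤ (j + 2) ^ 2 := Nat.pow_le_pow_left (by omega) 2
    calc 2 * 𝔖.h + 2 ≤ ρ * 2 ^ 2 := by omega
      _ ≤ _ := Nat.mul_le_mul_left _ h2

theorem exists_min_nat {α : Type*} (p : α → Prop) (f : α → ℕ) {x : α} (hx : p x) :
    ∃ y, p y ∧ ∀ w, p w → f y ≤ f w := by
  obtain ⟨y, hy, h⟩ := (InvImage.wf f Nat.lt_wfRel.wf).has_min {w | p w} ⟨x, hx⟩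
  exact ⟨y, hy, fun w hw => Nat.le_of_not_lt (h w hw)⟩

/-- minimise `gam`, then `bb` -/
theorem exists_minGB (𝔖 : Sys) (a : NP) (P : Pt) : ∃ P', 𝔖.Reach P P' ∧ 𝔖.MinG a P' ∧ 𝔖.MinB a P' := by
  obtain ⟨P₁, h1, h2⟩ := exists_min_nat (𝔖.Reach P) (gam a) (Reach.refl P)
  obtain ⟨P₂, ⟨h3, h4⟩, h5⟩ := exists_min_nat (fun Q => 𝔖.Reach P₁ Q ∧ gam a Q = gam a P₁) (𝔖.bb a)
    (x := P₁) ⟨Reach.refl P₁, rfl⟩
  refine ⟨P₂, h1.trans h3, fun Q hQ => ?_, fun Q hQ hg => h5 Q ⟨h3.trans hQ, hg.trans h4⟩⟩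
  rw [h4]
  exact h2 Q (h1.trans (h3.trans hQ))

theorem Base.reach_eq (h : 𝔖.Base a P ρ) (hr : 𝔖.Reach P P') (h1 : gam a P' = gam a P)
    (h2 : 𝔖.bb a P' = 𝔖.bb a P) : 𝔖.Base a P' (ρ * ν (P'.S \ P.S)) := by
  refine ⟨h.st.reach hr, NP.cin_mono (Reach.ext h.st.ok hr).le h.cin, fun Q hQ => ?_, fun Q hQ hg => ?_⟩
  · rw [h1]
    exact h.ming Q (hr.trans hQ)
  · rw [h2]
    exact h.minb Q (hr.trans hQ) (hg.trans h1)

/-- one special move with a primitive `v` and large `j` gives `3 e ≤ n₀`; then minimise `ee` -/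
theorem Base.exists_minE (h : 𝔖.Base a P ρ) (hb : 𝔖.Big P ρ) (hz : 𝔖.Nz a P) :
    ∃ P' ρ', 𝔖.Reach P P' ∧ 𝔖.Base a P' ρ' ∧ 𝔖.Big P' ρ' ∧ 𝔖.Nz a P' ∧ 𝔖.MinE a P' := by
  obtain ⟨w, hw, w0⟩ := hz.exists_w h.st.ok h.cin
  obtain ⟨v, hv, hk⟩ := h.exists_prim hw w0
  obtain ⟨j, hj, hM⟩ := exists_fresh P.S (3 * (𝔖.ee a P * 𝔖.ee a P))
  obtain ⟨X', hs⟩ := h.exists_sp (hb.le h.st.ok h.cin) hj hw w0 hv
  have he := hs.epc h
  have h1 := hs.ee_le h hk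
  have h2 : 3 * 𝔖.ee a ⟨P.n + 1, insert j P.S, X'⟩ ≤ 𝔖.n0 a ⟨P.n + 1, insert j P.S, X'⟩ := by
    rw [he.n0_eq]
    have h3 : 1 * (j + 2) ≤ 𝔖.n0 a P * (j + 2) := Nat.mul_le_mul_right _ n0_pos
    omega
  obtain ⟨P₂, ⟨h3, h4, h5, h6⟩, h7⟩ := exists_min_nat
    (fun Q => 𝔖.Reach P Q ∧ gam a Q = gam a P ∧ 𝔖.bb a Q = 𝔖.bb a P ∧ 3 * 𝔖.ee a Q ≤ 𝔖.n0 a Q) (𝔖.ee a)
    (x := ⟨P.n + 1, insert j P.S, X'⟩) ⟨hs.mv.reach, he.gam_eq, he.bb_eq, h2⟩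
  exact ⟨P₂, _, h3, h.reach_eq h3 h4 h5, hb.reach h.st.ok h3, hz.reach h.st h.cin h3, h6,
    fun Q hQ e1 e2 e3 => h7 Q ⟨h3.trans hQ, e1.trans h4, e2.trans h5, e3⟩⟩

/-- a special move with a good `v`, then the constant move -/
theorem Base.caseA (h : 𝔖.Base a P ρ) (hb : 𝔖.Big P ρ) (hz : 𝔖.Nz a P) (hE : 𝔖.MinE a P) :
    ∃ (P₄ : Pt) (d : 𝔖.NewData a P₄), 𝔖.Reach P P₄ ∧ 𝔖.Reach P₄ ⟨P₄.n + 1, P₄.S, P₄.X⟩ ∧
      (𝔖.cons d.block).St ⟨P₄.n + 1, P₄.S, P₄.X⟩ ((𝔖.cons d.block).h + 2) := by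
  obtain ⟨w, hw, w0⟩ := hz.exists_w h.st.ok h.cin
  obtain ⟨v, hv, hk⟩ := h.exists_good hE.1 hw w0
  obtain ⟨j, hj, hM⟩ := exists_fresh P.S (2 * 𝔖.n0 a P + 3 * (𝔖.h + 𝔖.ee a P))
  have hle := hb.le h.st.ok h.cin
  obtain ⟨X', hs⟩ := h.exists_sp hle hj hw w0 hv
  have he := hs.epc h
  have h1 := hs.ee_le h hk
  rw [one_mul] at h1
  have hr : 𝔖.Reach P (Pt' P j X') := hs.mv.reach
  have hB := h.of_epc hr he
  have hpos : 0 < 𝔖.n0 a P := n0_pos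
  have hE' : 𝔖.MinE a (Pt' P j X') := by
    refine ⟨?_, fun Q hQ e1 e2 e3 => h1.trans (hE.2 Q (hr.trans hQ) (e1.trans he.gam_eq) (e2.trans he.bb_eq) e3)⟩
    rw [he.n0_eq]
    have h2 : 𝔖.n0 a P ≤ 𝔖.n0 a P * (j + 2) := Nat.le_mul_of_pos_right _ (by omega)
    have h3 := hE.1
    have h4 : 𝔖.ee a (Pt' P j X') ≤ 𝔖.ee a P := h1
    omega
  obtain ⟨w', hw', w0'⟩ := (hz.reach h.st h.cin hr).exists_w hB.st.ok hB.cin
  obtain ⟨d⟩ := exists_newData hB.st.ok hB.cin hw' w0'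
  have hm := d.const_move hB.st
  have hok : (𝔖.cons d.block).POk (Pt' P j X') :=
    ⟨cons_ok.2 ⟨⟨le_rfl, subset_rfl⟩, hB.st.ok.1⟩, hB.st.ok.2⟩
  have hn0 : 𝔖.n0 a P ≤ finrank (F P.n) (LL a P) := by
    have : FiniteDimensional (F P.n) (LL a P) :=
      fdA_of_le_D _ ((Lf_le_Cen (eval_mem_D h.st.ok h.cin)).trans (Cen_le _ _ _))
    exact Submodule.finrank_mono (s := Subalgebra.toSubmodule (𝔖.L0 a P)) (t := Subalgebra.toSubmodule (LL a P))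
      (L0_le_LL h.st h.cin h.ming)
  refine ⟨Pt' P j X', d, hr, hm.of_cons.reach, hm.pok hok, hm.reg hok, d.good hB hE',
    QQ.const hok (d.reg hB.st) (hm.reg hok) (hs.newQQ h hE.1 (by omega) d h1 (by omega)), ?_⟩
  show finrank (F (P.n + 1 + 1)) ((𝔖.cons d.block).NT (P.n + 1 + 1) (insert j P.S)) < ν (insert j P.S)
  have e1 : finrank (F (P.n + 1 + 1)) (d.block.sT (P.n + 1 + 1) (insert j P.S)) = 𝔖.n0 a P * (j + 2) := by
    rw [Block.finrank_sT (b := d.block) (n := P.n + 1 + 1) (S := insert j P.S) (Nat.le_succ (P.n + 1)) subset_rfl]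
    show finrank (F (P.n + 1)) (𝔖.NTa a (Pt' P j X') d.w) * ν (insert j P.S \ insert j P.S) = _
    rw [Finset.sdiff_self, ν_empty, mul_one, ← he.n0_eq]
    exact finrank_NTa d.pok d.cin d.w0
  rw [cons_finrank_NT, e1, finrank_NT h.st.ok.1 (by omega) hs.mv.sub, ν_sdiff hs.mv.sub, ν_insert hj]
  have h2 : 𝔖.n0 a P * (j + 2) < (j + 2) ^ 2 := by
    rw [sq]
    exact Nat.mul_lt_mul_of_pos_right (by omega) (by omega)
  have h3 : (finrank (F P.n) (𝔖.NT P.n P.S) + 1) * (j + 2) ^ 2 ≤ ν P.S * (j + 2) ^ 2 :=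
    Nat.mul_le_mul_right _ h.st.small
  rw [add_mul, one_mul] at h3
  omega

theorem St.freeze (h : 𝔖.St P ρ) (hρ : 𝔖.h + 2 ≤ ρ) (ha : a.cin P.n) :
    ∃ (b : Block) (P' : Pt) (ρ' k : ℕ) (p : (F k)[X]), (𝔖.cons b).St P' ρ' ∧ (𝔖.cons b).h + 2 ≤ ρ' ∧
      𝔖.Reach P P' ∧ k ≤ P'.n ∧ b.f = NP.poly p a ∧ p.Monic ∧ (p = X ∨ p.coeff 0 ≠ 0) := by
  by_cases hz : ∀ P', 𝔖.Reach P P' → ¬ 𝔖.Nz a P'
  · have h1 := minpoly_facts (eval_mem_D h.ok ha)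
    refine ⟨botBlock a P ha, P, ρ, P.n, pp a P, h.cons_bot ha fun P' hr => h.caseB ha hz hr, ?_, Reach.refl P,
      le_rfl, rfl, h1.1, h1.2.2⟩
    rw [cons_h, botBlock_h, zero_add]
    exact hρ
  · push Not at hz
    obtain ⟨P₁, r1, z1⟩ := hz
    have s1 := h.reach r1
    have a1 : a.cin P₁.n := NP.cin_mono (Reach.ext h.ok r1).le ha
    obtain ⟨P₂, ρ₂, r2, s2, b2⟩ := s1.exists_big (hρ.trans (Nat.le_mul_of_pos_right _ (ν_pos _)))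
    have a2 : a.cin P₂.n := NP.cin_mono (Reach.ext s1.ok r2).le a1
    have z2 := z1.reach s1 a1 r2
    obtain ⟨P₃, r3, g3, m3⟩ := exists_minGB 𝔖 a P₂
    have B3 : 𝔖.Base a P₃ (ρ₂ * ν (P₃.S \ P₂.S)) :=
      ⟨s2.reach r3, NP.cin_mono (Reach.ext s2.ok r3).le a2, g3, m3⟩
    obtain ⟨P₄, ρ₄, r4, B4, b4, z4, e4⟩ := B3.exists_minE (b2.reach s2.ok r3) (z2.reach s2 a2 r3)
    obtain ⟨P₅, d, r5, r6, s6⟩ := B4.caseA b4 z4 e4
    have h1 := minpoly_facts (eval_mem_D d.pok d.cin)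
    exact ⟨d.block, _, _, P₅.n, pp a P₅, s6, le_rfl, r1.trans (r2.trans (r3.trans (r4.trans (r5.trans r6)))),
      Nat.le_succ _, rfl, h1.1, h1.2.2⟩

end Sys

end Crest.Agent.R180
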