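import Crest.Agent.R180.Prop

/-!
# Row 180, growth of the algebra generated by the point
-/

set_option autoImplicit false
set_option linter.unusedSectionVars false

namespace Crest.Agent.R180

open Module

/-- the algebra generated by the point -/
noncomputable def gen (P : Pt) : Subalgebra (F P.n) A := Algebra.adjoin (F P.n) (Set.range P.X)

noncomputable def dimg (P : Pt) : ℕ := finrank (F P.n) (gen P)

theorem gen_le {P : Pt} (h : P.X ∈ DV P.n P.S (Fin 2)) : gen P ≤ D P.n P.S :=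
  Algebra.adjoin_le (by rintro _ ⟨i, rfl⟩; exact mem_DV.1 h i)

theorem X_mem_gen (P : Pt) (i : Fin 2) : P.X i ∈ gen P := Algebra.subset_adjoin ⟨i, rfl⟩

theorem Pt.Ext.gen_le_RedA {P P' : Pt} (h : P.Ext P') : gen P ≤ RedA h.le (gen P') :=
  Algebra.adjoin_le (by
    rintro _ ⟨i, rfl⟩
    exact ⟨P'.X i, X_mem_gen P' i, Ig_pi.1 h.ig i, by rw [← red_pi, h.red_eq]⟩)

theorem Pt.Ext.finrank_RedA_gen {P P' : Pt} (h : P.Ext P') (h' : P'.X ∈ DV P'.n P'.S (Fin 2)) :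
    FiniteDimensional (F P.n) (RedA h.le (gen P')) ∧ finrank (F P.n) (RedA h.le (gen P')) = dimg P' :=
  haveI := fdA_of_le_D _ (gen_le h')
  finrank_RedA h.le _ fun _ hy => D_In (gen_le h' hy)

/-- `gen P ≤ RedA (gen P')` -/
theorem Pt.Ext.dimg_le {P P' : Pt} (h : P.Ext P') (h' : P'.X ∈ DV P'.n P'.S (Fin 2)) : dimg P ≤ dimg P' := by
  obtain ⟨h1, h2⟩ := h.finrank_RedA_gen h'
  rw [← h2]
  have : FiniteDimensional (F P.n) (Subalgebra.toSubmodule (RedA h.le (gen P'))) := h1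
  exact Submodule.finrank_mono (s := Subalgebra.toSubmodule (gen P))
    (t := Subalgebra.toSubmodule (RedA h.le (gen P'))) h.gen_le_RedA

namespace Sys

variable {𝔖 : Sys} {P : Pt} {ρ : ℕ}

/-- the gauge directions -/
noncomputable def gauge (P : Pt) : Submodule (F P.n) V2 :=
  (Subalgebra.toSubmodule (D P.n P.S)).map
    (LinearMap.pi fun i => LinearMap.mulRight (F P.n) (P.X i) - LinearMap.mulLeft (F P.n) (P.X i))

theorem mem_gauge {δ : V2} : δ ∈ gauge P ↔ ∃ ξ ∈ D P.n P.S, (fun i => ξ * P.X i - P.X i * ξ) = δ := Iff.rfl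

/-- `dim Tan = 2 ν - dim NA > ν ≥ dim gauge`; take a functional that kills `gauge` but not `Tan` -/
theorem St.exists_nongauge (h : 𝔖.St P ρ) :
    ∃ δ ∈ 𝔖.Tan P.n P.S P.X, ∃ φ : V2 →ₗ[F P.n] F P.n, φ δ ≠ 0 ∧ ∀ u ∈ gauge P, φ u = 0 := by
  have : FiniteDimensional (F P.n) (Subalgebra.toSubmodule (D P.n P.S)) := D_fd _ _
  have h1 : finrank (F P.n) (gauge P) ≤ ν P.S :=
    (Submodule.finrank_map_le _ _).trans (finrank_D P.n P.S).le
  have h2 := finrank_Tan h.ok.1 h.ok.2 h.reg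
  have h3 := finrank_NA h.ok.1
  have h4 := h.small
  have : FiniteDimensional (F P.n) (gauge P) := by unfold gauge; infer_instance
  have h5 : ¬ 𝔖.Tan P.n P.S P.X ≤ gauge P := fun hle => by
    have := Submodule.finrank_mono hle
    omega
  obtain ⟨δ, hδ, hδ'⟩ := SetLike.not_le_iff_exists.1 h5
  obtain ⟨φ, h6, h7⟩ := (gauge P).exists_dual_map_eq_bot_of_notMem hδ' inferInstance
  exact ⟨δ, hδ, φ, h6, fun u hu => (Submodule.mem_bot _).1 (h7 ▸ Submodule.mem_map_of_mem hu)⟩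

/-- If the dimension does not grow, `RedA (gen P') = gen P`.  For a term `u` with `u(X) = 0`, `t⁻¹ u(X') ∈ gen P'` reduces
to `du(v) = x du(e₁) + y du(e₂) ∈ D n S`, so `du(e₁) = 0` (`cmp_z_mul`).  Hence `Rel y y' := ∃ u, u(X) = y ∧ du(e₁) = y'`
is a derivation; `inner_of_rel` makes `e₁` a gauge direction. -/
theorem gauge_of_dimg {j : ℕ} (hP : 𝔖.POk P) (hj : j ∉ P.S) {X' e₁ e₂ : V2} (hm : 𝔖.Move P (insert j P.S) X')
    (h₁ : e₁ ∈ DV P.n P.S (Fin 2)) (h₂ : e₂ ∈ DV P.n P.S (Fin 2))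
    (hv : cf P.n 1 (X' - P.X) = xj j • e₁ + yj j • e₂)
    (hd : dimg ⟨P.n + 1, insert j P.S, X'⟩ ≤ dimg P) : e₁ ∈ gauge P := by
  have hE : P.Ext ⟨P.n + 1, insert j P.S, X'⟩ := hm.reach.ext hP
  obtain ⟨f1, f2⟩ := hE.finrank_RedA_gen hm.mem
  have : FiniteDimensional (F P.n) (Subalgebra.toSubmodule (RedA hE.le (gen ⟨P.n + 1, insert j P.S, X'⟩))) := f1
  have heq : Subalgebra.toSubmodule (gen P) =
      Subalgebra.toSubmodule (RedA hE.le (gen ⟨P.n + 1, insert j P.S, X'⟩)) :=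
    Submodule.eq_of_le_of_finrank_le hE.gen_le_RedA (f2.le.trans hd)
  have hXD := mem_DV.1 hP.2
  have : Fact (1 < j + 2) := ⟨by omega⟩
  have key : ∀ u : NP, u.cin P.n → u.eval P.X = 0 → u.d1 P.X e₁ = 0 := by
    intro u hu h0
    have h1 := eval_expand1 hu (DV_In hP.2) (cf_In P.n 1 (X' - P.X)) (hm.od2 hP)
    rw [h0, sub_zero] at h1
    have hd1 : In P.n (u.d1 P.X (cf P.n 1 (X' - P.X))) :=
      D_In (NP.d1_mem (D P.n (insert j P.S)) (fun i => D_mono le_rfl hm.sub (hXD i))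
        (mem_DV.1 (hm.vel_mem hP)) hu)
    have h2 : Od P.n 1 (u.eval X') := by
      convert (h1.mono (l := 1) (by omega)).add (od_t hd1.ig) using 1
      abel
    have h3 : cf P.n 1 (u.eval X') = u.d1 P.X (cf P.n 1 (X' - P.X)) := by
      have := h1.cf_eq_zero
      rw [cf_sub, sub_eq_zero] at this
      rw [this]
      simpa only [pow_one] using cf_tpow_In 1 hd1
    have h4 : cf P.n 1 (u.eval X') ∈ gen P := by
      change _ ∈ Subalgebra.toSubmodule (gen P)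
      rw [heq]
      exact ⟨_, (gen ⟨P.n + 1, insert j P.S, X'⟩).smul_mem
        (NP.eval_mem _ (X_mem_gen ⟨P.n + 1, insert j P.S, X'⟩) (NP.cin_mono (Nat.le_succ _) hu))
        (⟨_, tinv_mem P.n 1⟩ : F (P.n + 1)), h2, rfl⟩
    have h5 := gen_le hP.2 h4
    have e1 := NP.d1_mem (D P.n P.S) hXD (mem_DV.1 h₁) hu
    have e2 := NP.d1_mem (D P.n P.S) hXD (mem_DV.1 h₂) hu
    have h6 := cmp_z_mul (gj_mem_GF hj 1 0) (zero_mem_GF _) h5
    rw [z_zero, one_mul, if_neg fun h => by simpa [gj_apply] using congrArg (fun γ : G => γ j) h, h3, hv,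
      NP.d1_add, NP.d1_mul fun i => (D_comm Finset.disjoint_sdiff (hXD i) (xj_mem P.n hj)).symm,
      NP.d1_mul fun i => (D_comm Finset.disjoint_sdiff (hXD i) (yj_mem P.n hj)).symm, map_add, xj, yj,
      cmp_z_mul (gj_mem_GF hj 1 0) (gj_mem_GF hj 1 0) e1, cmp_z_mul (gj_mem_GF hj 1 0) (gj_mem_GF hj 0 1) e2,
      if_pos rfl, if_neg fun h => by simpa [gj_apply] using congrArg (fun γ : G => γ j) h, add_zero] at h6
    exact h6
  obtain ⟨ξ, hξ, h⟩ := inner_of_rel (gen P) (gen_le hP.2)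
    (fun y y' => ∃ u : NP, u.cin P.n ∧ u.eval P.X = y ∧ u.d1 P.X e₁ = y')
    (by
      rintro _ _ _ ⟨u, hu, rfl, rfl⟩ ⟨u', hu', e, rfl⟩
      have := key (.add u (.mul (.const (-1)) u')) ⟨hu, (K P.n).neg_mem (K P.n).one_mem, hu'⟩
        (by simp [NP.eval, e])
      simpa [NP.d1, NP.eval, add_neg_eq_zero] using this)
    (fun y hy => by
      obtain ⟨u, hu, rfl⟩ := NP.exists_eval_of_mem_adjoin hy
      exact ⟨_, NP.d1_mem (D P.n P.S) hXD (mem_DV.1 h₁) hu, u, hu, rfl, rfl⟩)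
    (by
      rintro _ _ _ _ ⟨u, hu, rfl, rfl⟩ ⟨u', hu', rfl, rfl⟩
      exact ⟨.add u u', ⟨hu, hu'⟩, rfl, rfl⟩)
    (by
      rintro c _ _ ⟨u, hu, rfl, rfl⟩
      exact ⟨.mul (.const c) u, ⟨c.2, hu⟩, by rw [NP.eval, NP.eval, F_smul, Algebra.smul_def],
        by rw [NP.d1, NP.d1, NP.eval, zero_mul, zero_add, F_smul, Algebra.smul_def]⟩)
    (by
      rintro _ _ _ _ ⟨u, hu, rfl, rfl⟩ ⟨u', hu', rfl, rfl⟩
      exact ⟨.mul u u', ⟨hu, hu'⟩, rfl, rfl⟩)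
  exact mem_gauge.2 ⟨ξ, hξ, funext fun i => (h _ (X_mem_gen P i) _ ⟨.var i, trivial, rfl, rfl⟩).symm⟩

/-- `St.big_move` with `T₀ = Tan ⊓ ker φ` -/
theorem St.grow (h : 𝔖.St P ρ) (hρ : 𝔖.h + 2 ≤ ρ) : ∃ P', 𝔖.Reach P P' ∧ dimg P < dimg P' := by
  obtain ⟨δ, hδ, φ, h1, h2⟩ := h.exists_nongauge
  obtain ⟨j, hj⟩ := Infinite.exists_notMem_finset P.S
  have h3 := finrank_inf_ker_add (𝔖.Tan P.n P.S P.X) φ
  have h4 : finrank (F P.n) ((𝔖.Tan P.n P.S P.X).map φ) ≤ 1 :=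
    (Submodule.finrank_le _).trans (finrank_self _).le
  obtain ⟨e₁, e₂, X', k1, k2, hm, hv, -⟩ := h.big_move hj (T₀ := 𝔖.Tan P.n P.S P.X ⊓ LinearMap.ker φ)
    inf_le_left (k := 1) (by omega) (by omega) hδ hδ
  have t1 : e₁ ∈ 𝔖.Tan P.n P.S P.X := by simpa using (𝔖.Tan P.n P.S P.X).add_mem k1.1 hδ
  have t2 : e₂ ∈ 𝔖.Tan P.n P.S P.X := by simpa using (𝔖.Tan P.n P.S P.X).add_mem k2.1 hδ
  refine ⟨_, hm.reach, lt_of_not_ge fun hd => h1 ?_⟩
  have h5 := h2 _ (gauge_of_dimg h.ok hj hm (Tan_le t1) (Tan_le t2) hv hd)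
  have h6 : φ (e₁ - δ) = 0 := k1.2
  rwa [map_sub, h5, zero_sub, neg_eq_zero] at h6

end Sys

end Crest.Agent.R180
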