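import Crest.Agent.R180.Sys

/-!
# Row 180, Hensel iteration and the existence of moves
-/

set_option autoImplicit false
set_option linter.unusedSectionVars false

namespace Crest.Agent.R180

open Module

namespace Sys

variable {𝔖 : Sys} {n : ℕ} {S : Finset ℕ} {X : V2}

theorem sym_mem (hok : 𝔖.Ok n S) (hX : X ∈ DV n S (Fin 2)) {v w : V2} (hv : v ∈ DV n S (Fin 2))
    (hw : w ∈ DV n S (Fin 2)) : 𝔖.sym X v w ∈ DV n S (Fin 𝔖.N) :=
  Submodule.add_mem _ (f2_mem hok hX hv hw) (f2_mem hok hX hw hv)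

theorem Perp.smul {y : Fin 𝔖.N → A} (h : 𝔖.Perp n S y) (a : KK) : 𝔖.Perp n S (a • y) := fun c hc => by
  rw [pair_smul_right, h c hc, mul_zero]

theorem tpow_mem {ι : Type} [Fintype ι] {y : ι → A} (hy : y ∈ DV n S ι) (l : ℕ) :
    t n ^ l • y ∈ DV (n + 1) S ι :=
  smul_mem_DV ((K (n + 1)).pow_mem (t_mem n) l) (DV_mono (Nat.le_succ n) le_rfl hy)

section
variable {V : Type} [AddCommGroup V] [Module KK V] [HB V]

theorem od_t {y : V} (h : Ig n y) : Od n 1 (t n • y) := by simpa only [pow_one] using h.tpow 1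

theorem ig_of_od2 {x v x' : V} (hx : In n x) (hv : In n v) (h : Od n 2 (x' - x - t n • v)) : Ig n x' := by
  convert (h.ig.add (od_t hv.ig).ig).add hx.ig using 1
  abel

theorem od2_of_od3 {x v₂ : V} (hv₂ : In n v₂) (h : Od n 3 (x - t n ^ 2 • v₂)) : Od n 2 x := by
  convert (h.mono (l := 2) (by omega)).add (hv₂.ig.tpow 2) using 1
  abel

theorem eq_zero_of_tpow {l : ℕ} {y : V} (hy : In n y) (h : Od n (l + 1) (t n ^ l • y)) : y = 0 := by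
  rw [← cf_tpow_In l hy, h.cf_eq_zero]

end

theorem d1_expand' {u : NP} (hu : u.cin n) (hX : In n X) {v X' w w' : V2} (hv : In n v)
    (h1 : Od n 2 (X' - X - t n • v)) (hw : In n w) (hw' : In n w') :
    Od n 2 (u.d1 X' (w + t n • w') - u.d1 X w - t n • (u.d2 X v w + u.d2 X w v + u.d1 X w')) := by
  obtain ⟨ρ, rfl⟩ : ∃ ρ, X' = X + (t n • v + ρ) := ⟨X' - X - t n • v, by abel⟩
  have hρ : Od n 2 ρ := by
    convert h1 using 1
    abel
  have hε : Od n 1 (t n • v + ρ) := (od_t hv.ig).add (hρ.mono (by omega))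
  have hδ : Od n 0 (w + t n • w') := Od_zero_iff.2 (hw.ig.add (od_t hw'.ig).ig)
  convert ((((NP.taylor_d1' hX.ig hε hδ hu).add (NP.d2_od hX.ig hρ hδ hu)).add
    (NP.d2_od hX.ig hδ hρ hu)).add (NP.d2_od hX.ig (od_t hv.ig) (od_t hw'.ig) hu)).add
    (NP.d2_od hX.ig (od_t hw'.ig) (od_t hv.ig) hu) using 1
  generalize u.d1 (X + (t n • v + ρ)) (w + t n • w') = y
  simp only [NP.d1_add, NP.d1_smul, NP.d2_add_left, NP.d2_add_right, NP.d2_smul_left, NP.d2_smul_right]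
  module

/-- `dual_solve` for `pB n` on `NA × (sym v W₀ + df DV)` -/
theorem Std.primal (hok : 𝔖.Ok n S) (hX : X ∈ DV n S (Fin 2)) {v : V2} (hv : v ∈ DV n S (Fin 2))
    {W₀ : Submodule (F n) V2} (h : 𝔖.Std n S X v W₀) {y : Fin 𝔖.N → A} (hy : In n y) :
    ∃ w ∈ W₀, ∃ w' ∈ DV n S (Fin 2), 𝔖.Perp n S (𝔖.sym X v w + 𝔖.df X w' - y) := by
  obtain ⟨u, hu, h2⟩ := dual_solve ((pB n).compl₂ (((𝔖.sym X v).restrictScalars (F n)).coprod
    ((𝔖.df X).restrictScalars (F n)))) (𝔖.NA n S) (W₀.prod (DV n S (Fin 2))) ((pB n).flip y) (by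
      rintro c ⟨hc, h0⟩
      have hc' := DV_In (NT_le (NA_le hc))
      rw [h.2 c hc (fun δ hδ => ?_) fun w hw => ?_, map_zero]
      · have h1 := h0 (0, δ) ⟨W₀.zero_mem, hδ⟩
        refine (pB_eq_zero hc' (DV_In (df_mem hok hX hδ))).1 ?_
        simpa using h1
      · have h1 := h0 (w, 0) ⟨hw, Submodule.zero_mem _⟩
        refine (pB_eq_zero hc' (DV_In (sym_mem hok hX hv (h.1 hw).1))).1 ?_
        simpa using h1)
  refine ⟨u.1, hu.1, u.2, hu.2, fun c hc => ?_⟩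
  refine (pB_eq_zero (DV_In (NT_le (NA_le hc))) (((DV_In (sym_mem hok hX hv (h.1 hu.1).1)).add
    (DV_In (df_mem hok hX hu.2))).sub hy)).1 ?_
  rw [map_sub, sub_eq_zero]
  exact h2 c hc


theorem Reg.primal (hok : 𝔖.Ok n S) (hX : X ∈ DV n S (Fin 2)) (h : 𝔖.Reg n S X) {y : Fin 𝔖.N → A}
    (hy : In n y) : ∃ w' ∈ DV n S (Fin 2), 𝔖.Perp n S (𝔖.df X w' - y) := by
  obtain ⟨w, hw, w', hw', h1⟩ := (h.std 0).primal hok hX (Submodule.zero_mem _) hy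
  rw [(Submodule.mem_bot _).1 hw, map_zero, zero_add] at h1
  exact ⟨w', hw', h1⟩


/-- a vector orthogonal to the pencil is orthogonal to `NT` modulo the image of `df` (`dual_solve`) -/
theorem pen_solve (hok : 𝔖.Ok n S) (hX : X ∈ DV n S (Fin 2)) {y : Fin 𝔖.N → A} (hy : In n y)
    (h : ∀ c ∈ 𝔖.Pen n S X, pair c y = 0) :
    ∃ u ∈ DV n S (Fin 2), ∀ c ∈ 𝔖.NT n S, pair c (y + 𝔖.df X u) = 0 := by
  obtain ⟨u, hu, h2⟩ := dual_solve ((pB n).compl₂ ((𝔖.df X).restrictScalars (F n))) (𝔖.NT n S)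
    (DV n S (Fin 2)) ((pB n).flip (-y)) (by
      rintro c ⟨hc, h0⟩
      have hc' := DV_In (NT_le hc)
      refine (pB_eq_zero hc' hy.neg).2 ?_
      rw [← neg_one_smul KK y, pair_smul_right,
        h c ⟨hc, fun δ hδ => (pB_eq_zero hc' (DV_In (df_mem hok hX hδ))).1 (h0 δ hδ)⟩, mul_zero])
  refine ⟨u, hu, fun c hc => (pB_eq_zero (DV_In (NT_le hc)) (hy.add (DV_In (df_mem hok hX hu)))).1 ?_⟩
  rw [map_add, show pB n c (𝔖.df X u) = pB n c (-y) from h2 c hc, map_neg, add_neg_cancel]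


/-- the imposed equations hold to order `l` -/
def Err (𝔖 : Sys) (n : ℕ) (S : Finset ℕ) (l : ℕ) (y : Fin 𝔖.N → A) : Prop :=
  ∀ c ∈ 𝔖.NA n S, (t n)⁻¹ ^ l * pair c y ∈ O n

theorem Err.of_od {l : ℕ} {y : Fin 𝔖.N → A} (h : Od n l y) : 𝔖.Err n S l y := fun c hc => by
  rw [← pair_smul_right]
  exact pair_O (DV_In (NT_le (NA_le hc))).ig h

theorem Err.of_perp {l : ℕ} {y : Fin 𝔖.N → A} (h : 𝔖.Perp n S y) : 𝔖.Err n S l y := fun c hc => by
  rw [h c hc, mul_zero]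
  exact (O n).zero_mem

theorem Err.add {l : ℕ} {y y' : Fin 𝔖.N → A} (h : 𝔖.Err n S l y) (h' : 𝔖.Err n S l y') :
    𝔖.Err n S l (y + y') := fun c hc => by
  rw [pair_add_right, mul_add]
  exact (O n).add_mem (h c hc) (h' c hc)

theorem Err.mono {l l' : ℕ} {y : Fin 𝔖.N → A} (h : 𝔖.Err n S l' y) (hl : l ≤ l') : 𝔖.Err n S l y := fun c hc => by
  obtain ⟨k, rfl⟩ := Nat.exists_eq_add_of_le hl
  have e : (t n)⁻¹ ^ l * pair c y = t n ^ k * ((t n)⁻¹ ^ (l + k) * pair c y) := by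
    have := t_ne n
    rw [pow_add, inv_pow, inv_pow]
    field_simp
  rw [e]
  exact (O n).mul_mem ((O n).pow_mem (t_O n) k) (h c hc)


/-- The iteration.  One step at order `l ≥ l₀`: apply `Std.primal` to `y = - cf n (l+1) (Φ x)`; by `pair_cf_right` and
`div_t` the error of `x + t^l w + t^(l+1) w'` has order `l + 2`.  Build the sequence by recursion (reindex so that
`limit_DV` applies), pass to the limit with `hcont` and `t_sep`, then `Perp.up`. -/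
theorem iter (hok : 𝔖.Ok n S) (hX : X ∈ DV n S (Fin 2)) {v : V2} (hv : v ∈ DV n S (Fin 2))
    {W₀ : Submodule (F n) V2} (h : 𝔖.Std n S X v W₀) (Φ : V2 → Fin 𝔖.N → A) (x₀ : V2) (l₀ : ℕ)
    (hx₀ : x₀ ∈ DV (n + 1) S (Fin 2)) (hig : Ig n x₀)
    (hD : ∀ x ∈ DV (n + 1) S (Fin 2), In (n + 1) (Φ x))
    (hcont : ∀ x x' : V2, Ig n x → Ig n x' → ∀ l, Od n l (x - x') → Od n l (Φ x - Φ x'))
    (hstep : ∀ l, l₀ ≤ l → ∀ x : V2, Od n l₀ (x - x₀) → ∀ w ∈ W₀, ∀ w' ∈ DV n S (Fin 2),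
      Od n (l + 2) (Φ (x + t n ^ l • w + t n ^ (l + 1) • w') - Φ x -
        t n ^ (l + 1) • (𝔖.sym X v w + 𝔖.df X w')))
    (herr : 𝔖.Err n S (l₀ + 1) (Φ x₀)) :
    ∃ x ∈ DV (n + 1) S (Fin 2), ∃ w ∈ W₀, Od n (l₀ + 1) (x - x₀ - t n ^ l₀ • w) ∧
      𝔖.Perp (n + 1) S (Φ x) := by
  have step : ∀ l, l₀ ≤ l → ∀ x ∈ DV (n + 1) S (Fin 2), Od n l₀ (x - x₀) → 𝔖.Err n S (l + 1) (Φ x) →
      ∃ w ∈ W₀, ∃ x' ∈ DV (n + 1) S (Fin 2), Od n l (x' - x) ∧ Od n (l + 1) (x' - x - t n ^ l • w) ∧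
        𝔖.Err n S (l + 2) (Φ x') := by
    intro l hl x hx ho he
    obtain ⟨w, hw, w', hw', hp⟩ := h.primal hok hX hv (cf_In n (l + 1) (Φ x)).neg
    have hwD := (h.1 hw).1
    have h1 : Od n (l + 1) (x + t n ^ l • w + t n ^ (l + 1) • w' - x - t n ^ l • w) := by
      convert (DV_In hw').ig.tpow (l + 1) using 1
      abel
    refine ⟨w, hw, x + t n ^ l • w + t n ^ (l + 1) • w',
      Submodule.add_mem _ (Submodule.add_mem _ hx (tpow_mem hwD l)) (tpow_mem hw' _), ?_, h1, ?_⟩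
    · convert (h1.mono (Nat.le_succ l)).add ((DV_In hwD).ig.tpow l) using 1
      abel
    · have h2 : 𝔖.Err n S (l + 2) (Φ x + t n ^ (l + 1) • (𝔖.sym X v w + 𝔖.df X w')) := by
        intro c hc
        have hc' := DV_In (NT_le (NA_le hc))
        have h3 := hp c hc
        rw [sub_neg_eq_add, pair_add_right, pair_cf_right _ hc', add_eq_zero_iff_eq_neg] at h3
        have h4 := he c hc
        have h5 : (t n)⁻¹ ^ (l + 1) * pair c (Φ x) ∈ K (n + 1) :=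
          (K (n + 1)).mul_mem ((K (n + 1)).pow_mem ((K (n + 1)).inv_mem (t_mem n)) _)
            (pair_mem (hc'.mono (Nat.le_succ n)) (hD x hx))
        rw [pair_add_right, pair_smul_right, h3]
        have e : ∀ q : KK, (t n)⁻¹ ^ (l + 2) * (pair c (Φ x) + t n ^ (l + 1) * -q) =
            (t n)⁻¹ * ((t n)⁻¹ ^ (l + 1) * pair c (Φ x) - q) := fun q => by
          have := t_ne n
          rw [inv_pow, inv_pow]
          field_simp
          ring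
        rw [e]
        generalize (t n)⁻¹ ^ (l + 1) * pair c (Φ x) = p at h4 h5 ⊢
        exact div_t ((K (n + 1)).sub_mem h5 (K_mono (Nat.le_succ n) (r_mem n p)))
          ((O n).sub_mem h4 (K_le_O (r_mem n p))) (by rw [map_sub, r_r le_rfl, sub_self])
      convert (Err.of_od (hstep l hl x ho w hw w' hw')).add h2 using 1
      abel
  obtain ⟨w, hw, x₁, hx₁, h1, h2, h3⟩ := step l₀ le_rfl x₀ hx₀ (by rw [sub_self]; exact Od.zero _ _) herr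
  let Q : ℕ → V2 → Prop := fun k x =>
    x ∈ DV (n + 1) S (Fin 2) ∧ Od n (l₀ + 1) (x - x₁) ∧ 𝔖.Err n S (l₀ + 1 + k + 1) (Φ x)
  have hQ0 : ∀ k x, Q k x → Od n l₀ (x - x₀) := fun k x hx => by
    convert (hx.2.1.mono (Nat.le_succ _)).add h1 using 1
    abel
  have step' : ∀ k x, Q k x → ∃ x', Q (k + 1) x' ∧ Od n k (x' - x) := by
    intro k x hx
    obtain ⟨-, -, x', hx', h4, -, h5⟩ := step (l₀ + 1 + k) (by omega) x hx.1 (hQ0 k x hx) hx.2.2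
    refine ⟨x', ⟨hx', ?_, h5⟩, h4.mono (by omega)⟩
    convert (h4.mono (Nat.le_add_right _ k)).add hx.2.1 using 1
    abel
  choose f hf using step'
  let sq : ∀ k, {x // Q k x} := fun k => Nat.rec (motive := fun k => {x // Q k x})
    ⟨x₁, hx₁, by rw [sub_self]; exact Od.zero _ _, h3⟩ (fun k y => ⟨f k y.1 y.2, (hf k y.1 y.2).1⟩) k
  obtain ⟨y, hy, hl⟩ := limit_DV (fun k => (sq k).1) (fun k => (sq k).2.1)
    fun k => (hf k (sq k).1 (sq k).2).2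
  have hig' : ∀ k, Ig n (sq k).1 := fun k => by
    convert (hQ0 k _ (sq k).2).ig.add hig using 1
    abel
  have higy : Ig n y := by
    convert (hl 0).ig.add (hig' 0) using 1
    abel
  refine ⟨y, hy, w, hw, ?_, Perp.up hok (Nat.le_succ n) fun c hc => t_sep
    (pair_mem ((DV_In (NT_le (NA_le hc))).mono (Nat.le_succ n)) (hD y hy)) fun l => ?_⟩
  · convert ((hl (l₀ + 1)).add (sq (l₀ + 1)).2.2.1).add h2 using 1
    abel
  · have h4 := (Err.of_od (S := S) (hcont _ _ higy (hig' l) l (hl l))).add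
      ((sq l).2.2.2.mono (by omega))
    rw [sub_add_cancel] at h4
    exact h4 c hc


/-- the expansion of `df X' (w + t w')` -/
theorem df_expand (hok : 𝔖.Ok n S) (hX : In n X) {v X' w w' : V2} (hv : In n v)
    (h1 : Od n 2 (X' - X - t n • v)) (hw : In n w) (hw' : In n w') :
    Od n 2 (𝔖.df X' (w + t n • w') - 𝔖.df X w - t n • (𝔖.sym X v w + 𝔖.df X w')) :=
  Od_pi.2 fun i => d1_expand' (hok.cin i) hX hv h1 hw hw'


/-- nonlinear Hensel (`iter` with `Φ = ev`; `taylor1`, `taylor_d1'`) -/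
theorem hensel (hok : 𝔖.Ok n S) (hX : X ∈ DV n S (Fin 2)) {v : V2} (hv : v ∈ DV n S (Fin 2))
    {W₀ : Submodule (F n) V2} (h : 𝔖.Std n S X v W₀) {X₁ : V2} (hX₁ : X₁ ∈ DV (n + 1) S (Fin 2))
    (h1 : Od n 2 (X₁ - X - t n • v)) {l : ℕ} (hl : 2 ≤ l) (herr : 𝔖.Err n S (l + 1) (𝔖.ev X₁)) :
    ∃ X' ∈ DV (n + 1) S (Fin 2), ∃ w ∈ W₀, Od n (l + 1) (X' - X₁ - t n ^ l • w) ∧
      𝔖.Perp (n + 1) S (𝔖.ev X') := by
  have hig := ig_of_od2 (DV_In hX) (DV_In hv) h1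
  refine iter hok hX hv h 𝔖.ev X₁ l hX₁ hig
    (fun x hx => DV_In (ev_mem (hok.mono (Nat.le_succ n) le_rfl) hx)) (fun x x' _ hx' k ho => ?_)
    (fun k hk x ho w hw w' hw' => ?_) herr
  · refine Od_pi.2 fun i => ?_
    have h2 := NP.taylor0 hx' ho (hok.cin i)
    rwa [add_sub_cancel] at h2
  · have h2 : Od n 2 (x - X - t n • v) := by
      convert (ho.mono hl).add h1 using 1
      abel
    have hwI := DV_In (h.1 hw).1
    have hε : Od n k (t n ^ k • (w + t n • w')) := (hwI.ig.add ((DV_In hw').ig.smul (t_O n))).tpow k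
    have h3 : Od n (k + 2) (𝔖.ev (x + t n ^ k • (w + t n • w')) - 𝔖.ev x -
        𝔖.df x (t n ^ k • (w + t n • w'))) := Od_pi.2 fun i =>
      (NP.taylor1 (ig_of_od2 (DV_In hX) (DV_In hv) h2) hε (hok.cin i)).mono (by omega)
    have h4 := (df_expand hok (DV_In hX) (DV_In hv) h2 hwI (DV_In hw')).tpow k
    rw [show 𝔖.df X w = 0 from (h.1 hw).2] at h4
    rw [map_smul] at h3
    rw [show x + t n ^ k • w + t n ^ (k + 1) • w' = x + t n ^ k • (w + t n • w') by module]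
    convert h3.add h4 using 1
    module


/-- linear Hensel (`iter` with `Φ = df X'`) -/
theorem lin_hensel (hok : 𝔖.Ok n S) (hX : X ∈ DV n S (Fin 2)) {v : V2} (hv : v ∈ DV n S (Fin 2))
    {W₀ : Submodule (F n) V2} (h : 𝔖.Std n S X v W₀) {X' : V2} (hX' : X' ∈ DV (n + 1) S (Fin 2))
    (h1 : Od n 2 (X' - X - t n • v)) {u₀ : V2} (hu₀ : u₀ ∈ DV (n + 1) S (Fin 2)) (hig : Ig n u₀) {l : ℕ}
    (herr : 𝔖.Err n S (l + 1) (𝔖.df X' u₀)) :
    ∃ u ∈ 𝔖.Tan (n + 1) S X', ∃ w ∈ W₀, Od n (l + 1) (u - u₀ - t n ^ l • w) := by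
  have higX := ig_of_od2 (DV_In hX) (DV_In hv) h1
  obtain ⟨u, hu, w, hw, h2, h3⟩ := iter hok hX hv h (𝔖.df X') u₀ l hu₀ hig
    (fun x hx => DV_In (df_mem (hok.mono (Nat.le_succ n) le_rfl) hX' hx)) (fun x x' _ _ k ho => by
      rw [← map_sub]
      exact Od_pi.2 fun i => NP.d1_od higX ho (hok.cin i))
    (fun k _ x _ w hw w' hw' => by
      have h4 := (df_expand hok (DV_In hX) (DV_In hv) h1 (DV_In (h.1 hw).1) (DV_In hw')).tpow k
      rw [show 𝔖.df X w = 0 from (h.1 hw).2] at h4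
      rw [show x + t n ^ k • w + t n ^ (k + 1) • w' = x + t n ^ k • (w + t n • w') by module,
        map_add, map_smul]
      convert h4 using 1
      module) herr
  exact ⟨u, ⟨hu, h3⟩, w, hw, h2⟩


/-- the same for one term -/
theorem d1_expand {u : NP} (hu : u.cin n) (hX : In n X) {v X' w w' : V2} (hv : In n v)
    (h1 : Od n 2 (X' - X - t n • v)) (hw : In n w) (hw' : In n w') :
    Od n 2 (u.d1 X' (w + t n • w') - u.d1 X w - t n • (u.d2 X v w + u.d2 X w v + u.d1 X w')) :=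
  d1_expand' hu hX hv h1 hw hw'


/-- the expansion of a term along an arc to second order -/
theorem eval_expand {u : NP} (hu : u.cin n) (hX : In n X) {v v₂ X' : V2} (hv : In n v) (hv₂ : In n v₂)
    (h1 : Od n 3 (X' - X - t n • v - t n ^ 2 • v₂)) :
    Od n 3 (u.eval X' - u.eval X - t n • u.d1 X v - t n ^ 2 • (u.d2 X v v + u.d1 X v₂)) := by
  obtain ⟨ρ, rfl⟩ : ∃ ρ, X' = X + (t n • v + (t n ^ 2 • v₂ + ρ)) :=
    ⟨X' - X - t n • v - t n ^ 2 • v₂, by abel⟩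
  have hρ : Od n 3 ρ := by
    convert h1 using 1
    abel
  have hσ : Od n 2 (t n ^ 2 • v₂ + ρ) := (hv₂.ig.tpow 2).add (hρ.mono (by omega))
  have hε : Od n 1 (t n • v + (t n ^ 2 • v₂ + ρ)) := (od_t hv.ig).add (hσ.mono (by omega))
  convert (((NP.taylor2 hX.ig hε hu).add (NP.d1_od hX.ig hρ hu)).add
    (NP.d2_od hX.ig (od_t hv.ig) hσ hu)).add (NP.d2_od hX.ig hσ hε hu) using 1
  simp only [NP.d1_add, NP.d1_smul, NP.d2_add_left, NP.d2_add_right, NP.d2_smul_left, NP.d2_smul_right]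
  module


/-- and to first order -/
theorem eval_expand1 {u : NP} (hu : u.cin n) (hX : In n X) {v X' : V2} (hv : In n v)
    (h1 : Od n 2 (X' - X - t n • v)) : Od n 2 (u.eval X' - u.eval X - t n • u.d1 X v) := by
  obtain ⟨ρ, rfl⟩ : ∃ ρ, X' = X + (t n • v + ρ) := ⟨X' - X - t n • v, by abel⟩
  have hρ : Od n 2 ρ := by
    convert h1 using 1
    abel
  have hε : Od n 1 (t n • v + ρ) := (od_t hv.ig).add (hρ.mono (by omega))
  convert (NP.taylor1 hX.ig hε hu).add (NP.d1_od hX.ig hρ hu) using 1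
  simp only [NP.d1_add, NP.d1_smul]
  module


variable {P : Pt} {S' : Finset ℕ}

/-- an arc with `Od 2 (X' - X - t v)` has velocity `v` -/
theorem vel_eq {v X' : V2} (hv : In n v) (h1 : Od n 2 (X' - X - t n • v)) :
    Od n 1 (X' - X) ∧ cf n 1 (X' - X) = v := by
  have e : X' - X = (X' - X - t n • v) + t n ^ 1 • v := by rw [pow_one, sub_add_cancel]
  rw [e]
  exact ⟨(h1.mono (by omega)).add (hv.ig.tpow 1), by rw [cf_add, h1.cf_eq_zero, cf_tpow_In 1 hv, zero_add]⟩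


/-- `hensel` with `l = 2` from `X + t v + t² v₂` -/
theorem exists_move (hP : 𝔖.POk P) (hev : 𝔖.ev P.X = 0) (hS : P.S ⊆ S') {v v₂ : V2}
    (hv : v ∈ DV P.n S' (Fin 2)) (hv₂ : v₂ ∈ DV P.n S' (Fin 2)) (h1 : 𝔖.Perp P.n S' (𝔖.df P.X v))
    (h2 : 𝔖.Perp P.n S' (𝔖.f2 P.X v v + 𝔖.df P.X v₂)) {W₀ : Submodule (F P.n) V2}
    (hstd : 𝔖.Std P.n S' P.X v W₀) :
    ∃ X', 𝔖.Move P S' X' ∧ cf P.n 1 (X' - P.X) = v ∧
      ∃ w ∈ W₀, Od P.n 3 (X' - P.X - t P.n • v - t P.n ^ 2 • (v₂ + w)) := by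
  have hok := hP.1.mono le_rfl hS
  have hX := DV_mono le_rfl hS hP.2
  have hX₁ : P.X + t P.n • v + t P.n ^ 2 • v₂ ∈ DV (P.n + 1) S' (Fin 2) :=
    Submodule.add_mem _ (Submodule.add_mem _ (DV_mono (Nat.le_succ _) le_rfl hX)
      (smul_mem_DV (t_mem _) (DV_mono (Nat.le_succ _) le_rfl hv))) (tpow_mem hv₂ 2)
  have h3 : Od P.n 3 (𝔖.ev (P.X + t P.n • v + t P.n ^ 2 • v₂) - 𝔖.ev P.X - t P.n • 𝔖.df P.X v -
      t P.n ^ 2 • (𝔖.f2 P.X v v + 𝔖.df P.X v₂)) := Od_pi.2 fun i =>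
    eval_expand (hok.cin i) (DV_In hX) (DV_In hv) (DV_In hv₂) (by
      convert Od.zero P.n 3 using 1
      abel)
  obtain ⟨X', hX', w, hw, h4, h5⟩ := hensel hok hX hv hstd hX₁ (by
    convert (DV_In hv₂).ig.tpow 2 using 1
    abel) le_rfl (by
      convert ((Err.of_od h3).add (Err.of_perp (h1.smul (t P.n)))).add
        (Err.of_perp (h2.smul (t P.n ^ 2))) using 1
      rw [hev]
      abel)
  have h6 : Od P.n 3 (X' - P.X - t P.n • v - t P.n ^ 2 • (v₂ + w)) := by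
    convert h4 using 1
    module
  obtain ⟨h7, h8⟩ := vel_eq (DV_In hv) (od2_of_od3 ((DV_In hv₂).add (DV_In (hstd.1 hw).1)) h6)
  exact ⟨X', ⟨hS, hX', h7, h5, h8.symm ▸ hstd.mono hstd.1 le_rfl⟩, h8, w, hw, h6⟩


/-- a move in the direction of a tangent vector, with the same `S` -/
theorem triv_move (hP : 𝔖.POk P) (hev : 𝔖.ev P.X = 0) (hreg : 𝔖.Reg P.n P.S P.X) {δ : V2}
    (hδ : δ ∈ 𝔖.Tan P.n P.S P.X) :
    ∃ X', 𝔖.Move P P.S X' ∧ cf P.n 1 (X' - P.X) = δ ∧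
      ∃ v₂ ∈ DV P.n P.S (Fin 2), Od P.n 3 (X' - P.X - t P.n • δ - t P.n ^ 2 • v₂) := by
  obtain ⟨w', hw', h1⟩ := hreg.primal hP.1 hP.2 (DV_In (f2_mem hP.1 hP.2 hδ.1 hδ.1)).neg
  rw [sub_neg_eq_add, add_comm] at h1
  obtain ⟨X', h2, h3, w, hw, h4⟩ := exists_move hP hev le_rfl hδ.1 hw' hδ.2 h1 (hreg.std δ)
  rw [(Submodule.mem_bot _).1 hw, add_zero] at h4
  exact ⟨X', h2, h3, w', hw', h4⟩


/-- the constant arc -/
theorem const_move (hP : 𝔖.POk P) (hev : 𝔖.ev P.X = 0) (hreg : 𝔖.Reg P.n P.S P.X) : 𝔖.Move P P.S P.X :=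
  ⟨le_rfl, DV_mono (Nat.le_succ _) le_rfl hP.2, by rw [sub_self]; exact Od.zero _ _,
    fun c _ => by rw [hev, pair_zero_right], (hreg.std _).mono bot_le le_rfl⟩


theorem Move.kills_red' (hP : 𝔖.POk P) {X' : V2} (h : 𝔖.Move P S' X') {c : Fin 𝔖.N → A} (hc : Ig P.n c)
    (hk : 𝔖.Kills (P.n + 1) S' X' c) :
    𝔖.Kills P.n S' P.X (red P.n c) ∧
      ∀ w ∈ 𝔖.Ker P.n S' P.X, pair (red P.n c) (𝔖.sym P.X (cf P.n 1 (X' - P.X)) w) = 0 := by
  have hok := hP.1.mono le_rfl h.sub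
  have hX := DV_mono le_rfl h.sub hP.2
  refine ⟨fun δ hδ => ?_, fun w hw => ?_⟩
  · have h1 : Ig P.n (𝔖.df X' δ) := Ig_pi.2 fun i => NP.d1_ig (h.ig hP) (DV_In hδ).ig (hok.cin i)
    have h2 : red P.n (𝔖.df X' δ) = 𝔖.df P.X δ := funext fun i => by
      rw [red_pi, df_apply, NP.red_d1 (h.ig hP) (DV_In hδ).ig (hok.cin i), h.red_eq hP,
        red_of_In (DV_In hδ), df_apply]
    rw [← h2, pair_red hc h1, hk δ (DV_mono (Nat.le_succ _) le_rfl hδ), map_zero]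
  · have hs := DV_In (sym_mem hok hX (h.vel_mem hP) hw.1)
    have h1 := df_expand hok (DV_In hX) (DV_In (h.vel_mem hP)) (h.od2 hP) (DV_In hw.1) (In.zero _)
    rw [smul_zero, add_zero, map_zero, add_zero, show 𝔖.df P.X w = 0 from hw.2, sub_zero] at h1
    have h2 := Od.tinv (k := 1) (l := 1) h1
    rw [pow_one, smul_sub, smul_smul, inv_mul_cancel₀ (t_ne _), one_smul] at h2
    have h3 : red P.n ((t P.n)⁻¹ • 𝔖.df X' w) = 𝔖.sym P.X (cf P.n 1 (X' - P.X)) w := by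
      have h4 := Od.cf_eq_zero (l := 0) h2
      rwa [cf_zero_eq, map_sub, sub_eq_zero, red_of_In hs] at h4
    have h5 : Ig P.n ((t P.n)⁻¹ • 𝔖.df X' w) := by
      have h6 := h2.ig.add hs.ig
      rwa [sub_add_cancel] at h6
    rw [← h3, pair_red hc h5, pair_smul_right, hk w (DV_mono (Nat.le_succ _) le_rfl hw.1), mul_zero,
      map_zero]

theorem Move.vel_ker' (hP : 𝔖.POk P) (hg : 𝔖.Good P) {X' : V2} (h : 𝔖.Move P S' X') :
    cf P.n 1 (X' - P.X) ∈ 𝔖.Ker P.n S' P.X := by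
  have hok := hP.1.mono le_rfl h.sub
  have hX := DV_mono le_rfl h.sub hP.2
  have hv := h.vel_mem hP
  have h1 : Od P.n 2 (𝔖.ev X' - 𝔖.ev P.X - t P.n • 𝔖.df P.X (cf P.n 1 (X' - P.X))) := Od_pi.2 fun i =>
    eval_expand1 (hok.cin i) (DV_In hX) (DV_In hv) (h.od2 hP)
  rw [show 𝔖.ev X' = 0 from hg _ h.reach, hg.ev, sub_zero, zero_sub] at h1
  refine ⟨hv, eq_zero_of_tpow (l := 1) (DV_In (df_mem hok hX hv)) ?_⟩
  have h2 := h1.neg
  rw [neg_neg] at h2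
  rw [pow_one]
  exact h2

/-- Normalise `c`; its reduction kills `df X` and, dividing `⟨c, df X' w⟩ = 0` by `t`, also `sym X v w`. -/
theorem Move.reg (hP : 𝔖.POk P) {X' : V2} (h : 𝔖.Move P S' X') : 𝔖.Reg (P.n + 1) S' X' := by
  intro c hc hk
  by_contra h0
  obtain ⟨a, ha, -, h1, h2⟩ := normalise P.n h0 (DV_In (NT_le (NA_le hc)))
  obtain ⟨h3, h4⟩ := h.kills_red' hP h1 fun δ hδ => by rw [pair_smul_left, hk δ hδ, mul_zero]
  exact h2 (h.std.2 _ (red_mem_NA (hP.1.mono le_rfl h.sub)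
    ((𝔖.NA (P.n + 1) S').smul_mem (⟨a, ha⟩ : F (P.n + 1)) hc)) h3 h4)


/-- reduction of an element that kills `df X'` -/
theorem Move.kills_red (hP : 𝔖.POk P) {X' : V2} (h : 𝔖.Move P S' X') {c : Fin 𝔖.N → A} (hc : Ig P.n c)
    (hk : 𝔖.Kills (P.n + 1) S' X' c) :
    𝔖.Kills P.n S' P.X (red P.n c) ∧
      ∀ w ∈ 𝔖.Ker P.n S' P.X, pair (red P.n c) (𝔖.sym P.X (cf P.n 1 (X' - P.X)) w) = 0 :=
  h.kills_red' hP hc hk


/-- first-order consequence of `Good` (order `t` of `f(X') = 0` along `triv_move`) -/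
theorem G1 (hP : 𝔖.POk P) (hreg : 𝔖.Reg P.n P.S P.X) (hg : 𝔖.Good P) {δ : V2}
    (hδ : δ ∈ 𝔖.Tan P.n P.S P.X) : 𝔖.df P.X δ = 0 := by
  obtain ⟨X', h1, h2, -⟩ := triv_move hP hg.ev hreg hδ
  exact h2 ▸ (h1.vel_ker' hP hg).2


/-- second-order consequence (order `t²`) -/
theorem G2 (hP : 𝔖.POk P) (hreg : 𝔖.Reg P.n P.S P.X) (hg : 𝔖.Good P) {δ : V2}
    (hδ : δ ∈ 𝔖.Tan P.n P.S P.X) : ∃ v₂ ∈ DV P.n P.S (Fin 2), 𝔖.f2 P.X δ δ + 𝔖.df P.X v₂ = 0 := by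
  obtain ⟨X', h1, -, v₂, hv₂, h2⟩ := triv_move hP hg.ev hreg hδ
  have h3 : Od P.n 3 (𝔖.ev X' - 𝔖.ev P.X - t P.n • 𝔖.df P.X δ -
      t P.n ^ 2 • (𝔖.f2 P.X δ δ + 𝔖.df P.X v₂)) := Od_pi.2 fun i =>
    eval_expand (hP.1.cin i) (DV_In hP.2) (DV_In hδ.1) (DV_In hv₂) h2
  rw [show 𝔖.ev X' = 0 from hg _ h1.reach, hg.ev, G1 hP hreg hg hδ, smul_zero, sub_zero, sub_zero,
    zero_sub] at h3
  exact ⟨v₂, hv₂, eq_zero_of_tpow ((DV_In (f2_mem hP.1 hP.2 hδ.1 hδ.1)).add (DV_In (df_mem hP.1 hP.2 hv₂)))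
    (neg_neg (_ : Fin 𝔖.N → A) ▸ h3.neg)⟩


/-- polarised -/
theorem G2' (hP : 𝔖.POk P) (hreg : 𝔖.Reg P.n P.S P.X) (hg : 𝔖.Good P) {δ δ' : V2}
    (hδ : δ ∈ 𝔖.Tan P.n P.S P.X) (hδ' : δ' ∈ 𝔖.Tan P.n P.S P.X) :
    ∃ v₂ ∈ DV P.n P.S (Fin 2), 𝔖.sym P.X δ δ' + 𝔖.df P.X v₂ = 0 := by
  obtain ⟨a, ha, h1⟩ := G2 hP hreg hg (Submodule.add_mem _ hδ hδ')
  obtain ⟨b, hb, h2⟩ := G2 hP hreg hg hδ
  obtain ⟨c, hc, h3⟩ := G2 hP hreg hg hδ'
  refine ⟨a - b - c, Submodule.sub_mem _ (Submodule.sub_mem _ ha hb) hc, ?_⟩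
  simp only [map_add, LinearMap.add_apply] at h1
  rw [sym_apply, map_sub, map_sub]
  linear_combination (norm := module) h1 - h2 - h3


/-- the velocity of a move is killed by `df` -/
theorem Move.vel_ker (hP : 𝔖.POk P) (hg : 𝔖.Good P) {X' : V2} (h : 𝔖.Move P S' X') :
    cf P.n 1 (X' - P.X) ∈ 𝔖.Ker P.n S' P.X :=
  h.vel_ker' hP hg


/-- the derivative of the arc is tangent -/
theorem Move.θ_mem (hP : 𝔖.POk P) (hg : 𝔖.Good P) {X' : V2} (h : 𝔖.Move P S' X') :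
    θV P.n X' ∈ 𝔖.Tan (P.n + 1) S' X' := by
  have h0 : 𝔖.ev X' = 0 := hg _ h.reach
  have h1 : 𝔖.df X' (θV P.n X') = 0 := funext fun i => by
    rw [df_apply, ← NP.θV_eval X' (hP.1.cin i), ← ev_apply, h0, Pi.zero_apply, map_zero]
  exact Ker_le_Tan ⟨θV_mem_DV h.mem, h1⟩


/-- Modification of an arc at order `k ≥ 2` by `δ` with `df X δ = 0` (`hensel` from `X₂ + t^k δ`). -/
theorem Move.modify (hP : 𝔖.POk P) (hg : 𝔖.Good P) {X₂ : V2} (h : 𝔖.Move P S' X₂) {W₀ : Submodule (F P.n) V2}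
    (hstd : 𝔖.Std P.n S' P.X (cf P.n 1 (X₂ - P.X)) W₀) {k : ℕ} (hk : 2 ≤ k) {δ : V2}
    (hδ : δ ∈ 𝔖.Ker P.n S' P.X) :
    ∃ X', 𝔖.Move P S' X' ∧ cf P.n 1 (X' - P.X) = cf P.n 1 (X₂ - P.X) ∧
      ∃ w ∈ W₀, Od P.n (k + 1) (X' - X₂ - t P.n ^ k • (δ + w)) := by
  have hok := hP.1.mono le_rfl h.sub
  have hX := DV_mono le_rfl h.sub hP.2
  have hv := h.vel_mem hP
  have hε : Od P.n k (t P.n ^ k • δ) := (DV_In hδ.1).ig.tpow k
  have h1 : Od P.n 2 (X₂ + t P.n ^ k • δ - P.X - t P.n • cf P.n 1 (X₂ - P.X)) := by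
    convert (h.od2 hP).add (hε.mono hk) using 1
    abel
  have h2 : Od P.n (k + 1) (𝔖.ev (X₂ + t P.n ^ k • δ) - 𝔖.ev X₂ - 𝔖.df X₂ (t P.n ^ k • δ)) :=
    Od_pi.2 fun i => (NP.taylor1 (h.ig hP) hε (hok.cin i)).mono (by omega)
  have h3 : Od P.n 1 (𝔖.df (P.X + (X₂ - P.X)) δ - 𝔖.df P.X δ) := Od_pi.2 fun i =>
    NP.taylor_d1 (l := 0) (DV_In hX).ig h.od (Od_zero_iff.2 (DV_In hδ.1).ig) (hok.cin i)
  rw [add_sub_cancel, show 𝔖.df P.X δ = 0 from hδ.2, sub_zero] at h3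
  rw [show 𝔖.ev X₂ = 0 from hg _ h.reach, sub_zero, map_smul] at h2
  have h4 := h2.add (h3.tpow k)
  rw [sub_add_cancel] at h4
  obtain ⟨X', hX', w, hw, h5, h6⟩ := hensel hok hX hv hstd (Submodule.add_mem _ h.mem (tpow_mem hδ.1 k)) h1 hk
    (Err.of_od h4)
  have h7 : Od P.n 2 (X' - P.X - t P.n • cf P.n 1 (X₂ - P.X)) := by
    convert ((h5.mono (l := 2) (by omega)).add (((DV_In (hstd.1 hw).1).ig.tpow k).mono hk)).add h1 using 1
    abel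
  obtain ⟨h8, h9⟩ := vel_eq (DV_In hv) h7
  refine ⟨X', ⟨h.sub, hX', h8, h6, h9.symm ▸ h.std⟩, h9, w, hw, ?_⟩
  convert h5 using 1
  module


end Sys

end Crest.Agent.R180
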