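import Crest.Agent.R180.WA

/-!
# Row 180, lattices and reduction

For a `KK`-space `V` with a chosen basis: vectors defined over `K n` (`In`), integral for the place onto `K n` (`Ig`),
the reduction `red`, `t`-adic order `Od`, coefficients `cf`, and the reduction of subspaces.
-/

set_option autoImplicit false
set_option linter.unusedSectionVars false

namespace Crest.Agent.R180

open Module

/-- the `n`-th field, as a type -/
abbrev F (n : ℕ) : Type := ↥(K n)

instance (n : ℕ) : Infinite (F n) := CharZero.infinite _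

/-- a space with a chosen basis -/
class HB (V : Type) [AddCommGroup V] [Module KK V] where
  J : Type
  b : Module.Basis J KK V

noncomputable instance : HB A := ⟨G, zb⟩

noncomputable instance {ι : Type} [Fintype ι] {V : Type} [AddCommGroup V] [Module KK V] [HB V] : HB (ι → V) :=
  ⟨Σ _ : ι, HB.J V, Pi.basis fun _ => HB.b⟩

section generic

variable {V : Type} [AddCommGroup V] [Module KK V] [HB V]

/-- coordinates -/
noncomputable def co (y : V) (j : HB.J V) : KK := (HB.b (V := V)).repr y j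

/-- defined over `K n` -/
def In (n : ℕ) (y : V) : Prop := ∀ j, co y j ∈ K n

/-- integral for the place onto `K n` -/
def Ig (n : ℕ) (y : V) : Prop := ∀ j, co y j ∈ O n

/-- apply an additive map to the coordinates -/
noncomputable def mapc (φ : KK →+ KK) : V →+ V :=
  ((HB.b (V := V)).repr.symm.toLinearMap.toAddMonoidHom).comp
    ((Finsupp.mapRange.addMonoidHom φ).comp (HB.b (V := V)).repr.toLinearMap.toAddMonoidHom)

theorem co_mapc (φ : KK →+ KK) (y : V) (j : HB.J V) : co (mapc φ y) j = φ (co y j) := by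
  simp [co, mapc]

theorem co_ext {x y : V} (h : ∀ j, co x j = co y j) : x = y :=
  (HB.b (V := V)).repr.injective (Finsupp.ext h)

theorem cv_zero (j : HB.J V) : co (0 : V) j = 0 := by simp [co]
theorem cv_add (x y : V) (j : HB.J V) : co (x + y) j = co x j + co y j := by simp [co]
theorem cv_neg (x : V) (j : HB.J V) : co (-x) j = -co x j := by simp [co]
theorem cv_sub (x y : V) (j : HB.J V) : co (x - y) j = co x j - co y j := by simp [co]
theorem cv_smul (c : KK) (x : V) (j : HB.J V) : co (c • x) j = c * co x j := by simp [co]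
theorem cv_sum {ι : Type*} (s : Finset ι) (y : ι → V) (j : HB.J V) :
    co (∑ i ∈ s, y i) j = ∑ i ∈ s, co (y i) j := by simp [co, Finsupp.finsetSum_apply]
theorem F_smul {n : ℕ} (c : F n) (y : V) : c • y = (c : KK) • y := rfl

/-- reduction (defined everywhere, `K n`-linear) -/
noncomputable def red (n : ℕ) : V →+ V := mapc (r n)

/-- the derivation, coordinatewise -/
noncomputable def θV (n : ℕ) : V →+ V := mapc (θ n)

/-- `y = O(t^l)` -/
def Od (n l : ℕ) (y : V) : Prop := Ig n ((t n)⁻¹ ^ l • y)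

/-- the coefficient of `t^l` -/
noncomputable def cf (n l : ℕ) (y : V) : V := red n ((t n)⁻¹ ^ l • y)

theorem co_red (n : ℕ) (y : V) (j : HB.J V) : co (red n y) j = r n (co y j) := co_mapc _ _ _
theorem co_θV (n : ℕ) (y : V) (j : HB.J V) : co (θV n y) j = θ n (co y j) := co_mapc _ _ _

theorem In.zero (n : ℕ) : In n (0 : V) := fun j => by rw [cv_zero]; exact zero_mem _
theorem In.add {n : ℕ} {x y : V} (hx : In n x) (hy : In n y) : In n (x + y) := fun j => by
  rw [cv_add]; exact add_mem (hx j) (hy j)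
theorem In.neg {n : ℕ} {x : V} (hx : In n x) : In n (-x) := fun j => by rw [cv_neg]; exact neg_mem (hx j)
theorem In.sub {n : ℕ} {x y : V} (hx : In n x) (hy : In n y) : In n (x - y) := fun j => by
  rw [cv_sub]; exact sub_mem (hx j) (hy j)
theorem In.smul {n : ℕ} {c : KK} {y : V} (hc : c ∈ K n) (hy : In n y) : In n (c • y) := fun j => by
  rw [cv_smul]; exact mul_mem hc (hy j)
theorem In.sum {n : ℕ} {ι : Type*} (s : Finset ι) (y : ι → V) (h : ∀ i ∈ s, In n (y i)) :
    In n (∑ i ∈ s, y i) := fun j => by rw [cv_sum]; exact sum_mem fun i hi => h i hi j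
theorem In.mono {n m : ℕ} (h : n ≤ m) {y : V} (hy : In n y) : In m y := fun j => K_mono h (hy j)
theorem In.ig {n : ℕ} {y : V} (hy : In n y) : Ig n y := fun j => K_le_O (hy j)

theorem Ig.zero (n : ℕ) : Ig n (0 : V) := fun j => by rw [cv_zero]; exact zero_mem _
theorem Ig.add {n : ℕ} {x y : V} (hx : Ig n x) (hy : Ig n y) : Ig n (x + y) := fun j => by
  rw [cv_add]; exact add_mem (hx j) (hy j)
theorem Ig.neg {n : ℕ} {x : V} (hx : Ig n x) : Ig n (-x) := fun j => by rw [cv_neg]; exact neg_mem (hx j)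
theorem Ig.sub {n : ℕ} {x y : V} (hx : Ig n x) (hy : Ig n y) : Ig n (x - y) := fun j => by
  rw [cv_sub]; exact sub_mem (hx j) (hy j)
theorem Ig.smul {n : ℕ} {c : KK} {y : V} (hc : c ∈ O n) (hy : Ig n y) : Ig n (c • y) := fun j => by
  rw [cv_smul]; exact mul_mem hc (hy j)
theorem Ig.sum {n : ℕ} {ι : Type*} (s : Finset ι) (y : ι → V) (h : ∀ i ∈ s, Ig n (y i)) :
    Ig n (∑ i ∈ s, y i) := fun j => by rw [cv_sum]; exact sum_mem fun i hi => h i hi j

theorem red_In (n : ℕ) (y : V) : In n (red n y) := fun j => by rw [co_red]; exact r_mem _ _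
theorem red_of_In {n : ℕ} {y : V} (hy : In n y) : red n y = y := co_ext fun j => by rw [co_red, r_of_mem (hy j)]
theorem red_smul_left {n : ℕ} {c : KK} (hc : c ∈ K n) (y : V) : red n (c • y) = c • red n y :=   co_ext fun j => by rw [co_red, cv_smul, cv_smul, co_red, r_mul_left hc]
theorem red_smul_In {n : ℕ} (c : KK) {y : V} (hy : In n y) : red n (c • y) = r n c • y :=   co_ext fun j => by rw [co_red, cv_smul, cv_smul, mul_comm, r_mul_left (hy j), mul_comm]
theorem red_smul {n : ℕ} {c : KK} {y : V} (hc : c ∈ O n) (hy : Ig n y) :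
    red n (c • y) = r n c • red n y :=   co_ext fun j => by rw [co_red, cv_smul, cv_smul, co_red, r_mul hc (hy j)]
theorem Ig_comp {n m : ℕ} (h : n ≤ m) (y : V) : Ig n y ↔ Ig m y ∧ Ig n (red m y) := by
  simp only [Ig, co_red, ← forall_and]
  exact forall_congr' fun j => O_comp h _
theorem red_red {n m : ℕ} (h : n ≤ m) (y : V) : red n (red m y) = red n y :=   co_ext fun j => by rw [co_red, co_red, co_red, r_r h]

/-- reduction as a linear map -/
noncomputable def redL (n : ℕ) : V →ₗ[F n] V where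
  toFun := red n
  map_add' := map_add _
  map_smul' c y := red_smul_left c.2 y

@[simp] theorem redL_apply (n : ℕ) (y : V) : redL n y = red n y := rfl

theorem r_one (n : ℕ) : r n 1 = 1 := r_of_mem (one_mem _)

theorem exists_least (n : ℕ) {ι : Type*} (s : Finset ι) (a : ι → KK) (hs : s.Nonempty)
    (ha : ∀ i ∈ s, a i ≠ 0) : ∃ j ∈ s, ∀ i ∈ s, (a j)⁻¹ * a i ∈ O n := by
  obtain ⟨j, hj, h⟩ := s.exists_min_image (fun i => hi n (ov (a i))) hs
  refine ⟨j, hj, fun i hi' => mem_O_of_ov ?_⟩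
  rw [ov_mul (inv_ne_zero (ha j hj)) (ha i hi'), ov_inv (ha j hj), hi_add, hi_neg]
  exact le_neg_add_iff_le.2 (h i hi')

/-- divide by the coordinate of least valuation (`O_total`) -/
theorem normalise' (n : ℕ) {y : V} (hy : y ≠ 0) :
    ∃ j, co y j ≠ 0 ∧ Ig n ((co y j)⁻¹ • y) ∧ red n ((co y j)⁻¹ • y) ≠ 0 := by
  have hs : ((HB.b (V := V)).repr y).support.Nonempty := by
    rw [Finsupp.support_nonempty_iff]; simpa using hy
  obtain ⟨j, hj, h⟩ := exists_least n _ (co y) hs fun i hi => Finsupp.mem_support_iff.1 hi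
  have hj' : co y j ≠ 0 := Finsupp.mem_support_iff.1 hj
  refine ⟨j, hj', fun i => ?_, fun h0 => ?_⟩
  · rw [cv_smul]
    by_cases hi : co y i = 0
    · rw [hi, mul_zero]; exact zero_mem _
    · exact h i (Finsupp.mem_support_iff.2 hi)
  · have := congrArg (fun x => co x j) h0
    simp only [co_red, cv_smul, cv_zero, inv_mul_cancel₀ hj', r_one] at this
    exact one_ne_zero this

theorem normalise (n : ℕ) {m : ℕ} {y : V} (hy : y ≠ 0) (hm : In m y) :
    ∃ c ∈ K m, c ≠ 0 ∧ Ig n (c • y) ∧ red n (c • y) ≠ 0 := by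
  obtain ⟨j, h1, h2, h3⟩ := normalise' n hy
  exact ⟨_, inv_mem (hm j), inv_ne_zero h1, h2, h3⟩

theorem tinv_tpow (n k l : ℕ) (y : V) : (t n)⁻¹ ^ (k + l) • t n ^ k • y = (t n)⁻¹ ^ l • y := by
  rw [smul_smul, add_comm, pow_add, mul_assoc, ← mul_pow, inv_mul_cancel₀ (t_ne n), one_pow, mul_one]

theorem tinv_mem (n l : ℕ) : (t n)⁻¹ ^ l ∈ K (n + 1) := pow_mem (inv_mem (t_mem n)) l

theorem θ_tinv_pow (n l : ℕ) : θ n ((t n)⁻¹ ^ l) = -(l : KK) * (t n)⁻¹ ^ l := by
  have h0 := t_ne n
  have h1 : θ n (t n)⁻¹ = -(t n)⁻¹ := by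
    have h := θ_mul n (t n) (t n)⁻¹
    rw [mul_inv_cancel₀ h0, θ_K (one_mem _), θ_t, mul_inv_cancel₀ h0] at h
    linear_combination -(t n)⁻¹ * h - θ n (t n)⁻¹ * inv_mul_cancel₀ h0
  induction l with
  | zero => simp [θ_K (one_mem (K n))]
  | succ l ih => rw [pow_succ, θ_mul, ih, h1]; push_cast; ring

theorem tinv_θ (n l : ℕ) (x : KK) :
    (t n)⁻¹ ^ l * θ n x = θ n ((t n)⁻¹ ^ l * x) + l * ((t n)⁻¹ ^ l * x) := by
  rw [θ_mul, θ_tinv_pow]; ring

theorem Od_zero_iff {n : ℕ} {y : V} : Od n 0 y ↔ Ig n y := by rw [Od, pow_zero, one_smul]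
theorem Od.zero (n l : ℕ) : Od n l (0 : V) := by rw [Od, smul_zero]; exact Ig.zero n
theorem Od.mono {n l l' : ℕ} {y : V} (h : Od n l' y) (hl : l ≤ l') : Od n l y := by
  obtain ⟨k, rfl⟩ := Nat.exists_eq_add_of_le' hl
  rw [Od, ← tinv_tpow n k l y, smul_comm]
  exact Ig.smul (pow_mem (t_O n) k) h
theorem Od.ig {n l : ℕ} {y : V} (h : Od n l y) : Ig n y := Od_zero_iff.1 (h.mono (Nat.zero_le l))
theorem Od.add {n l : ℕ} {x y : V} (hx : Od n l x) (hy : Od n l y) : Od n l (x + y) := by
  rw [Od, smul_add]; exact Ig.add hx hy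
theorem Od.neg {n l : ℕ} {x : V} (hx : Od n l x) : Od n l (-x) := by rw [Od, smul_neg]; exact Ig.neg hx
theorem Od.sub {n l : ℕ} {x y : V} (hx : Od n l x) (hy : Od n l y) : Od n l (x - y) := by
  rw [Od, smul_sub]; exact Ig.sub hx hy
theorem Od.smul {n l : ℕ} {c : KK} {y : V} (hc : c ∈ O n) (hy : Od n l y) : Od n l (c • y) := by
  rw [Od, smul_comm]; exact Ig.smul hc hy
theorem Od.sum {n l : ℕ} {ι : Type*} (s : Finset ι) (y : ι → V) (h : ∀ i ∈ s, Od n l (y i)) :
    Od n l (∑ i ∈ s, y i) := by rw [Od, Finset.smul_sum]; exact Ig.sum s _ h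
theorem Od.tpow {n l : ℕ} {y : V} (h : Od n l y) (k : ℕ) : Od n (k + l) (t n ^ k • y) := by
  rw [Od, tinv_tpow]; exact h
theorem Od.tinv {n l k : ℕ} {y : V} (h : Od n (k + l) y) : Od n l ((t n)⁻¹ ^ k • y) := by
  rw [Od, smul_smul, ← pow_add, add_comm]; exact h
theorem Ig.tpow {n : ℕ} {y : V} (h : Ig n y) (k : ℕ) : Od n k (t n ^ k • y) := (Od_zero_iff.2 h).tpow k

theorem cf_zero_eq (n : ℕ) (y : V) : cf n 0 y = red n y := by rw [cf, pow_zero, one_smul]
theorem cf_In (n l : ℕ) (y : V) : In n (cf n l y) := red_In _ _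
theorem cf_add (n l : ℕ) (x y : V) : cf n l (x + y) = cf n l x + cf n l y := by rw [cf, smul_add, map_add]; rfl
theorem cf_sub (n l : ℕ) (x y : V) : cf n l (x - y) = cf n l x - cf n l y := by rw [cf, smul_sub, map_sub]; rfl
theorem cf_neg (n l : ℕ) (x : V) : cf n l (-x) = -cf n l x := by rw [cf, smul_neg, map_neg]; rfl
theorem cf_zero (n l : ℕ) : cf n l (0 : V) = 0 := by rw [cf, smul_zero, map_zero]
theorem cf_smul_left {n : ℕ} (l : ℕ) {c : KK} (hc : c ∈ K n) (y : V) : cf n l (c • y) = c • cf n l y := by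
  rw [cf, smul_comm, red_smul_left hc]; rfl
theorem cf_tpow (n l k : ℕ) (y : V) : cf n (k + l) (t n ^ k • y) = cf n l y := by rw [cf, tinv_tpow]; rfl
theorem cf_tpow_In {n : ℕ} (l : ℕ) {y : V} (hy : In n y) : cf n l (t n ^ l • y) = y := by
  have := cf_tpow n 0 l y
  rwa [add_zero, cf_zero_eq, red_of_In hy] at this
theorem Od.cf_eq_zero {n l : ℕ} {y : V} (h : Od n (l + 1) y) : cf n l y = 0 := by
  rw [cf, ← tinv_tpow n 1 l y, smul_comm, add_comm, red_smul (pow_mem (t_O n) 1) h, pow_one, r_t,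
    zero_smul]
theorem Od.succ {n l : ℕ} {y : V} (h : Od n l y) (hy : In (n + 1) y) (h0 : cf n l y = 0) :
    Od n (l + 1) y := fun j => by
  have h1 := h j
  have h2 := congrArg (fun x => co x j) h0
  simp only [cf, co_red, cv_zero] at h2
  rw [cv_smul] at h1 h2
  rw [cv_smul, pow_succ', mul_assoc]
  exact div_t (mul_mem (tinv_mem n l) (hy j)) h1 h2
/-- subtracting the leading term raises the order -/
theorem Od.sub_cf {n l : ℕ} {y : V} (h : Od n l y) (hy : In (n + 1) y) :
    Od n (l + 1) (y - t n ^ l • cf n l y) := by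
  refine (h.sub ((cf_In n l y).ig.tpow l)).succ
    (hy.sub (In.smul (pow_mem (t_mem n) l) ((cf_In n l y).mono (Nat.le_succ n)))) ?_
  rw [cf_sub, cf_tpow_In l (cf_In n l y), sub_self]
theorem eq_zero_of_Od {n : ℕ} {y : V} (hy : In (n + 1) y) (h : ∀ l, Od n l y) : y = 0 :=   co_ext fun j => by
    rw [cv_zero]
    exact t_sep (hy j) fun l => by have := h l j; rwa [cv_smul] at this
theorem exists_lead {n : ℕ} {y : V} (hy : In (n + 1) y) (h : Ig n y) (h0 : y ≠ 0) :
    ∃ k, Od n k y ∧ cf n k y ≠ 0 := by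
  by_contra hn
  push Not at hn
  refine h0 (eq_zero_of_Od hy fun l => ?_)
  induction l with
  | zero => exact Od_zero_iff.2 h
  | succ l ih => exact ih.succ hy (hn l ih)

theorem θV_smul (n : ℕ) (c : KK) (y : V) : θV n (c • y) = θ n c • y + c • θV n y :=   co_ext fun j => by simp only [co_θV, cv_add, cv_smul, θ_mul]
theorem θV_In {n : ℕ} {y : V} (hy : In n y) : θV n y = 0 := co_ext fun j => by rw [co_θV, θ_K (hy j), cv_zero]
theorem In.θV {n : ℕ} {y : V} (hy : In (n + 1) y) : In (n + 1) (θV n y) := fun j => by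
  rw [co_θV]; exact θ_mem (hy j)
theorem Od.θV {n l : ℕ} {y : V} (hy : Od n l y) : Od n l (θV n y) := fun j => by
  have h := hy j
  rw [cv_smul] at h
  rw [cv_smul, co_θV, tinv_θ]
  exact add_mem (θ_O h) (mul_mem (natCast_mem _ l) h)
theorem cf_θV (n l : ℕ) (y : V) : cf n l (θV n y) = (l : KK) • cf n l y := co_ext fun j => by
  simp only [cf, co_red, cv_smul, co_θV, tinv_θ, map_add, r_θ, zero_add]
  exact r_mul_left (natCast_mem _ l) _

/-- limits, inside a finite set of coordinates -/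
theorem exists_limit {n : ℕ} (J₀ : Finset (HB.J V)) (x : ℕ → V) (h0 : ∀ l j, co (x l) j ≠ 0 → j ∈ J₀)
    (h1 : ∀ l, In (n + 1) (x l)) (h2 : ∀ l, Od n l (x (l + 1) - x l)) :
    ∃ y : V, In (n + 1) y ∧ (∀ j, co y j ≠ 0 → j ∈ J₀) ∧ ∀ l, Od n l (y - x l) := by
  classical
  choose c hc1 hc2 using fun j => t_complete (fun l => co (x l) j) (fun l => h1 l j) fun l => by
    have := h2 l j
    rwa [cv_smul, cv_sub] at this
  have e : ∀ j, co (∑ i ∈ J₀, c i • (HB.b (V := V)) i) j = if j ∈ J₀ then c j else 0 := fun j => by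
    simp [co, Finsupp.finsetSum_apply, Finsupp.single_apply]
  refine ⟨∑ i ∈ J₀, c i • (HB.b (V := V)) i, fun j => ?_, fun j hj => ?_, fun l j => ?_⟩
  · rw [e]; split_ifs
    exacts [hc1 j, zero_mem _]
  · rw [e] at hj; by_contra h; exact hj (if_neg h)
  · rw [cv_smul, cv_sub, e]; split_ifs with h
    · exact hc2 j l
    · have : co (x l) j = 0 := by by_contra h'; exact h (h0 l j h')
      rw [this, sub_zero, mul_zero]; exact zero_mem _

/-- reduction of a subspace -/
noncomputable def Red (n : ℕ) {m : ℕ} (U : Submodule (F m) V) : Submodule (F n) V :=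
  Submodule.span (F n) {x | ∃ y ∈ U, Ig n y ∧ red n y = x}

theorem mem_Red {n m : ℕ} (h : n ≤ m) {U : Submodule (F m) V} {x : V} :
    x ∈ Red n U ↔ ∃ y ∈ U, Ig n y ∧ red n y = x := by
  refine ⟨fun hx => ?_, fun hx => Submodule.subset_span hx⟩
  induction hx using Submodule.span_induction with
  | mem x hx => exact hx
  | zero => exact ⟨0, zero_mem _, Ig.zero n, map_zero _⟩
  | add x x' _ _ ih ih' =>
    obtain ⟨y, h1, h2, rfl⟩ := ih
    obtain ⟨y', h1', h2', rfl⟩ := ih'
    exact ⟨y + y', add_mem h1 h1', h2.add h2', map_add _ _ _⟩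
  | smul c x _ ih =>
    obtain ⟨y, h1, h2, rfl⟩ := ih
    exact ⟨(c : KK) • y, U.smul_mem ⟨c, K_mono h c.2⟩ h1, h2.smul (K_le_O c.2),
      red_smul_left c.2 y⟩

theorem red_mem_Red {n m : ℕ} {U : Submodule (F m) V} {y : V} (hy : y ∈ U) (h : Ig n y) :
    red n y ∈ Red n U := Submodule.subset_span ⟨y, hy, h, rfl⟩

theorem Red_mono (n : ℕ) {m : ℕ} {U U' : Submodule (F m) V} (h : U ≤ U') : Red n U ≤ Red n U' :=   Submodule.span_mono fun _ ⟨y, h1, h2⟩ => ⟨y, h h1, h2⟩

theorem In_span {n : ℕ} {S : Set V} (hS : ∀ y ∈ S, In n y) {y : V}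
    (hy : y ∈ Submodule.span (F n) S) : In n y := by
  induction hy using Submodule.span_induction with
  | mem x hx => exact hS x hx
  | zero => exact In.zero n
  | add x x' _ _ ih ih' => exact ih.add ih'
  | smul c x _ ih => exact In.smul c.2 ih

theorem Red_In {n m : ℕ} {U : Submodule (F m) V} {x : V} (hx : x ∈ Red n U) : In n x :=   In_span (by rintro _ ⟨y, -, -, rfl⟩; exact red_In n y) hx

/-- reduction in two steps -/
theorem Red_Red {n m k : ℕ} (h1 : n ≤ m) (h2 : m ≤ k) (U : Submodule (F k) V) :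
    Red n (Red m U) = Red n U := by
  ext x
  rw [mem_Red h1, mem_Red (h1.trans h2)]
  constructor
  · rintro ⟨y, hy, hi, rfl⟩
    obtain ⟨y', h3, h4, rfl⟩ := (mem_Red h2).1 hy
    exact ⟨y', h3, (Ig_comp h1 y').2 ⟨h4, hi⟩, (red_red h1 y').symm⟩
  · rintro ⟨y, hy, hi, rfl⟩
    obtain ⟨h3, h4⟩ := (Ig_comp h1 y).1 hi
    exact ⟨red m y, red_mem_Red hy h3, h4, red_red h1 y⟩

/-- lifts of independent vectors are independent -/
theorem indep_of_red {n m : ℕ} {ι : Type*} [Fintype ι] {y : ι → V} (hy : ∀ i, Ig n (y i))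
    (h : LinearIndependent (F n) fun i => red n (y i)) : LinearIndependent (F m) y := by
  classical
  rw [Fintype.linearIndependent_iff] at h ⊢
  intro c hc
  by_contra hn
  push Not at hn
  obtain ⟨i₀, hi₀⟩ := hn
  obtain ⟨j, hj, hl⟩ := exists_least n (Finset.univ.filter fun i => (c i : KK) ≠ 0)
    (fun i => (c i : KK)) ⟨i₀, by simpa using hi₀⟩ fun i hi => (Finset.mem_filter.1 hi).2
  have hj' : (c j : KK) ≠ 0 := (Finset.mem_filter.1 hj).2
  have hO : ∀ i, (c j : KK)⁻¹ * c i ∈ O n := fun i => by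
    by_cases hi : (c i : KK) = 0
    · rw [hi, mul_zero]; exact zero_mem _
    · exact hl i (by simpa using hi)
  have h1 := h (fun i => ⟨r n ((c j : KK)⁻¹ * c i), r_mem _ _⟩) (by
    have h2 := congrArg (fun x => red n ((c j : KK)⁻¹ • x)) hc
    simp only [Finset.smul_sum, F_smul, smul_smul, map_sum, smul_zero, map_zero] at h2
    rw [← h2]
    exact Finset.sum_congr rfl fun i _ => (red_smul (hO i) (hy i)).symm) j
  have h2 : r n ((c j : KK)⁻¹ * c j) = 0 := congrArg Subtype.val h1
  rw [inv_mul_cancel₀ hj', r_one] at h2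
  exact one_ne_zero h2

theorem exists_indep_red (n : ℕ) {m : ℕ} (d : ℕ) : ∀ (U : Submodule (F m) V)
    [FiniteDimensional (F m) U], (∀ y ∈ U, In m y) → finrank (F m) U = d →
    ∃ y : Fin d → V, (∀ i, y i ∈ U ∧ Ig n (y i)) ∧
      LinearIndependent (F n) fun i => red n (y i) := by
  induction d with
  | zero => exact fun U _ _ _ => ⟨Fin.elim0, fun i => i.elim0, linearIndependent_empty_type⟩
  | succ d ih =>
    intro U _ hU hd
    have hne : U ≠ ⊥ := by rintro rfl; simp at hd
    obtain ⟨y, hy, hy0⟩ := Submodule.exists_mem_ne_zero_of_ne_bot hne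
    obtain ⟨j, h1, h2, -⟩ := normalise' n hy0
    let φ : Module.Dual (F m) U :=
      { toFun := fun u => ⟨co (u : V) j, hU u u.2 j⟩
        map_add' := fun u v => Subtype.ext (cv_add _ _ _)
        map_smul' := fun c u => Subtype.ext (cv_smul _ _ _) }
    have hφ : φ ≠ 0 := fun h => h1 (congrArg Subtype.val (LinearMap.congr_fun h ⟨y, hy⟩))
    have h3 := Module.Dual.finrank_ker_add_one_of_ne_zero hφ
    obtain ⟨y', h4, h5⟩ := ih ((LinearMap.ker φ).map U.subtype)
      (fun w hw => hU w (Submodule.map_subtype_le _ _ hw))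
      (by rw [Submodule.finrank_map_subtype_eq]; omega)
    have h6 : ∀ i, co (y' i) j = 0 := fun i => by
      obtain ⟨u, hu, e⟩ := (h4 i).1
      rw [← e]; exact congrArg Subtype.val (LinearMap.mem_ker.1 hu)
    refine ⟨Fin.cons ((co y j)⁻¹ • y) y', fun i => ?_, ?_⟩
    · refine Fin.cases ⟨U.smul_mem ⟨_, inv_mem (hU y hy j)⟩ hy, h2⟩ (fun i => ?_) i
      exact ⟨Submodule.map_subtype_le _ _ (h4 i).1, (h4 i).2⟩
    · have e : (fun i => red n ((Fin.cons ((co y j)⁻¹ • y) y' : Fin (d + 1) → V) i)) =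
          Fin.cons (red n ((co y j)⁻¹ • y)) fun i => red n (y' i) := by
        funext i; refine Fin.cases rfl (fun i => rfl) i
      rw [e, linearIndependent_finCons]
      refine ⟨h5, fun hm => ?_⟩
      have key : ∀ w ∈ Submodule.span (F n) (Set.range fun i => red n (y' i)), co w j = 0 := by
        intro w hw
        induction hw using Submodule.span_induction with
        | mem x hx => obtain ⟨i, rfl⟩ := hx; rw [co_red, h6, map_zero]
        | zero => exact cv_zero j
        | add x x' _ _ ih ih' => rw [cv_add, ih, ih', add_zero]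
        | smul c x _ ih => rw [F_smul, cv_smul, ih, mul_zero]
      have := key _ hm
      rw [co_red, cv_smul, inv_mul_cancel₀ h1, r_one] at this
      exact one_ne_zero this

/-- Reduction keeps the dimension.  `≤`: lifts of independent vectors are independent (normalise the coefficients of a
relation with `O_total`).  `≥`: induction on the dimension, cutting `U` by a coordinate at which a normalised vector
of `U` is a unit. -/
theorem finrank_Red {n m : ℕ} (h : n ≤ m) (U : Submodule (F m) V) [FiniteDimensional (F m) U]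
    (hU : ∀ y ∈ U, In m y) :
    FiniteDimensional (F n) (Red n U) ∧ finrank (F n) (Red n U) = finrank (F m) U := by
  have h1 : Module.rank (F n) (Red n U) ≤ finrank (F m) U := by
    refine rank_le fun s hs => ?_
    choose y hy1 hy2 hy3 using fun x : s => (mem_Red h).1 (x : Red n U).2
    have h2 : LinearIndependent (F n) fun x : s => red n (y x) := by
      simp only [hy3]
      exact hs.map' (Red n U).subtype (Submodule.ker_subtype _)
    have h3 : LinearIndependent (F m) fun x : s => (⟨y x, hy1 x⟩ : U) :=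
      LinearIndependent.of_comp U.subtype (indep_of_red hy2 h2)
    simpa using h3.fintype_card_le_finrank
  have h2 : FiniteDimensional (F n) (Red n U) :=
    Module.rank_lt_aleph0_iff.1 (h1.trans_lt (Cardinal.natCast_lt_aleph0))
  refine ⟨h2, le_antisymm (finrank_le_of_rank_le h1) ?_⟩
  obtain ⟨y, h3, h4⟩ := exists_indep_red n _ U hU rfl
  have h5 : LinearIndependent (F n) fun i => (⟨red n (y i), red_mem_Red (h3 i).1 (h3 i).2⟩ : Red n U) :=
    LinearIndependent.of_comp (Red n U).subtype h4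
  simpa using h5.fintype_card_le_finrank

/-- base change of a subspace -/
noncomputable def bc (m : ℕ) {n : ℕ} (U : Submodule (F n) V) : Submodule (F m) V :=
  Submodule.span (F m) (U : Set V)

theorem le_bc (m : ℕ) {n : ℕ} {U : Submodule (F n) V} {y : V} (hy : y ∈ U) : y ∈ bc m U :=
  Submodule.subset_span hy

theorem bc_self {n : ℕ} (U : Submodule (F n) V) : bc n U = U := Submodule.span_eq U

theorem bc_mono (m : ℕ) {n : ℕ} {U U' : Submodule (F n) V} (h : U ≤ U') : bc m U ≤ bc m U' :=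
  Submodule.span_mono h

theorem bc_span {m k : ℕ} (h : m ≤ k) (S : Set V) :
    bc k (Submodule.span (F m) S) = Submodule.span (F k) S := by
  refine le_antisymm (Submodule.span_le.2 fun y hy => ?_) (Submodule.span_mono Submodule.subset_span)
  induction hy using Submodule.span_induction with
  | mem x hx => exact Submodule.subset_span hx
  | zero => exact zero_mem _
  | add x x' _ _ ih ih' => exact add_mem ih ih'
  | smul c x _ ih => exact Submodule.smul_mem _ (⟨c, K_mono h c.2⟩ : F k) ih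

theorem bc_bc {n m k : ℕ} (h : m ≤ k) (U : Submodule (F n) V) : bc k (bc m U) = bc k U := bc_span h _

theorem bc_In {n m : ℕ} (h : n ≤ m) {U : Submodule (F n) V} (hU : ∀ y ∈ U, In n y) {y : V}
    (hy : y ∈ bc m U) : In m y := In_span (fun y hy => (hU y hy).mono h) hy

/-- no integrality needed -/
theorem red_mem_bc {n k : ℕ} (h : n ≤ k) (m : ℕ) {U : Submodule (F n) V} (hU : ∀ y ∈ U, In n y) {y : V}
    (hy : y ∈ bc m U) : red k y ∈ bc k U := by
  suffices H : ∀ c : KK, red k (c • y) ∈ bc k U by simpa using H 1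
  induction hy using Submodule.span_induction with
  | mem x hx =>
    intro c
    rw [red_smul_In c ((hU x hx).mono h)]
    exact Submodule.smul_mem _ (⟨_, r_mem k c⟩ : F k) (le_bc k hx)
  | zero => intro c; rw [smul_zero, map_zero]; exact zero_mem _
  | add x x' _ _ ih ih' => intro c; rw [smul_add, map_add]; exact add_mem (ih c) (ih' c)
  | smul a x _ ih => intro c; rw [F_smul, smul_smul]; exact ih _

theorem finrank_bc {n m : ℕ} (h : n ≤ m) (U : Submodule (F n) V) [FiniteDimensional (F n) U]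
    (hU : ∀ y ∈ U, In n y) :
    FiniteDimensional (F m) (bc m U) ∧ finrank (F m) (bc m U) = finrank (F n) U := by
  have h1 : FiniteDimensional (F m) (bc m U) := by
    obtain ⟨s, hs⟩ := (Submodule.fg_iff_finiteDimensional U).2 inferInstance
    rw [← hs, bc_span h]
    exact FiniteDimensional.span_finset _ s
  have h2 : Red n (bc m U) = U := by
    ext x
    rw [mem_Red h]
    constructor
    · rintro ⟨y, hy, -, rfl⟩
      have := red_mem_bc le_rfl m hU hy
      rwa [bc_self] at this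
    · exact fun hx => ⟨x, le_bc m hx, (hU x hx).ig, red_of_In (hU x hx)⟩
  have h3 := (finrank_Red h (bc m U) fun y hy => bc_In h hU hy).2
  rw [h2] at h3
  exact ⟨h1, h3.symm⟩

section pi

variable {ι : Type} [Fintype ι]

theorem co_pi (y : ι → V) (i : ι) (j : HB.J V) : co y (⟨i, j⟩ : Σ _ : ι, HB.J V) = co (y i) j :=
  Pi.basis_repr _ _ _

theorem In_pi {n : ℕ} {y : ι → V} : In n y ↔ ∀ i, In n (y i) :=   ⟨fun h i j => co_pi y i j ▸ h ⟨i, j⟩, fun h ⟨i, j⟩ => (co_pi y i j).symm ▸ h i j⟩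
theorem Ig_pi {n : ℕ} {y : ι → V} : Ig n y ↔ ∀ i, Ig n (y i) :=   ⟨fun h i j => co_pi y i j ▸ h ⟨i, j⟩, fun h ⟨i, j⟩ => (co_pi y i j).symm ▸ h i j⟩
theorem Od_pi {n l : ℕ} {y : ι → V} : Od n l y ↔ ∀ i, Od n l (y i) := Ig_pi
theorem red_pi (n : ℕ) (y : ι → V) (i : ι) : red n y i = red n (y i) := co_ext fun j => by
  rw [← co_pi, co_red, co_red, co_pi]
theorem cf_pi (n l : ℕ) (y : ι → V) (i : ι) : cf n l y i = cf n l (y i) := red_pi _ _ _
theorem θV_pi (n : ℕ) (y : ι → V) (i : ι) : θV n y i = θV n (y i) := co_ext fun j => by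
  rw [← co_pi, co_θV, co_θV, co_pi]

end pi

end generic

section alg

theorem τ_eq (x : A) : τ x = co x (0 : G) := rfl

theorem expand (φ : KK →+ KK) (x : A) :
    mapc φ x = ∑ γ ∈ (zb.repr x).support, φ (co x γ) • z γ := by
  refine co_ext fun δ => ?_
  rw [co_mapc, cv_sum]
  have e : ∀ γ : G, co (φ (co x γ) • z γ) δ = if γ = δ then φ (co x γ) else 0 := fun γ => by
    rw [cv_smul]
    show _ * zb.repr (zb γ) δ = _
    rw [Module.Basis.repr_self, Finsupp.single_apply]; split_ifs <;> simp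
  simp only [e, Finset.sum_ite_eq']
  split_ifs with h
  · rfl
  · rw [show co x δ = 0 from Finsupp.notMem_support_iff.1 h, map_zero]

theorem expand_id (x : A) : x = ∑ γ ∈ (zb.repr x).support, co x γ • z γ := by
  have := expand (AddMonoidHom.id KK) x
  rwa [show mapc (AddMonoidHom.id KK) x = x from co_ext fun j => co_mapc _ _ _] at this

theorem expand_mul (x y : A) : x * y = ∑ γ ∈ (zb.repr x).support, ∑ δ ∈ (zb.repr y).support,
    (co x γ * co y δ) • (z γ * z δ) := by
  conv_lhs => rw [expand_id x, expand_id y, Finset.sum_mul_sum]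
  simp only [smul_mul_smul_comm]

theorem In.z (n : ℕ) (γ : G) : In n (z γ) := fun δ => by
  show zb.repr (zb γ) δ ∈ _
  rw [Module.Basis.repr_self, Finsupp.single_apply]; split_ifs
  exacts [one_mem _, zero_mem _]
theorem In.zz (n : ℕ) (γ δ : G) : In n (R180.z γ * R180.z δ) := by
  rw [z_mul]; exact In.smul (K_mono (Nat.zero_le n) (cc_mem γ δ)) (In.z n _)
theorem In.z_inv (n : ℕ) (γ : G) : In n (R180.z γ)⁻¹ := by
  rw [R180.z_inv]; exact In.smul (inv_mem (K_mono (Nat.zero_le n) (cc_mem _ _))) (In.z n _)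
theorem In.one (n : ℕ) : In n (1 : A) := In.z n 0
theorem In.mul {n : ℕ} {x y : A} (hx : In n x) (hy : In n y) : In n (x * y) := by
  rw [expand_mul]
  exact In.sum _ _ fun γ _ => In.sum _ _ fun δ _ => In.smul (mul_mem (hx γ) (hy δ)) (In.zz n γ δ)
theorem In.pow {n : ℕ} {x : A} (hx : In n x) (k : ℕ) : In n (x ^ k) := by
  induction k with
  | zero => rw [pow_zero]; exact In.one n
  | succ k ih => rw [pow_succ]; exact ih.mul hx
theorem In.algebraMap {n : ℕ} {c : KK} (hc : c ∈ K n) : In n (algebraMap KK A c) := by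
  rw [Algebra.algebraMap_eq_smul_one]; exact In.smul hc (In.one n)
theorem In.τ {n : ℕ} {x : A} (hx : In n x) : τ x ∈ K n := hx (0 : G)

theorem Ig.mul {n : ℕ} {x y : A} (hx : Ig n x) (hy : Ig n y) : Ig n (x * y) := by
  rw [expand_mul]
  exact Ig.sum _ _ fun γ _ => Ig.sum _ _ fun δ _ => Ig.smul (mul_mem (hx γ) (hy δ)) (In.zz n γ δ).ig
theorem Ig.pow {n : ℕ} {x : A} (hx : Ig n x) (k : ℕ) : Ig n (x ^ k) := by
  induction k with
  | zero => rw [pow_zero]; exact (In.one n).ig
  | succ k ih => rw [pow_succ]; exact ih.mul hx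
theorem Ig.τ {n : ℕ} {x : A} (hx : Ig n x) : τ x ∈ O n := hx (0 : G)
theorem red_mul_of {n : ℕ} {x y : A}
    (h : ∀ γ δ : G, r n (co x γ * co y δ) = r n (co x γ) * r n (co y δ)) :
    red n (x * y) = red n x * red n y := by
  rw [expand_mul, map_sum, show red n x = _ from expand _ x, show red n y = _ from expand _ y,
    Finset.sum_mul_sum]
  refine Finset.sum_congr rfl fun γ _ => ?_
  rw [map_sum]
  refine Finset.sum_congr rfl fun δ _ => ?_
  rw [red_smul_In _ (In.zz n γ δ), h, smul_mul_smul_comm]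
theorem red_mul {n : ℕ} {x y : A} (hx : Ig n x) (hy : Ig n y) : red n (x * y) = red n x * red n y :=   red_mul_of fun γ δ => r_mul (hx γ) (hy δ)
theorem red_pow {n : ℕ} {x : A} (hx : Ig n x) (k : ℕ) : red n (x ^ k) = red n x ^ k := by
  induction k with
  | zero => rw [pow_zero, pow_zero, red_of_In (In.one n)]
  | succ k ih => rw [pow_succ, pow_succ, red_mul (hx.pow k) hx, ih]
theorem red_mul_left {n : ℕ} {x : A} (hx : In n x) (y : A) : red n (x * y) = x * red n y := by
  rw [red_mul_of fun γ δ => by rw [r_mul_left (hx γ), r_of_mem (hx γ)], red_of_In hx]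
theorem red_mul_right {n : ℕ} (x : A) {y : A} (hy : In n y) : red n (x * y) = red n x * y := by
  rw [red_mul_of fun γ δ => by rw [mul_comm, r_mul_left (hy δ), r_of_mem (hy δ), mul_comm],
    red_of_In hy]
theorem τ_red (n : ℕ) (x : A) : τ (red n x) = r n (τ x) := by rw [τ_eq, τ_eq]; exact co_red n x _
theorem Od.mul {n l l' : ℕ} {x y : A} (hx : Od n l x) (hy : Od n l' y) : Od n (l + l') (x * y) := by
  rw [Od, pow_add, ← smul_mul_smul_comm]; exact Ig.mul hx hy
theorem Od.mul_ig {n l : ℕ} {x y : A} (hx : Od n l x) (hy : Ig n y) : Od n l (x * y) := by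
  simpa using hx.mul (Od_zero_iff.2 hy)
theorem Od.ig_mul {n l : ℕ} {x y : A} (hx : Ig n x) (hy : Od n l y) : Od n l (x * y) := by
  simpa using (Od_zero_iff.2 hx).mul hy
theorem cf_mul {n l l' : ℕ} {x y : A} (hx : Od n l x) (hy : Od n l' y) :
    cf n (l + l') (x * y) = cf n l x * cf n l' y := by
  rw [cf, pow_add, ← smul_mul_smul_comm]; exact red_mul hx hy
theorem cf_mul_left {n : ℕ} (l : ℕ) {x : A} (hx : In n x) (y : A) : cf n l (x * y) = x * cf n l y := by
  rw [cf, ← mul_smul_comm, red_mul_left hx]; rfl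
theorem τ_cf (n l : ℕ) (x : A) : τ (cf n l x) = r n ((t n)⁻¹ ^ l * τ x) := by rw [cf, τ_red, map_smul, smul_eq_mul]
theorem θV_mul (n : ℕ) (x y : A) : θV n (x * y) = θV n x * y + x * θV n y := by
  have e1 : θV n x * y = ∑ γ ∈ (zb.repr x).support, ∑ δ ∈ (zb.repr y).support,
      (θ n (co x γ) * co y δ) • (z γ * z δ) := by
    conv_lhs => rw [show θV n x = _ from expand _ x, expand_id y, Finset.sum_mul_sum]
    simp only [smul_mul_smul_comm]
  have e2 : x * θV n y = ∑ γ ∈ (zb.repr x).support, ∑ δ ∈ (zb.repr y).support,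
      (co x γ * θ n (co y δ)) • (z γ * z δ) := by
    conv_lhs => rw [show θV n y = _ from expand _ y, expand_id x, Finset.sum_mul_sum]
    simp only [smul_mul_smul_comm]
  rw [e1, e2, expand_mul, map_sum, ← Finset.sum_add_distrib]
  refine Finset.sum_congr rfl fun γ _ => ?_
  rw [map_sum, ← Finset.sum_add_distrib]
  refine Finset.sum_congr rfl fun δ _ => ?_
  rw [θV_smul, θV_In (In.zz n γ δ), smul_zero, add_zero, θ_mul, add_smul]
theorem τ_θV (n : ℕ) (x : A) : τ (θV n x) = θ n (τ x) := by rw [τ_eq, τ_eq]; exact co_θV n x _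

/-- normalise `y⁻¹` with `normalise'`; `A` has no zero divisors, so the normalising scalar is a unit -/
theorem Ig.inv {n : ℕ} {y : A} (hy : Ig n y) (h0 : red n y ≠ 0) :
    Ig n y⁻¹ ∧ red n y⁻¹ = (red n y)⁻¹ := by
  have hy0 : y ≠ 0 := by rintro rfl; exact h0 (map_zero _)
  obtain ⟨j, h1, h2, h3⟩ := normalise' n (inv_ne_zero hy0)
  generalize co y⁻¹ j = c at h1 h2 h3
  have e : y * (c⁻¹ • y⁻¹) = c⁻¹ • (1 : A) := by rw [mul_smul_comm, mul_inv_cancel₀ hy0]
  have h4 : c⁻¹ ∈ O n := by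
    have := (hy.mul h2).τ
    rwa [e, map_smul, τ_one, smul_eq_mul, mul_one] at this
  have h5 : r n c⁻¹ ≠ 0 := fun h => by
    have := red_mul hy h2
    rw [e, red_smul_In _ (In.one n), h, zero_smul] at this
    exact mul_ne_zero h0 h3 this.symm
  have h6 : Ig n y⁻¹ := by
    have := h2.smul (inv_mem_O h4 h5)
    rwa [smul_smul, inv_inv, mul_inv_cancel₀ h1, one_smul] at this
  refine ⟨h6, eq_inv_of_mul_eq_one_right ?_⟩
  rw [← red_mul hy h6, mul_inv_cancel₀ hy0, red_of_In (In.one n)]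

theorem Ig.aeval {n : ℕ} {y : A} (hy : Ig n y) (p : Polynomial (F n)) :
    Ig n (Polynomial.aeval y p) ∧ red n (Polynomial.aeval y p) = Polynomial.aeval (red n y) p := by
  simp only [Polynomial.aeval_eq_sum_range, F_smul, map_sum]
  exact ⟨Ig.sum _ _ fun i _ => (hy.pow i).smul (K_le_O (p.coeff i).2),
    Finset.sum_congr rfl fun i _ => by rw [red_smul_left (p.coeff i).2, red_pow hy]⟩

/-- reduction of a subalgebra -/
noncomputable def RedA {n m : ℕ} (h : n ≤ m) (B : Subalgebra (F m) A) : Subalgebra (F n) A where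
  carrier := {x | ∃ y ∈ B, Ig n y ∧ red n y = x}
  mul_mem' := by
    rintro _ _ ⟨y, h1, h2, rfl⟩ ⟨y', h1', h2', rfl⟩
    exact ⟨y * y', mul_mem h1 h1', h2.mul h2', red_mul h2 h2'⟩
  add_mem' := by
    rintro _ _ ⟨y, h1, h2, rfl⟩ ⟨y', h1', h2', rfl⟩
    exact ⟨y + y', add_mem h1 h1', h2.add h2', map_add _ _ _⟩
  algebraMap_mem' c := ⟨algebraMap KK A c, B.algebraMap_mem ⟨c, K_mono h c.2⟩,
    (In.algebraMap c.2).ig, red_of_In (In.algebraMap c.2)⟩

theorem mem_RedA {n m : ℕ} {h : n ≤ m} {B : Subalgebra (F m) A} {x : A} :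
    x ∈ RedA h B ↔ ∃ y ∈ B, Ig n y ∧ red n y = x := Iff.rfl

theorem RedA_toSubmodule {n m : ℕ} (h : n ≤ m) (B : Subalgebra (F m) A) :
    Subalgebra.toSubmodule (RedA h B) = Red n (Subalgebra.toSubmodule B) := by
  ext x
  rw [mem_Red h]
  rfl

theorem finrank_RedA {n m : ℕ} (h : n ≤ m) (B : Subalgebra (F m) A) [FiniteDimensional (F m) B]
    (hB : ∀ y ∈ B, In m y) :
    FiniteDimensional (F n) (RedA h B) ∧ finrank (F n) (RedA h B) = finrank (F m) B := by
  have h1 := finrank_Red h (Subalgebra.toSubmodule B) hB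
  rw [← RedA_toSubmodule h B] at h1
  exact h1

/-- the trace form over `F n` -/
noncomputable def tB (n : ℕ) : A →ₗ[F n] A →ₗ[F n] F n :=
  LinearMap.mk₂ (F n) (fun c y => ⟨r n (τ (c * y)), r_mem n _⟩)
    (fun c c' y => Subtype.ext (by simp [add_mul]))
    (fun a c y => Subtype.ext (by
      simp only [F_smul, smul_mul_assoc, map_smul, smul_eq_mul, r_mul_left a.2]; rfl))
    (fun c y y' => Subtype.ext (by simp [mul_add]))
    (fun a c y => Subtype.ext (by
      simp only [F_smul, mul_smul_comm, map_smul, smul_eq_mul, r_mul_left a.2]; rfl))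

theorem tB_val (n : ℕ) (c y : A) : (tB n c y : KK) = r n (τ (c * y)) := rfl

theorem tB_In {n : ℕ} {c y : A} (hc : In n c) (hy : In n y) : (tB n c y : KK) = τ (c * y) := r_of_mem (hc.mul hy).τ

theorem tB_eq_zero {n : ℕ} {c y : A} (hc : In n c) (hy : In n y) : tB n c y = 0 ↔ τ (c * y) = 0 := by
  rw [← tB_In hc hy]; exact ZeroMemClass.coe_eq_zero.symm

/-- the pairing of tuples -/
noncomputable def pair {ι : Type} [Fintype ι] (c y : ι → A) : KK := ∑ i, τ (c i * y i)

/-- the pairing of tuples over `F n` -/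
noncomputable def pB (n : ℕ) {ι : Type} [Fintype ι] : (ι → A) →ₗ[F n] (ι → A) →ₗ[F n] F n :=
  LinearMap.mk₂ (F n) (fun c y => ⟨r n (pair c y), r_mem n _⟩)
    (fun c c' y => Subtype.ext (by simp [pair, add_mul, Finset.sum_add_distrib]))
    (fun a c y => Subtype.ext (by
      simp only [pair, Pi.smul_apply, F_smul, smul_mul_assoc, map_smul, smul_eq_mul,
        ← Finset.mul_sum, r_mul_left a.2]; rfl))
    (fun c y y' => Subtype.ext (by simp [pair, mul_add, Finset.sum_add_distrib]))
    (fun a c y => Subtype.ext (by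
      simp only [pair, Pi.smul_apply, F_smul, mul_smul_comm, map_smul, smul_eq_mul,
        ← Finset.mul_sum, r_mul_left a.2]; rfl))

section
variable {ι : Type} [Fintype ι]

theorem pB_val (n : ℕ) (c y : ι → A) : (pB n c y : KK) = r n (pair c y) := rfl
theorem pair_mem {n : ℕ} {c y : ι → A} (hc : In n c) (hy : In n y) : pair c y ∈ K n :=   sum_mem fun i _ => ((In_pi.1 hc i).mul (In_pi.1 hy i)).τ
theorem pB_In {n : ℕ} {c y : ι → A} (hc : In n c) (hy : In n y) : (pB n c y : KK) = pair c y :=   r_of_mem (pair_mem hc hy)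
theorem pB_eq_zero {n : ℕ} {c y : ι → A} (hc : In n c) (hy : In n y) : pB n c y = 0 ↔ pair c y = 0 := by
  rw [← pB_In hc hy]; exact ZeroMemClass.coe_eq_zero.symm
theorem pair_add_left (c c' y : ι → A) : pair (c + c') y = pair c y + pair c' y := by
  simp [pair, add_mul, Finset.sum_add_distrib]
theorem pair_add_right (c y y' : ι → A) : pair c (y + y') = pair c y + pair c y' := by
  simp [pair, mul_add, Finset.sum_add_distrib]
theorem pair_sub_left (c c' y : ι → A) : pair (c - c') y = pair c y - pair c' y := by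
  simp [pair, sub_mul]
theorem pair_sub_right (c y y' : ι → A) : pair c (y - y') = pair c y - pair c y' := by
  simp [pair, mul_sub]
theorem pair_smul_left (a : KK) (c y : ι → A) : pair (a • c) y = a * pair c y := by simp [pair, Finset.mul_sum]
theorem pair_smul_right (a : KK) (c y : ι → A) : pair c (a • y) = a * pair c y := by simp [pair, Finset.mul_sum]
theorem pair_zero_left (y : ι → A) : pair 0 y = 0 := by simp [pair]
theorem pair_zero_right (c : ι → A) : pair c 0 = 0 := by simp [pair]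
theorem pair_sum_right {κ : Type*} (s : Finset κ) (c : ι → A) (y : κ → ι → A) :
    pair c (∑ k ∈ s, y k) = ∑ k ∈ s, pair c (y k) := by
  simp only [pair, Finset.sum_apply, Finset.mul_sum, map_sum]
  exact Finset.sum_comm
theorem pair_O {n : ℕ} {c y : ι → A} (hc : Ig n c) (hy : Ig n y) : pair c y ∈ O n :=   sum_mem fun i _ => ((Ig_pi.1 hc i).mul (Ig_pi.1 hy i)).τ
theorem pair_red {n : ℕ} {c y : ι → A} (hc : Ig n c) (hy : Ig n y) :
    pair (red n c) (red n y) = r n (pair c y) := by
  simp only [pair, map_sum, red_pi, ← τ_red, red_mul (Ig_pi.1 hc _) (Ig_pi.1 hy _)]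
theorem pair_red_right {n : ℕ} {c : ι → A} (hc : In n c) (y : ι → A) :
    pair c (red n y) = r n (pair c y) := by
  simp only [pair, map_sum, red_pi, ← τ_red, red_mul_left (In_pi.1 hc _)]
theorem pair_cf_right {n : ℕ} (l : ℕ) {c : ι → A} (hc : In n c) (y : ι → A) :
    pair c (cf n l y) = r n ((t n)⁻¹ ^ l * pair c y) := by rw [cf, pair_red_right hc, pair_smul_right]

end

end alg

end Crest.Agent.R180
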