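import Crest.Agent.R180.DS

/-!
# Row 180, noncommutative polynomials in two variables, derivatives and Taylor estimates
-/

set_option autoImplicit false
set_option linter.unusedSectionVars false

namespace Crest.Agent.R180

open Module Polynomial

/-- points and tangent vectors -/
abbrev V2 : Type := Fin 2 → A

/-- terms -/
inductive NP : Type
  | var (i : Fin 2) : NP
  | const (c : KK) : NP
  | add (a b : NP) : NP
  | mul (a b : NP) : NP

namespace NP

/-- all constants satisfy `p` -/
def cs (p : KK → Prop) : NP → Prop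
  | var _ => True
  | const c => p c
  | add a b => a.cs p ∧ b.cs p
  | mul a b => a.cs p ∧ b.cs p

/-- constants in `K n` -/
def cin (n : ℕ) (u : NP) : Prop := u.cs (· ∈ K n)

noncomputable def eval (X : V2) : NP → A
  | var i => X i
  | const c => algebraMap KK A c
  | add a b => a.eval X + b.eval X
  | mul a b => a.eval X * b.eval X

/-- first derivative -/
noncomputable def d1 (X δ : V2) : NP → A
  | var i => δ i
  | const _ => 0
  | add a b => a.d1 X δ + b.d1 X δ
  | mul a b => a.d1 X δ * b.eval X + a.eval X * b.d1 X δ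

/-- ordered second derivative: `δ` is inserted to the left of `δ'` -/
noncomputable def d2 (X δ δ' : V2) : NP → A
  | var _ => 0
  | const _ => 0
  | add a b => a.d2 X δ δ' + b.d2 X δ δ'
  | mul a b => a.d2 X δ δ' * b.eval X + a.d1 X δ * b.d1 X δ' + a.eval X * b.d2 X δ δ'

noncomputable def pw (a : NP) : ℕ → NP
  | 0 => const 1
  | k + 1 => mul (pw a k) a

noncomputable def polyN (c : ℕ → KK) (a : NP) : ℕ → NP
  | 0 => const 0
  | k + 1 => add (polyN c a k) (mul (const (c k)) (pw a k))

/-- the term `p(a)` -/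
noncomputable def poly {n : ℕ} (p : (F n)[X]) (a : NP) : NP :=
  polyN (fun k => (p.coeff k : KK)) a (p.natDegree + 1)

theorem cs_mono {p q : KK → Prop} (h : ∀ c, p c → q c) {u : NP} (hu : u.cs p) : u.cs q := by
  induction u with
  | var i => trivial
  | const c => exact h c hu
  | add a b iha ihb => exact ⟨iha hu.1, ihb hu.2⟩
  | mul a b iha ihb => exact ⟨iha hu.1, ihb hu.2⟩

theorem cin_mono {n m : ℕ} (h : n ≤ m) {u : NP} (hu : u.cin n) : u.cin m := cs_mono (fun _ hc => K_mono h hc) hu

theorem cin_pw {n : ℕ} {a : NP} (ha : a.cin n) (k : ℕ) : (a.pw k).cin n := by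
  induction k with
  | zero => exact (K n).one_mem
  | succ k ih => exact ⟨ih, ha⟩

theorem cin_poly {n : ℕ} (p : (F n)[X]) {a : NP} (ha : a.cin n) : (poly p a).cin n := by
  unfold poly
  generalize p.natDegree + 1 = k
  induction k with
  | zero => exact (K n).zero_mem
  | succ k ih => exact ⟨ih, (p.coeff k).2, cin_pw ha k⟩


/-! linearity -/
theorem d1_add (X δ δ' : V2) (u : NP) : u.d1 X (δ + δ') = u.d1 X δ + u.d1 X δ' := by
  induction u with
  | var i => rfl
  | const c => simp only [d1, add_zero]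
  | add a b iha ihb => simp only [d1, iha, ihb]; abel
  | mul a b iha ihb => simp only [d1, iha, ihb, add_mul, mul_add]; abel

theorem d1_smul (X : V2) (c : KK) (δ : V2) (u : NP) : u.d1 X (c • δ) = c • u.d1 X δ := by
  induction u with
  | var i => rfl
  | const c => simp only [d1, smul_zero]
  | add a b iha ihb => simp only [d1, iha, ihb, smul_add]
  | mul a b iha ihb => simp only [d1, iha, ihb, smul_add, smul_mul_assoc, mul_smul_comm]

theorem d2_add_left (X δ₁ δ₂ δ' : V2) (u : NP) : u.d2 X (δ₁ + δ₂) δ' = u.d2 X δ₁ δ' + u.d2 X δ₂ δ' := by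
  induction u with
  | var i => simp only [d2, add_zero]
  | const c => simp only [d2, add_zero]
  | add a b iha ihb => simp only [d2, iha, ihb]; abel
  | mul a b iha ihb => simp only [d2, iha, ihb, d1_add, add_mul, mul_add]; abel

theorem d2_add_right (X δ δ₁ δ₂ : V2) (u : NP) : u.d2 X δ (δ₁ + δ₂) = u.d2 X δ δ₁ + u.d2 X δ δ₂ := by
  induction u with
  | var i => simp only [d2, add_zero]
  | const c => simp only [d2, add_zero]
  | add a b iha ihb => simp only [d2, iha, ihb]; abel
  | mul a b iha ihb => simp only [d2, iha, ihb, d1_add, add_mul, mul_add]; abel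

theorem d2_smul_left (X : V2) (c : KK) (δ δ' : V2) (u : NP) : u.d2 X (c • δ) δ' = c • u.d2 X δ δ' := by
  induction u with
  | var i => simp only [d2, smul_zero]
  | const c => simp only [d2, smul_zero]
  | add a b iha ihb => simp only [d2, iha, ihb, smul_add]
  | mul a b iha ihb => simp only [d2, iha, ihb, d1_smul, smul_add, smul_mul_assoc, mul_smul_comm]

theorem d2_smul_right (X : V2) (c : KK) (δ δ' : V2) (u : NP) : u.d2 X δ (c • δ') = c • u.d2 X δ δ' := by
  induction u with
  | var i => simp only [d2, smul_zero]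
  | const c => simp only [d2, smul_zero]
  | add a b iha ihb => simp only [d2, iha, ihb, smul_add]
  | mul a b iha ihb => simp only [d2, iha, ihb, d1_smul, smul_add, smul_mul_assoc, mul_smul_comm]


/-- the first derivative as a linear map -/
noncomputable def d1L (X : V2) (u : NP) : V2 →ₗ[KK] A where
  toFun δ := u.d1 X δ
  map_add' δ δ' := d1_add X δ δ' u
  map_smul' c δ := d1_smul X c δ u

@[simp] theorem d1L_apply (X : V2) (u : NP) (δ : V2) : d1L X u δ = u.d1 X δ := rfl

/-- the second derivative as a bilinear map -/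
noncomputable def d2L (X : V2) (u : NP) : V2 →ₗ[KK] V2 →ₗ[KK] A :=
  LinearMap.mk₂ KK (fun δ δ' => u.d2 X δ δ') (fun _ _ _ => d2_add_left ..) (fun _ _ _ => d2_smul_left ..)
    (fun _ _ _ => d2_add_right ..) (fun _ _ _ => d2_smul_right ..)

@[simp] theorem d2L_apply (X : V2) (u : NP) (δ δ' : V2) : d2L X u δ δ' = u.d2 X δ δ' := rfl

/-! membership -/
theorem eval_mem {n : ℕ} (B : Subalgebra (F n) A) {X : V2} (hX : ∀ i, X i ∈ B) {u : NP} (hu : u.cin n) :
    u.eval X ∈ B := by
  induction u with
  | var i => exact hX i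
  | const c => exact B.algebraMap_mem (⟨c, hu⟩ : F n)
  | add a b iha ihb => exact B.add_mem (iha hu.1) (ihb hu.2)
  | mul a b iha ihb => exact B.mul_mem (iha hu.1) (ihb hu.2)

theorem d1_mem {n : ℕ} (B : Subalgebra (F n) A) {X δ : V2} (hX : ∀ i, X i ∈ B) (hδ : ∀ i, δ i ∈ B) {u : NP}
    (hu : u.cin n) : u.d1 X δ ∈ B := by
  induction u with
  | var i => exact hδ i
  | const c => exact B.zero_mem
  | add a b iha ihb => exact B.add_mem (iha hu.1) (ihb hu.2)
  | mul a b iha ihb =>
    exact B.add_mem (B.mul_mem (iha hu.1) (eval_mem B hX hu.2)) (B.mul_mem (eval_mem B hX hu.1) (ihb hu.2))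

theorem d2_mem {n : ℕ} (B : Subalgebra (F n) A) {X δ δ' : V2} (hX : ∀ i, X i ∈ B) (hδ : ∀ i, δ i ∈ B)
    (hδ' : ∀ i, δ' i ∈ B) {u : NP} (hu : u.cin n) : u.d2 X δ δ' ∈ B := by
  induction u with
  | var i => exact B.zero_mem
  | const c => exact B.zero_mem
  | add a b iha ihb => exact B.add_mem (iha hu.1) (ihb hu.2)
  | mul a b iha ihb =>
    exact B.add_mem (B.add_mem (B.mul_mem (iha hu.1) (eval_mem B hX hu.2))
      (B.mul_mem (d1_mem B hX hδ hu.1) (d1_mem B hX hδ' hu.2))) (B.mul_mem (eval_mem B hX hu.1) (ihb hu.2))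

/-- the algebra generated by the point consists of values of terms -/
theorem exists_eval_of_mem_adjoin {n : ℕ} {X : V2} {y : A} (hy : y ∈ Algebra.adjoin (F n) (Set.range X)) :
    ∃ u : NP, u.cin n ∧ u.eval X = y := by
  induction hy using Algebra.adjoin_induction with
  | mem x hx =>
    obtain ⟨i, rfl⟩ := hx
    exact ⟨var i, trivial, rfl⟩
  | algebraMap c => exact ⟨const c, c.2, rfl⟩
  | add x y _ _ hx hy =>
    obtain ⟨a, ha, rfl⟩ := hx
    obtain ⟨b, hb, rfl⟩ := hy
    exact ⟨add a b, ⟨ha, hb⟩, rfl⟩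
  | mul x y _ _ hx hy =>
    obtain ⟨a, ha, rfl⟩ := hx
    obtain ⟨b, hb, rfl⟩ := hy
    exact ⟨mul a b, ⟨ha, hb⟩, rfl⟩


/-! integrality and reduction -/
theorem eval_ig {n : ℕ} {X : V2} (hX : Ig n X) {u : NP} (hu : u.cin n) : Ig n (u.eval X) := by
  induction u with
  | var i => exact Ig_pi.1 hX i
  | const c => exact (In.algebraMap hu).ig
  | add a b iha ihb => exact (iha hu.1).add (ihb hu.2)
  | mul a b iha ihb => exact (iha hu.1).mul (ihb hu.2)

theorem eval_In {n : ℕ} {X : V2} (hX : In n X) {u : NP} (hu : u.cin n) : In n (u.eval X) := by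
  induction u with
  | var i => exact In_pi.1 hX i
  | const c => exact In.algebraMap hu
  | add a b iha ihb => exact (iha hu.1).add (ihb hu.2)
  | mul a b iha ihb => exact (iha hu.1).mul (ihb hu.2)

theorem red_eval {n : ℕ} {X : V2} (hX : Ig n X) {u : NP} (hu : u.cin n) :
    red n (u.eval X) = u.eval (red n X) := by
  induction u with
  | var i => exact (red_pi n X i).symm
  | const c => exact red_of_In (In.algebraMap hu)
  | add a b iha ihb => simp only [eval, map_add, iha hu.1, ihb hu.2]
  | mul a b iha ihb => simp only [eval, red_mul (eval_ig hX hu.1) (eval_ig hX hu.2), iha hu.1, ihb hu.2]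

theorem d1_od {n l : ℕ} {X δ : V2} (hX : Ig n X) (hδ : Od n l δ) {u : NP} (hu : u.cin n) :
    Od n l (u.d1 X δ) := by
  induction u with
  | var i => exact Od_pi.1 hδ i
  | const c => exact Od.zero n l
  | add a b iha ihb => exact (iha hu.1).add (ihb hu.2)
  | mul a b iha ihb =>
    exact ((iha hu.1).mul_ig (eval_ig hX hu.2)).add (Od.ig_mul (eval_ig hX hu.1) (ihb hu.2))

theorem d1_ig {n : ℕ} {X δ : V2} (hX : Ig n X) (hδ : Ig n δ) {u : NP} (hu : u.cin n) : Ig n (u.d1 X δ) :=
  (d1_od hX (Od_zero_iff.2 hδ) hu).ig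

theorem red_d1 {n : ℕ} {X δ : V2} (hX : Ig n X) (hδ : Ig n δ) {u : NP} (hu : u.cin n) :
    red n (u.d1 X δ) = u.d1 (red n X) (red n δ) := by
  induction u with
  | var i => exact (red_pi n δ i).symm
  | const c => exact map_zero _
  | add a b iha ihb => simp only [d1, map_add, iha hu.1, ihb hu.2]
  | mul a b iha ihb =>
    simp only [d1, map_add, red_mul (d1_ig hX hδ hu.1) (eval_ig hX hu.2),
      red_mul (eval_ig hX hu.1) (d1_ig hX hδ hu.2), iha hu.1, ihb hu.2, red_eval hX hu.1, red_eval hX hu.2]

/-- at a point defined over `K n` no integrality of `δ` is needed -/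
theorem red_d1_In {n : ℕ} {X : V2} (hX : In n X) (δ : V2) {u : NP} (hu : u.cin n) :
    red n (u.d1 X δ) = u.d1 X (red n δ) := by
  induction u with
  | var i => exact (red_pi n δ i).symm
  | const c => exact map_zero _
  | add a b iha ihb => simp only [d1, map_add, iha hu.1, ihb hu.2]
  | mul a b iha ihb =>
    simp only [d1, map_add, red_mul_right _ (eval_In hX hu.2), red_mul_left (eval_In hX hu.1), iha hu.1,
      ihb hu.2]

theorem d2_od {n l l' : ℕ} {X δ δ' : V2} (hX : Ig n X) (hδ : Od n l δ) (hδ' : Od n l' δ') {u : NP}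
    (hu : u.cin n) : Od n (l + l') (u.d2 X δ δ') := by
  induction u with
  | var i => exact Od.zero n _
  | const c => exact Od.zero n _
  | add a b iha ihb => exact (iha hu.1).add (ihb hu.2)
  | mul a b iha ihb =>
    exact (((iha hu.1).mul_ig (eval_ig hX hu.2)).add ((d1_od hX hδ hu.1).mul (d1_od hX hδ' hu.2))).add
      (Od.ig_mul (eval_ig hX hu.1) (ihb hu.2))

theorem d2_ig {n : ℕ} {X δ δ' : V2} (hX : Ig n X) (hδ : Ig n δ) (hδ' : Ig n δ') {u : NP} (hu : u.cin n) :
    Ig n (u.d2 X δ δ') :=
  (d2_od hX (Od_zero_iff.2 hδ) (Od_zero_iff.2 hδ') hu).ig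

theorem red_d2 {n : ℕ} {X δ δ' : V2} (hX : Ig n X) (hδ : Ig n δ) (hδ' : Ig n δ') {u : NP} (hu : u.cin n) :
    red n (u.d2 X δ δ') = u.d2 (red n X) (red n δ) (red n δ') := by
  induction u with
  | var i => exact map_zero _
  | const c => exact map_zero _
  | add a b iha ihb => simp only [d2, map_add, iha hu.1, ihb hu.2]
  | mul a b iha ihb =>
    simp only [d2, map_add, red_mul (d2_ig hX hδ hδ' hu.1) (eval_ig hX hu.2),
      red_mul (eval_ig hX hu.1) (d2_ig hX hδ hδ' hu.2), red_mul (d1_ig hX hδ hu.1) (d1_ig hX hδ' hu.2),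
      iha hu.1, ihb hu.2, red_eval hX hu.1, red_eval hX hu.2, red_d1 hX hδ hu.1, red_d1 hX hδ' hu.2]


/-! Taylor estimates -/
theorem taylor0 {n l : ℕ} {X ε : V2} (hX : Ig n X) (hε : Od n l ε) {u : NP} (hu : u.cin n) :
    Od n l (u.eval (X + ε) - u.eval X) := by
  induction u with
  | var i => simpa only [eval, Pi.add_apply, add_sub_cancel_left] using Od_pi.1 hε i
  | const c => simpa only [eval, sub_self] using Od.zero n l
  | add a b iha ihb =>
    convert (iha hu.1).add (ihb hu.2) using 1
    simp only [eval]; abel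
  | mul a b iha ihb =>
    convert ((iha hu.1).mul_ig (eval_ig (hX.add hε.ig) hu.2)).add
      (Od.ig_mul (eval_ig hX hu.1) (ihb hu.2)) using 1
    simp only [eval]; noncomm_ring

theorem taylor1 {n l : ℕ} {X ε : V2} (hX : Ig n X) (hε : Od n l ε) {u : NP} (hu : u.cin n) :
    Od n (l + l) (u.eval (X + ε) - u.eval X - u.d1 X ε) := by
  induction u with
  | var i => simpa only [eval, d1, Pi.add_apply, add_sub_cancel_left, sub_self] using Od.zero n (l + l)
  | const c => simpa only [eval, d1, sub_self] using Od.zero n (l + l)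
  | add a b iha ihb =>
    convert (iha hu.1).add (ihb hu.2) using 1
    simp only [eval, d1]; abel
  | mul a b iha ihb =>
    convert (((iha hu.1).mul_ig (eval_ig hX hu.2)).add (Od.ig_mul (eval_ig hX hu.1) (ihb hu.2))).add
      ((taylor0 hX hε hu.1).mul (taylor0 hX hε hu.2)) using 1
    simp only [eval, d1]; noncomm_ring

theorem taylor2 {n l : ℕ} {X ε : V2} (hX : Ig n X) (hε : Od n l ε) {u : NP} (hu : u.cin n) :
    Od n (l + l + l) (u.eval (X + ε) - u.eval X - u.d1 X ε - u.d2 X ε ε) := by
  induction u with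
  | var i =>
    simpa only [eval, d1, d2, Pi.add_apply, add_sub_cancel_left, sub_self] using Od.zero n (l + l + l)
  | const c => simpa only [eval, d1, d2, sub_self] using Od.zero n (l + l + l)
  | add a b iha ihb =>
    convert (iha hu.1).add (ihb hu.2) using 1
    simp only [eval, d1, d2]; abel
  | mul a b iha ihb =>
    convert ((((iha hu.1).mul_ig (eval_ig hX hu.2)).add (Od.ig_mul (eval_ig hX hu.1) (ihb hu.2))).add
      ((taylor1 hX hε hu.1).mul (taylor0 hX hε hu.2))).add
      (((d1_od hX hε hu.1).mul (taylor1 hX hε hu.2)).mono (by omega)) using 1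
    simp only [eval, d1, d2]; noncomm_ring

theorem taylor_d1 {n k l : ℕ} {X ε δ : V2} (hX : Ig n X) (hε : Od n k ε) (hδ : Od n l δ) {u : NP}
    (hu : u.cin n) : Od n (k + l) (u.d1 (X + ε) δ - u.d1 X δ) := by
  induction u with
  | var i => simpa only [d1, sub_self] using Od.zero n (k + l)
  | const c => simpa only [d1, sub_self] using Od.zero n (k + l)
  | add a b iha ihb =>
    convert (iha hu.1).add (ihb hu.2) using 1
    simp only [d1]; abel
  | mul a b iha ihb =>
    convert ((((iha hu.1).mul_ig (eval_ig (hX.add hε.ig) hu.2)).add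
      (((d1_od hX hδ hu.1).mul (taylor0 hX hε hu.2)).mono (by omega))).add
      ((taylor0 hX hε hu.1).mul (d1_od (hX.add hε.ig) hδ hu.2))).add
      (Od.ig_mul (eval_ig hX hu.1) (ihb hu.2)) using 1
    simp only [d1]; noncomm_ring

theorem taylor_d1' {n k l : ℕ} {X ε δ : V2} (hX : Ig n X) (hε : Od n k ε) (hδ : Od n l δ) {u : NP}
    (hu : u.cin n) : Od n (k + k + l) (u.d1 (X + ε) δ - u.d1 X δ - u.d2 X ε δ - u.d2 X δ ε) := by
  induction u with
  | var i => simpa only [d1, d2, sub_self] using Od.zero n (k + k + l)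
  | const c => simpa only [d1, d2, sub_self] using Od.zero n (k + k + l)
  | add a b iha ihb =>
    convert (iha hu.1).add (ihb hu.2) using 1
    simp only [d1, d2]; abel
  | mul a b iha ihb =>
    convert ((((((iha hu.1).mul_ig (eval_ig hX hu.2)).add
      (((taylor_d1 hX hε hδ hu.1).mul (taylor0 hX hε hu.2)).mono (by omega))).add
      (((d1_od hX hδ hu.1).mul (taylor1 hX hε hu.2)).mono (by omega))).add
      (Od.ig_mul (eval_ig hX hu.1) (ihb hu.2))).add
      (((taylor0 hX hε hu.1).mul (taylor_d1 hX hε hδ hu.2)).mono (by omega))).add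
      ((taylor1 hX hε hu.1).mul (d1_od hX hδ hu.2)) using 1
    simp only [d1, d2]; noncomm_ring


/-- chain rule for the derivation -/
theorem θV_eval {n : ℕ} (X : V2) {u : NP} (hu : u.cin n) : θV n (u.eval X) = u.d1 X (θV n X) := by
  induction u with
  | var i => exact (θV_pi n X i).symm
  | const c => exact θV_In (In.algebraMap hu)
  | add a b iha ihb => simp only [eval, d1, map_add, iha hu.1, ihb hu.2]
  | mul a b iha ihb => simp only [eval, d1, θV_mul, iha hu.1, ihb hu.2]


/-! tensoring -/
theorem eval_comm {X : V2} {ω : A} (h : ∀ i, ω * X i = X i * ω) (u : NP) : ω * u.eval X = u.eval X * ω := by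
  induction u with
  | var i => exact h i
  | const c => exact (Algebra.commutes c ω).symm
  | add a b iha ihb => simp only [eval, mul_add, add_mul, iha, ihb]
  | mul a b iha ihb => exact Commute.mul_right iha ihb

theorem d1_comm {X δ : V2} {ω : A} (h : ∀ i, ω * X i = X i * ω) (h' : ∀ i, ω * δ i = δ i * ω) (u : NP) :
    ω * u.d1 X δ = u.d1 X δ * ω := by
  induction u with
  | var i => exact h' i
  | const c => simp only [d1, mul_zero, zero_mul]
  | add a b iha ihb => simp only [d1, mul_add, add_mul, iha, ihb]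
  | mul a b iha ihb =>
    exact Commute.add_right (Commute.mul_right iha (eval_comm h b)) (Commute.mul_right (eval_comm h a) ihb)

theorem d1_mul {X : V2} {ω : A} (h : ∀ i, ω * X i = X i * ω) (δ : V2) (u : NP) :
    u.d1 X (ω • δ) = ω * u.d1 X δ := by
  induction u with
  | var i => rfl
  | const c => simp only [d1, mul_zero]
  | add a b iha ihb => simp only [d1, mul_add, iha, ihb]
  | mul a b iha ihb => simp only [d1, mul_add, iha, ihb, ← mul_assoc, eval_comm h a]

theorem d2_mul {X δ : V2} {ω ω' : A} (h : ∀ i, ω * X i = X i * ω) (h' : ∀ i, ω' * X i = X i * ω')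
    (h'' : ∀ i, ω' * δ i = δ i * ω') (δ' : V2) (u : NP) :
    u.d2 X (ω • δ) (ω' • δ') = ω * ω' * u.d2 X δ δ' := by
  induction u with
  | var i => simp only [d2, mul_zero]
  | const c => simp only [d2, mul_zero]
  | add a b iha ihb => simp only [d2, mul_add, iha, ihb]
  | mul a b iha ihb =>
    have h1 : ω * ω' * a.eval X = a.eval X * (ω * ω') :=
      Commute.mul_left (eval_comm h a) (eval_comm h' a)
    have h2 : ω * ω' * a.d1 X δ = ω * a.d1 X δ * ω' := by rw [mul_assoc, d1_comm h' h'' a, mul_assoc]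
    simp only [d2, mul_add, iha, ihb, d1_mul h, d1_mul h', ← mul_assoc, h1, h2]

theorem E_d1 {n : ℕ} {S : Finset ℕ} {X : V2} (hX : X ∈ DV n S (Fin 2)) (δ : V2) {u : NP} (hu : u.cin n) :
    E S (u.d1 X δ) = u.d1 X (EV S δ) := by
  induction u with
  | var i => rfl
  | const c => exact map_zero _
  | add a b iha ihb => simp only [d1, map_add, iha hu.1, ihb hu.2]
  | mul a b iha ihb =>
    simp only [d1, map_add, E_mul_right (eval_mem _ (mem_DV.1 hX) hu.2),
      E_mul_left (eval_mem _ (mem_DV.1 hX) hu.1), iha hu.1, ihb hu.2]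

theorem cmp_d1 {n : ℕ} {S S' : Finset ℕ} {X : V2} (hX : X ∈ DV n S (Fin 2)) {γ : G} (hγ : γ ∈ GF (S' \ S))
    (δ : V2) {u : NP} (hu : u.cin n) : cmp S γ (u.d1 X δ) = u.d1 X (cmpV S γ δ) := by
  induction u with
  | var i => rfl
  | const c => exact map_zero _
  | add a b iha ihb => simp only [d1, map_add, iha hu.1, ihb hu.2]
  | mul a b iha ihb =>
    simp only [d1, map_add, cmp_mul_right γ _ (eval_mem _ (mem_DV.1 hX) hu.2),
      cmp_mul_left hγ (eval_mem _ (mem_DV.1 hX) hu.1), iha hu.1, ihb hu.2]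


end NP

/-! ### polynomials in one element -/

/-- derivative of `x ^ k` in the direction `y` -/
noncomputable def dpow (x y : A) : ℕ → A
  | 0 => 0
  | k + 1 => dpow x y k * x + x ^ k * y

/-- ordered second derivative of `x ^ k` -/
noncomputable def d2pow (x y y' : A) : ℕ → A
  | 0 => 0
  | k + 1 => d2pow x y y' k * x + dpow x y k * y'

/-- derivative of `p` at `x` in the direction `y` -/
noncomputable def dP {n : ℕ} (p : (F n)[X]) (x y : A) : A :=
  ∑ k ∈ Finset.range (p.natDegree + 1), (p.coeff k : KK) • dpow x y k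

noncomputable def d2P {n : ℕ} (p : (F n)[X]) (x y y' : A) : A :=
  ∑ k ∈ Finset.range (p.natDegree + 1), (p.coeff k : KK) • d2pow x y y' k

section
variable {n : ℕ} (p : (F n)[X])

theorem eval_pw (X : V2) (a : NP) (k : ℕ) : (a.pw k).eval X = a.eval X ^ k := by
  induction k with
  | zero => simp only [NP.pw, NP.eval, map_one, pow_zero]
  | succ k ih => simp only [NP.pw, NP.eval, ih, pow_succ]

theorem d1_pw (X δ : V2) (a : NP) (k : ℕ) : (a.pw k).d1 X δ = dpow (a.eval X) (a.d1 X δ) k := by
  induction k with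
  | zero => rfl
  | succ k ih => simp only [NP.pw, NP.d1, ih, dpow, eval_pw]

theorem d2_pw (X δ δ' : V2) (a : NP) (k : ℕ) : (a.pw k).d2 X δ δ' =
    dpow (a.eval X) (a.d2 X δ δ') k + d2pow (a.eval X) (a.d1 X δ) (a.d1 X δ') k := by
  induction k with
  | zero => simp only [NP.pw, NP.d2, dpow, d2pow, add_zero]
  | succ k ih => simp only [NP.pw, NP.d2, ih, dpow, d2pow, eval_pw, d1_pw, add_mul]; abel

theorem aeval_sum (x : A) :
    aeval x p = ∑ k ∈ Finset.range (p.natDegree + 1), (p.coeff k : KK) • x ^ k := aeval_eq_sum_range x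

theorem aeval_derivative_sum (x : A) : aeval x (derivative p) =
    ∑ k ∈ Finset.range (p.natDegree + 1), (p.coeff k : KK) • ((k : KK) • x ^ (k - 1)) := by
  conv_lhs => rw [p.as_sum_range_C_mul_X_pow]
  rw [map_sum, map_sum]
  refine Finset.sum_congr rfl fun k _ => ?_
  rw [derivative_C_mul, derivative_X_pow, map_mul, map_mul, aeval_C, aeval_C, aeval_X_pow, map_natCast,
    Algebra.smul_def, Algebra.smul_def, map_natCast]
  rfl

theorem dpow_add (x y y' : A) (k : ℕ) : dpow x (y + y') k = dpow x y k + dpow x y' k := by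
  induction k with
  | zero => simp only [dpow, add_zero]
  | succ k ih => simp only [dpow, ih, add_mul, mul_add]; abel

theorem dpow_smul (x : A) (c : KK) (y : A) (k : ℕ) : dpow x (c • y) k = c • dpow x y k := by
  induction k with
  | zero => simp only [dpow, smul_zero]
  | succ k ih => simp only [dpow, ih, smul_add, smul_mul_assoc, mul_smul_comm]

theorem dpow_of_comm {x y : A} (h : y * x = x * y) (k : ℕ) : dpow x y k = (k : KK) • (x ^ (k - 1) * y) := by
  induction k with
  | zero => simp only [dpow, Nat.cast_zero, zero_smul]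
  | succ k ih =>
    rw [dpow, ih, Nat.add_sub_cancel, Nat.cast_succ, add_smul, one_smul]
    congr 1
    cases k with
    | zero => simp only [Nat.cast_zero, zero_smul, zero_mul]
    | succ k => rw [Nat.add_sub_cancel, smul_mul_assoc, mul_assoc, h, ← mul_assoc, ← pow_succ]

theorem dpow_ad (x ξ : A) (k : ℕ) : dpow x (ξ * x - x * ξ) k = ξ * x ^ k - x ^ k * ξ := by
  induction k with
  | zero => simp only [dpow, pow_zero, mul_one, one_mul, sub_self]
  | succ k ih => rw [dpow, ih, pow_succ]; noncomm_ring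

theorem dpow_comm (x y : A) (k : ℕ) : x * dpow x y k - dpow x y k * x = x ^ k * y - y * x ^ k := by
  induction k with
  | zero => simp only [dpow, pow_zero, mul_one, one_mul, sub_self, mul_zero, zero_mul]
  | succ k ih =>
    have h : x * dpow x y (k + 1) - dpow x y (k + 1) * x =
        (x * dpow x y k - dpow x y k * x) * x + (x * x ^ k) * y - x ^ k * y * x := by
      rw [dpow]; noncomm_ring
    rw [h, ih, ← pow_succ', pow_succ]
    noncomm_ring

theorem d2pow_ad (x y ξ : A) (k : ℕ) :
    d2pow x y (ξ * x - x * ξ) k = dpow x (y * ξ) k - dpow x y k * ξ := by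
  induction k with
  | zero => simp only [dpow, d2pow, zero_mul, sub_self]
  | succ k ih => rw [d2pow, ih, dpow, dpow]; noncomm_ring

theorem eval_poly (X : V2) (a : NP) : (NP.poly p a).eval X = aeval (a.eval X) p := by
  rw [aeval_sum, NP.poly]
  generalize p.natDegree + 1 = k
  induction k with
  | zero => simp only [NP.polyN, NP.eval, map_zero, Finset.sum_range_zero]
  | succ k ih => simp only [NP.polyN, NP.eval, ih, Finset.sum_range_succ, eval_pw, Algebra.smul_def]

theorem d1_poly (X δ : V2) (a : NP) : (NP.poly p a).d1 X δ = dP p (a.eval X) (a.d1 X δ) := by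
  rw [dP, NP.poly]
  generalize p.natDegree + 1 = k
  induction k with
  | zero => rfl
  | succ k ih =>
    simp only [NP.polyN, NP.eval, NP.d1, ih, Finset.sum_range_succ, d1_pw, Algebra.smul_def, zero_mul,
      zero_add]

theorem d2_poly (X δ δ' : V2) (a : NP) : (NP.poly p a).d2 X δ δ' =
    dP p (a.eval X) (a.d2 X δ δ') + d2P p (a.eval X) (a.d1 X δ) (a.d1 X δ') := by
  rw [dP, d2P, NP.poly]
  generalize p.natDegree + 1 = k
  induction k with
  | zero => simp only [NP.polyN, NP.d2, Finset.sum_range_zero, add_zero]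
  | succ k ih =>
    simp only [NP.polyN, NP.eval, NP.d1, NP.d2, ih, Finset.sum_range_succ, d2_pw, Algebra.smul_def, zero_mul,
      zero_add, mul_add]
    abel


theorem τ_dpow {c x : A} (h : c * x = x * c) (y : A) (k : ℕ) :
    τ (c * dpow x y (k + 1)) = (k + 1 : KK) * τ (c * x ^ k * y) := by
  induction k generalizing c with
  | zero => simp only [dpow, zero_mul, zero_add, Nat.cast_zero, one_mul, mul_assoc]
  | succ k ih =>
    have h1 : c * x * x = x * (c * x) := by rw [← mul_assoc, ← h]
    rw [dpow, mul_add, map_add, ← mul_assoc, τ_comm, ← mul_assoc, ← h, ih h1, mul_assoc c x, ← pow_succ',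
      ← mul_assoc c]
    push_cast
    ring

theorem τ_dP {c x : A} (h : c * x = x * c) (y : A) :
    τ (c * dP p x y) = τ (c * aeval x (derivative p) * y) := by
  rw [aeval_derivative_sum, dP, Finset.mul_sum, Finset.mul_sum, Finset.sum_mul, map_sum, map_sum]
  refine Finset.sum_congr rfl fun k _ => ?_
  rw [mul_smul_comm, mul_smul_comm, smul_mul_assoc, map_smul, map_smul]
  congr 1
  cases k with
  | zero => simp only [dpow, Nat.cast_zero, zero_smul, mul_zero, zero_mul]
  | succ k =>
    rw [τ_dpow h, mul_smul_comm, smul_mul_assoc, map_smul, smul_eq_mul, Nat.add_sub_cancel, Nat.cast_succ]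

theorem dP_add (x y y' : A) : dP p x (y + y') = dP p x y + dP p x y' := by
  simp only [dP, dpow_add, smul_add, Finset.sum_add_distrib]

theorem dP_smul (x : A) (c : KK) (y : A) : dP p x (c • y) = c • dP p x y := by
  simp only [dP, dpow_smul, Finset.smul_sum, smul_comm c]

theorem dP_of_comm {x y : A} (h : y * x = x * y) : dP p x y = aeval x (derivative p) * y := by
  simp only [aeval_derivative_sum, dP, Finset.sum_mul, dpow_of_comm h, smul_mul_assoc]

theorem dP_ad (x ξ : A) : dP p x (ξ * x - x * ξ) = ξ * aeval x p - aeval x p * ξ := by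
  simp only [aeval_sum, dP, dpow_ad, Finset.sum_mul, Finset.mul_sum, smul_sub, Finset.sum_sub_distrib,
    smul_mul_assoc, mul_smul_comm]

/-- derivative of `x p(x) = p(x) x` -/
theorem dP_comm (x y : A) : x * dP p x y - dP p x y * x = aeval x p * y - y * aeval x p := by
  simp only [aeval_sum, dP, Finset.sum_mul, Finset.mul_sum, ← Finset.sum_sub_distrib, smul_mul_assoc,
    mul_smul_comm, ← smul_sub, dpow_comm]

theorem d2P_ad (x y ξ : A) : d2P p x y (ξ * x - x * ξ) = dP p x (y * ξ) - dP p x y * ξ := by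
  simp only [d2P, dP, d2pow_ad, Finset.sum_mul, smul_sub, Finset.sum_sub_distrib, smul_mul_assoc]


end

end Crest.Agent.R180
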