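import Crest.Agent.R180.Sp

/-!
# Row 180, the new equation holds at all points reachable in the new system
-/

set_option autoImplicit false
set_option linter.unusedSectionVars false

namespace Crest.Agent.R180

open Module Polynomial

section aux
variable {V : Type} [AddCommGroup V] [Module KK V] [HB V]

theorem ng_lead {n k : ℕ} {x y : V} (hy : In n y) (h : Od n (k + 1) (x - t n ^ k • y)) :
    Od n k x ∧ cf n k x = y := by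
  have e : x = (x - t n ^ k • y) + t n ^ k • y := (sub_add_cancel _ _).symm
  refine ⟨e ▸ (h.mono (Nat.le_succ k)).add (hy.ig.tpow k), ?_⟩
  rw [e, cf_add, h.cf_eq_zero, cf_tpow_In k hy, zero_add]

theorem ng_down {n m k : ℕ} (h : n ≤ m) {x : V} (hx : Od m k x) {c : KK} (hc : c ∈ K m)
    (hi : Ig n (c • cf m k x)) :
    Ig n ((c * (t m)⁻¹ ^ k) • x) ∧ red n ((c * (t m)⁻¹ ^ k) • x) = red n (c • cf m k x) := by
  have e : red m ((c * (t m)⁻¹ ^ k) • x) = c • cf m k x := by rw [mul_smul, red_smul_left hc]; rfl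
  refine ⟨(Ig_comp h _).mpr ⟨?_, e ▸ hi⟩, by rw [← red_red h, e]⟩
  rw [mul_smul]
  exact Ig.smul (K_le_O hc) hx

end aux

theorem ng_cf_d1 {n k : ℕ} {X ε : V2} (hX : Ig n X) (hε : Od n k ε) {u : NP} (hu : u.cin n) :
    cf n k (u.d1 X ε) = u.d1 (red n X) (cf n k ε) := by
  rw [cf, ← NP.d1_smul, NP.red_d1 hX hε hu]
  rfl

theorem ng_cf_comm {n k : ℕ} {x y : A} (hx : Ig n x) (hy : Od n k y) (h : Od n (k + 1) (x * y - y * x)) :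
    red n x * cf n k y = cf n k y * red n x := by
  have h1 := cf_mul (Od_zero_iff.mpr hx) hy
  have h2 := cf_mul hy (Od_zero_iff.mpr hx)
  have h3 := h.cf_eq_zero
  rw [zero_add, cf_zero_eq] at h1
  rw [add_zero, cf_zero_eq] at h2
  rw [cf_sub, h1, h2] at h3
  exact sub_eq_zero.mp h3

theorem ng_red_cen {n m : ℕ} {S : Finset ℕ} {x y : A} (hx : Ig n x) (hy : y ∈ Cen m S {x}) (hi : Ig n y) :
    red n y ∈ Cen n S {red n x} := by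
  rw [mem_Cen] at hy ⊢
  refine ⟨red_mem_D n hy.1, ?_⟩
  rintro _ rfl
  rw [← red_mul hx hi, ← red_mul hi hx, hy.2 x rfl]

theorem ng_τ_E {n : ℕ} {S : Finset ℕ} {c : A} (hc : c ∈ D n S) (y : A) : τ (c * y) = τ (c * E S y) := by
  rw [← E_mul_left hc, τ_E]

theorem ng_inv_comm {x y : A} (h : x * y = y * x) : x * y⁻¹ = y⁻¹ * x := (Commute.inv_right₀ h).eq

namespace Sys

variable {𝔖 : Sys} {a : NP} {P P₁ : Pt} {ρ : ℕ}

/-- `B` is self-centralising in `D n S` -/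
def MaxC (n : ℕ) (S : Finset ℕ) (B : A) : Prop := B ∈ D n S ∧ ∀ y ∈ D n S, y * B = B * y → y ∈ Lf n B

/-- for every self-centralising `B` there is an endpoint with leading term `p'(a) w B` whose `DG` covers `R` -/
def Covered (𝔖 : Sys) (a : NP) (P : Pt) (w : A) (S'' : Finset ℕ) (R : Submodule (F P.n) A) : Prop :=
  ∀ B, MaxC P.n (S'' \ P.S) B → ∃ P'', 𝔖.Reach P P'' ∧ P''.S = S'' ∧
    (∃ c ∈ K P''.n, Ig P.n (c • (gg a P).eval P''.X) ∧ red P.n (c • (gg a P).eval P''.X) = dp a P * w * B) ∧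
    dp a P * w * B ∈ Red P.n (𝔖.DG (gg a P) P'') ∧ R ≤ Red P.n (𝔖.DG (gg a P) P'')

theorem Base.u_mem (h : 𝔖.Base a P ρ) {w : A} (hw : w ∈ 𝔖.WW a P) : dp a P * w ∈ LL a P :=
  mul_mem dp_mem (WW_le_LL h.st h.cin h.ming hw)

theorem u_mem_D (hP : 𝔖.POk P) (ha : a.cin P.n) {w : A} (hw : w ∈ 𝔖.WW a P) :
    (dp a P * w)⁻¹ ∈ D P.n P.S :=
  inv_mem_alg _ (Cen_le _ _ _ (dpw_mem_CC hP ha hw))

theorem Base.epc_of_cov (h : 𝔖.Base a P ρ) {w : A} (hw : w ∈ 𝔖.WW a P) (w0 : w ≠ 0) {S'' : Finset ℕ}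
    (hS : P.S ⊆ S'') {R : Submodule (F P.n) A} (H : 𝔖.Covered a P w S'' R) {B : A}
    (hB : MaxC P.n (S'' \ P.S) B) : ∃ P'' m, 𝔖.Reach P P'' ∧ P''.S = S'' ∧ 𝔖.EPC a P w B m P'' ∧
      R ≤ Red P.n (𝔖.DG (gg a P) P'') := by
  obtain ⟨P'', hr, rfl, h1, h2, h3⟩ := H B hB
  exact ⟨P'', _, hr, rfl, h.ep hw w0 hr (eta_B hS (eval_mem_D h.st.ok h.cin) hB.1 hB.2) h1 h2, h3⟩

theorem mem_ext_L0 {S'' : Finset ℕ} (hS : P.S ⊆ S'') {B : A} (hB : B ∈ D P.n (S'' \ P.S)) :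
    B ∈ ext P.S S'' (Subalgebra.toSubmodule (𝔖.L0 a P)) := by
  simpa using mul_mem_ext hS hB (mem_ext_of_mem (U := Subalgebra.toSubmodule (𝔖.L0 a P)) hS
    (fun _ hy => L0_le_D hy) (one_mem (𝔖.L0 a P)))

/-- For `γ`, take `B` with `(z γ)⁻¹ ∈ F[B]` (`exists_max_comm`); `mem_of_perp` in `CC` for the component of
`(p'(a) w)⁻¹ ρ`, using `EPC.c2` with `c (p'(a) w)⁻¹ (z γ)⁻¹`. -/
theorem Base.kl_mem (h : 𝔖.Base a P ρ) {w : A} (hw : w ∈ 𝔖.WW a P) (w0 : w ≠ 0) {S'' : Finset ℕ}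
    (hS : P.S ⊆ S'') {R : Submodule (F P.n) A} (hR : ∀ y ∈ R, y ∈ Cen P.n S'' {a.eval P.X})
    (H : 𝔖.Covered a P w S'' R) {y : A} (hy : y ∈ R) :
    (dp a P * w)⁻¹ * y ∈ ext P.S S'' (Subalgebra.toSubmodule (𝔖.L0 a P)) := by
  have ha := eval_mem_D h.st.ok h.cin
  have hu := u_mem_D h.st.ok h.cin hw
  have hua : a.eval P.X * (dp a P * w)⁻¹ = (dp a P * w)⁻¹ * a.eval P.X :=
    ng_inv_comm (Lf_comm (h.u_mem hw) rfl).symm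
  have u0 : dp a P * w ≠ 0 := mul_ne_zero (dp_ne h.st.ok h.cin) w0
  obtain ⟨hyD, hya⟩ := mem_Cen.mp (hR y hy)
  have hD : (dp a P * w)⁻¹ * y ∈ D P.n S'' := mul_mem (D_mono le_rfl hS hu) hyD
  refine ⟨hD, fun γ hγ => mem_of_perp (CC a P) (Cen_le _ _ _) _ (fun _ hl => L0_le_CC hl) ?_ ?_⟩
  · refine mem_Cen.mpr ⟨cmp_mem _ _ (D_In hD), ?_⟩
    rintro _ rfl
    rw [← cmp_mul_left hγ ha, ← cmp_mul_right γ _ ha, ← mul_assoc, hua, mul_assoc, hya _ rfl, mul_assoc]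
  · intro c hc hc0
    obtain ⟨hcD, hca⟩ := mem_Cen.mp hc
    have hz := z_inv_mem_D P.n hγ
    obtain ⟨B, hB, hzB, hmax⟩ := exists_max_comm hz
    obtain ⟨P'', m, -, hS'', he, hle⟩ := h.epc_of_cov hw w0 hS H ⟨hB, hmax⟩
    obtain ⟨l, hl, hτ⟩ := he.c2 y (hle hy)
    have hd : Disjoint P.S (S'' \ P.S) := Finset.disjoint_sdiff
    have h1 := hτ (c * (z γ)⁻¹ * (dp a P * w)⁻¹) (by
      rw [hS'']
      refine mem_Cen.mpr ⟨mul_mem (mul_mem (D_mono le_rfl hS hcD)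
        (D_mono le_rfl Finset.sdiff_subset hz)) (D_mono le_rfl hS hu), ?_⟩
      rintro _ (rfl | rfl)
      · exact ((Commute.mul_right (hca _ rfl) (D_comm hd ha hz)).mul_right hua).eq
      · exact ((Commute.mul_right (D_comm hd hcD hB).symm (Lf_comm hzB rfl).symm).mul_right
          (D_comm hd hu hB).symm).eq)
    rw [cmp_apply, ← ng_τ_E hcD, ← mul_assoc, ← mul_assoc, h1, mul_assoc (c * _), inv_mul_cancel_left₀ u0,
      mul_assoc, ng_τ_E hcD]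
    exact hc0 _ ((L0e_le_ext hS (mem_ext_L0 hS hB) hl).2 γ hγ)

theorem Base.kl_ann (h : 𝔖.Base a P ρ) (hE : 𝔖.MinE a P) {w : A} (hw : w ∈ 𝔖.WW a P) (w0 : w ≠ 0)
    {S'' : Finset ℕ} (hS : P.S ⊆ S'') {R : Submodule (F P.n) A} (H : 𝔖.Covered a P w S'' R) {B : A}
    (hB : MaxC P.n (S'' \ P.S) B) : ∃ M : Submodule (F P.n) A,
      M ≤ Ann (ext P.S S'' (Subalgebra.toSubmodule (𝔖.L0 a P))) (dp a P * w)⁻¹ R ∧
      𝔖.ee a P ≤ finrank (F P.n) M ∧ ∀ μ ∈ M, μ ∈ 𝔖.L0e a P B := by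
  obtain ⟨P'', m, hr, -, he, hle⟩ := h.epc_of_cov hw w0 hS H hB
  refine ⟨_, ?_, (he.ee_ge hE hr).trans he.c3, fun μ hμ => hμ.1⟩
  exact fun μ hμ => ⟨L0e_le_ext hS (mem_ext_L0 hS hB.1) hμ.1, fun y hy => hμ.2 y (hle hy)⟩

theorem Base.kl_eq (h : 𝔖.Base a P ρ) {w : A} (hw : w ∈ 𝔖.WW a P) (w0 : w ≠ 0)
    {S'' : Finset ℕ} (hS : P.S ⊆ S'') {R : Submodule (F P.n) A}
    (hR : ∀ y ∈ R, y ∈ Cen P.n S'' {a.eval P.X}) (H : 𝔖.Covered a P w S'' R) :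
    finrank (F P.n) (Ann (ext P.S S'' (Subalgebra.toSubmodule (𝔖.L0 a P))) (dp a P * w)⁻¹ R) +
      finrank (F P.n) R = 𝔖.n0 a P * ν (S'' \ P.S) :=
  (finrank_Ann (S := S'') (extA hS (𝔖.L0 a P) L0_le_D) (fun _ hy => hy.1)
    (inv_ne_zero (mul_ne_zero (dp_ne h.st.ok h.cin) w0)) R fun _ hy => h.kl_mem hw w0 hS hR H hy).trans
    (finrank_ext hS fun _ hy => L0_le_D hy)

/-- `finrank_Ann` in `L0 ⊗ Δ`; the annihilator contains the one in `EPC.c3` -/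
theorem Base.kl_rank (h : 𝔖.Base a P ρ) (hE : 𝔖.MinE a P) {w : A} (hw : w ∈ 𝔖.WW a P) (w0 : w ≠ 0)
    {S'' : Finset ℕ} (hS : P.S ⊆ S'') {R : Submodule (F P.n) A}
    (hR : ∀ y ∈ R, y ∈ Cen P.n S'' {a.eval P.X}) (H : 𝔖.Covered a P w S'' R) :
    finrank (F P.n) R + 𝔖.ee a P ≤ 𝔖.n0 a P * ν (S'' \ P.S) := by
  obtain ⟨B, hB, -, hmax⟩ := exists_max_comm (one_mem (D P.n (S'' \ P.S)))
  obtain ⟨M, h1, h2, -⟩ := h.kl_ann hE hw w0 hS H ⟨hB, hmax⟩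
  have h3 := Submodule.finrank_mono h1
  have h4 := h.kl_eq hw w0 hS hR H
  omega

/-- In the case of equality the annihilator lies in every `L0[B]`, so commutes with every `z γ`, so lies in `L0`
(`mem_D_of_comm`), and by dimension it is `Ann L0 (p'(a) w)⁻¹ DG`. -/
theorem Base.kl_perp (h : 𝔖.Base a P ρ) (hE : 𝔖.MinE a P) {w : A} (hw : w ∈ 𝔖.WW a P) (w0 : w ≠ 0)
    {S'' : Finset ℕ} (hS : P.S ⊆ S'') {R : Submodule (F P.n) A}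
    (hR : ∀ y ∈ R, y ∈ Cen P.n S'' {a.eval P.X}) (H : 𝔖.Covered a P w S'' R)
    (h1 : 𝔖.n0 a P * ν (S'' \ P.S) ≤ finrank (F P.n) R + 𝔖.ee a P) (h2 : 𝔖.DG (gg a P) P ≤ R)
    {c : A} (hc : c ∈ 𝔖.Pa a P w) {y : A} (hy : y ∈ R) : τ (c * y) = 0 := by
  have h4 := h.kl_eq hw w0 hS hR H
  have ha := eval_mem_D h.st.ok h.cin
  have hN : Ann (ext P.S S'' (Subalgebra.toSubmodule (𝔖.L0 a P))) (dp a P * w)⁻¹ R ≤
      Ann (Subalgebra.toSubmodule (𝔖.L0 a P)) (dp a P * w)⁻¹ (𝔖.DG (gg a P) P) := by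
    intro μ hμ
    refine ⟨?_, fun y hy => hμ.2 y (h2 hy)⟩
    have hD : μ ∈ D P.n P.S := mem_D_of_comm hS hμ.1.1 fun γ hγ => by
      obtain ⟨B, hB, hzB, hmax⟩ := exists_max_comm (z_mem_D P.n hγ)
      obtain ⟨M, h5, h6, h7⟩ := h.kl_ann hE hw w0 hS H ⟨hB, hmax⟩
      have h8 := Submodule.eq_of_le_of_finrank_le h5 (by omega)
      exact (L0e_comm h.st h.cin h.ming (h7 μ (h8 ▸ hμ))
        (D_comm Finset.disjoint_sdiff ha (z_mem_D P.n hγ)) (Lf_comm hzB rfl).symm).symm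
    have := E_mem_of_ext hμ.1
    rwa [E_of_mem hD] at this
  have h5 := finrank_Ann (𝔖.L0 a P) L0_le_D (inv_ne_zero (mul_ne_zero (dp_ne h.st.ok h.cin) w0))
    (𝔖.DG (gg a P) P) fun _ hy => DG_inv_mem_L0 h.st h.cin h.ming hw hy
  have h6 := h.kl_rank hE hw w0 hS hR H
  rw [finrank_DG_gg h.st.ok h.cin] at h5
  have : FiniteDimensional (F P.n) (Subalgebra.toSubmodule (𝔖.L0 a P)) := L0_fd
  have h7 := Submodule.eq_of_le_of_finrank_le hN (by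
    have : 𝔖.ee a P = finrank (F P.n) (𝔖.L0 a P) - finrank (F P.n) (𝔖.WW a P) := rfl
    omega)
  obtain ⟨⟨l, hl, rfl⟩, hc⟩ := mem_Pa.mp hc
  have h8 : l ∈ Ann (Subalgebra.toSubmodule (𝔖.L0 a P)) (dp a P * w)⁻¹ (𝔖.DG (gg a P) P) := ⟨hl, hc⟩
  rw [← h7] at h8
  exact h8.2 y hy

/-- the induction hypothesis along the new system -/
structure Inv (d : 𝔖.NewData a P) (P₁ : Pt) : Prop where
  lt : P.n + 1 ≤ P₁.n
  reach : 𝔖.Reach P P₁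
  reg : (𝔖.cons d.block).Reg P₁.n P₁.S P₁.X
  zero : (gg a P).eval P₁.X = 0
  ext_le : ext P.S P₁.S (𝔖.DG (gg a P) P) ≤ Red P.n (𝔖.DG (gg a P) P₁)

variable {d : 𝔖.NewData a P}

theorem Inv.pok' (hI : Inv d P₁) : 𝔖.POk P₁ := hI.reach.pok d.pok

theorem Inv.pext (hI : Inv d P₁) : P.Ext P₁ := hI.reach.ext d.pok

theorem Inv.gcin (hI : Inv d P₁) : (gg a P).cin P₁.n := NP.cin_mono hI.pext.le (gg_cin d.cin)

theorem Inv.dgD (hI : Inv d P₁) : ∀ y ∈ 𝔖.DG (gg a P) P₁, y ∈ D P₁.n P₁.S :=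
  fun _ hy => DG_mem_D hI.pok' hI.gcin hy

theorem Inv.red_a (hI : Inv d P₁) : Ig P.n (a.eval P₁.X) ∧ red P.n (a.eval P₁.X) = a.eval P.X :=
  ⟨NP.eval_ig hI.pext.ig d.cin, by rw [NP.red_eval hI.pext.ig d.cin, hI.pext.red_eq]⟩

theorem Move.red_mem (hP : 𝔖.POk P) {S' : Finset ℕ} {X' : V2} (hm : 𝔖.Move P S' X') {g : NP}
    (hg : g.cin P.n) {u : V2} (hu : u ∈ 𝔖.Tan (P.n + 1) S' X') (hi : Ig P.n u) :
    g.d1 P.X (red P.n u) ∈ Red P.n (𝔖.DG g ⟨P.n + 1, S', X'⟩) := by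
  rw [← hm.red_eq hP, ← NP.red_d1 (hm.ig hP) hi hg]
  exact red_mem_Red (U := 𝔖.DG g ⟨P.n + 1, S', X'⟩) ⟨u, hu, rfl⟩ (NP.d1_ig (hm.ig hP) hi hg)

theorem St.DG_le_Red (h : 𝔖.St P ρ) {S' : Finset ℕ} {X' : V2} (hm : 𝔖.Move P S' X') {g : NP}
    (hg : g.cin P.n) : 𝔖.DG g P ≤ Red P.n (𝔖.DG g ⟨P.n + 1, S', X'⟩) := by
  rintro _ ⟨δ, hδ, rfl⟩
  obtain ⟨u, hu, hi, rfl⟩ := h.lift_move hm hδ
  exact hm.red_mem h.ok hg hu hi

theorem Inv.lead1 (hI : Inv d P₁) {S₂ : Finset ℕ} {X' : V2} (hm : 𝔖.Move P₁ S₂ X') :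
    Od P₁.n 2 ((gg a P).eval X' - t P₁.n ^ 1 • (gg a P).d1 P₁.X (cf P₁.n 1 (X' - P₁.X))) := by
  have := eval_expand1 hI.gcin (DV_In hI.pok'.2) (cf_In _ _ _) (hm.od2 hI.pok')
  rwa [hI.zero, sub_zero, ← pow_one (t P₁.n)] at this

theorem Inv.lead1' (hI : Inv d P₁) {S₂ : Finset ℕ} {X' : V2} (hm : 𝔖.Move P₁ S₂ X') :
    Od P₁.n 1 ((gg a P).eval X') ∧
      cf P₁.n 1 ((gg a P).eval X') = (gg a P).d1 P₁.X (cf P₁.n 1 (X' - P₁.X)) :=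
  ng_lead (D_In (NP.d1_mem (D P₁.n S₂) (mem_DV.mp (DV_mono le_rfl hm.sub hI.pok'.2))
    (mem_DV.mp (hm.vel_mem hI.pok')) hI.gcin)) (hI.lead1 hm)

theorem Inv.pok (hI : Inv d P₁) : (𝔖.cons d.block).POk P₁ :=
  ⟨cons_ok.mpr ⟨⟨hI.pext.le, hI.pext.sub⟩, hI.pok'.1⟩, hI.pok'.2⟩

/-- `p'(a) w B ∈ DG ⊗ Δ` -/
theorem NewData.wB_mem (d : 𝔖.NewData a P) {S'' : Finset ℕ} (hS : P.S ⊆ S'') {B : A}
    (hB : B ∈ D P.n (S'' \ P.S)) : dp a P * d.w * B ∈ ext P.S S'' (𝔖.DG (gg a P) P) := by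
  have h1 : dp a P * d.w ∈ 𝔖.DG (gg a P) P := (mem_DG_gg d.pok d.cin).mpr ⟨_, d.hw, rfl⟩
  have hD : ∀ y ∈ 𝔖.DG (gg a P) P, y ∈ D P.n P.S := fun _ hy => DG_mem_D d.pok (gg_cin d.cin) hy
  rw [D_comm Finset.disjoint_sdiff (hD _ h1) hB]
  exact mul_mem_ext hS hB (mem_ext_of_mem hS hD h1)

/-- elements of `DG ⊗ Δ₁ ⊗ Δ₂` lift to `DG₁ ⊗ Δ₂` (`ext_ext`, lift the components) -/
theorem Inv.lift_ext (hI : Inv d P₁) {S₂ : Finset ℕ} (hS : P₁.S ⊆ S₂) {y : A}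
    (hy : y ∈ ext P.S S₂ (𝔖.DG (gg a P) P)) :
    ∃ y₁ ∈ ext P₁.S S₂ (𝔖.DG (gg a P) P₁), Ig P.n y₁ ∧ red P.n y₁ = y := by
  rw [← ext_ext hI.pext.sub hS] at hy
  choose! Y hY using fun γ hγ => (mem_Red hI.pext.le).mp (hI.ext_le (hy.2 γ hγ))
  refine ⟨∑ γ ∈ GF (S₂ \ P₁.S), z γ * Y γ,
    Submodule.sum_mem _ fun γ hγ => z_mul_mem_ext hS hI.dgD hγ (hY γ hγ).1,
    Ig.sum _ _ fun γ hγ => (In.z _ γ).ig.mul (hY γ hγ).2.1, ?_⟩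
  rw [map_sum, ← sum_cmp hS hy.1]
  exact Finset.sum_congr rfl fun γ hγ => by rw [red_mul_left (In.z _ γ), (hY γ hγ).2.2]

/-- `triv_move` from `P₁` along `δ` with `red (dg δ) = p'(a) w B`; `St.lift_move` -/
theorem Inv.covered (h : 𝔖.Base a P ρ) (hI : Inv d P₁) :
    𝔖.Covered a P d.w P₁.S (Red P.n (𝔖.DG (gg a P) P₁)) := by
  intro B hB
  have h₁ := h.st.reach hI.reach
  have huB := hI.ext_le (d.wB_mem hI.pext.sub hB.1)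
  obtain ⟨_, ⟨δ, hδ, rfl⟩, hi, hr⟩ := (mem_Red hI.pext.le).mp huB
  obtain ⟨X', hm, hv, -⟩ := triv_move h₁.ok h₁.good.ev h₁.reg hδ
  have hle : Red P.n (𝔖.DG (gg a P) P₁) ≤ Red P.n (𝔖.DG (gg a P) ⟨P₁.n + 1, P₁.S, X'⟩) :=
    (Red_mono _ (h₁.DG_le_Red hm hI.gcin)).trans (Red_Red hI.pext.le (Nat.le_succ _) _).le
  obtain ⟨h1, h2⟩ := hI.lead1' hm
  rw [hv] at h2
  have h3 := ng_down hI.pext.le h1 (one_mem (K P₁.n)) (by rw [one_smul, h2]; exact hi)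
  rw [one_smul, h2, one_mul] at h3
  exact ⟨⟨P₁.n + 1, P₁.S, X'⟩, hI.reach.trans hm.reach, rfl, ⟨_, tinv_mem _ _, h3.1, h3.2.trans hr⟩,
    hle huB, hle⟩

/-- `dg δ` commutes with `a₁` since `p(a₁) = 0` (`dP_comm`) -/
theorem Inv.cen (hI : Inv d P₁) {y : A} (hy : y ∈ Red P.n (𝔖.DG (gg a P) P₁)) :
    y ∈ Cen P.n P₁.S {a.eval P.X} := by
  obtain ⟨y₁, hy₁, hi, rfl⟩ := (mem_Red hI.pext.le).mp hy
  rw [← hI.red_a.2]
  refine ng_red_cen hI.red_a.1 (mem_Cen.mpr ⟨hI.dgD _ hy₁, ?_⟩) hi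
  rintro _ rfl
  obtain ⟨δ, -, rfl⟩ := mem_DG.mp hy₁
  have h1 := dP_comm (pp a P) (a.eval P₁.X) (a.d1 P₁.X δ)
  have h2 : aeval (a.eval P₁.X) (pp a P) = 0 := (eval_poly _ _ _).symm.trans hI.zero
  rw [h2, zero_mul, mul_zero, sub_zero, sub_eq_zero, ← d1_poly] at h1
  exact h1

theorem In_cons {n N : ℕ} {y : A} (hy : In n y) : In n (Fin.cons y 0 : Fin (N + 1) → A) :=
  In_pi.mpr fun i => Fin.cases hy (fun _ => In.zero n) i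

theorem cons_sub_cons {N : ℕ} (x y : A) (u : Fin N → A) :
    (Fin.cons x u : Fin (N + 1) → A) - Fin.cons y 0 = Fin.cons (x - y) u :=
  funext fun i => Fin.cases rfl (fun _ => sub_zero _) i

theorem cons_add_cons {N : ℕ} (x y : A) (u v : Fin N → A) :
    (Fin.cons x u : Fin (N + 1) → A) + Fin.cons y v = Fin.cons (x + y) (u + v) :=
  funext fun i => Fin.cases rfl (fun _ => rfl) i

/-- `Reg.primal` for the new system with right side `Fin.cons y 0`, and `finrank_le_of_nondeg` -/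
theorem Inv.finrank_le (hI : Inv d P₁) :
    finrank (F P₁.n) (d.block.sA P₁.n P₁.S) ≤ finrank (F P₁.n) (𝔖.DG (gg a P) P₁) := by
  refine (finrank_le_of_nondeg _ _ (fun c hc => Block.sT_D (Block.sA_le hc)) hI.dgD fun c hc h0 => ?_).1
  refine eq_zero_of_τ (D P₁.n P₁.S) (Block.sT_D (Block.sA_le hc)) fun y hy => ?_
  obtain ⟨w', hw', hp⟩ := Reg.primal hI.pok.1 hI.pok.2 hI.reg (In_cons (N := 𝔖.N) (D_In hy))
  rw [cons_df] at hp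
  obtain ⟨h1, h2⟩ := cons_perp.mp ((cons_sub_cons _ _ _) ▸ hp)
  have h3 := h1 c hc
  have h4 : τ (c * d.block.f.d1 P₁.X w') = 0 := h0 _ ⟨w', ⟨hw', h2⟩, rfl⟩
  rw [mul_sub, map_sub, h4, zero_sub, neg_eq_zero] at h3
  rw [τ_comm, h3]

theorem Inv.plus (h : 𝔖.Base a P ρ) (hE : 𝔖.MinE a P) (hI : Inv d P₁) {y : A}
    (hy : y ∈ Red P.n (𝔖.DG (gg a P) P₁)) :
    (dp a P * d.w)⁻¹ * y ∈ ext P.S P₁.S (Subalgebra.toSubmodule (𝔖.L0 a P)) ∧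
      ∀ c ∈ 𝔖.Pa a P d.w, τ (c * y) = 0 := by
  refine ⟨h.kl_mem d.hw d.w0 hI.pext.sub (fun _ => hI.cen) (hI.covered h) hy, fun c hc =>
    h.kl_perp hE d.hw d.w0 hI.pext.sub (fun _ => hI.cen) (hI.covered h) ?_ (fun y hy => hI.ext_le
      (mem_ext_of_mem hI.pext.sub (fun _ hy => DG_mem_D d.pok (gg_cin d.cin) hy) hy)) hc hy⟩
  rw [← d.finrank_sA h.st h.ming hI.pext.le hI.pext.sub,
    (finrank_Red hI.pext.le _ fun y hy => D_In (hI.dgD y hy)).2]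
  exact Nat.add_le_add_right hI.finrank_le _

section step
variable {S₂ : Finset ℕ} {X₂ : V2}

/-- every coefficient of `p(a₂)` is orthogonal to the new `sA` (`pair_cf_right`-like, `τ_cf`) -/
theorem Inv.cf_perp (hI : Inv d P₁) (hm : (𝔖.cons d.block).Move P₁ S₂ X₂) (k : ℕ) {c : A}
    (hc : c ∈ d.block.sA P₁.n S₂) : τ (c * cf P₁.n k ((gg a P).eval X₂)) = 0 := by
  have hp := hm.perp
  rw [cons_ev] at hp
  have h1 : τ (c * (gg a P).eval X₂) = 0 := (cons_perp.mp hp).1 c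
    (Block.sA_mono (Nat.le_succ _) (hI.pext.sub.trans hm.sub) le_rfl hc)
  rw [← cf_mul_left k (D_In (Block.sT_D (Block.sA_le hc))), τ_cf, h1, mul_zero, map_zero]

theorem Inv.eq_zero_ext (h : 𝔖.Base a P ρ) (hE : 𝔖.MinE a P) (hI : Inv d P₁) (hS : P₁.S ⊆ S₂) {y : A}
    (hy : y ∈ ext P₁.S S₂ (𝔖.DG (gg a P) P₁)) (h0 : ∀ c ∈ d.block.sA P₁.n S₂, τ (c * y) = 0) : y = 0 := by
  by_contra hne
  obtain ⟨c, hc, -, hi, hr⟩ := normalise P.n hne (D_In hy.1)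
  have hy' : c • y ∈ ext P₁.S S₂ (𝔖.DG (gg a P) P₁) := Submodule.smul_mem _ (⟨c, hc⟩ : F P₁.n) hy
  have hcmp : ∀ γ ∈ GF (S₂ \ P₁.S), cmp P₁.S γ (red P.n (c • y)) ∈ Red P.n (𝔖.DG (gg a P) P₁) :=
    fun γ hγ => by
      rw [← red_cmp]
      exact red_mem_Red (hy'.2 γ hγ) (hi.cmp _ _)
  have hu := D_mono le_rfl hI.pext.sub (u_mem_D d.pok d.cin d.hw)
  refine hr (d.eq_zero (hI.pext.sub.trans hS) ?_ (fun c' hc' => ?_) fun c' hc' => ?_)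
  · rw [← ext_ext hI.pext.sub hS]
    refine ⟨mul_mem (D_mono le_rfl hS hu) (red_mem_D _ hy'.1), fun γ hγ => ?_⟩
    rw [cmp_mul_left hγ hu]
    exact (hI.plus h hE (hcmp γ hγ)).1
  · rw [← red_mul_left (D_In (Block.sT_D (Block.sA_le hc'))), τ_red, mul_smul_comm, map_smul,
      h0 c' (Block.sA_mono hI.pext.le (hI.pext.sub.trans hS) le_rfl hc'), smul_zero, map_zero]
  · rw [ng_τ_E (D_mono le_rfl hI.pext.sub
      (Cen_le _ _ _ (NTa_le_CC d.pok d.cin d.hw (mem_Pa.mp hc').1))), ← cmp_zero]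
    exact (hI.plus h hE (hcmp 0 (mem_GF.mpr (by rw [gs_zero]; exact Finset.empty_subset _)))).2 c' hc'

/-- First order: `y = dg v ∈ DG₁ ⊗ Δ`.  If `y ≠ 0`, normalise it to level `P.n`; the components of the reduction lie in
`Red DG₁`; `Inv.plus`, `ext_ext`, `NewData.eq_zero`. -/
theorem Inv.first (h : 𝔖.Base a P ρ) (hE : 𝔖.MinE a P) (hI : Inv d P₁) (hm : (𝔖.cons d.block).Move P₁ S₂ X₂) :
    Od P₁.n 2 ((gg a P).eval X₂) := by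
  have h₁ := h.st.reach hI.reach
  have h0 := hI.eq_zero_ext h hE hm.sub
    (h₁.d1_mem_ext hm.sub hI.gcin (hm.of_cons.vel_ker h₁.ok h₁.good)) fun c hc => by
      rw [← (hI.lead1' hm.of_cons).2]
      exact hI.cf_perp hm 1 hc
  have h1 := hI.lead1 hm.of_cons
  rwa [h0, smul_zero, sub_zero] at h1

/-- the values `g₂(v,w) + g₂(w,v) + dg w'` compatible with the old equations -/
noncomputable def R1 (d : 𝔖.NewData a P) (P₁ : Pt) (S₂ : Finset ℕ) (v : V2) : Submodule (F P₁.n) A where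
  carrier := {y | ∃ w ∈ (𝔖.cons d.block).Ker P₁.n S₂ P₁.X, ∃ w' ∈ DV P₁.n S₂ (Fin 2),
    𝔖.Perp P₁.n S₂ (𝔖.sym P₁.X v w + 𝔖.df P₁.X w') ∧
      y = (gg a P).d2 P₁.X v w + (gg a P).d2 P₁.X w v + (gg a P).d1 P₁.X w'}
  add_mem' := by
    rintro _ _ ⟨w, hw, w', hw', hp, rfl⟩ ⟨u, hu, u', hu', hq, rfl⟩
    refine ⟨w + u, add_mem hw hu, w' + u', add_mem hw' hu', fun c hc => ?_, ?_⟩
    · rw [map_add, map_add, add_add_add_comm, pair_add_right, hp c hc, hq c hc, add_zero]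
    · rw [NP.d2_add_left, NP.d2_add_right, NP.d1_add]
      abel
  zero_mem' :=
    ⟨0, zero_mem _, 0, zero_mem _, fun c _ => by rw [map_zero, map_zero, add_zero, pair_zero_right], by
      rw [← NP.d2L_apply, ← NP.d2L_apply, ← NP.d1L_apply]
      simp only [map_zero, LinearMap.zero_apply, add_zero]⟩
  smul_mem' := by
    rintro c _ ⟨w, hw, w', hw', hp, rfl⟩
    refine ⟨c • w, Submodule.smul_mem _ c hw, c • w', Submodule.smul_mem _ c hw', ?_, ?_⟩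
    · rw [F_smul, F_smul, map_smul, map_smul, ← smul_add]
      exact hp.smul _
    · rw [F_smul, F_smul, F_smul, NP.d2_smul_left, NP.d2_smul_right, NP.d1_smul, smul_add, smul_add]

theorem Inv.R1_lift (hI : Inv d P₁) {X'' : V2} (hm : 𝔖.Move P₁ S₂ X'')
    (hstd : 𝔖.Std P₁.n S₂ P₁.X (cf P₁.n 1 (X'' - P₁.X)) ((𝔖.cons d.block).Ker P₁.n S₂ P₁.X)) {y : A}
    (hy : y ∈ R1 d P₁ S₂ (cf P₁.n 1 (X'' - P₁.X))) : ∃ u ∈ 𝔖.Tan (P₁.n + 1) S₂ X'', Ig P₁.n u ∧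
      Od P₁.n 1 ((gg a P).d1 X'' u) ∧ cf P₁.n 1 ((gg a P).d1 X'' u) = y := by
  obtain ⟨w, hw, w', hw', hp, rfl⟩ := hy
  obtain ⟨hw1, hw2⟩ := cons_mem_Ker.mp hw
  obtain ⟨u, hu, w₁, hw₁, hod⟩ := hm.lift_pole hI.pok' hstd hw1 hw' hp
  obtain ⟨hw3, hw4⟩ := cons_mem_Ker.mp hw₁
  have hX := mem_DV.mp (DV_mono le_rfl hm.sub hI.pok'.2)
  have hv := mem_DV.mp (hm.vel_mem hI.pok')
  have hwD := mem_DV.mp (Ker_le hw1)
  have hww : In P₁.n (w' + w₁) := DV_In (add_mem hw' (Ker_le hw3))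
  refine ⟨u, hu, ig_of_od2 (DV_In (Ker_le hw1)) hww hod, ng_lead (D_In (add_mem (add_mem
    (NP.d2_mem (D P₁.n S₂) hX hv hwD hI.gcin) (NP.d2_mem _ hX hwD hv hI.gcin))
    (NP.d1_mem _ hX (mem_DV.mp hw') hI.gcin))) ?_⟩
  have h1 := d1_expand hI.gcin (DV_In hI.pok'.2) (cf_In _ _ _) (hm.od2 hI.pok') (DV_In (Ker_le hw1)) hww
  have h2 := (NP.d1_od (hm.ig hI.pok') hod hI.gcin).add h1
  have e1 : (gg a P).d1 P₁.X w = 0 := hw2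
  have e2 : (gg a P).d1 P₁.X w₁ = 0 := hw4
  rw [e1, NP.d1_add P₁.X w' w₁, e2, add_zero, sub_zero, ← add_sub_assoc, ← NP.d1_add, sub_sub,
    sub_add_cancel, ← pow_one (t P₁.n)] at h2
  exact h2

/-- `Move.lift_pole` with `W₀ = Ker` of the new system, `d1_expand`; `t⁻¹ u` is tangent -/
theorem Inv.R1_le (hI : Inv d P₁) {X'' : V2} (hm : 𝔖.Move P₁ S₂ X'')
    (hstd : 𝔖.Std P₁.n S₂ P₁.X (cf P₁.n 1 (X'' - P₁.X)) ((𝔖.cons d.block).Ker P₁.n S₂ P₁.X)) :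
    R1 d P₁ S₂ (cf P₁.n 1 (X'' - P₁.X)) ≤ Red P₁.n (𝔖.DG (gg a P) ⟨P₁.n + 1, S₂, X''⟩) := by
  intro y hy
  obtain ⟨u, hu, -, h1, rfl⟩ := hI.R1_lift hm hstd hy
  refine red_mem_Red (U := 𝔖.DG (gg a P) ⟨P₁.n + 1, S₂, X''⟩) ?_ h1
  exact Submodule.smul_mem (𝔖.DG (gg a P) ⟨P₁.n + 1, S₂, X''⟩) (⟨_, tinv_mem _ 1⟩ : F (P₁.n + 1))
    ⟨u, hu, rfl⟩

theorem Inv.red_a' (hI : Inv d P₁) (hm : 𝔖.Move P₁ S₂ X₂) :
    Ig P₁.n (a.eval X₂) ∧ red P₁.n (a.eval X₂) = a.eval P₁.X :=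
  ⟨NP.eval_ig (hm.ig hI.pok') (NP.cin_mono hI.pext.le d.cin), by
    rw [NP.red_eval (hm.ig hI.pok') (NP.cin_mono hI.pext.le d.cin), hm.red_eq hI.pok']⟩

/-- if `p(a'') = O(t²)`, integral values of `dg` at vectors with a simple pole reduce into the centraliser of `a₁` -/
theorem Inv.R1_cen (hI : Inv d P₁) (hm : (𝔖.cons d.block).Move P₁ S₂ X₂) (h2 : Od P₁.n 2 ((gg a P).eval X₂))
    {y : A} (hy : y ∈ R1 d P₁ S₂ (cf P₁.n 1 (X₂ - P₁.X))) : y ∈ Cen P₁.n S₂ {a.eval P₁.X} := by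
  obtain ⟨u, hu, hi, h1, rfl⟩ := hI.R1_lift hm.of_cons hm.std.of_cons hy
  refine mem_Cen.mpr ⟨cf_mem_D _ _ (NP.d1_mem (D (P₁.n + 1) S₂) (mem_DV.mp hm.mem) (mem_DV.mp (Tan_le hu))
    (NP.cin_mono (Nat.le_succ _) hI.gcin)), ?_⟩
  rintro _ rfl
  rw [← (hI.red_a' hm.of_cons).2]
  refine ng_cf_comm (hI.red_a' hm.of_cons).1 h1 ?_
  have h3 := NP.d1_ig (hm.of_cons.ig hI.pok') hi (NP.cin_mono hI.pext.le d.cin)
  rw [gg, d1_poly, dP_comm, ← eval_poly]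
  exact (h2.mul_ig h3).sub (Od.ig_mul h3 h2)

/-- `Std.primal` for the new system with right side `Fin.cons y 0` -/
theorem Inv.R1_nondeg (hI : Inv d P₁) (hm : (𝔖.cons d.block).Move P₁ S₂ X₂) {c : A}
    (hc : c ∈ d.block.sA P₁.n S₂) (h0 : ∀ y ∈ R1 d P₁ S₂ (cf P₁.n 1 (X₂ - P₁.X)), τ (c * y) = 0) : c = 0 := by
  refine eq_zero_of_τ (D P₁.n S₂) (Block.sT_D (Block.sA_le hc)) fun y hy => ?_
  obtain ⟨w, hw, w', hw', hp⟩ := Std.primal (hI.pok.1.mono le_rfl hm.sub) (DV_mono le_rfl hm.sub hI.pok.2)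
    (hm.vel_mem hI.pok) hm.std (In_cons (N := 𝔖.N) (D_In hy))
  rw [cons_df, cons_sym] at hp
  obtain ⟨h1, h2⟩ := cons_perp.mp ((cons_sub_cons _ _ _) ▸ (cons_add_cons _ _ _ _) ▸ hp)
  have h3 := h1 c hc
  have h4 := h0 _ ⟨w, hw, w', hw', h2, rfl⟩
  rw [mul_sub, map_sub, sub_eq_zero] at h3
  rw [τ_comm, ← h3]
  exact h4

theorem Inv.ext_le_Red (h : 𝔖.Base a P ρ) (hI : Inv d P₁) {X' : V2} (hm : 𝔖.Move P₁ S₂ X')
    (hstd : 𝔖.Std P₁.n S₂ P₁.X (cf P₁.n 1 (X' - P₁.X)) ((𝔖.cons d.block).Ker P₁.n S₂ P₁.X)) :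
    ext P₁.S S₂ (𝔖.DG (gg a P) P₁) ≤ Red P₁.n (𝔖.DG (gg a P) ⟨P₁.n + 1, S₂, X'⟩) := by
  intro y hy
  obtain ⟨u, hu, hi, rfl⟩ := (h.st.reach hI.reach).ext_DG_lift hm hI.gcin hstd
    (fun w hw => (cons_mem_Ker.mp hw).2) hy
  exact hm.red_mem hI.pok' hI.gcin hu hi

/-- Order `k ≥ 2`.  For `B`: lift `p'(a) w B` to `dg δ`, `δ ∈ T₁ ⊗ Δ` (`Inv.lift_ext`, `St.exists_ker_of_ext`);
with `λ y` integral and `s = t P.n ∈ K P₁.n`, modify the arc by `δ* = (λ s)⁻¹ δ` (`Move.modify`); the new leading term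
`y + dg δ*` times `λ s` reduces to `p'(a) w B`, and it lies in `Red DG''` through `t⁻¹^k θ X''` (`Move.θ_mem`,
`θV_eval`, `cf_θV`). -/
theorem Inv.covered2 (h : 𝔖.Base a P ρ) (hI : Inv d P₁) (hm : (𝔖.cons d.block).Move P₁ S₂ X₂) {k : ℕ}
    (hk : 2 ≤ k) (hod : Od P₁.n k ((gg a P).eval X₂)) (hne : cf P₁.n k ((gg a P).eval X₂) ≠ 0) :
    𝔖.Covered a P d.w S₂ (Red P.n (R1 d P₁ S₂ (cf P₁.n 1 (X₂ - P₁.X)) ⊔
      Submodule.span (F P₁.n) {cf P₁.n k ((gg a P).eval X₂)})) := by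
  intro B hB
  have h₁ := h.st.reach hI.reach
  have hm₂ := hm.of_cons
  obtain ⟨y₁, hy₁, hi, hr⟩ := hI.lift_ext hm.sub (d.wB_mem (hI.pext.sub.trans hm.sub) hB.1)
  obtain ⟨δ, hδ, hδy⟩ := h₁.exists_ker_of_ext hm.sub hI.gcin hy₁
  obtain ⟨l, hl, l0, hli, -⟩ := normalise P.n hne (cf_In _ _ _)
  have hμ : t P.n * l ∈ K P₁.n := mul_mem (K_mono hI.lt (t_mem _)) hl
  have μ0 : t P.n * l ≠ 0 := mul_ne_zero (t_ne _) l0
  have hδ' : (t P.n * l)⁻¹ • δ ∈ 𝔖.Ker P₁.n S₂ P₁.X :=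
    Submodule.smul_mem _ (⟨_, inv_mem hμ⟩ : F P₁.n) hδ
  obtain ⟨X', hm', hv, w, hw, hX'⟩ := hm₂.modify h₁.ok h₁.good hm.std.of_cons hk hδ'
  have hstd := hm.std.of_cons
  rw [← hv] at hstd
  obtain ⟨hw1, hw2⟩ := cons_mem_Ker.mp hw
  obtain ⟨hε, hε'⟩ := ng_lead (DV_In (add_mem (Ker_le hδ') (Ker_le hw1))) hX'
  have hT := (NP.taylor1 (hm₂.ig h₁.ok) hε hI.gcin).mono (l := k + 1) (by omega)
  rw [add_sub_cancel] at hT
  have hd := NP.d1_od (hm₂.ig h₁.ok) hε hI.gcin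
  have e : (gg a P).eval X' = ((gg a P).eval X' - (gg a P).eval X₂ - (gg a P).d1 X₂ (X' - X₂)) +
      (gg a P).eval X₂ + (gg a P).d1 X₂ (X' - X₂) := by abel
  have hod' : Od P₁.n k ((gg a P).eval X') := e ▸ ((hT.mono (Nat.le_succ k)).add hod).add hd
  have hcf : cf P₁.n k ((gg a P).eval X') = cf P₁.n k ((gg a P).eval X₂) + (t P.n * l)⁻¹ • y₁ := by
    have e2 : (gg a P).d1 P₁.X w = 0 := hw2
    rw [e, cf_add, cf_add, hT.cf_eq_zero, zero_add, ng_cf_d1 (hm₂.ig h₁.ok) hε hI.gcin, hε',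
      hm₂.red_eq h₁.ok, NP.d1_add, e2, add_zero, NP.d1_smul, hδy]
  have hμcf : (t P.n * l) • cf P₁.n k ((gg a P).eval X') =
      t P.n • l • cf P₁.n k ((gg a P).eval X₂) + y₁ := by
    rw [hcf, smul_add, smul_inv_smul₀ μ0, mul_smul]
  have hig : Ig P.n ((t P.n * l) • cf P₁.n k ((gg a P).eval X')) := hμcf ▸ (hli.smul (t_O _)).add hi
  have hred : red P.n ((t P.n * l) • cf P₁.n k ((gg a P).eval X')) = dp a P * d.w * B := by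
    rw [hμcf, map_add, red_smul (t_O _) hli, r_t, zero_smul, zero_add, hr]
  have hmem : cf P₁.n k ((gg a P).eval X') ∈ Red P₁.n (𝔖.DG (gg a P) ⟨P₁.n + 1, S₂, X'⟩) := by
    have h1 : cf P₁.n k (θV P₁.n ((gg a P).eval X')) ∈ Red P₁.n (𝔖.DG (gg a P) ⟨P₁.n + 1, S₂, X'⟩) := by
      refine red_mem_Red (U := 𝔖.DG (gg a P) ⟨P₁.n + 1, S₂, X'⟩) ?_ hod'.θV
      exact Submodule.smul_mem (𝔖.DG (gg a P) ⟨P₁.n + 1, S₂, X'⟩) (⟨_, tinv_mem _ k⟩ : F (P₁.n + 1))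
        ⟨_, hm'.θ_mem h₁.ok h₁.good, (NP.θV_eval X' hI.gcin).symm⟩
    have h2 := Submodule.smul_mem _ (⟨_, inv_mem (natCast_mem (K P₁.n) k)⟩ : F P₁.n) h1
    have k0 : (k : KK) ≠ 0 := Nat.cast_ne_zero.mpr (by omega)
    rwa [cf_θV, F_smul, inv_smul_smul₀ k0] at h2
  have hRR := (Red_Red hI.pext.le (Nat.le_succ _) (𝔖.DG (gg a P) ⟨P₁.n + 1, S₂, X'⟩)).le
  have h3 := ng_down hI.pext.le hod' hμ hig
  refine ⟨⟨P₁.n + 1, S₂, X'⟩, hI.reach.trans hm'.reach, rfl,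
    ⟨_, mul_mem (K_mono (Nat.le_succ _) hμ) (tinv_mem _ _), h3.1, h3.2.trans hred⟩,
    hRR (hred ▸ red_mem_Red (Submodule.smul_mem _ (⟨_, hμ⟩ : F P₁.n) hmem) hig),
    (Red_mono _ (sup_le (hv ▸ hI.R1_le hm' hstd) ?_)).trans hRR⟩
  rw [Submodule.span_singleton_le_iff_mem, eq_sub_of_add_eq hcf.symm]
  exact sub_mem hmem (Submodule.smul_mem _ (⟨_, inv_mem hμ⟩ : F P₁.n) (hI.ext_le_Red h hm' hstd hy₁))

/-- `exists_lead`, `Inv.first`, then `Base.kl_rank` against `finrank_le_of_nondeg` -/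
theorem Inv.second (h : 𝔖.Base a P ρ) (hE : 𝔖.MinE a P) (hI : Inv d P₁)
    (hm : (𝔖.cons d.block).Move P₁ S₂ X₂) : (gg a P).eval X₂ = 0 := by
  by_contra hne
  have h2 := hI.first h hE hm
  have hG : (gg a P).eval X₂ ∈ D (P₁.n + 1) S₂ :=
    NP.eval_mem _ (mem_DV.mp hm.mem) (NP.cin_mono (Nat.le_succ _) hI.gcin)
  obtain ⟨k, hod, hk0⟩ := exists_lead (D_In hG) h2.ig hne
  have hk : 2 ≤ k := by
    by_contra hk
    exact hk0 (h2.mono (l := k + 1) (by omega)).cf_eq_zero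
  have hcen : R1 d P₁ S₂ (cf P₁.n 1 (X₂ - P₁.X)) ⊔ Submodule.span (F P₁.n) {cf P₁.n k ((gg a P).eval X₂)} ≤
      Subalgebra.toSubmodule (Cen P₁.n S₂ {a.eval P₁.X}) := by
    refine sup_le (fun y hy => hI.R1_cen hm h2 hy) ?_
    rw [Submodule.span_singleton_le_iff_mem]
    refine mem_Cen.mpr ⟨cf_mem_D _ _ hG, ?_⟩
    rintro _ rfl
    rw [← (hI.red_a' hm.of_cons).2]
    refine ng_cf_comm (hI.red_a' hm.of_cons).1 hod ?_
    rw [gg, eval_poly, Lf_comm (aeval_mem_Lf _ _) rfl, sub_self]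
    exact Od.zero _ _
  have hD := fun y hy => Cen_le _ _ _ (hcen (x := y) hy)
  have := fd_of_le_D _ hD
  have h3 := h.kl_rank hE d.hw d.w0 (hI.pext.sub.trans hm.sub) (fun y hy => by
    obtain ⟨y₁, hy₁, hi, rfl⟩ := (mem_Red hI.pext.le).mp hy
    rw [← hI.red_a.2]
    exact ng_red_cen hI.red_a.1 (hcen hy₁) hi) (hI.covered2 h hm hk hod hk0)
  rw [(finrank_Red hI.pext.le _ fun y hy => D_In (hD y hy)).2,
    ← d.finrank_sA h.st h.ming hI.pext.le (hI.pext.sub.trans hm.sub)] at h3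
  have h4 := (finrank_le_of_nondeg (d.block.sA P₁.n S₂) _ (fun c hc => Block.sT_D (Block.sA_le hc)) hD
    fun c hc h0 => hI.R1_nondeg hm hc fun y hy => h0 y (Submodule.mem_sup_left hy)).2 _
    (Submodule.mem_sup_right (Submodule.mem_span_singleton_self _)) hk0 fun c hc => hI.cf_perp hm k hc
  omega

theorem Inv.step (h : 𝔖.Base a P ρ) (hE : 𝔖.MinE a P) (hI : Inv d P₁) (hm : (𝔖.cons d.block).Move P₁ S₂ X₂) :
    Inv d ⟨P₁.n + 1, S₂, X₂⟩ := by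
  refine ⟨hI.lt.trans (Nat.le_succ _), hI.reach.trans hm.of_cons.reach, hm.reg hI.pok, hI.second h hE hm,
    fun y hy => ?_⟩
  obtain ⟨y₁, hy₁, hi, rfl⟩ := hI.lift_ext hm.sub hy
  exact (Red_Red hI.pext.le (Nat.le_succ _) _).le
    (red_mem_Red (hI.ext_le_Red h hm.of_cons hm.std.of_cons hy₁) hi)

end step

theorem NewData.cpok (d : 𝔖.NewData a P) : (𝔖.cons d.block).POk P :=
  ⟨cons_ok.mpr ⟨⟨le_rfl, le_rfl⟩, d.pok.1⟩, d.pok.2⟩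

theorem NewData.cons_ev_zero (d : 𝔖.NewData a P) {X : V2} (h1 : (gg a P).eval X = 0) (h2 : 𝔖.ev X = 0) :
    (𝔖.cons d.block).ev X = 0 := by
  rw [cons_ev, h2]
  exact funext fun i => Fin.cases h1 (fun _ => rfl) i

/-- the constant move, in the new system -/
theorem NewData.const_move (d : 𝔖.NewData a P) (h : 𝔖.St P ρ) : (𝔖.cons d.block).Move P P.S P.X :=
  Sys.const_move d.cpok (d.cons_ev_zero gg_eval h.good.ev) (d.reg h)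

theorem NewData.inv_base (d : 𝔖.NewData a P) (h : 𝔖.St P ρ) : Inv d ⟨P.n + 1, P.S, P.X⟩ := by
  have hm := d.const_move h
  refine ⟨le_rfl, hm.of_cons.reach, hm.reg d.cpok, gg_eval, ?_⟩
  exact (ext_self fun _ hy => DG_mem_D d.pok (gg_cin d.cin) hy).le.trans
    (h.DG_le_Red hm.of_cons (gg_cin d.cin))

theorem NewData.good (d : 𝔖.NewData a P) (h : 𝔖.Base a P ρ) (hE : 𝔖.MinE a P) :
    (𝔖.cons d.block).Good ⟨P.n + 1, P.S, P.X⟩ := by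
  intro P' hr
  have hI : Inv d P' := by
    induction hr with
    | refl => exact d.inv_base h.st
    | tail _ hs ih =>
      obtain ⟨S', X', rfl, hm⟩ := hs
      exact ih.step h hE hm
  exact d.cons_ev_zero hI.zero (h.st.good P' hI.reach)

end Sys

end Crest.Agent.R180
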