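import Crest.Agent.R180.Hensel

/-!
# Row 180, propagation of the invariants along moves; the large move
-/

set_option autoImplicit false
set_option linter.unusedSectionVars false

namespace Crest.Agent.R180

open Module

namespace Sys

variable {𝔖 : Sys} {n : ℕ} {S S' : Finset ℕ} {X : V2} {P P' : Pt} {ρ : ℕ}

private theorem dj (S S' : Finset ℕ) : Disjoint S (S' \ S) := Finset.disjoint_sdiff

private theorem D_sd {m : ℕ} {ω : A} (hω : ω ∈ D m (S' \ S)) : ω ∈ D m S' :=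
  D_mono le_rfl Finset.sdiff_subset hω

private theorem smul_DV {ι : Type} [Fintype ι] (hS : S ⊆ S') {ω : A} (hω : ω ∈ D n (S' \ S)) {y : ι → A}
    (hy : y ∈ DV n S ι) : ω • y ∈ DV n S' ι := mul_mem_DV (D_sd hω) (DV_mono le_rfl hS hy)

private theorem τ_z_inv (δ γ : G) : τ (z δ * (z γ)⁻¹) = if δ = γ then 1 else 0 := by
  split_ifs with h
  · rw [h, mul_inv_cancel₀ (z_ne γ), τ_one]
  · rw [z_inv, mul_smul_comm, z_mul, map_smul, map_smul, τ_z, if_neg fun h' => h (add_neg_eq_zero.1 h')]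
    simp

private theorem pair_f2_smul (hok : 𝔖.Ok n S) (hX : X ∈ DV n S (Fin 2)) {c : Fin 𝔖.N → A}
    (hc : c ∈ DV n S (Fin 𝔖.N)) {ω ω' : A} (hω : ω ∈ D n (S' \ S)) (hω' : ω' ∈ D n (S' \ S)) {v w : V2}
    (hv : v ∈ DV n S (Fin 2)) (hw : w ∈ DV n S (Fin 2)) :
    pair c (𝔖.f2 X (ω • v) (ω' • w)) = τ (ω * ω') * pair c (𝔖.f2 X v w) := by
  rw [f2_smul hX hω hω' hv, pair_smul_disj' (dj S S') (mul_mem hω hω') hc (f2_mem hok hX hv hw)]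

private theorem red_df (hok : 𝔖.Ok n S) {X' u : V2} (hX' : Ig n X') (hu : Ig n u) :
    red n (𝔖.df X' u) = 𝔖.df (red n X') (red n u) := by
  funext i
  rw [red_pi, df_apply, df_apply, NP.red_d1 hX' hu (hok.cin i)]

private theorem red_f2 (hok : 𝔖.Ok n S) {X' u w : V2} (hX' : Ig n X') (hu : Ig n u) (hw : Ig n w) :
    Ig n (𝔖.f2 X' u w) ∧ red n (𝔖.f2 X' u w) = 𝔖.f2 (red n X') (red n u) (red n w) := by
  refine ⟨Ig_pi.2 fun i => NP.d2_ig hX' hu hw (hok.cin i), funext fun i => ?_⟩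
  rw [red_pi, f2_apply, f2_apply, NP.red_d2 hX' hu hw (hok.cin i)]

private theorem red_of_od {y : V2} {l : ℕ} (h : Od n (l + 1) y) : red n y = 0 := by
  rw [← cf_zero_eq]; exact (h.mono (by omega)).cf_eq_zero

private theorem red_t_smul {y : V2} (hy : In n y) : red n (t n • y) = 0 := by
  rw [red_smul_In _ hy, r_t, zero_smul]

/-- `rank_symm` for `(c, δ) ↦ pB n c (df X δ)` on `NA × DV` -/
theorem finrank_Tan (hok : 𝔖.Ok n S) (hX : X ∈ DV n S (Fin 2)) (hreg : 𝔖.Reg n S X) :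
    finrank (F n) (𝔖.Tan n S X) + finrank (F n) (𝔖.NA n S) = 2 * ν S := by
  let φ : (Fin 𝔖.N → A) →ₗ[F n] V2 →ₗ[F n] F n := (pB n).compl₂ ((𝔖.df X).restrictScalars (F n))
  have hφ : ∀ c ∈ 𝔖.NA n S, ∀ δ ∈ DV n S (Fin 2), φ c δ = 0 ↔ pair c (𝔖.df X δ) = 0 := fun c hc δ hδ =>
    pB_eq_zero (DV_In (NT_le (NA_le hc))) (DV_In (df_mem hok hX hδ))
  have h1 := rank_symm φ (𝔖.NA n S) (DV n S (Fin 2))
  have h2 : lker φ.flip (DV n S (Fin 2)) (𝔖.NA n S) = 𝔖.Tan n S X := by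
    ext δ
    rw [mem_lker, mem_Tan]
    exact and_congr_right fun hδ => forall₂_congr fun c hc => hφ c hc δ hδ
  have h3 : lker φ (𝔖.NA n S) (DV n S (Fin 2)) = ⊥ :=
    eq_bot_iff.2 fun c hc => hreg c hc.1 fun δ hδ => (hφ c hc.1 δ hδ).1 (hc.2 δ hδ)
  rw [h2, h3, finrank_bot, finrank_DV, Fintype.card_fin] at h1
  omega

/-- `Pen ⊓ NA = ⊥` inside `NT` -/
theorem finrank_Pen (hok : 𝔖.Ok n S) (hreg : 𝔖.Reg n S X) : finrank (F n) (𝔖.Pen n S X) ≤ 𝔖.h := by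
  have h1 := Submodule.finrank_sup_add_finrank_inf_eq (𝔖.Pen n S X) (𝔖.NA n S)
  have h2 : 𝔖.Pen n S X ⊓ 𝔖.NA n S = ⊥ := eq_bot_iff.2 fun c hc => hreg c hc.2 hc.1.2
  have h3 := Submodule.finrank_mono (sup_le (Pen_le (𝔖 := 𝔖) (n := n) (S := S) (X := X)) NA_le)
  have h4 := finrank_NA hok
  rw [h2, finrank_bot] at h1
  omega

theorem St.Tan_eq (h : 𝔖.St P ρ) : 𝔖.Tan P.n P.S P.X = 𝔖.Ker P.n P.S P.X :=
  le_antisymm (fun _ hδ => ⟨hδ.1, G1 h.ok h.reg h.good hδ⟩) Ker_le_Tan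

theorem Ker_ext (hok : 𝔖.Ok n S) (hX : X ∈ DV n S (Fin 2)) (hS : S ⊆ S') :
    𝔖.Ker n S' X = extV S S' (𝔖.Ker n S X) := by
  ext δ
  rw [mem_Ker, mem_extV]
  refine and_congr_right fun hδ => ⟨fun h γ hγ => ⟨cmpV_mem S γ (DV_In hδ), ?_⟩, fun h => ?_⟩
  · show 𝔖.df X (cmpV S γ δ) = 0
    rw [← cmpV_df hok hX hγ, h, map_zero]
  · rw [← sum_cmpV hS hδ, map_sum]
    refine Finset.sum_eq_zero fun γ hγ => ?_
    rw [df_smul hX (z_mem_D n hγ), (mem_Ker.1 (h γ hγ)).2, smul_zero]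

/-- expectations of `ω c` kill `df` too -/
theorem Kills.EV_smul (hok : 𝔖.Ok n S) (hX : X ∈ DV n S (Fin 2)) (hS : S ⊆ S') {c : Fin 𝔖.N → A}
    (hc : 𝔖.Kills n S' X c) {ω : A} (hω : ω ∈ D n (S' \ S)) : 𝔖.Kills n S X (EV S (ω • c)) := by
  intro δ hδ
  rw [← pair_smul_disj (dj S S') hω c (df_mem hok hX hδ), ← df_smul hX hω]
  exact hc _ (smul_DV hS hω hδ)

/-- an element over `D n S` that kills `df` there kills it over `D n S'` -/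
theorem Kills.ext (hok : 𝔖.Ok n S) (hX : X ∈ DV n S (Fin 2)) (hS : S ⊆ S') {c : Fin 𝔖.N → A}
    (hc : c ∈ DV n S (Fin 𝔖.N)) (hk : 𝔖.Kills n S X c) : 𝔖.Kills n S' X c := by
  intro δ hδ
  rw [← sum_cmpV hS hδ, map_sum, pair_sum_right]
  refine Finset.sum_eq_zero fun γ hγ => ?_
  have h1 := cmpV_mem (n := n) S γ (DV_In hδ)
  rw [df_smul hX (z_mem_D n hγ), pair_smul_disj' (dj S S') (z_mem_D n hγ) hc (df_mem hok hX h1), hk _ h1,
    mul_zero]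

/-- antisymmetry of the pencil, on `T ⊗ Δ` -/
theorem St.pen_sym (h : 𝔖.St P ρ) (hS : P.S ⊆ S') {c : Fin 𝔖.N → A} (hc : c ∈ 𝔖.Pen P.n P.S P.X) {v w : V2}
    (hv : v ∈ 𝔖.Ker P.n S' P.X) (hw : w ∈ 𝔖.Ker P.n S' P.X) : pair c (𝔖.sym P.X v w) = 0 := by
  obtain ⟨hok, hX⟩ := h.ok
  rw [Ker_ext hok hX hS, ← h.Tan_eq] at hv hw
  have hcD := NT_le hc.1
  rw [← sum_cmpV hS hv.1, ← sum_cmpV hS hw.1, sym_apply, pair_add_right]
  simp only [map_sum, LinearMap.sum_apply, pair_sum_right]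
  rw [Finset.sum_comm, ← Finset.sum_add_distrib]
  refine Finset.sum_eq_zero fun γ hγ => ?_
  rw [← Finset.sum_add_distrib]
  refine Finset.sum_eq_zero fun δ hδ => ?_
  have h1 := hv.2 γ hγ
  have h2 := hw.2 δ hδ
  obtain ⟨v₂, hv₂, e⟩ := G2' ⟨hok, hX⟩ h.reg h.good h1 h2
  have h3 := hc.2 v₂ hv₂
  rw [eq_neg_of_add_eq_zero_right e, sym_apply, ← neg_one_smul KK, pair_smul_right, pair_add_right] at h3
  rw [pair_f2_smul hok hX hcD (z_mem_D _ hγ) (z_mem_D _ hδ) h1.1 h2.1,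
    pair_f2_smul hok hX hcD (z_mem_D _ hδ) (z_mem_D _ hγ) h2.1 h1.1, τ_comm (z δ)]
  linear_combination (-τ (z γ * z δ)) * h3

/-- An element of `NT ⊗ Δ` that kills `df` and `sym v W₀` comes from the pencil: with `c₀ = EV S c`, the difference
`c - c₀` lies in `NA n S'` and is killed by `Std`. -/
theorem St.pen_of_std (h : 𝔖.St P ρ) (hS : P.S ⊆ S') {v : V2} (hv : v ∈ 𝔖.Ker P.n S' P.X)
    {W₀ : Submodule (F P.n) V2} (hstd : 𝔖.Std P.n S' P.X v W₀) {c : Fin 𝔖.N → A} (hc : c ∈ 𝔖.NT P.n S')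
    (hk : 𝔖.Kills P.n S' P.X c) (hs : ∀ w ∈ W₀, pair c (𝔖.sym P.X v w) = 0) : c ∈ 𝔖.Pen P.n P.S P.X := by
  obtain ⟨hok, hX⟩ := h.ok
  have h1 : (1 : A) ∈ D P.n (S' \ P.S) := one_mem _
  have h0 : EV P.S c ∈ 𝔖.Pen P.n P.S P.X := by
    have := (⟨EV_smul_mem_NT hok hS h1 hc, hk.EV_smul hok hX hS h1⟩ :
      EV P.S ((1 : A) • c) ∈ 𝔖.Pen P.n P.S P.X)
    rwa [one_smul] at this
  have h2 : c - EV P.S c = 0 := by
    refine hstd.2 _ ((mem_NA_ext hok hS).2 ⟨sub_mem hc (NT_mono hok le_rfl hS h0.1), ?_⟩) (fun δ hδ => ?_)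
      fun w hw => ?_
    · have : EV P.S (EV P.S c) = EV P.S c := funext fun i => E_E subset_rfl _
      rw [map_sub, this, sub_self]; exact zero_mem _
    · rw [pair_sub_left, hk δ hδ, Kills.ext hok hX hS (NT_le h0.1) h0.2 δ hδ, sub_zero]
    · rw [pair_sub_left, hs w hw, h.pen_sym hS h0 hv (hstd.1 hw), sub_zero]
  rw [sub_eq_zero.1 h2]; exact h0

/-- the radical on `U ⊗ Δ` lies in `(radical on U) ⊗ Δ` -/
theorem rkGe_ext (hok : 𝔖.Ok n S) (hX : X ∈ DV n S (Fin 2)) (hS : S ⊆ S') {c : Fin 𝔖.N → A}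
    (hc : c ∈ DV n S (Fin 𝔖.N)) {U : Submodule (F n) V2} (hU : U ≤ DV n S (Fin 2)) {k : ℕ}
    (h : RkGe (𝔖.bet n X c) U k) : RkGe (𝔖.bet n X c) (extV S S' U) (k * ν (S' \ S)) := by
  have hok' := hok.mono le_rfl hS
  have h1 : lker (𝔖.bet n X c) (extV S S' U) (extV S S' U) ≤ extV S S' (lker (𝔖.bet n X c) U U) := by
    intro v hv
    refine ⟨hv.1.1, fun γ hγ => ⟨hv.1.2 γ hγ, fun u hu => ?_⟩⟩
    have hw := smul_mem_extV hS hU (z_inv_mem_D n hγ) hu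
    have h2 := (bet_eq_zero hok' (DV_mono le_rfl hS hX) (DV_mono le_rfl hS hc) hv.1.1 hw.1).1 (hv.2 _ hw)
    rw [← sum_cmpV hS hv.1.1, map_sum, LinearMap.sum_apply, pair_sum_right,
      Finset.sum_congr rfl fun δ hδ => by
        rw [pair_f2_smul hok hX hc (z_mem_D n hδ) (z_inv_mem_D n hγ) (hU (hv.1.2 δ hδ)) (hU hu), τ_z_inv,
          ite_mul, one_mul, zero_mul],
      Finset.sum_ite_eq', if_pos hγ] at h2
    exact (bet_eq_zero hok hX hc (hU (hv.1.2 γ hγ)) (hU hu)).2 h2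
  have h2 := Submodule.finrank_mono h1
  rw [finrank_extV hS ((lker_le _ _ _).trans hU)] at h2
  unfold RkGe at h ⊢
  rw [finrank_extV hS hU]
  have := Nat.mul_le_mul_right (ν (S' \ S)) h
  rw [add_mul] at this
  exact le_trans (Nat.add_le_add_right h2 _) this

/-- the reduction of the tangent space after a move lies in `T ⊗ Δ`, with codimension `h (μ - 1)` -/
theorem St.red_Tan (h : 𝔖.St P ρ) {X' : V2} (hm : 𝔖.Move P S' X') :
    Red P.n (𝔖.Tan (P.n + 1) S' X') ≤ 𝔖.Ker P.n S' P.X ∧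
      finrank (F P.n) (𝔖.Ker P.n S' P.X) + 𝔖.h =
        finrank (F (P.n + 1)) (𝔖.Tan (P.n + 1) S' X') + 𝔖.h * ν (S' \ P.S) := by
  obtain ⟨hok, hX⟩ := h.ok
  have hP' := hm.pok h.ok
  have hr' := hm.reg h.ok
  refine ⟨fun x hx => ?_, ?_⟩
  · obtain ⟨u, hu, hi, rfl⟩ := (mem_Red (Nat.le_succ _)).1 hx
    refine ⟨red_mem_DV _ hu.1, ?_⟩
    have h1 : 𝔖.df X' u = 0 := G1 hP' hr' (h.good.reach hm.reach) hu
    show 𝔖.df P.X (red P.n u) = 0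
    rw [← hm.red_eq h.ok, ← red_df hok (hm.ig h.ok) hi, h1, map_zero]
  · have e1 := finrank_Tan hok hX h.reg
    have e2 := finrank_NA hok
    have e3 : finrank (F (P.n + 1)) (𝔖.Tan (P.n + 1) S' X') + finrank (F (P.n + 1)) (𝔖.NA (P.n + 1) S') =
      2 * ν S' := finrank_Tan hP'.1 hP'.2 hr'
    have e4 : finrank (F (P.n + 1)) (𝔖.NA (P.n + 1) S') + 𝔖.h = finrank (F (P.n + 1)) (𝔖.NT (P.n + 1) S') :=
      finrank_NA hP'.1
    have e5 := finrank_NT hok (Nat.le_succ _) hm.sub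
    have e6 := ν_sdiff hm.sub
    rw [Ker_ext hok hX hm.sub, finrank_extV hm.sub Ker_le, ← h.Tan_eq]
    zify at e1 e2 e3 e4 e5 e6 ⊢
    linear_combination (ν (S' \ P.S) : ℤ) * e1 - (ν (S' \ P.S) : ℤ) * e2 - e3 + e4 + e5 - 2 * e6

/-- the radical of `c'` on `T'` reduces into the radical of the reduction -/
private theorem red_lker (hok : 𝔖.Ok n S) {X' : V2} (hX' : X' ∈ DV (n + 1) S (Fin 2)) (hi : Ig n X')
    {c' : Fin 𝔖.N → A} (hc' : c' ∈ DV (n + 1) S (Fin 𝔖.N)) {a : KK} (ha : Ig n (a • c'))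
    {T' : Submodule (F (n + 1)) V2} (hT' : T' ≤ DV (n + 1) S (Fin 2)) {U : Submodule (F n) V2}
    [FiniteDimensional (F n) U] (hU : Red n T' ≤ U) :
    finrank (F (n + 1)) (lker (𝔖.bet (n + 1) X' c') T' T') + finrank (F (n + 1)) T' ≤
      finrank (F n) (lker (𝔖.bet n (red n X') (red n (a • c'))) U U) + finrank (F n) U := by
  have := fd_of_le_DV _ hT'
  obtain ⟨fd1, e1⟩ := finrank_Red (Nat.le_succ n) T' fun y hy => DV_In (hT' hy)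
  obtain ⟨-, e2⟩ := finrank_Red (Nat.le_succ n) (lker (𝔖.bet (n + 1) X' c') T' T')
    fun y hy => DV_In (hT' hy.1)
  have h1 : Red n (lker (𝔖.bet (n + 1) X' c') T' T') ≤
      lker (𝔖.bet n (red n X') (red n (a • c'))) (Red n T') (Red n T') := by
    intro x hx
    obtain ⟨u, hu, hui, rfl⟩ := (mem_Red (Nat.le_succ n)).1 hx
    refine ⟨red_mem_Red hu.1 hui, fun y hy => ?_⟩
    obtain ⟨w, hw, hwi, rfl⟩ := (mem_Red (Nat.le_succ n)).1 hy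
    have h2 := (bet_eq_zero (hok.mono (Nat.le_succ n) subset_rfl) hX' hc' (hT' hu.1) (hT' hw)).1 (hu.2 w hw)
    obtain ⟨h3, h4⟩ := red_f2 hok hi hui hwi
    refine Subtype.ext ?_
    rw [bet_val, ← h4, pair_red ha h3, pair_smul_left, h2, mul_zero, map_zero, map_zero]
    rfl
  have h2 := Submodule.finrank_mono h1
  have h3 := lker_two (𝔖.bet n (red n X') (red n (a • c'))) U _ _ hU hU
  simp only [Nat.succ_eq_add_one] at e1 e2 h2 h3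
  omega

/-- Normalise `c'`, reduce (`Move.kills_red`, `St.pen_of_std`); the radical of `c'` on `T'` reduces into the
radical of `c` on `Red T'`; `lker_two`, `rkGe_ext`, `St.red_Tan`, `finrank_Red`. -/
theorem St.move (h : 𝔖.St P ρ) {X' : V2} (hm : 𝔖.Move P S' X') :
    𝔖.St ⟨P.n + 1, S', X'⟩ (ρ * ν (S' \ P.S)) := by
  obtain ⟨hok, hX⟩ := h.ok
  have hok' := hok.mono le_rfl hm.sub
  refine ⟨hm.pok h.ok, hm.reg h.ok, h.good.reach hm.reach, fun c' hc' h0 => ?_, ?_⟩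
  · change c' ∈ 𝔖.Pen (P.n + 1) S' X' at hc'
    show RkGe (𝔖.bet (P.n + 1) X' c') (𝔖.Tan (P.n + 1) S' X') _
    obtain ⟨a, ha, -, hi, hr⟩ := normalise P.n h0 (DV_In (NT_le hc'.1))
    have hc'' : a • c' ∈ 𝔖.Pen (P.n + 1) S' X' := Submodule.smul_mem _ (⟨a, ha⟩ : F (P.n + 1)) hc'
    obtain ⟨k1, k2⟩ := hm.kills_red h.ok hi hc''.2
    have hc := h.pen_of_std hm.sub (hm.vel_ker h.ok h.good) hm.std (red_mem_NT hok' hc''.1) k1 k2
    have h1 := rkGe_ext hok hX hm.sub (NT_le hc.1) Tan_le (h.qq _ hc hr)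
    rw [h.Tan_eq, ← Ker_ext hok hX hm.sub] at h1
    obtain ⟨h2, h3⟩ := h.red_Tan hm
    have h4 := red_lker hok' hm.mem (hm.ig h.ok) (NT_le hc'.1) hi Tan_le h2
    rw [hm.red_eq h.ok] at h4
    unfold RkGe at h1 ⊢
    rw [add_mul, mul_assoc] at h1
    omega
  · show finrank (F (P.n + 1)) (𝔖.NT (P.n + 1) S') < ν S'
    rw [finrank_NT hok (Nat.le_succ _) hm.sub, ν_sdiff hm.sub]
    exact Nat.mul_lt_mul_of_pos_right h.small (ν_pos _)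

theorem St.reach (h : 𝔖.St P ρ) (hr : 𝔖.Reach P P') : 𝔖.St P' (ρ * ν (P'.S \ P.S)) := by
  induction hr with
  | refl => rwa [Finset.sdiff_self, ν_empty, mul_one]
  | @tail Q Q' hQ hs ih =>
    obtain ⟨S', X', rfl, hm⟩ := hs
    have h1 := (Reach.ext h.ok hQ).sub
    have h2 : ν (Q.S \ P.S) * ν (S' \ Q.S) = ν (S' \ P.S) := by
      refine Nat.eq_of_mul_eq_mul_left (ν_pos P.S) ?_
      rw [← mul_assoc, ← ν_sdiff h1, ← ν_sdiff hm.sub, ← ν_sdiff (h1.trans hm.sub)]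
    have h3 := ih.move hm
    rwa [mul_assoc, h2] at h3

/-- base change of the pencil bound; no `Good` needed -/
theorem QQ.const (hP : 𝔖.POk P) (hreg : 𝔖.Reg P.n P.S P.X) (hreg' : 𝔖.Reg (P.n + 1) P.S P.X)
    (h : 𝔖.QQ P ρ) : 𝔖.QQ ⟨P.n + 1, P.S, P.X⟩ ρ := by
  obtain ⟨hok, hX⟩ := hP
  have hok' := hok.mono (Nat.le_succ _) subset_rfl
  have hX' := DV_mono (Nat.le_succ _) subset_rfl hX
  intro c' hc' h0
  change c' ∈ 𝔖.Pen (P.n + 1) P.S P.X at hc'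
  show RkGe (𝔖.bet (P.n + 1) P.X c') (𝔖.Tan (P.n + 1) P.S P.X) _
  obtain ⟨a, ha, -, hi, hr⟩ := normalise P.n h0 (DV_In (NT_le hc'.1))
  have hc'' : a • c' ∈ 𝔖.Pen (P.n + 1) P.S P.X := Submodule.smul_mem _ (⟨a, ha⟩ : F (P.n + 1)) hc'
  have hc : red P.n (a • c') ∈ 𝔖.Pen P.n P.S P.X := by
    refine ⟨red_mem_NT hok hc''.1, fun δ hδ => ?_⟩
    have h1 := DV_In (df_mem hok hX hδ)
    rw [← red_of_In h1, pair_red hi h1.ig, hc''.2 δ (DV_mono (Nat.le_succ _) subset_rfl hδ), map_zero]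
  have h1 := h _ hc hr
  have h2 : Red P.n (𝔖.Tan (P.n + 1) P.S P.X) ≤ 𝔖.Tan P.n P.S P.X := by
    intro x hx
    obtain ⟨u, hu, hui, rfl⟩ := (mem_Red (Nat.le_succ _)).1 hx
    refine ⟨red_mem_DV _ hu.1, fun c hc => ?_⟩
    have h3 := red_df hok (DV_In hX).ig hui
    rw [red_of_In (DV_In hX)] at h3
    rw [← h3, pair_red_right (DV_In (NT_le (NA_le hc))), hu.2 c (NA_mono hok (Nat.le_succ _) subset_rfl hc),
      map_zero]
  have h4 := red_lker hok hX' (DV_In hX).ig (NT_le hc'.1) hi Tan_le h2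
  rw [red_of_In (DV_In hX)] at h4
  have e1 := finrank_Tan hok hX hreg
  have e2 := finrank_NA hok
  have e3 := finrank_Tan hok' hX' hreg'
  have e4 := finrank_NA hok'
  have e5 := finrank_NT hok (Nat.le_succ _) subset_rfl
  rw [Finset.sdiff_self, ν_empty, mul_one] at e5
  unfold RkGe at h1 ⊢
  simp only [Nat.succ_eq_add_one] at e3 e4 e5
  omega

private theorem Move.lift_pole' (hP : 𝔖.POk P) {X' : V2} (hm : 𝔖.Move P S' X') {W₀ : Submodule (F P.n) V2}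
    (hstd : 𝔖.Std P.n S' P.X (cf P.n 1 (X' - P.X)) W₀) {w w' : V2} (hw : w ∈ 𝔖.Ker P.n S' P.X)
    (hw' : w' ∈ DV P.n S' (Fin 2))
    (hp : 𝔖.Perp P.n S' (𝔖.sym P.X (cf P.n 1 (X' - P.X)) w + 𝔖.df P.X w')) :
    ∃ u ∈ 𝔖.Tan (P.n + 1) S' X', ∃ w₁ ∈ W₀, Od P.n 2 (u - w - t P.n • (w' + w₁)) := by
  have hok := hP.1.mono le_rfl hm.sub
  have hX := DV_mono le_rfl hm.sub hP.2
  have hv := hm.vel_mem hP
  have h1 := df_expand hok (DV_In hX) (DV_In hv) (hm.od2 hP) (DV_In hw.1) (DV_In hw')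
  rw [(mem_Ker.1 hw).2, sub_zero] at h1
  have h2 : 𝔖.Err P.n S' (1 + 1) (𝔖.df X' (w + t P.n • w')) := by
    have h3 := (Err.of_od h1).add (Err.of_perp (l := 2) (𝔖 := 𝔖) (S := S')
      (y := t P.n • (𝔖.sym P.X (cf P.n 1 (X' - P.X)) w + 𝔖.df P.X w')) fun c hc => by
        rw [pair_smul_right, hp c hc, mul_zero])
    rwa [sub_add_cancel] at h3
  obtain ⟨u, hu, w₁, hw₁, h3⟩ := lin_hensel hok hX hv hstd hm.mem (hm.od2 hP)
    (add_mem (DV_mono (Nat.le_succ _) subset_rfl hw.1)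
      (smul_mem_DV (t_mem _) (DV_mono (Nat.le_succ _) subset_rfl hw')))
    ((DV_In hw.1).ig.add (Ig.smul (t_O _) (DV_In hw').ig)) h2
  refine ⟨u, hu, w₁, hw₁, ?_⟩
  rwa [pow_one, sub_add_eq_sub_sub, sub_sub _ (t P.n • w'), ← smul_add] at h3

/-- Tangent vectors lift: `lin_hensel` with `l = 1` from `δ + t δ₁`, where `sym v δ + df δ₁ = 0` (components of `v`,
`G2'`). -/
theorem St.lift_move (h : 𝔖.St P ρ) {X' : V2} (hm : 𝔖.Move P S' X') {δ : V2} (hδ : δ ∈ 𝔖.Tan P.n P.S P.X) :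
    ∃ u ∈ 𝔖.Tan (P.n + 1) S' X', Ig P.n u ∧ red P.n u = δ := by
  obtain ⟨hok, hX⟩ := h.ok
  have hv := hm.vel_ker h.ok h.good
  have hδ' : δ ∈ 𝔖.Ker P.n S' P.X := ⟨DV_mono le_rfl hm.sub hδ.1, G1 h.ok h.reg h.good hδ⟩
  rw [Ker_ext hok hX hm.sub, ← h.Tan_eq] at hv
  have h1 : ∀ γ ∈ GF (S' \ P.S), ∃ v₂ ∈ DV P.n P.S (Fin 2),
      𝔖.sym P.X (cmpV P.S γ (cf P.n 1 (X' - P.X))) δ + 𝔖.df P.X v₂ = 0 := fun γ hγ =>
    G2' h.ok h.reg h.good (hv.2 γ hγ) hδ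
  choose! u hu e using h1
  have hδ₁ : ∑ γ ∈ GF (S' \ P.S), z γ • u γ ∈ DV P.n S' (Fin 2) :=
    sum_mem fun γ hγ => smul_DV hm.sub (z_mem_D _ hγ) (hu γ hγ)
  have h2 : 𝔖.sym P.X (cf P.n 1 (X' - P.X)) δ + 𝔖.df P.X (∑ γ ∈ GF (S' \ P.S), z γ • u γ) = 0 := by
    rw [← sum_cmpV hm.sub hv.1, sym_apply]
    simp only [map_sum, LinearMap.sum_apply]
    rw [← Finset.sum_add_distrib, ← Finset.sum_add_distrib]
    refine Finset.sum_eq_zero fun γ hγ => ?_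
    have h3 := f2_smul (𝔖 := 𝔖) hX (z_mem_D P.n hγ) (one_mem _) (hv.2 γ hγ).1 δ
    have h4 := f2_smul (𝔖 := 𝔖) hX (one_mem _) (z_mem_D P.n hγ) hδ.1 (cmpV P.S γ (cf P.n 1 (X' - P.X)))
    rw [one_smul] at h3 h4
    rw [h3, h4, df_smul hX (z_mem_D P.n hγ), mul_one, one_mul, ← smul_add, ← smul_add, ← sym_apply, e γ hγ,
      smul_zero]
  obtain ⟨w, hw, w₁, hw₁, h3⟩ := hm.lift_pole' h.ok hm.std hδ' hδ₁ fun c _ => by rw [h2, pair_zero_right]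
  have h4 := DV_In (add_mem hδ₁ hw₁.1)
  refine ⟨w, hw, ?_, ?_⟩
  · have := (h3.ig.add (Ig.smul (t_O _) h4.ig)).add (DV_In hδ.1).ig
    rwa [sub_add_cancel, sub_add_cancel] at this
  · have := red_of_od h3
    rwa [map_sub, map_sub, red_t_smul h4, sub_zero, red_of_In (DV_In hδ.1), sub_eq_zero] at this

theorem St.lift (h : 𝔖.St P ρ) (hr : 𝔖.Reach P P') {δ : V2} (hδ : δ ∈ 𝔖.Tan P.n P.S P.X) :
    ∃ u ∈ 𝔖.Tan P'.n P'.S P'.X, Ig P.n u ∧ red P.n u = δ := by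
  induction hr with
  | refl => exact ⟨δ, hδ, (DV_In hδ.1).ig, red_of_In (DV_In hδ.1)⟩
  | @tail Q Q' hQ hs ih =>
    obtain ⟨S', X', rfl, hm⟩ := hs
    obtain ⟨u, hu, hi, hr⟩ := ih
    obtain ⟨u', hu', hi', hr'⟩ := (h.reach hQ).lift_move hm hu
    have hle := (Reach.ext h.ok hQ).le
    exact ⟨u', hu', (Ig_comp hle u').2 ⟨hi', hr' ▸ hi⟩, by rw [← red_red hle, hr', hr]⟩

/-- vectors of `T ⊗ Δ` lift modulo `W₀` (`lin_hensel` with `l = 0`) -/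
theorem Move.lift_weak (hP : 𝔖.POk P) {X' : V2} (hm : 𝔖.Move P S' X') {W₀ : Submodule (F P.n) V2}
    (hstd : 𝔖.Std P.n S' P.X (cf P.n 1 (X' - P.X)) W₀) {δ : V2} (hδ : δ ∈ 𝔖.Ker P.n S' P.X) :
    ∃ u ∈ 𝔖.Tan (P.n + 1) S' X', ∃ w ∈ W₀, Ig P.n u ∧ red P.n u = δ + w := by
  have hok := hP.1.mono le_rfl hm.sub
  have hX := DV_mono le_rfl hm.sub hP.2
  have hv := hm.vel_mem hP
  have h1 := df_expand hok (DV_In hX) (DV_In hv) (hm.od2 hP) (DV_In hδ.1) (In.zero _)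
  rw [(mem_Ker.1 hδ).2, sub_zero, smul_zero, add_zero, map_zero, add_zero] at h1
  have h2 : Od P.n (0 + 1) (𝔖.df X' δ) := by
    have h3 := (DV_In (add_mem (f2_mem hok hX hv hδ.1) (f2_mem hok hX hδ.1 hv))).ig.tpow 1
    have h4 := (h1.mono (by norm_num : 1 ≤ 2)).add h3
    rwa [pow_one, ← sym_apply, sub_add_cancel] at h4
  obtain ⟨u, hu, w, hw, h3⟩ := lin_hensel hok hX hv hstd hm.mem (hm.od2 hP)
    (DV_mono (Nat.le_succ _) subset_rfl hδ.1) (DV_In hδ.1).ig (Err.of_od h2)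
  rw [pow_zero, one_smul] at h3
  have h4 := DV_In (hstd.1 hw).1
  refine ⟨u, hu, w, hw, ?_, ?_⟩
  · have := (h3.ig.add h4.ig).add (DV_In hδ.1).ig
    rwa [sub_add_cancel, sub_add_cancel] at this
  · have := red_of_od h3
    rwa [map_sub, map_sub, red_of_In h4, red_of_In (DV_In hδ.1), sub_sub, sub_eq_zero] at this

/-- vectors with a pole (`lin_hensel` with `l = 1` from `w + t w'`) -/
theorem Move.lift_pole (hP : 𝔖.POk P) {X' : V2} (hm : 𝔖.Move P S' X') {W₀ : Submodule (F P.n) V2}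
    (hstd : 𝔖.Std P.n S' P.X (cf P.n 1 (X' - P.X)) W₀) {w w' : V2} (hw : w ∈ 𝔖.Ker P.n S' P.X)
    (hw' : w' ∈ DV P.n S' (Fin 2))
    (hp : 𝔖.Perp P.n S' (𝔖.sym P.X (cf P.n 1 (X' - P.X)) w + 𝔖.df P.X w')) :
    ∃ u ∈ 𝔖.Tan (P.n + 1) S' X', ∃ w₁ ∈ W₀, Od P.n 2 (u - w - t P.n • (w' + w₁)) :=
  hm.lift_pole' hP hstd hw hw' hp

/-- The large move.  `pencil_two` for `bet` on `Pen`, `Tan`, `T₀` gives `e₁, e₂`; `v = x e₁ + y e₂`.  Second order: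
each `f2 e_i e_k` is orthogonal to the pencil (antisymmetry), `pen_solve`, then multiply by `x x, x y, y x, y y`.
`Std`: for `c ∈ NA n S'` killing everything and `ω ∈ Δ`, `c₁ = EV S ((x ω - ω x) • c)` and `c₂ = EV S ((y ω - ω y) • c)`
are in the pencil and `⟨c, sym v (ω • u)⟩ = β c₁ e₁ u + β c₂ e₂ u`; so `c₁ = c₂ = 0`, `c ∈ DV n S` by
`mem_D_of_E_comm`, and `Reg` at `P` gives `c = 0`. -/
theorem St.big_move (h : 𝔖.St P ρ) {j : ℕ} (hj : j ∉ P.S) {T₀ : Submodule (F P.n) V2}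
    (hT₀ : T₀ ≤ 𝔖.Tan P.n P.S P.X) {k : ℕ}
    (hk : finrank (F P.n) (𝔖.Tan P.n P.S P.X) ≤ finrank (F P.n) T₀ + k) (hρ : 2 * k + 𝔖.h ≤ ρ)
    {δ₁ δ₂ : V2} (h₁ : δ₁ ∈ 𝔖.Tan P.n P.S P.X) (h₂ : δ₂ ∈ 𝔖.Tan P.n P.S P.X) :
    ∃ e₁ e₂ X', e₁ - δ₁ ∈ T₀ ∧ e₂ - δ₂ ∈ T₀ ∧ 𝔖.Move P (insert j P.S) X' ∧
      cf P.n 1 (X' - P.X) = xj j • e₁ + yj j • e₂ ∧
      𝔖.Std P.n (insert j P.S) P.X (xj j • e₁ + yj j • e₂) (extV P.S (insert j P.S) T₀) := by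
  obtain ⟨hok, hX⟩ := h.ok
  have hS : P.S ⊆ insert j P.S := Finset.subset_insert _ _
  have hpen := finrank_Pen (X := P.X) hok h.reg
  obtain ⟨e₁, e₂, d₁, d₂, h12, hinj⟩ := pencil_two (𝔖.bet P.n P.X) (𝔖.Pen P.n P.S P.X) (𝔖.Tan P.n P.S P.X) T₀
    hT₀ k (2 * 𝔖.h + ρ) h.qq hk (by omega) δ₁ δ₂
  have he₁ : e₁ ∈ 𝔖.Ker P.n P.S P.X := by
    rw [← h.Tan_eq, ← sub_add_cancel e₁ δ₁]; exact add_mem (hT₀ d₁) h₁
  have he₂ : e₂ ∈ 𝔖.Ker P.n P.S P.X := by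
    rw [← h.Tan_eq, ← sub_add_cancel e₂ δ₂]; exact add_mem (hT₀ d₂) h₂
  have hx := xj_mem P.n hj
  have hy := yj_mem P.n hj
  have hv : xj j • e₁ + yj j • e₂ ∈ 𝔖.Ker P.n (insert j P.S) P.X := by
    rw [Ker_ext hok hX hS]
    exact add_mem (smul_mem_extV hS Ker_le hx he₁) (smul_mem_extV hS Ker_le hy he₂)
  -- antisymmetry at `P`
  have anti : ∀ c ∈ 𝔖.Pen P.n P.S P.X, ∀ v ∈ 𝔖.Ker P.n P.S P.X, ∀ w ∈ 𝔖.Ker P.n P.S P.X,
      pair c (𝔖.f2 P.X v w) + pair c (𝔖.f2 P.X w v) = 0 := fun c hc v hv w hw => by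
    rw [← pair_add_right, ← sym_apply]; exact h.pen_sym subset_rfl hc hv hw
  have p12 : ∀ c ∈ 𝔖.Pen P.n P.S P.X, pair c (𝔖.f2 P.X e₁ e₂) = 0 := fun c hc =>
    (bet_eq_zero hok hX (NT_le hc.1) he₁.1 he₂.1).1 (h12 c hc)
  have pdiag : ∀ e ∈ 𝔖.Ker P.n P.S P.X, ∀ c ∈ 𝔖.Pen P.n P.S P.X, pair c (𝔖.f2 P.X e e) = 0 := by
    intro e he c hc
    obtain ⟨v₂, hv₂, e0⟩ := G2 h.ok h.reg h.good (Ker_le_Tan he)
    have h3 := hc.2 v₂ hv₂
    rw [eq_neg_of_add_eq_zero_right e0, ← neg_one_smul KK, pair_smul_right] at h3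
    linear_combination -h3
  -- second order
  have solve : ∀ v ∈ 𝔖.Ker P.n P.S P.X, ∀ w ∈ 𝔖.Ker P.n P.S P.X,
      (∀ c ∈ 𝔖.Pen P.n P.S P.X, pair c (𝔖.f2 P.X v w) = 0) → ∀ ω ∈ D P.n (insert j P.S \ P.S),
      ∀ ω' ∈ D P.n (insert j P.S \ P.S), ∃ u ∈ DV P.n (insert j P.S) (Fin 2),
        𝔖.Perp P.n (insert j P.S) (𝔖.f2 P.X (ω • v) (ω' • w) + 𝔖.df P.X u) := by
    intro v hv w hw h0 ω hω ω' hω'
    obtain ⟨u, hu, hu'⟩ := pen_solve hok hX (DV_In (f2_mem hok hX hv.1 hw.1)) h0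
    refine ⟨(ω * ω') • u, smul_DV hS (mul_mem hω hω') hu, fun c hc => ?_⟩
    rw [f2_smul hX hω hω' hv.1, df_smul hX (mul_mem hω hω'), ← smul_add,
      pair_smul_disj (dj _ _) (mul_mem hω hω') c (add_mem (f2_mem hok hX hv.1 hw.1) (df_mem hok hX hu))]
    exact hu' _ (EV_smul_mem_NT hok hS (mul_mem hω hω') (NA_le hc))
  obtain ⟨u₁, hu₁, q₁⟩ := solve e₁ he₁ e₁ he₁ (pdiag e₁ he₁) _ hx _ hx
  obtain ⟨u₂, hu₂, q₂⟩ := solve e₁ he₁ e₂ he₂ p12 _ hx _ hy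
  obtain ⟨u₃, hu₃, q₃⟩ := solve e₂ he₂ e₁ he₁
    (fun c hc => by linear_combination anti c hc e₁ he₁ e₂ he₂ - p12 c hc) _ hy _ hx
  obtain ⟨u₄, hu₄, q₄⟩ := solve e₂ he₂ e₂ he₂ (pdiag e₂ he₂) _ hy _ hy
  have h2 : 𝔖.Perp P.n (insert j P.S) (𝔖.f2 P.X (xj j • e₁ + yj j • e₂) (xj j • e₁ + yj j • e₂) +
      𝔖.df P.X (u₁ + u₂ + u₃ + u₄)) := by
    intro c hc
    have a₁ := q₁ c hc
    have a₂ := q₂ c hc
    have a₃ := q₃ c hc
    have a₄ := q₄ c hc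
    simp only [map_add, LinearMap.add_apply, pair_add_right] at a₁ a₂ a₃ a₄ ⊢
    linear_combination a₁ + a₂ + a₃ + a₄
  have hT₀' : T₀ ≤ 𝔖.Ker P.n P.S P.X := h.Tan_eq ▸ hT₀
  have hstd : 𝔖.Std P.n (insert j P.S) P.X (xj j • e₁ + yj j • e₂) (extV P.S (insert j P.S) T₀) := by
    refine ⟨by rw [Ker_ext hok hX hS]; exact extV_mono hT₀', fun c hc hk hs => ?_⟩
    have hE : ∀ ω ∈ D P.n (insert j P.S \ P.S), EV P.S (ω • c) ∈ 𝔖.Pen P.n P.S P.X := fun ω hω =>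
      ⟨EV_smul_mem_NT hok hS hω (NA_le hc), hk.EV_smul hok hX hS hω⟩
    have key : ∀ ω ∈ D P.n (insert j P.S \ P.S), EV P.S ((xj j * ω - ω * xj j) • c) = 0 ∧
        EV P.S ((yj j * ω - ω * yj j) • c) = 0 := by
      intro ω hω
      refine hinj _ (hE _ (sub_mem (mul_mem hx hω) (mul_mem hω hx))) _
        (hE _ (sub_mem (mul_mem hy hω) (mul_mem hω hy))) fun u hu => Subtype.ext ?_
      have hu' := hT₀' hu
      have b0 := hs _ (smul_mem_extV hS (hT₀'.trans Ker_le) hω hu)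
      have b1 := anti _ (hE _ (mul_mem hω hx)) e₁ he₁ u hu'
      have b2 := anti _ (hE _ (mul_mem hω hy)) e₂ he₂ u hu'
      simp only [sym_apply, map_add, LinearMap.add_apply, pair_add_right] at b0
      rw [f2_smul hX hx hω he₁.1, f2_smul hX hy hω he₂.1, f2_smul hX hω hx hu'.1, f2_smul hX hω hy hu'.1,
        pair_smul_disj (dj _ _) (mul_mem hx hω) c (f2_mem hok hX he₁.1 hu'.1),
        pair_smul_disj (dj _ _) (mul_mem hy hω) c (f2_mem hok hX he₂.1 hu'.1),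
        pair_smul_disj (dj _ _) (mul_mem hω hx) c (f2_mem hok hX hu'.1 he₁.1),
        pair_smul_disj (dj _ _) (mul_mem hω hy) c (f2_mem hok hX hu'.1 he₂.1)] at b0
      rw [Subfield.coe_add, bet_val, bet_val, ← map_add, sub_smul, sub_smul, map_sub, map_sub, pair_sub_left,
        pair_sub_left, Subfield.coe_zero, ← map_zero (r P.n)]
      congr 1
      linear_combination b0 - b1 - b2
    have hcD : ∀ i, c i ∈ D P.n P.S := fun i =>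
      mem_D_of_E_comm hj (mem_DV.1 (NT_le (NA_le hc)) i) (fun ω hω => congrFun (key ω hω).1 i)
        fun ω hω => congrFun (key ω hω).2 i
    have hEc : EV P.S c = c := funext fun i => E_of_mem (hcD i)
    exact h.reg c (hEc ▸ ((mem_NA_ext hok hS).1 hc).2) fun δ hδ => hk δ (DV_mono le_rfl hS hδ)
  obtain ⟨X', hm, hcf, -⟩ := exists_move h.ok h.good.ev hS hv.1
    (add_mem (add_mem (add_mem hu₁ hu₂) hu₃) hu₄) (fun c _ => by rw [(mem_Ker.1 hv).2, pair_zero_right]) h2 hstd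
  exact ⟨e₁, e₂, X', d₁, d₂, hm, hcf, hstd⟩

end Sys

end Crest.Agent.R180
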