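import Crest.Agent.R180.EP

/-!
# Row 180, the special moves with leading term `x + v y`, and the new block
-/

set_option autoImplicit false
set_option linter.unusedSectionVars false

namespace Crest.Agent.R180

open Module Polynomial

namespace Sys

variable (𝔖 : Sys) (a : NP)

/-- a move whose velocity has `dg v = p'(a) w (x + v y)`, with corrections killed by `dg` -/
structure Sp (P : Pt) (j : ℕ) (w v : A) (X' : V2) : Prop where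
  hj : j ∉ P.S
  hw : w ∈ 𝔖.WW a P
  w0 : w ≠ 0
  hv : w * v ∈ 𝔖.WW a P
  mv : 𝔖.Move P (insert j P.S) X'
  std : 𝔖.Std P.n (insert j P.S) P.X (cf P.n 1 (X' - P.X)) (extV P.S (insert j P.S) (𝔖.T0 a P))
  lead : (gg a P).d1 P.X (cf P.n 1 (X' - P.X)) = dp a P * w * (xj j + v * yj j)

/-- the orthogonal of `w⁻¹ WW` in `L0` -/
noncomputable def Vp (P : Pt) (w : A) : Submodule (F P.n) A :=
  Ann (Subalgebra.toSubmodule (𝔖.L0 a P)) w⁻¹ (𝔖.WW a P)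

/-- `(p'(a) w)⁻¹ L0` -/
noncomputable def NTa (P : Pt) (w : A) : Submodule (F P.n) A :=
  (Subalgebra.toSubmodule (𝔖.L0 a P)).map (LinearMap.mulRight (F P.n) (dp a P * w)⁻¹)

/-- the new part of the pencil -/
noncomputable def Pa (P : Pt) (w : A) : Submodule (F P.n) A := Ann (𝔖.NTa a P w) 1 (𝔖.DG (gg a P) P)

/-- the data of the new block -/
structure NewData (P : Pt) where
  w : A
  NA : Submodule (F P.n) A
  pok : 𝔖.POk P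
  cin : a.cin P.n
  hw : w ∈ 𝔖.WW a P
  w0 : w ≠ 0
  le : NA ≤ 𝔖.NTa a P w
  inf : NA ⊓ 𝔖.Pa a P w = ⊥
  sup : NA ⊔ 𝔖.Pa a P w = 𝔖.NTa a P w

variable {𝔖 a} {P P' : Pt} {ρ : ℕ}

theorem mem_NTa {w c : A} : c ∈ 𝔖.NTa a P w ↔ ∃ l ∈ 𝔖.L0 a P, l * (dp a P * w)⁻¹ = c := Iff.rfl

theorem mem_Pa {w c : A} :
    c ∈ 𝔖.Pa a P w ↔ c ∈ 𝔖.NTa a P w ∧ ∀ ρ ∈ 𝔖.DG (gg a P) P, τ (c * ρ) = 0 := by
  simp [Pa, mem_Ann]

theorem dpw_mem_CC (hP : 𝔖.POk P) (ha : a.cin P.n) {w : A} (hw : w ∈ 𝔖.WW a P) : dp a P * w ∈ CC a P :=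
  mul_mem (Lf_le_Cen (eval_mem_D hP ha) dp_mem) (WW_le_CC hw)

theorem NTa_le_CC (hP : 𝔖.POk P) (ha : a.cin P.n) {w : A} (hw : w ∈ 𝔖.WW a P) {c : A}
    (hc : c ∈ 𝔖.NTa a P w) : c ∈ CC a P := by
  obtain ⟨l, hl, rfl⟩ := mem_NTa.1 hc
  exact mul_mem (L0_le_CC hl) (inv_mem_alg _ (dpw_mem_CC hP ha hw))

/-- the new block -/
noncomputable def NewData.block (d : 𝔖.NewData a P) : Block where
  f := gg a P
  n0 := P.n
  S0 := P.S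
  NT := 𝔖.NTa a P d.w
  NA := d.NA
  hf := gg_cin d.cin
  hle := d.le
  hD := fun _ hc => Cen_le _ _ _ (NTa_le_CC d.pok d.cin d.hw hc)

theorem exists_newData (hP : 𝔖.POk P) (ha : a.cin P.n) {w : A} (hw : w ∈ 𝔖.WW a P) (w0 : w ≠ 0) :
    Nonempty (𝔖.NewData a P) := by
  obtain ⟨Q, hQ⟩ := Submodule.exists_isCompl (𝔖.Pa a P w)
  have hle : 𝔖.Pa a P w ≤ 𝔖.NTa a P w := Ann_le _ _ _
  refine ⟨⟨w, Q ⊓ 𝔖.NTa a P w, hP, ha, hw, w0, inf_le_right, ?_, ?_⟩⟩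
  · rw [eq_bot_iff, ← hQ.inf_eq_bot]
    exact fun c hc => ⟨hc.2, hc.1.1⟩
  · rw [sup_comm, ← sup_inf_assoc_of_le _ hle, hQ.sup_eq_top, top_inf_eq]

theorem finrank_map_mulRight {n : ℕ} (U : Submodule (F n) A) {u : A} (hu : u ≠ 0) :
    finrank (F n) (U.map (LinearMap.mulRight (F n) u)) = finrank (F n) U :=
  (Submodule.equivMapOfInjective _ (fun _ _ h => mul_right_cancel₀ hu h) U).finrank_eq.symm

theorem finrank_map_mulLeft {n : ℕ} (U : Submodule (F n) A) {u : A} (hu : u ≠ 0) :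
    finrank (F n) (U.map (LinearMap.mulLeft (F n) u)) = finrank (F n) U :=
  (Submodule.equivMapOfInjective (LinearMap.mulLeft (F n) u) (fun _ _ h => mul_left_cancel₀ hu h) U).finrank_eq.symm

theorem finrank_NTa (hP : 𝔖.POk P) (ha : a.cin P.n) {w : A} (w0 : w ≠ 0) :
    finrank (F P.n) (𝔖.NTa a P w) = 𝔖.n0 a P :=
  finrank_map_mulRight _ (inv_ne_zero (mul_ne_zero (dp_ne hP ha) w0))

theorem finrank_Vp (h : 𝔖.St P ρ) (ha : a.cin P.n) (hg : 𝔖.MinG a P) {w : A} (hw : w ∈ 𝔖.WW a P) (w0 : w ≠ 0) :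
    finrank (F P.n) (𝔖.Vp a P w) = 𝔖.ee a P := by
  have h1 := finrank_Ann (𝔖.L0 a P) L0_le_D (inv_ne_zero w0) (𝔖.WW a P)
    fun _ hρ => inv_mul_mem_L0 h ha hg hw hρ
  unfold ee n0 Vp
  omega

/-- `Pa = (Ann L0 (p'(a) w)⁻¹ DG) (p'(a) w)⁻¹` -/
theorem finrank_Pa (h : 𝔖.St P ρ) (ha : a.cin P.n) (hg : 𝔖.MinG a P) {w : A} (hw : w ∈ 𝔖.WW a P) (w0 : w ≠ 0) :
    finrank (F P.n) (𝔖.Pa a P w) = 𝔖.ee a P := by
  have h0 : (dp a P * w)⁻¹ ≠ 0 := inv_ne_zero (mul_ne_zero (dp_ne h.ok ha) w0)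
  have h1 := finrank_Ann (𝔖.L0 a P) L0_le_D h0 (𝔖.DG (gg a P) P) fun _ hρ => DG_inv_mem_L0 h ha hg hw hρ
  have h2 : 𝔖.Pa a P w = (Ann (Subalgebra.toSubmodule (𝔖.L0 a P)) (dp a P * w)⁻¹ (𝔖.DG (gg a P) P)).map
      (LinearMap.mulRight (F P.n) (dp a P * w)⁻¹) := by
    ext c
    rw [mem_Pa, mem_NTa]
    constructor
    · rintro ⟨⟨l, hl, rfl⟩, h3⟩
      exact ⟨l, ⟨hl, h3⟩, rfl⟩
    · rintro ⟨l, ⟨hl, h3⟩, rfl⟩
      exact ⟨⟨l, hl, rfl⟩, h3⟩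
  rw [h2, finrank_map_mulRight _ h0]
  rw [finrank_DG_gg h.ok ha] at h1
  unfold ee n0
  omega

theorem NewData.h_eq (d : 𝔖.NewData a P) (h : 𝔖.St P ρ) (hg : 𝔖.MinG a P) : d.block.h = 𝔖.ee a P := by
  have : FiniteDimensional (F P.n) (𝔖.NTa a P d.w) := d.block.NT0_fd
  have : FiniteDimensional (F P.n) d.NA := d.block.NA0_fd
  have : FiniteDimensional (F P.n) (𝔖.Pa a P d.w) := Ann_fd _ _ _
  have h1 := Submodule.finrank_sup_add_finrank_inf_eq d.NA (𝔖.Pa a P d.w)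
  rw [d.sup, d.inf, finrank_bot, finrank_Pa h d.cin hg d.hw d.w0] at h1
  change finrank (F P.n) (𝔖.NTa a P d.w) - finrank (F P.n) d.NA = _
  omega

/-- on `Tan` the old equations vanish, so `c 0` lies in `NA ⊓ Pa` -/
theorem NewData.reg (d : 𝔖.NewData a P) (h : 𝔖.St P ρ) : (𝔖.cons d.block).Reg P.n P.S P.X := by
  intro c hc hk
  obtain ⟨h1, h2⟩ := cons_mem_NA.1 hc
  have h3 : c (0 : Fin (𝔖.N + 1)) ∈ d.NA := by
    have h4 := (Block.sA_base (b := d.block)).le h1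
    exact h4
  have hk' : ∀ δ ∈ DV P.n P.S (Fin 2), τ (c (0 : Fin (𝔖.N + 1)) * (gg a P).d1 P.X δ) +
      pair (Fin.tail (c : Fin (𝔖.N + 1) → A)) (𝔖.df P.X δ) = 0 := fun δ hδ => by
    have h4 := hk δ hδ
    rw [cons_df] at h4
    exact (pair_cons _ _ _).symm.trans h4
  have h4 : c (0 : Fin (𝔖.N + 1)) ∈ 𝔖.Pa a P d.w := by
    refine mem_Pa.2 ⟨d.le h3, ?_⟩
    rintro _ ⟨δ, hδ, rfl⟩
    have h5 := hk' δ hδ.1
    rw [h.Tan_eq] at hδ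
    rwa [(mem_Ker.1 hδ).2, pair_zero_right, add_zero] at h5
  have h5 : c (0 : Fin (𝔖.N + 1)) = 0 := by
    have h6 : c (0 : Fin (𝔖.N + 1)) ∈ d.NA ⊓ 𝔖.Pa a P d.w := ⟨h3, h4⟩
    rwa [d.inf, Submodule.mem_bot] at h6
  have h6 : Fin.tail (c : Fin (𝔖.N + 1) → A) = 0 := h.reg _ h2 fun δ hδ => by
    have h7 := hk' δ hδ
    rwa [h5, zero_mul, map_zero, zero_add] at h7
  exact funext fun i : Fin (𝔖.N + 1) => Fin.cases h5 (fun j => congrFun h6 j) i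

/-- an element of `p'(a) w (L0 ⊗ Δ)` orthogonal to the new `sA` and to `Pa` vanishes: test with
`c = ((p'(a) w)⁻¹ y)⁻¹ (p'(a) w)⁻¹`, and split `E S c ∈ NTa = NA ⊔ Pa` -/
theorem NewData.eq_zero (d : 𝔖.NewData a P) {S' : Finset ℕ} (hS : P.S ⊆ S') {y : A}
    (hy : (dp a P * d.w)⁻¹ * y ∈ ext P.S S' (Subalgebra.toSubmodule (𝔖.L0 a P)))
    (h1 : ∀ c ∈ d.block.sA P.n S', τ (c * y) = 0) (h2 : ∀ c ∈ 𝔖.Pa a P d.w, τ (c * y) = 0) : y = 0 := by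
  by_contra y0
  have h0 : (dp a P * d.w)⁻¹ ≠ 0 := inv_ne_zero (mul_ne_zero (dp_ne d.pok d.cin) d.w0)
  have hD : (dp a P * d.w)⁻¹ ∈ D P.n P.S := Cen_le _ _ _ (inv_mem_alg _ (dpw_mem_CC d.pok d.cin d.hw))
  have : FiniteDimensional (F P.n) (extA hS (𝔖.L0 a P) L0_le_D) := ext_fd
  have h3 : ((dp a P * d.w)⁻¹ * y)⁻¹ ∈ ext P.S S' (Subalgebra.toSubmodule (𝔖.L0 a P)) :=
    inv_mem_alg (extA hS (𝔖.L0 a P) L0_le_D) hy
  have h4 : ((dp a P * d.w)⁻¹ * y)⁻¹ * (dp a P * d.w)⁻¹ ∈ ext P.S S' (𝔖.NTa a P d.w) :=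
    ⟨mul_mem h3.1 (D_mono le_rfl hS hD), fun γ hγ => by
      rw [cmp_mul_right γ _ hD]
      exact ⟨_, h3.2 γ hγ, rfl⟩⟩
  have h5 := E_mem_of_ext h4
  rw [← d.sup] at h5
  obtain ⟨c₁, hc₁, c₂, hc₂, e⟩ := Submodule.mem_sup.1 h5
  have hc₂' : c₂ ∈ 𝔖.NTa a P d.w := Ann_le _ _ _ hc₂
  have h6 : ((dp a P * d.w)⁻¹ * y)⁻¹ * (dp a P * d.w)⁻¹ - c₂ ∈ d.block.sA P.n S' := by
    refine Block.mem_sA.2 ⟨?_, ?_⟩
    · change _ ∈ ext P.S S' (bc P.n (𝔖.NTa a P d.w))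
      rw [bc_self]
      exact sub_mem h4 (mem_ext_of_mem hS d.block.hD hc₂')
    · change E P.S _ ∈ bc P.n d.NA
      rw [bc_self, map_sub, ← e, E_of_mem (S := P.S) (d.block.hD _ hc₂'), add_sub_cancel_right]
      exact hc₁
  have h7 := h1 _ h6
  rw [sub_mul, map_sub, h2 _ hc₂, sub_zero, mul_assoc, inv_mul_cancel₀ (mul_ne_zero h0 y0), τ_one] at h7
  exact one_ne_zero h7

theorem NewData.Tan_eq (d : 𝔖.NewData a P) (h : 𝔖.St P ρ) (hg : 𝔖.MinG a P) :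
    (𝔖.cons d.block).Tan P.n P.S P.X = 𝔖.T0 a P := by
  ext δ
  rw [cons_mem_Tan, mem_T0]
  refine and_congr_right fun hδ => ⟨fun h1 => ?_, fun h1 c _ => ?_⟩
  · have h2 : (gg a P).d1 P.X δ ∈ 𝔖.DG (gg a P) P := mem_DG.2 ⟨δ, hδ, rfl⟩
    exact d.eq_zero le_rfl (mem_ext_of_mem le_rfl (fun _ hy => L0_le_D hy) (DG_inv_mem_L0 h d.cin hg d.hw h2))
      h1 fun c hc => (mem_Pa.1 hc).2 _ h2
  · change τ (c * (gg a P).d1 P.X δ) = 0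
    rw [h1, mul_zero, map_zero]

theorem NewData.finrank_sA (d : 𝔖.NewData a P) (h : 𝔖.St P ρ) (hg : 𝔖.MinG a P) {m : ℕ} (hm : P.n ≤ m)
    {S' : Finset ℕ} (hS : P.S ⊆ S') :
    finrank (F m) (d.block.sA m S') + 𝔖.ee a P = 𝔖.n0 a P * ν (S' \ P.S) := by
  rw [← d.h_eq h hg, Block.finrank_sA (b := d.block) hm hS, Block.finrank_sT (b := d.block) hm hS,
    ← finrank_NTa d.pok d.cin d.w0]
  rfl

/-- `St.big_move` with `T₀ = T0`, `δ₁, δ₂` tangent vectors with projections `w`, `w v` -/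
theorem Base.exists_sp (h : 𝔖.Base a P ρ) (hρ : 2 * finrank (F P.n) (LL a P) + 𝔖.h ≤ ρ) {j : ℕ} (hj : j ∉ P.S)
    {w v : A} (hw : w ∈ 𝔖.WW a P) (w0 : w ≠ 0) (hv : w * v ∈ 𝔖.WW a P) : ∃ X', 𝔖.Sp a P j w v X' := by
  have hP := h.st.ok
  obtain ⟨δ₁, h₁, p₁⟩ := mem_WW.1 hw
  obtain ⟨δ₂, h₂, p₂⟩ := mem_WW.1 hv
  have hL : LL a P ≤ D P.n P.S := (Lf_le_Cen (eval_mem_D hP h.cin)).trans (Cen_le _ _ _)
  have : FiniteDimensional (F P.n) (Subalgebra.toSubmodule (LL a P)) := fdA_of_le_D _ hL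
  have hW : finrank (F P.n) (𝔖.WW a P) ≤ finrank (F P.n) (Subalgebra.toSubmodule (LL a P)) :=
    Submodule.finrank_mono fun _ hb => WW_le_LL h.st h.cin h.ming hb
  obtain ⟨e₁, e₂, X', d₁, d₂, hm, hcf, hstd⟩ := h.st.big_move hj (T0_le (a := a))
    (k := finrank (F P.n) (LL a P)) (by rw [finrank_Tan_T0 hP h.cin]; exact Nat.add_le_add_left hW _) hρ h₁ h₂
  refine ⟨X', hj, hw, w0, hv, hm, hcf ▸ hstd, ?_⟩
  have hX : ∀ ω ∈ D P.n (insert j P.S \ P.S), ∀ y ∈ D P.n P.S, ω * y = y * ω := fun ω hω y hy =>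
    D_comm Finset.sdiff_disjoint hω hy
  have key : ∀ e δ b, e - δ ∈ 𝔖.T0 a P → δ ∈ 𝔖.Tan P.n P.S P.X → IsPr (CC a P) (a.d1 P.X δ) b →
      (gg a P).d1 P.X e = dp a P * b := fun e δ b h1 h2 h3 => by
    rw [← sub_add_cancel e δ, NP.d1_add, (mem_T0.1 h1).2, zero_add, dg_of_isPr hP h.cin h2.1 h3]
  rw [hcf, NP.d1_add, NP.d1_mul fun i => hX _ (xj_mem _ hj) _ (mem_DV.1 hP.2 i),
    NP.d1_mul fun i => hX _ (yj_mem _ hj) _ (mem_DV.1 hP.2 i), key _ _ _ d₁ h₁ p₁, key _ _ _ d₂ h₂ p₂,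
    hX _ (xj_mem _ hj) _ (Cen_le _ _ _ (dpw_mem_CC hP h.cin hw)),
    hX _ (yj_mem _ hj) _ (Cen_le _ _ _ (dpw_mem_CC hP h.cin hv))]
  simp only [mul_add, mul_assoc]

section
variable {j : ℕ} {w v : A} {X' : V2}

theorem Sp.v_mem (hs : 𝔖.Sp a P j w v X') (h : 𝔖.Base a P ρ) : v ∈ 𝔖.L0 a P := by
  have h1 := inv_mul_mem_L0 h.st h.cin h.ming hs.hw hs.hv
  rwa [inv_mul_cancel_left₀ hs.w0] at h1

theorem Sp.eta_mem (hs : 𝔖.Sp a P j w v X') (h : 𝔖.Base a P ρ) :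
    xj j + v * yj j ∈ ext P.S (insert j P.S) (Subalgebra.toSubmodule (𝔖.L0 a P)) := by
  have hS := Finset.subset_insert j P.S
  have hD : ∀ y ∈ Subalgebra.toSubmodule (𝔖.L0 a P), y ∈ D P.n P.S := fun _ hy => L0_le_D hy
  refine add_mem ?_ ?_
  · have h1 := mul_mem_ext hS (xj_mem P.n hs.hj) (mem_ext_of_mem hS hD (one_mem (𝔖.L0 a P)))
    rwa [mul_one] at h1
  · rw [← D_comm Finset.sdiff_disjoint (yj_mem P.n hs.hj) (L0_le_D (hs.v_mem h))]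
    exact mul_mem_ext hS (yj_mem P.n hs.hj) (mem_ext_of_mem hS hD (hs.v_mem h))

/-- the corrections are killed by `dg` (`cmp_d1`, `eq_zero_of_cmp`) -/
theorem Sp.dg_W (hs : 𝔖.Sp a P j w v X') (h : 𝔖.Base a P ρ) {u : V2}
    (hu : u ∈ extV P.S (insert j P.S) (𝔖.T0 a P)) : (gg a P).d1 P.X u = 0 := by
  have hS := Finset.subset_insert j P.S
  have _ := hs
  refine eq_zero_of_cmp hS (NP.d1_mem _ (mem_DV.1 (DV_mono le_rfl hS h.st.ok.2)) (mem_DV.1 hu.1) (gg_cin h.cin))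
    fun γ hγ => ?_
  rw [NP.cmp_d1 h.st.ok.2 hγ u (gg_cin h.cin)]
  exact (mem_T0.1 (hu.2 γ hγ)).2

/-- `t⁻¹ p(a')` is integral and reduces to `p'(a) w η` -/
theorem Sp.lead' (hs : 𝔖.Sp a P j w v X') (h : 𝔖.Base a P ρ) :
    Od P.n 1 ((gg a P).eval X') ∧ cf P.n 1 ((gg a P).eval X') = dp a P * w * (xj j + v * yj j) := by
  have hP := h.st.ok
  have hv := hs.mv.vel_mem hP
  have h1 := eval_expand1 (gg_cin (P := P) h.cin) (DV_In hP.2) (DV_In hv) (hs.mv.od2 hP)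
  have h2 : In P.n (dp a P * w * (xj j + v * yj j)) := by
    rw [← hs.lead]
    exact D_In (NP.d1_mem _ (mem_DV.1 (DV_mono le_rfl hs.mv.sub hP.2)) (mem_DV.1 hv) (gg_cin h.cin))
  rw [gg_eval, sub_zero, hs.lead] at h1
  have e : (gg a P).eval X' = ((gg a P).eval X' - t P.n • (dp a P * w * (xj j + v * yj j))) +
      t P.n ^ 1 • (dp a P * w * (xj j + v * yj j)) := by rw [pow_one, sub_add_cancel]
  rw [e]
  exact ⟨(h1.mono (by omega)).add (h2.ig.tpow 1), by rw [cf_add, h1.cf_eq_zero, cf_tpow_In 1 h2, zero_add]⟩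

theorem Sp.ext_le (hs : 𝔖.Sp a P j w v X') (h : 𝔖.Base a P ρ) :
    ext P.S (insert j P.S) (𝔖.DG (gg a P) P) ≤ Red P.n (𝔖.DG (gg a P) ⟨P.n + 1, insert j P.S, X'⟩) := by
  intro y hy
  obtain ⟨u, hu, hi, e⟩ := h.st.ext_DG_lift hs.mv (gg_cin h.cin) hs.std (fun _ hw => hs.dg_W h hw) hy
  have hX := hs.mv.ig h.st.ok
  rw [← e, ← hs.mv.red_eq h.st.ok, ← NP.red_d1 hX hi (gg_cin h.cin)]
  exact red_mem_Red (mem_DG.2 ⟨u, hu, rfl⟩) (NP.d1_ig hX hi (gg_cin h.cin))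

theorem Sp.epc (hs : 𝔖.Sp a P j w v X') (h : 𝔖.Base a P ρ) :
    𝔖.EPC a P w (xj j + v * yj j) (j + 2) ⟨P.n + 1, insert j P.S, X'⟩ := by
  have hP := h.st.ok
  have hS := Finset.subset_insert j P.S
  refine h.ep hs.hw hs.w0 hs.mv.reach
    (eta_xy hs.hj (eval_mem_D hP h.cin) (L0_le_LL h.st h.cin h.ming (hs.v_mem h)))
    ⟨(t P.n)⁻¹ ^ 1, tinv_mem _ _, (hs.lead' h).1, (hs.lead' h).2⟩ (hs.ext_le h ?_)
  have hD : ∀ y ∈ 𝔖.DG (gg a P) P, y ∈ D P.n P.S := fun _ hy => DG_mem_D hP (gg_cin h.cin) hy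
  have h1 : dp a P * w ∈ 𝔖.DG (gg a P) P := (mem_DG_gg hP h.cin).2 ⟨_, hs.hw, rfl⟩
  have h2 : dp a P * (w * v) ∈ 𝔖.DG (gg a P) P := (mem_DG_gg hP h.cin).2 ⟨_, hs.hv, rfl⟩
  rw [mul_add, ← mul_assoc, mul_assoc _ w v, ← D_comm Finset.sdiff_disjoint (xj_mem P.n hs.hj) (hD _ h1),
    ← D_comm Finset.sdiff_disjoint (yj_mem P.n hs.hj) (hD _ h2)]
  exact add_mem (mul_mem_ext hS (xj_mem P.n hs.hj) (mem_ext_of_mem hS hD h1))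
    (mul_mem_ext hS (yj_mem P.n hs.hj) (mem_ext_of_mem hS hD h2))

/-- `EPC.c3` and `finrank_le_of_chain` with `N = Vp` -/
theorem Sp.ee_le (hs : 𝔖.Sp a P j w v X') (h : 𝔖.Base a P ρ) {k : ℕ}
    (hk : ∀ g ∈ 𝔖.Vp a P w, (∀ i ≤ k, v ^ i * g ∈ 𝔖.Vp a P w) → g = 0) :
    𝔖.ee a ⟨P.n + 1, insert j P.S, X'⟩ ≤ k * 𝔖.ee a P := by
  have hP := h.st.ok
  have hS := Finset.subset_insert j P.S
  have hv := hs.v_mem h
  have hvD := L0_le_D hv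
  have hD : ∀ y ∈ 𝔖.DG (gg a P) P, y ∈ D P.n P.S := fun _ hy => DG_mem_D hP (gg_cin h.cin) hy
  have : FiniteDimensional (F P.n) (Subalgebra.toSubmodule (𝔖.L0 a P)) := L0_fd
  have : FiniteDimensional (F P.n) (𝔖.Vp a P w) := Ann_fd _ _ _
  rw [← finrank_Vp h.st h.cin h.ming hs.hw hs.w0]
  refine (hs.epc h).c3.trans (finrank_le_of_chain hs.hj hvD _ _ k hk fun μ hμ => ?_)
  obtain ⟨h1, h2⟩ := mem_Ann.1 hμ
  have h3 := L0e_le_ext hS (hs.eta_mem h) h1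
  refine ⟨⟨h3.1, fun γ hγ => mem_Ann.2 ⟨h3.2 γ hγ, fun b hb => ?_⟩⟩, ?_, ?_⟩
  · have h4 : dp a P * b ∈ 𝔖.DG (gg a P) P := (mem_DG_gg hP h.cin).2 ⟨_, hb, rfl⟩
    have h5 := h2 _ (hs.ext_le h (mul_mem_ext hS (z_inv_mem_D P.n hγ) (mem_ext_of_mem hS hD h4)))
    rw [D_comm Finset.sdiff_disjoint (z_inv_mem_D P.n hγ) (hD _ h4), ← mul_assoc, τ_comm, mul_inv_rev,
      mul_assoc μ, mul_assoc w⁻¹, inv_mul_cancel_left₀ (dp_ne hP h.cin), ← mul_assoc,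
      τ_mul_E (L0_le_D (inv_mul_mem_L0 h.st h.cin h.ming hs.hw hb))] at h5
    rw [mul_assoc, cmp_apply]
    exact h5
  · exact (L0e_comm h.st h.cin h.ming h1
      (eta_xy hs.hj (eval_mem_D hP h.cin) (L0_le_LL h.st h.cin h.ming hv)).comm rfl).symm
  · refine (L0e_comm h.st h.cin h.ming h1 (Lf_comm (L0_le_LL h.st h.cin h.ming hv) rfl).symm ?_).symm
    rw [add_mul, mul_add, mul_assoc, D_comm Finset.sdiff_disjoint (xj_mem P.n hs.hj) hvD,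
      D_comm Finset.sdiff_disjoint (yj_mem P.n hs.hj) hvD]

end

/-- `exists_primitive_mem` for `w⁻¹ WW`, then `pow_chain`; `1 ∉ Vp` -/
theorem Base.exists_prim (h : 𝔖.Base a P ρ) {w : A} (hw : w ∈ 𝔖.WW a P) (w0 : w ≠ 0) :
    ∃ v, w * v ∈ 𝔖.WW a P ∧ ∀ g ∈ 𝔖.Vp a P w, (∀ i ≤ 𝔖.ee a P, v ^ i * g ∈ 𝔖.Vp a P w) → g = 0 := by
  have hP := h.st.ok
  have hV : ∀ y ∈ (𝔖.WW a P).map (LinearMap.mulLeft (F P.n) w⁻¹), y ∈ 𝔖.L0 a P := by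
    rintro _ ⟨b, hb, rfl⟩
    exact inv_mul_mem_L0 h.st h.cin h.ming hw hb
  obtain ⟨v, hv, e⟩ := exists_primitive_mem (eval_mem_D hP h.cin)
    ((𝔖.WW a P).map (LinearMap.mulLeft (F P.n) w⁻¹)) fun y hy => L0_le_LL h.st h.cin h.ming (hV y hy)
  have hvD := L0_le_D (hV v hv)
  have : FiniteDimensional (F P.n) (Lf P.n v) := fdA_of_le_D _ ((Lf_le_Cen hvD).trans (Cen_le _ _ _))
  have hW : ∀ b ∈ 𝔖.WW a P, w⁻¹ * b ∈ Lf P.n v := fun b hb => by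
    rw [e]
    exact Algebra.subset_adjoin ⟨b, hb, rfl⟩
  have hL : 𝔖.L0 a P ≤ Lf P.n v := by
    refine Algebra.adjoin_le ?_
    rintro _ ⟨w₁, h₁, w₂, h₂, rfl⟩
    have h3 := mul_mem (hW _ h₁) (inv_mem_alg _ (hW _ h₂))
    have h4 : w₁ * w₂⁻¹ ∈ CC a P := mul_mem (WW_le_CC h₁) (inv_mem_alg _ (WW_le_CC h₂))
    rwa [mul_inv_rev, inv_inv, mul_assoc, ← mul_assoc w₁,
      ← Lf_comm (WW_le_LL h.st h.cin h.ming hw) ((mem_Cen.1 h4).2 _ rfl), inv_mul_cancel_left₀ w0] at h3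
  refine ⟨v, ?_, fun g hg hk => ?_⟩
  · obtain ⟨b, hb, rfl⟩ := hv
    rwa [LinearMap.mulLeft_apply, mul_inv_cancel_left₀ w0]
  by_contra g0
  have : FiniteDimensional (F P.n) (Subalgebra.toSubmodule (𝔖.L0 a P)) := L0_fd
  have : FiniteDimensional (F P.n) (𝔖.Vp a P w) := Ann_fd _ _ _
  have h1 := pow_chain hvD (hL (mem_Ann.1 hg).1) g0 (𝔖.Vp a P w) (finrank_Vp h.st h.cin h.ming hw w0).le hk 1
    (one_mem _)
  have h2 := (mem_Ann.1 h1).2 w hw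
  rw [one_mul, inv_mul_cancel₀ w0, τ_one] at h2
  exact one_ne_zero h2

/-- `pencil_one` for `β c x y = τ (c x y)` on `L0`, `N = Vp`, `U = w⁻¹ WW` -/
theorem Base.exists_good (h : 𝔖.Base a P ρ) (hE : 3 * 𝔖.ee a P ≤ 𝔖.n0 a P) {w : A} (hw : w ∈ 𝔖.WW a P)
    (w0 : w ≠ 0) :
    ∃ v, w * v ∈ 𝔖.WW a P ∧ ∀ g ∈ 𝔖.Vp a P w, (∀ i ≤ 1, v ^ i * g ∈ 𝔖.Vp a P w) → g = 0 := by
  have hP := h.st.ok
  have hV : (𝔖.WW a P).map (LinearMap.mulLeft (F P.n) w⁻¹) ≤ Subalgebra.toSubmodule (𝔖.L0 a P) := by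
    rintro _ ⟨b, hb, rfl⟩
    exact inv_mul_mem_L0 h.st h.cin h.ming hw hb
  have : FiniteDimensional (F P.n) (Subalgebra.toSubmodule (𝔖.L0 a P)) := L0_fd
  have : FiniteDimensional (F P.n) (𝔖.Vp a P w) := Ann_fd _ _ _
  have hI : ∀ y ∈ 𝔖.L0 a P, In P.n y := fun _ hy => D_In (L0_le_D hy)
  obtain ⟨v, hv, hk⟩ := pencil_one ((LinearMap.mul (F P.n) A).compr₂ (tB P.n)) (𝔖.Vp a P w)
    (Subalgebra.toSubmodule (𝔖.L0 a P)) _ hV (𝔖.ee a P) (𝔖.n0 a P) (fun c hc c0 => by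
      have h1 : lker ((LinearMap.mul (F P.n) A).compr₂ (tB P.n) c) (Subalgebra.toSubmodule (𝔖.L0 a P))
          (Subalgebra.toSubmodule (𝔖.L0 a P)) = ⊥ := by
        refine eq_bot_iff.2 fun x hx => ?_
        have h2 : c * x ∈ 𝔖.L0 a P := mul_mem (mem_Ann.1 hc).1 hx.1
        have h3 : c * x = 0 := eq_zero_of_τ _ h2 fun y hy => by
          rw [τ_comm]
          exact (tB_eq_zero (hI _ h2) (hI _ hy)).1 (hx.2 y hy)
        exact (mul_eq_zero.1 h3).resolve_left c0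
      unfold RkGe
      rw [h1, finrank_bot, zero_add]
      rfl)
    (by
      rw [finrank_map_mulLeft _ (inv_ne_zero w0)]
      change 𝔖.n0 a P ≤ _
      unfold ee
      omega)
    (by rw [finrank_Vp h.st h.cin h.ming hw w0]; omega) 0
  rw [sub_zero] at hv
  have hvL := hV hv
  refine ⟨v, ?_, fun g hg h1 => hk g hg ?_⟩
  · obtain ⟨b, hb, rfl⟩ := hv
    rwa [LinearMap.mulLeft_apply, mul_inv_cancel_left₀ w0]
  rintro u hu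
  have hgL : g ∈ 𝔖.L0 a P := (mem_Ann.1 hg).1
  refine (tB_eq_zero (hI _ (mul_mem hgL hvL)) (hI _ (hV hu))).2 ?_
  obtain ⟨b, hb, rfl⟩ := hu
  have h2 := (mem_Ann.1 (h1 1 le_rfl)).2 b hb
  rw [pow_one, Lf_comm (L0_le_LL h.st h.cin h.ming hvL) ((mem_Cen.1 (L0_le_CC hgL)).2 _ rfl), mul_assoc] at h2
  exact h2

end Sys

end Crest.Agent.R180
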