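import Crest.Agent.R180.NP
import Crest.Agent.R180.Eta

/-!
# Row 180, systems of equations, points and moves (definitions and bookkeeping)

A block is one equation `f(X) = 0` with two spaces of test elements `NA ≤ NT`: the scalar equations `τ (c f(X)) = 0`,
`c ∈ NA`, are imposed; those for `c ∈ NT` then hold by themselves.  Over a larger `(n, S)` the spaces become
`NT ⊗ Δ` and `NA + NT ⊗ Δ⁰`.
-/

set_option autoImplicit false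
set_option linter.unusedSectionVars false

namespace Crest.Agent.R180

open Module

structure Block where
  f : NP
  n0 : ℕ
  S0 : Finset ℕ
  NT : Submodule (F n0) A
  NA : Submodule (F n0) A
  hf : f.cin n0
  hle : NA ≤ NT
  hD : ∀ c ∈ NT, c ∈ D n0 S0

namespace Block

variable (b : Block)

noncomputable def sT (n : ℕ) (S : Finset ℕ) : Submodule (F n) A := ext b.S0 S (bc n b.NT)

noncomputable def sA (n : ℕ) (S : Finset ℕ) : Submodule (F n) A :=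
  b.sT n S ⊓ (bc n b.NA).comap ((E b.S0).restrictScalars (F n))

noncomputable def h : ℕ := finrank (F b.n0) b.NT - finrank (F b.n0) b.NA

variable {b} {n m : ℕ} {S S' : Finset ℕ}

theorem mem_sA {c : A} : c ∈ b.sA n S ↔ c ∈ b.sT n S ∧ E b.S0 c ∈ bc n b.NA := Iff.rfl
theorem sT_D {c : A} (hc : c ∈ b.sT n S) : c ∈ D n S := hc.1
theorem sA_le : b.sA n S ≤ b.sT n S := inf_le_left
instance sT_fd : FiniteDimensional (F n) (b.sT n S) := ext_fd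
instance sA_fd : FiniteDimensional (F n) (b.sA n S) := Submodule.finiteDimensional_of_le sA_le

theorem bc_mem_D {k l : ℕ} {T : Finset ℕ} (hm : k ≤ l) {U : Submodule (F k) A} (hU : ∀ y ∈ U, y ∈ D k T) :
    ∀ y ∈ bc l U, y ∈ D l T := by
  have h1 : bc l U ≤ Subalgebra.toSubmodule (D l T) :=
    Submodule.span_le.2 fun u hu => D_mono hm le_rfl (hU u hu)
  exact fun y hy => h1 hy

theorem hDA : ∀ c ∈ b.NA, c ∈ D b.n0 b.S0 := fun c hc => b.hD c (b.hle hc)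

instance NT0_fd : FiniteDimensional (F b.n0) b.NT := fd_of_le_D _ b.hD
instance NA0_fd : FiniteDimensional (F b.n0) b.NA := fd_of_le_D _ hDA

theorem finrank_sT (hn : b.n0 ≤ n) (hS : b.S0 ⊆ S) :
    finrank (F n) (b.sT n S) = finrank (F b.n0) b.NT * ν (S \ b.S0) := by
  rw [sT, finrank_ext hS (bc_mem_D hn b.hD), (finrank_bc hn b.NT fun y hy => (b.hD y hy).1).2]
/-- `E S0` maps `sT` onto `bc n NT`; count with `finrank_inf_ker_add` -/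
theorem finrank_sA (hn : b.n0 ≤ n) (hS : b.S0 ⊆ S) :
    finrank (F n) (b.sA n S) + b.h = finrank (F n) (b.sT n S) := by
  obtain ⟨fT, eT⟩ := finrank_bc hn b.NT fun y hy => (b.hD y hy).1
  obtain ⟨fA, eA⟩ := finrank_bc hn b.NA fun y hy => (hDA y hy).1
  have h1 := finrank_inf_ker_add (b.sT n S) ((bc n b.NA).mkQ ∘ₗ (E b.S0).restrictScalars (F n))
  have h2 := finrank_inf_ker_add (bc n b.NT) (bc n b.NA).mkQ
  have e1 : (b.sT n S).map ((E b.S0).restrictScalars (F n)) = bc n b.NT := by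
    apply le_antisymm
    · rintro _ ⟨c, hc, rfl⟩
      exact E_mem_of_ext hc
    · intro u hu
      exact ⟨u, mem_ext_of_mem hS (bc_mem_D hn b.hD) hu, E_of_mem (bc_mem_D hn b.hD u hu)⟩
  rw [LinearMap.ker_comp, Submodule.ker_mkQ, Submodule.map_comp, e1] at h1
  rw [Submodule.ker_mkQ, inf_eq_right.2 (bc_mono n b.hle), eT, eA] at h2
  have h3 : finrank (F n) (b.sA n S) + finrank (F n) ((bc n b.NT).map (bc n b.NA).mkQ) =
    finrank (F n) (b.sT n S) := h1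
  unfold h
  omega
theorem sT_ext (hS : b.S0 ⊆ S) (h : S ⊆ S') : b.sT n S' = ext S S' (b.sT n S) := (ext_ext hS h).symm
theorem mem_sA_ext (hS : b.S0 ⊆ S) (h : S ⊆ S') {c : A} :
    c ∈ b.sA n S' ↔ c ∈ b.sT n S' ∧ E S c ∈ b.sA n S := by
  rw [mem_sA, mem_sA, E_E hS]
  refine ⟨fun h1 => ⟨h1.1, ?_, h1.2⟩, fun h1 => ⟨h1.1, h1.2.2⟩⟩
  have h2 := h1.1
  rw [sT_ext hS h] at h2
  exact E_mem_of_ext h2
theorem sT_mono (hn : n ≤ m) (hS : b.S0 ⊆ S) (h : S ⊆ S') {c : A} (hc : c ∈ b.sT n S) : c ∈ b.sT m S' := ext_mono_S hS h (ext_bc_mono hn hc)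
theorem sA_mono (hn : n ≤ m) (hS : b.S0 ⊆ S) (h : S ⊆ S') {c : A} (hc : c ∈ b.sA n S) : c ∈ b.sA m S' := by
  refine ⟨sT_mono hn hS h hc.1, ?_⟩
  change E b.S0 c ∈ bc m b.NA
  rw [← bc_bc hn]
  exact le_bc m hc.2
theorem red_mem_sT (hn : b.n0 ≤ n) {c : A} (hc : c ∈ b.sT m S) : red n c ∈ b.sT n S := red_mem_ext hn (fun y hy => (b.hD y hy).1) hc
theorem red_mem_sA (hn : b.n0 ≤ n) {c : A} (hc : c ∈ b.sA m S) : red n c ∈ b.sA n S := by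
  refine ⟨red_mem_sT hn hc.1, ?_⟩
  change E b.S0 (red n c) ∈ bc n b.NA
  rw [← red_E]
  exact red_mem_bc hn m (fun y hy => (hDA y hy).1) hc.2
theorem sA_le_bc (hn : b.n0 ≤ n) (hm : n ≤ m) (hS : b.S0 ⊆ S) : b.sA m S ≤ bc m (b.sA n S) := by
  have _ := hm
  intro c hc
  rw [← sum_cmp hS hc.1.1]
  refine Submodule.sum_mem _ fun γ hγ => ?_
  by_cases h0 : γ = 0
  · subst h0
    rw [z_zero, one_mul, cmp_zero]
    have h1 : bc m b.NA ≤ bc m (b.sA n S) := Submodule.span_mono fun u hu =>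
      ⟨mem_ext_of_mem hS (bc_mem_D hn b.hD) (le_bc n (b.hle hu)), by
        change E b.S0 u ∈ bc n b.NA
        rw [E_of_mem (hDA u hu)]
        exact le_bc n hu⟩
    exact h1 hc.2
  · have h1 : bc m b.NT ≤ (bc m (b.sA n S)).comap (LinearMap.mulLeft (F m) (z γ)) :=
      Submodule.span_le.2 fun u hu => le_bc m
        (⟨z_mul_mem_ext hS (bc_mem_D hn b.hD) hγ (le_bc n hu), by
          change E b.S0 (z γ * u) ∈ bc n b.NA
          rw [← cmp_zero, cmp_z_mul (zero_mem_GF _) hγ (b.hD u hu), if_neg (Ne.symm h0)]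
          exact Submodule.zero_mem _⟩ : z γ * u ∈ b.sA n S)
    exact h1 (hc.1.2 γ hγ)
theorem sT_base : b.sT b.n0 b.S0 = b.NT := by
  rw [sT, bc_self, ext_self b.hD]
theorem sA_base : b.sA b.n0 b.S0 = b.NA := by
  ext c
  rw [mem_sA, sT_base, bc_self]
  refine ⟨fun h1 => ?_, fun h1 => ⟨b.hle h1, ?_⟩⟩
  · rw [← E_of_mem (b.hD c h1.1)]
    exact h1.2
  · rw [E_of_mem (hDA c h1)]
    exact h1

end Block

structure Sys where
  N : ℕ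
  bl : Fin N → Block

structure Pt where
  n : ℕ
  S : Finset ℕ
  X : V2

namespace Sys

variable (𝔖 : Sys)

noncomputable def ev (X : V2) : Fin 𝔖.N → A := fun i => (𝔖.bl i).f.eval X

noncomputable def df (X : V2) : V2 →ₗ[KK] (Fin 𝔖.N → A) := LinearMap.pi fun i => NP.d1L X (𝔖.bl i).f

noncomputable def f2 (X : V2) : V2 →ₗ[KK] V2 →ₗ[KK] (Fin 𝔖.N → A) :=
  LinearMap.mk₂ KK (fun δ δ' i => (𝔖.bl i).f.d2 X δ δ')
    (fun _ _ _ => funext fun _ => NP.d2_add_left ..) (fun _ _ _ => funext fun _ => NP.d2_smul_left ..)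
    (fun _ _ _ => funext fun _ => NP.d2_add_right ..) (fun _ _ _ => funext fun _ => NP.d2_smul_right ..)

theorem ev_apply (X : V2) (i : Fin 𝔖.N) : 𝔖.ev X i = (𝔖.bl i).f.eval X := rfl
theorem df_apply (X δ : V2) (i : Fin 𝔖.N) : 𝔖.df X δ i = (𝔖.bl i).f.d1 X δ := rfl
theorem f2_apply (X δ δ' : V2) (i : Fin 𝔖.N) : 𝔖.f2 X δ δ' i = (𝔖.bl i).f.d2 X δ δ' := rfl

/-- the symmetrised second derivative -/
noncomputable def sym (X v : V2) : V2 →ₗ[KK] (Fin 𝔖.N → A) := 𝔖.f2 X v + (𝔖.f2 X).flip v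

theorem sym_apply (X v w : V2) : 𝔖.sym X v w = 𝔖.f2 X v w + 𝔖.f2 X w v := rfl

noncomputable def NT (n : ℕ) (S : Finset ℕ) : Submodule (F n) (Fin 𝔖.N → A) :=
  Submodule.pi Set.univ fun i => (𝔖.bl i).sT n S

noncomputable def NA (n : ℕ) (S : Finset ℕ) : Submodule (F n) (Fin 𝔖.N → A) :=
  Submodule.pi Set.univ fun i => (𝔖.bl i).sA n S

noncomputable def h : ℕ := ∑ i, (𝔖.bl i).h

def Ok (n : ℕ) (S : Finset ℕ) : Prop := ∀ i, (𝔖.bl i).n0 ≤ n ∧ (𝔖.bl i).S0 ⊆ S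

/-- the imposed scalar equations -/
def Perp (n : ℕ) (S : Finset ℕ) (y : Fin 𝔖.N → A) : Prop := ∀ c ∈ 𝔖.NA n S, pair c y = 0

/-- `c` kills the image of the derivative -/
def Kills (n : ℕ) (S : Finset ℕ) (X : V2) (c : Fin 𝔖.N → A) : Prop :=
  ∀ δ ∈ DV n S (Fin 2), pair c (𝔖.df X δ) = 0

/-- tangent space -/
noncomputable def Tan (n : ℕ) (S : Finset ℕ) (X : V2) : Submodule (F n) V2 where
  carrier := {δ | δ ∈ DV n S (Fin 2) ∧ 𝔖.Perp n S (𝔖.df X δ)}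
  add_mem' := fun hx hy => ⟨(DV n S (Fin 2)).add_mem hx.1 hy.1, fun c hc => by
    rw [map_add, pair_add_right, hx.2 c hc, hy.2 c hc, add_zero]⟩
  zero_mem' := ⟨(DV n S (Fin 2)).zero_mem, fun c _ => by rw [map_zero, pair_zero_right]⟩
  smul_mem' := fun a δ hx => ⟨(DV n S (Fin 2)).smul_mem a hx.1, fun c hc => by
    have e : 𝔖.df X (a • δ) = (a : KK) • 𝔖.df X δ := map_smul (𝔖.df X) (a : KK) δ
    rw [e, pair_smul_right, hx.2 c hc, mul_zero]⟩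

noncomputable def Ker (n : ℕ) (S : Finset ℕ) (X : V2) : Submodule (F n) V2 :=
  DV n S (Fin 2) ⊓ LinearMap.ker ((𝔖.df X).restrictScalars (F n))

/-- the pencil -/
noncomputable def Pen (n : ℕ) (S : Finset ℕ) (X : V2) : Submodule (F n) (Fin 𝔖.N → A) where
  carrier := {c | c ∈ 𝔖.NT n S ∧ 𝔖.Kills n S X c}
  add_mem' := fun hx hy => ⟨(𝔖.NT n S).add_mem hx.1 hy.1, fun δ hδ => by
    rw [pair_add_left, hx.2 δ hδ, hy.2 δ hδ, add_zero]⟩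
  zero_mem' := ⟨(𝔖.NT n S).zero_mem, fun δ _ => pair_zero_left _⟩
  smul_mem' := fun a c hx => ⟨(𝔖.NT n S).smul_mem a hx.1, fun δ hδ => by
    have e : a • c = (a : KK) • c := rfl
    rw [e, pair_smul_left, hx.2 δ hδ, mul_zero]⟩

def Reg (n : ℕ) (S : Finset ℕ) (X : V2) : Prop := ∀ c ∈ 𝔖.NA n S, 𝔖.Kills n S X c → c = 0

/-- second-order regularity of the direction `v`, with corrections in `W₀` -/
def Std (n : ℕ) (S : Finset ℕ) (X v : V2) (W₀ : Submodule (F n) V2) : Prop :=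
  W₀ ≤ 𝔖.Ker n S X ∧
    ∀ c ∈ 𝔖.NA n S, 𝔖.Kills n S X c → (∀ w ∈ W₀, pair c (𝔖.sym X v w) = 0) → c = 0

/-- the forms `(δ, δ') ↦ ⟨c, f₂(δ, δ')⟩` -/
noncomputable def bet (n : ℕ) (X : V2) : (Fin 𝔖.N → A) →ₗ[F n] V2 →ₗ[F n] V2 →ₗ[F n] F n where
  toFun c := LinearMap.compr₂ (((𝔖.f2 X).restrictScalars₁₂ (F n) (F n))) (pB n c)
  map_add' := fun c c' => LinearMap.ext₂ fun δ δ' => by
    simp only [LinearMap.compr₂_apply, map_add, LinearMap.add_apply]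
  map_smul' := fun a c => LinearMap.ext₂ fun δ δ' => by
    simp only [LinearMap.compr₂_apply, map_smul, LinearMap.smul_apply, RingHom.id_apply]

theorem bet_val (n : ℕ) (X : V2) (c : Fin 𝔖.N → A) (δ δ' : V2) :
    (𝔖.bet n X c δ δ' : KK) = r n (pair c (𝔖.f2 X δ δ')) := rfl

def POk (P : Pt) : Prop := 𝔖.Ok P.n P.S ∧ P.X ∈ DV P.n P.S (Fin 2)

/-- an arc through `P` over `K (n+1)` -/
structure Move (P : Pt) (S' : Finset ℕ) (X' : V2) : Prop where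
  sub : P.S ⊆ S'
  mem : X' ∈ DV (P.n + 1) S' (Fin 2)
  od : Od P.n 1 (X' - P.X)
  perp : 𝔖.Perp (P.n + 1) S' (𝔖.ev X')
  std : 𝔖.Std P.n S' P.X (cf P.n 1 (X' - P.X)) (𝔖.Ker P.n S' P.X)

def Step (P P' : Pt) : Prop := ∃ S' X', P' = ⟨P.n + 1, S', X'⟩ ∧ 𝔖.Move P S' X'

def Reach : Pt → Pt → Prop := Relation.ReflTransGen 𝔖.Step

def Good (P : Pt) : Prop := ∀ P', 𝔖.Reach P P' → 𝔖.ev P'.X = 0

def QQ (P : Pt) (ρ : ℕ) : Prop :=
  ∀ c ∈ 𝔖.Pen P.n P.S P.X, c ≠ 0 → RkGe (𝔖.bet P.n P.X c) (𝔖.Tan P.n P.S P.X) (2 * 𝔖.h + ρ)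

/-- the invariants of a stage -/
structure St (P : Pt) (ρ : ℕ) : Prop where
  ok : 𝔖.POk P
  reg : 𝔖.Reg P.n P.S P.X
  good : 𝔖.Good P
  qq : 𝔖.QQ P ρ
  small : finrank (F P.n) (𝔖.NT P.n P.S) < ν P.S

/-- one more equation, at index `0` -/
def cons (b : Block) : Sys := ⟨𝔖.N + 1, Fin.cons b 𝔖.bl⟩

variable {𝔖} {n m : ℕ} {S S' : Finset ℕ} {X : V2}

theorem mem_NT {c : Fin 𝔖.N → A} : c ∈ 𝔖.NT n S ↔ ∀ i, c i ∈ (𝔖.bl i).sT n S := by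
  simp [NT, Submodule.mem_pi]
theorem mem_NA {c : Fin 𝔖.N → A} : c ∈ 𝔖.NA n S ↔ ∀ i, c i ∈ (𝔖.bl i).sA n S := by
  simp [NA, Submodule.mem_pi]
theorem mem_Tan {δ : V2} : δ ∈ 𝔖.Tan n S X ↔ δ ∈ DV n S (Fin 2) ∧ 𝔖.Perp n S (𝔖.df X δ) := Iff.rfl
theorem mem_Ker {δ : V2} : δ ∈ 𝔖.Ker n S X ↔ δ ∈ DV n S (Fin 2) ∧ 𝔖.df X δ = 0 := Iff.rfl
theorem mem_Pen {c : Fin 𝔖.N → A} : c ∈ 𝔖.Pen n S X ↔ c ∈ 𝔖.NT n S ∧ 𝔖.Kills n S X c := Iff.rfl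
theorem NA_le : 𝔖.NA n S ≤ 𝔖.NT n S := fun _ hc => mem_NT.2 fun i => Block.sA_le (mem_NA.1 hc i)
theorem NT_le : 𝔖.NT n S ≤ DV n S (Fin 𝔖.N) := fun _ hc => mem_DV.2 fun i => Block.sT_D (mem_NT.1 hc i)
theorem Tan_le : 𝔖.Tan n S X ≤ DV n S (Fin 2) := fun _ h => h.1
theorem Ker_le : 𝔖.Ker n S X ≤ DV n S (Fin 2) := fun _ h => h.1
theorem Ker_le_Tan : 𝔖.Ker n S X ≤ 𝔖.Tan n S X := fun _ h => ⟨h.1, fun c _ => by rw [(mem_Ker.1 h).2, pair_zero_right]⟩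
theorem Pen_le : 𝔖.Pen n S X ≤ 𝔖.NT n S := fun _ h => h.1
instance NT_fd : FiniteDimensional (F n) (𝔖.NT n S) := fd_of_le_DV _ NT_le
instance NA_fd : FiniteDimensional (F n) (𝔖.NA n S) := Submodule.finiteDimensional_of_le NA_le
instance Tan_fd : FiniteDimensional (F n) (𝔖.Tan n S X) := fd_of_le_DV _ Tan_le
instance Ker_fd : FiniteDimensional (F n) (𝔖.Ker n S X) := fd_of_le_DV _ Ker_le
instance Pen_fd : FiniteDimensional (F n) (𝔖.Pen n S X) := Submodule.finiteDimensional_of_le Pen_le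

theorem Ok.mono (h : 𝔖.Ok n S) (hn : n ≤ m) (hS : S ⊆ S') : 𝔖.Ok m S' := fun i => ⟨(h i).1.trans hn, (h i).2.trans hS⟩
theorem Ok.cin (h : 𝔖.Ok n S) (i : Fin 𝔖.N) : (𝔖.bl i).f.cin n := NP.cin_mono (h i).1 (𝔖.bl i).hf
theorem perp_iff {y : Fin 𝔖.N → A} :
    𝔖.Perp n S y ↔ ∀ i, ∀ c ∈ (𝔖.bl i).sA n S, τ (c * y i) = 0 := by
  constructor
  · intro h i d hd
    have h1 := h (Pi.single i d) (mem_NA.2 fun j => by
      by_cases hj : j = i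
      · subst hj
        rwa [Pi.single_eq_same]
      · rw [Pi.single_eq_of_ne hj]
        exact Submodule.zero_mem _)
    rw [pair, Finset.sum_eq_single i, Pi.single_eq_same] at h1
    · exact h1
    · intro j _ hj
      rw [Pi.single_eq_of_ne hj, zero_mul, map_zero]
    · intro h2
      exact absurd (Finset.mem_univ i) h2
  · intro h c hc
    exact Finset.sum_eq_zero fun i _ => h i _ (mem_NA.1 hc i)
theorem Perp.up (hok : 𝔖.Ok n S) (hm : n ≤ m) {y : Fin 𝔖.N → A} (h : 𝔖.Perp n S y) : 𝔖.Perp m S y := by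
  rw [perp_iff] at h ⊢
  intro i c hc
  have h1 : bc m ((𝔖.bl i).sA n S) ≤
      LinearMap.ker ((τ ∘ₗ LinearMap.mulRight KK (y i)).restrictScalars (F m)) :=
    Submodule.span_le.2 fun u hu => h i u hu
  exact h1 (Block.sA_le_bc (hok i).1 hm (hok i).2 hc)
theorem Perp.down (hok : 𝔖.Ok n S) (hm : n ≤ m) (hS : S ⊆ S') {y : Fin 𝔖.N → A} (h : 𝔖.Perp m S' y) :
    𝔖.Perp n S y := by
  rw [perp_iff] at h ⊢
  exact fun i c hc => h i c (Block.sA_mono hm (hok i).2 hS hc)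
theorem ev_mem (hok : 𝔖.Ok n S) (hX : X ∈ DV n S (Fin 2)) : 𝔖.ev X ∈ DV n S (Fin 𝔖.N) := mem_DV.2 fun i => NP.eval_mem _ (mem_DV.1 hX) (hok.cin i)
theorem df_mem (hok : 𝔖.Ok n S) (hX : X ∈ DV n S (Fin 2)) {δ : V2} (hδ : δ ∈ DV n S (Fin 2)) :
    𝔖.df X δ ∈ DV n S (Fin 𝔖.N) := mem_DV.2 fun i => NP.d1_mem _ (mem_DV.1 hX) (mem_DV.1 hδ) (hok.cin i)
theorem f2_mem (hok : 𝔖.Ok n S) (hX : X ∈ DV n S (Fin 2)) {δ δ' : V2} (hδ : δ ∈ DV n S (Fin 2))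
    (hδ' : δ' ∈ DV n S (Fin 2)) : 𝔖.f2 X δ δ' ∈ DV n S (Fin 𝔖.N) := mem_DV.2 fun i => NP.d2_mem _ (mem_DV.1 hX) (mem_DV.1 hδ) (mem_DV.1 hδ') (hok.cin i)
theorem bet_eq_zero (hok : 𝔖.Ok n S) (hX : X ∈ DV n S (Fin 2)) {c : Fin 𝔖.N → A} (hc : c ∈ DV n S (Fin 𝔖.N))
    {δ δ' : V2} (hδ : δ ∈ DV n S (Fin 2)) (hδ' : δ' ∈ DV n S (Fin 2)) :
    𝔖.bet n X c δ δ' = 0 ↔ pair c (𝔖.f2 X δ δ') = 0 := pB_eq_zero (DV_In hc) (DV_In (f2_mem hok hX hδ hδ'))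
theorem red_mem_NT (hok : 𝔖.Ok n S) {c : Fin 𝔖.N → A} (hc : c ∈ 𝔖.NT m S) : red n c ∈ 𝔖.NT n S := mem_NT.2 fun i => by rw [red_pi]; exact Block.red_mem_sT (hok i).1 (mem_NT.1 hc i)
theorem red_mem_NA (hok : 𝔖.Ok n S) {c : Fin 𝔖.N → A} (hc : c ∈ 𝔖.NA m S) : red n c ∈ 𝔖.NA n S := mem_NA.2 fun i => by rw [red_pi]; exact Block.red_mem_sA (hok i).1 (mem_NA.1 hc i)
theorem NT_mono (hok : 𝔖.Ok n S) (hm : n ≤ m) (hS : S ⊆ S') {c : Fin 𝔖.N → A} (hc : c ∈ 𝔖.NT n S) :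
    c ∈ 𝔖.NT m S' := mem_NT.2 fun i => Block.sT_mono hm (hok i).2 hS (mem_NT.1 hc i)
theorem NA_mono (hok : 𝔖.Ok n S) (hm : n ≤ m) (hS : S ⊆ S') {c : Fin 𝔖.N → A} (hc : c ∈ 𝔖.NA n S) :
    c ∈ 𝔖.NA m S' := mem_NA.2 fun i => Block.sA_mono hm (hok i).2 hS (mem_NA.1 hc i)
/-- expectations of `ω c` for `c ∈ NT ⊗ Δ`, `ω ∈ Δ` -/
theorem EV_smul_mem_NT (hok : 𝔖.Ok n S) (hS : S ⊆ S') {ω : A} (hω : ω ∈ D n (S' \ S)) {c : Fin 𝔖.N → A}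
    (hc : c ∈ 𝔖.NT n S') : EV S (ω • c) ∈ 𝔖.NT n S := by
  refine mem_NT.2 fun i => ?_
  have h1 := mem_NT.1 hc i
  rw [Block.sT_ext (hok i).2 hS] at h1
  exact E_mem_of_ext (mul_mem_ext hS hω h1)
theorem mem_NA_ext (hok : 𝔖.Ok n S) (hS : S ⊆ S') {c : Fin 𝔖.N → A} :
    c ∈ 𝔖.NA n S' ↔ c ∈ 𝔖.NT n S' ∧ EV S c ∈ 𝔖.NA n S := by
  rw [mem_NA, mem_NT, mem_NA, ← forall_and]
  exact forall_congr' fun i => Block.mem_sA_ext (hok i).2 hS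
theorem finrank_NA (hok : 𝔖.Ok n S) : finrank (F n) (𝔖.NA n S) + 𝔖.h = finrank (F n) (𝔖.NT n S) := by
  rw [NA, NT, (finrank_pi_submodule _).2, (finrank_pi_submodule _).2, h, ← Finset.sum_add_distrib]
  exact Finset.sum_congr rfl fun i _ => Block.finrank_sA (hok i).1 (hok i).2
theorem finrank_NT (hok : 𝔖.Ok n S) (hm : n ≤ m) (hS : S ⊆ S') :
    finrank (F m) (𝔖.NT m S') = finrank (F n) (𝔖.NT n S) * ν (S' \ S) := by
  rw [NT, NT, (finrank_pi_submodule _).2, (finrank_pi_submodule _).2, Finset.sum_mul]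
  refine Finset.sum_congr rfl fun i _ => ?_
  have h0 := (hok i).2
  have e : (S' \ (𝔖.bl i).S0) \ (S \ (𝔖.bl i).S0) = S' \ S := by
    ext j
    have := @h0 j
    simp only [Finset.mem_sdiff]
    tauto
  rw [Block.finrank_sT (hok i).1 h0, Block.finrank_sT ((hok i).1.trans hm) (h0.trans hS),
    ν_sdiff (Finset.sdiff_subset_sdiff hS le_rfl), e, mul_assoc]
theorem df_smul (hX : X ∈ DV n S (Fin 2)) {ω : A} (hω : ω ∈ D m (S' \ S)) (δ : V2) :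
    𝔖.df X (ω • δ) = ω • 𝔖.df X δ := by
  funext i
  exact NP.d1_mul (fun j => D_comm Finset.sdiff_disjoint hω (mem_DV.1 hX j)) δ _
theorem f2_smul (hX : X ∈ DV n S (Fin 2)) {ω ω' : A} (hω : ω ∈ D m (S' \ S)) (hω' : ω' ∈ D m (S' \ S))
    {δ : V2} (hδ : δ ∈ DV n S (Fin 2)) (δ' : V2) :
    𝔖.f2 X (ω • δ) (ω' • δ') = (ω * ω') • 𝔖.f2 X δ δ' := by
  funext i
  exact NP.d2_mul (fun j => D_comm Finset.sdiff_disjoint hω (mem_DV.1 hX j))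
    (fun j => D_comm Finset.sdiff_disjoint hω' (mem_DV.1 hX j))
    (fun j => D_comm Finset.sdiff_disjoint hω' (mem_DV.1 hδ j)) δ' _
theorem cmpV_df (hok : 𝔖.Ok n S) (hX : X ∈ DV n S (Fin 2)) {γ : G} (hγ : γ ∈ GF (S' \ S)) (δ : V2) :
    cmpV S γ (𝔖.df X δ) = 𝔖.df X (cmpV S γ δ) := by
  funext i
  exact NP.cmp_d1 hX hγ δ (hok.cin i)
theorem Std.mono {v : V2} {W₀ W₁ : Submodule (F n) V2} (h : 𝔖.Std n S X v W₀) (h1 : W₀ ≤ W₁)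
    (h2 : W₁ ≤ 𝔖.Ker n S X) : 𝔖.Std n S X v W₁ := ⟨h2, fun c hc hk hw => h.2 c hc hk fun w hw' => hw w (h1 hw')⟩
theorem Reg.std (h : 𝔖.Reg n S X) (v : V2) : 𝔖.Std n S X v ⊥ := ⟨bot_le, fun c hc hk _ => h c hc hk⟩

/-! the system with one more equation -/
section cons
variable {b : Block}

theorem cons_h : (𝔖.cons b).h = b.h + 𝔖.h := Fin.sum_univ_succ (fun i : Fin (𝔖.N + 1) => ((𝔖.cons b).bl i).h)
theorem cons_ok : (𝔖.cons b).Ok n S ↔ (b.n0 ≤ n ∧ b.S0 ⊆ S) ∧ 𝔖.Ok n S := Fin.forall_fin_succ (P := fun i : Fin (𝔖.N + 1) => ((𝔖.cons b).bl i).n0 ≤ n ∧ ((𝔖.cons b).bl i).S0 ⊆ S)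
theorem cons_ev (X : V2) : (𝔖.cons b).ev X = Fin.cons (b.f.eval X) (𝔖.ev X) := funext fun i : Fin (𝔖.N + 1) => Fin.cases rfl (fun _ => rfl) i
theorem cons_df (X δ : V2) : (𝔖.cons b).df X δ = Fin.cons (b.f.d1 X δ) (𝔖.df X δ) := funext fun i : Fin (𝔖.N + 1) => Fin.cases rfl (fun _ => rfl) i
theorem cons_f2 (X δ δ' : V2) : (𝔖.cons b).f2 X δ δ' = Fin.cons (b.f.d2 X δ δ') (𝔖.f2 X δ δ') := funext fun i : Fin (𝔖.N + 1) => Fin.cases rfl (fun _ => rfl) i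
theorem cons_sym (X v w : V2) :
    (𝔖.cons b).sym X v w = Fin.cons (b.f.d2 X v w + b.f.d2 X w v) (𝔖.sym X v w) := funext fun i : Fin (𝔖.N + 1) => Fin.cases rfl (fun _ => rfl) i
theorem pair_cons {N : ℕ} (c : Fin (N + 1) → A) (y₀ : A) (y : Fin N → A) :
    pair c (Fin.cons y₀ y : Fin (N + 1) → A) = τ (c 0 * y₀) + pair (Fin.tail c) y := Fin.sum_univ_succ (fun i => τ (c i * (Fin.cons y₀ y : Fin (N + 1) → A) i))
theorem cons_mem_NT {c : Fin (𝔖.N + 1) → A} :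
    c ∈ (𝔖.cons b).NT n S ↔ c 0 ∈ b.sT n S ∧ Fin.tail c ∈ 𝔖.NT n S := by
  rw [mem_NT (𝔖 := 𝔖)]
  refine (mem_NT (𝔖 := 𝔖.cons b)).trans ?_
  exact Fin.forall_fin_succ (P := fun i : Fin (𝔖.N + 1) => c i ∈ ((𝔖.cons b).bl i).sT n S)
theorem cons_mem_NA {c : Fin (𝔖.N + 1) → A} :
    c ∈ (𝔖.cons b).NA n S ↔ c 0 ∈ b.sA n S ∧ Fin.tail c ∈ 𝔖.NA n S := by
  rw [mem_NA (𝔖 := 𝔖)]
  refine (mem_NA (𝔖 := 𝔖.cons b)).trans ?_
  exact Fin.forall_fin_succ (P := fun i : Fin (𝔖.N + 1) => c i ∈ ((𝔖.cons b).bl i).sA n S)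
theorem cons_perp {y₀ : A} {y : Fin 𝔖.N → A} :
    (𝔖.cons b).Perp n S (Fin.cons y₀ y : Fin (𝔖.N + 1) → A) ↔
      (∀ c ∈ b.sA n S, τ (c * y₀) = 0) ∧ 𝔖.Perp n S y := by
  rw [perp_iff (𝔖 := 𝔖.cons b), perp_iff]
  exact Fin.forall_fin_succ (P := fun i : Fin (𝔖.N + 1) =>
    ∀ c ∈ ((𝔖.cons b).bl i).sA n S, τ (c * (Fin.cons y₀ y : Fin (𝔖.N + 1) → A) i) = 0)
theorem cons_mem_Tan {δ : V2} :
    δ ∈ (𝔖.cons b).Tan n S X ↔ δ ∈ 𝔖.Tan n S X ∧ ∀ c ∈ b.sA n S, τ (c * b.f.d1 X δ) = 0 := by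
  rw [mem_Tan, mem_Tan, cons_df, cons_perp]
  tauto
theorem cons_mem_Ker {δ : V2} : δ ∈ (𝔖.cons b).Ker n S X ↔ δ ∈ 𝔖.Ker n S X ∧ b.f.d1 X δ = 0 := by
  rw [mem_Ker, mem_Ker, cons_df]
  constructor
  · rintro ⟨h1, h2⟩
    exact ⟨⟨h1, funext fun i => congrFun h2 (Fin.succ i)⟩, congrFun h2 (0 : Fin (𝔖.N + 1))⟩
  · rintro ⟨⟨h1, h2⟩, h3⟩
    refine ⟨h1, funext fun i : Fin (𝔖.N + 1) => Fin.cases h3 (fun j => congrFun h2 j) i⟩
theorem cons_finrank_NT :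
    finrank (F n) ((𝔖.cons b).NT n S) = finrank (F n) (b.sT n S) + finrank (F n) (𝔖.NT n S) := by
  rw [NT, NT, (finrank_pi_submodule _).2, (finrank_pi_submodule _).2]
  exact Fin.sum_univ_succ (fun i : Fin (𝔖.N + 1) => finrank (F n) (((𝔖.cons b).bl i).sT n S))
/-- test with `Fin.cons 0 c` -/
theorem Std.of_cons {v : V2} {W₀ : Submodule (F n) V2} (h : (𝔖.cons b).Std n S X v W₀) :
    𝔖.Std n S X v W₀ := by
  refine ⟨fun w hw => (cons_mem_Ker.1 (h.1 hw)).1, fun c hc hk hw => ?_⟩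
  have key : ∀ (y₀ : A) (y : Fin 𝔖.N → A),
      pair (Fin.cons 0 c : Fin (𝔖.N + 1) → A) (Fin.cons y₀ y : Fin (𝔖.N + 1) → A) = pair c y := by
    intro y₀ y
    rw [pair_cons, Fin.cons_zero, Fin.tail_cons, zero_mul, map_zero, zero_add]
  have h1 := h.2 (Fin.cons 0 c : Fin (𝔖.N + 1) → A) (cons_mem_NA.2 ⟨Submodule.zero_mem _, hc⟩)
    (fun δ hδ => by rw [cons_df]; exact (key _ _).trans (hk δ hδ))
    (fun w hw' => by rw [cons_sym]; exact (key _ _).trans (hw w hw'))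
  exact funext fun i => congrFun h1 (Fin.succ i)
theorem Move.of_cons {P : Pt} {X' : V2} (h : (𝔖.cons b).Move P S' X') : 𝔖.Move P S' X' := by
  refine ⟨h.sub, h.mem, h.od, ?_, h.std.of_cons.mono (fun w hw => (cons_mem_Ker.1 hw).1) le_rfl⟩
  have h1 := h.perp
  rw [cons_ev, cons_perp] at h1
  exact h1.2
theorem Reach.of_cons {P P' : Pt} (h : (𝔖.cons b).Reach P P') : 𝔖.Reach P P' := by
  induction h with
  | refl => exact Relation.ReflTransGen.refl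
  | tail _ h2 ih =>
    obtain ⟨S', X', e, hm⟩ := h2
    exact Relation.ReflTransGen.tail ih ⟨S', X', e, hm.of_cons⟩

end cons

end Sys

/-- `P'` reduces to `P` -/
structure Pt.Ext (P P' : Pt) : Prop where
  le : P.n ≤ P'.n
  sub : P.S ⊆ P'.S
  ig : Ig P.n P'.X
  red_eq : red P.n P'.X = P.X

theorem Pt.Ext.refl {P : Pt} (h : In P.n P.X) : P.Ext P := ⟨le_rfl, le_rfl, h.ig, red_of_In h⟩

theorem Pt.Ext.trans {P P' P'' : Pt} (h : P.Ext P') (h' : P'.Ext P'') : P.Ext P'' := ⟨h.le.trans h'.le, h.sub.trans h'.sub, (Ig_comp h.le _).2 ⟨h'.ig, by rw [h'.red_eq]; exact h.ig⟩, by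
    rw [← red_red h.le, h'.red_eq, h.red_eq]⟩

namespace Sys
variable {𝔖 : Sys} {P P' : Pt}

theorem Move.ig {S' : Finset ℕ} {X' : V2} (hP : 𝔖.POk P) (h : 𝔖.Move P S' X') : Ig P.n X' := by
  have h1 := h.od.ig.add (DV_In hP.2).ig
  rwa [sub_add_cancel] at h1
theorem Move.red_eq {S' : Finset ℕ} {X' : V2} (hP : 𝔖.POk P) (h : 𝔖.Move P S' X') : red P.n X' = P.X := by
  have h1 := Od.cf_eq_zero (l := 0) h.od
  rw [cf_zero_eq, map_sub, red_of_In (DV_In hP.2)] at h1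
  exact sub_eq_zero.1 h1
theorem Move.od2 {S' : Finset ℕ} {X' : V2} (hP : 𝔖.POk P) (h : 𝔖.Move P S' X') :
    Od P.n 2 (X' - P.X - t P.n • cf P.n 1 (X' - P.X)) := by
  have h1 := h.od.sub_cf ((DV_In h.mem).sub ((DV_In hP.2).mono (Nat.le_succ _)))
  rwa [pow_one] at h1
theorem Move.vel_mem {S' : Finset ℕ} {X' : V2} (hP : 𝔖.POk P) (h : 𝔖.Move P S' X') :
    cf P.n 1 (X' - P.X) ∈ DV P.n S' (Fin 2) := cf_mem_DV P.n 1 ((DV (P.n + 1) S' (Fin 2)).sub_mem h.mem (DV_mono (Nat.le_succ _) h.sub hP.2))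
theorem Move.pok {S' : Finset ℕ} {X' : V2} (hP : 𝔖.POk P) (h : 𝔖.Move P S' X') :
    𝔖.POk ⟨P.n + 1, S', X'⟩ := ⟨hP.1.mono (Nat.le_succ _) h.sub, h.mem⟩
theorem Move.reach {S' : Finset ℕ} {X' : V2} (h : 𝔖.Move P S' X') : 𝔖.Reach P ⟨P.n + 1, S', X'⟩ :=
  Relation.ReflTransGen.single ⟨S', X', rfl, h⟩
theorem Reach.refl (P : Pt) : 𝔖.Reach P P := Relation.ReflTransGen.refl
theorem Reach.trans {P'' : Pt} (h : 𝔖.Reach P P') (h' : 𝔖.Reach P' P'') : 𝔖.Reach P P'' :=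
  Relation.ReflTransGen.trans h h'
theorem Reach.pok (hP : 𝔖.POk P) (h : 𝔖.Reach P P') : 𝔖.POk P' := by
  induction h with
  | refl => exact hP
  | tail _ h2 ih =>
    obtain ⟨S', X', rfl, hm⟩ := h2
    exact hm.pok ih
theorem Reach.ext (hP : 𝔖.POk P) (h : 𝔖.Reach P P') : P.Ext P' := by
  induction h with
  | refl => exact Pt.Ext.refl (DV_In hP.2)
  | tail h1 h2 ih =>
    obtain ⟨S', X', rfl, hm⟩ := h2
    have h3 := Reach.pok hP h1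
    exact ih.trans ⟨Nat.le_succ _, hm.sub, hm.ig h3, hm.red_eq h3⟩
theorem Good.reach (hP : 𝔖.Good P) (h : 𝔖.Reach P P') : 𝔖.Good P' := fun _ h' => hP _ (h.trans h')
theorem Good.ev (hP : 𝔖.Good P) : 𝔖.ev P.X = 0 := hP _ (Reach.refl P)
theorem QQ.mono {ρ ρ' : ℕ} (h : 𝔖.QQ P ρ) (hρ : ρ' ≤ ρ) : 𝔖.QQ P ρ' := fun c hc h0 => by
  have h1 := h c hc h0
  unfold RkGe at h1 ⊢
  omega
theorem St.mono {ρ ρ' : ℕ} (h : 𝔖.St P ρ) (hρ : ρ' ≤ ρ) : 𝔖.St P ρ' :=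
  ⟨h.ok, h.reg, h.good, h.qq.mono hρ, h.small⟩

end Sys

end Crest.Agent.R180
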