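import Crest.Agent.R180.Freeze
import Crest.Agent.R180.Grow

/-!
# Row 180, the tower of points
-/

set_option autoImplicit false
set_option linter.unusedSectionVars false

namespace Crest.Agent.R180

open Module Polynomial Filter

/-- a system, a point, and a finite set of constants -/
structure Stage where
  𝔖 : Sys
  P : Pt
  ρ : ℕ
  C : Set KK
  st : 𝔖.St P ρ
  hρ : 𝔖.h + 2 ≤ ρ
  fin : C.Finite
  hC : ∀ c ∈ C, c ∈ K P.n

/-- a later stage -/
structure Stage.le (s s' : Stage) : Prop where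
  ext : s.P.Ext s'.P
  eqs : ∀ i, ∃ i', (s'.𝔖.bl i').f = (s.𝔖.bl i).f
  sub : s.C ⊆ s'.C

/-- `p(a) = 0` is one of the equations and the coefficients of `p` are among the constants -/
def Stage.Frozen (s : Stage) (a : NP) : Prop :=
  ∃ (k : ℕ) (p : (F k)[X]), (∃ i, (s.𝔖.bl i).f = NP.poly p a) ∧ p.Monic ∧ (p = X ∨ p.coeff 0 ≠ 0) ∧
    (∀ i, (p.coeff i : KK) ∈ s.C) ∧ (p.coeff 0 : KK)⁻¹ ∈ s.C

theorem Stage.le_refl (s : Stage) : s.le s :=
  ⟨Pt.Ext.refl (DV_In s.st.ok.2), fun i => ⟨i, rfl⟩, subset_rfl⟩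

theorem Stage.le.trans {s s' s'' : Stage} (h : s.le s') (h' : s'.le s'') : s.le s'' :=
  ⟨h.ext.trans h'.ext, fun i => by
    obtain ⟨i', e⟩ := h.eqs i
    obtain ⟨i'', e'⟩ := h'.eqs i'
    exact ⟨i'', e'.trans e⟩, h.sub.trans h'.sub⟩

theorem Stage.Frozen.mono {s s' : Stage} {a : NP} (h : s.Frozen a) (h' : s.le s') : s'.Frozen a := by
  obtain ⟨k, p, ⟨i, hi⟩, h1, h2, h3, h4⟩ := h
  obtain ⟨i', e⟩ := h'.eqs i
  exact ⟨k, p, ⟨i', e.trans hi⟩, h1, h2, fun i => h'.sub (h3 i), h'.sub h4⟩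

/-- the empty system at `(0, ∅, 0)` -/
theorem exists_stage : ∃ s : Stage, (0 : KK) ∈ s.C ∧ (1 : KK) ∈ s.C ∧ (-1 : KK) ∈ s.C := by
  refine ⟨⟨⟨0, Fin.elim0⟩, ⟨0, ∅, 0⟩, 2, {0, 1, -1},
    ⟨⟨fun i => i.elim0, Submodule.zero_mem _⟩, fun c _ _ => funext fun i => i.elim0,
      fun _ _ => funext fun i => i.elim0, fun c _ hc => (hc (_root_.funext fun i => Fin.elim0 i)).elim, ?_⟩,
    by simp [Sys.h], Set.toFinite _, ?_⟩, by simp, by simp, by simp⟩
  · rw [ν_empty, Nat.lt_one_iff]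
    have : Subsingleton (Sys.NT ⟨0, Fin.elim0⟩ 0 ∅) :=
      ⟨fun a b => Subtype.ext (funext fun i => i.elim0)⟩
    exact Module.finrank_zero_of_subsingleton
  · rintro c (rfl | rfl | rfl)
    exacts [(K 0).zero_mem, (K 0).one_mem, (K 0).neg_mem (K 0).one_mem]

/-- `Sys.St.freeze`; add the coefficients (`Polynomial.coeffs`, `0`) and the inverse of the constant term -/
theorem Stage.freeze (s : Stage) {a : NP} (ha : a.cs (· ∈ s.C)) : ∃ s', s.le s' ∧ s'.Frozen a := by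
  obtain ⟨b, P', ρ', k, p, h1, h2, h3, h4, h5, h6, h7⟩ := s.st.freeze s.hρ (NP.cs_mono s.hC ha)
  have hE := h3.ext s.st.ok
  refine ⟨⟨s.𝔖.cons b, P', ρ', s.C ∪ ((fun c : F k => (c : KK)) '' Set.range p.coeff ∪ {(p.coeff 0 : KK)⁻¹}),
    h1, h2, s.fin.union ((p.finite_range_coeff.image _).union (Set.finite_singleton _)), ?_⟩,
    ⟨hE, fun i => ⟨i.succ, rfl⟩, Set.subset_union_left⟩,
    k, p, ⟨(0 : Fin (s.𝔖.N + 1)), h5⟩, h6, h7, fun i => Or.inr (Or.inl ⟨_, ⟨i, rfl⟩, rfl⟩), Or.inr (Or.inr rfl)⟩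
  rintro c (hc | ⟨c, -, rfl⟩ | rfl)
  · exact K_mono hE.le (s.hC c hc)
  · exact K_mono h4 c.2
  · exact K_mono h4 ((K k).inv_mem (p.coeff 0).2)

theorem Stage.freeze_finite (s : Stage) {T : Set NP} (hT : T.Finite) (h : ∀ a ∈ T, a.cs (· ∈ s.C)) :
    ∃ s', s.le s' ∧ ∀ a ∈ T, s'.Frozen a := by
  induction T, hT using Set.Finite.induction_on with
  | empty => exact ⟨s, s.le_refl, fun _ h => h.elim⟩
  | @insert a T _ _ ih =>
    obtain ⟨s₁, h1, h2⟩ := ih fun b hb => h b (Set.mem_insert_of_mem _ hb)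
    obtain ⟨s₂, h3, h4⟩ := s₁.freeze (NP.cs_mono (fun c hc => h1.sub hc) (h a (Set.mem_insert _ _)))
    refine ⟨s₂, h1.trans h3, ?_⟩
    rintro b (rfl | hb)
    exacts [h4, (h2 b hb).mono h3]

theorem Stage.grow (s : Stage) : ∃ s', s.le s' ∧ dimg s.P < dimg s'.P := by
  obtain ⟨P', h1, h2⟩ := s.st.grow s.hρ
  have hE := h1.ext s.st.ok
  exact ⟨⟨s.𝔖, P', _, s.C, s.st.reach h1, s.hρ.trans (Nat.le_mul_of_pos_right _ (ν_pos _)), s.fin,
    fun c hc => K_mono hE.le (s.hC c hc)⟩, ⟨hE, fun i => ⟨i, rfl⟩, subset_rfl⟩, h2⟩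

/-- depth of a term -/
def NP.depth : NP → ℕ
  | .var _ => 0
  | .const _ => 0
  | .add a b => max a.depth b.depth + 1
  | .mul a b => max a.depth b.depth + 1

theorem finite_terms {C : Set KK} (hC : C.Finite) (k : ℕ) :
    {a : NP | a.cs (· ∈ C) ∧ a.depth ≤ k}.Finite := by
  have h0 : (Set.range NP.var ∪ NP.const '' C).Finite := (Set.finite_range _).union (hC.image _)
  induction k with
  | zero =>
    refine h0.subset fun a ha => ?_
    cases a with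
    | var i => exact Or.inl ⟨i, rfl⟩
    | const c => exact Or.inr ⟨c, ha.1, rfl⟩
    | add a b => exact absurd ha.2 (by simp [NP.depth])
    | mul a b => exact absurd ha.2 (by simp [NP.depth])
  | succ k ih =>
    refine (h0.union ((ih.image2 NP.add ih).union (ih.image2 NP.mul ih))).subset fun a ha => ?_
    cases a with
    | var i => exact Or.inl (Or.inl ⟨i, rfl⟩)
    | const c => exact Or.inl (Or.inr ⟨c, ha.1, rfl⟩)
    | add a b =>
      have := max_le_iff.1 (Nat.le_of_succ_le_succ ha.2)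
      exact Or.inr (Or.inl ⟨a, ⟨ha.1.1, this.1⟩, b, ⟨ha.1.2, this.2⟩, rfl⟩)
    | mul a b =>
      have := max_le_iff.1 (Nat.le_of_succ_le_succ ha.2)
      exact Or.inr (Or.inr ⟨a, ⟨ha.1.1, this.1⟩, b, ⟨ha.1.2, this.2⟩, rfl⟩)

theorem NP.cs_iUnion {C : ℕ → Set KK} (hC : Monotone C) {a : NP} (ha : a.cs (· ∈ ⋃ k, C k)) :
    ∃ k, a.cs (· ∈ C k) := by
  induction a with
  | var i => exact ⟨0, trivial⟩
  | const c => exact Set.mem_iUnion.1 ha
  | add a b iha ihb =>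
    obtain ⟨k, hk⟩ := iha ha.1
    obtain ⟨l, hl⟩ := ihb ha.2
    exact ⟨max k l, NP.cs_mono (fun c hc => hC (le_max_left k l) hc) hk,
      NP.cs_mono (fun c hc => hC (le_max_right k l) hc) hl⟩
  | mul a b iha ihb =>
    obtain ⟨k, hk⟩ := iha ha.1
    obtain ⟨l, hl⟩ := ihb ha.2
    exact ⟨max k l, NP.cs_mono (fun c hc => hC (le_max_left k l) hc) hk,
      NP.cs_mono (fun c hc => hC (le_max_right k l) hc) hl⟩

/-- At step `k` freeze all terms of depth `≤ k` over the current constants, then grow.  A term over `⋃ k, C k` has its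
finitely many constants in one `C k`. -/
theorem tower : ∃ (P : ℕ → Pt) (C : Set KK), C.Countable ∧ (0 : KK) ∈ C ∧ (1 : KK) ∈ C ∧ (-1 : KK) ∈ C ∧
    (∀ c ∈ C, ∀ᶠ m in atTop, c ∈ K (P m).n) ∧ (∀ m, m ≤ dimg (P m)) ∧
    ∀ a : NP, a.cs (· ∈ C) → ∃ (k : ℕ) (p : (F k)[X]), p.Monic ∧ (p = X ∨ p.coeff 0 ≠ 0) ∧
      (∀ i, (p.coeff i : KK) ∈ C) ∧ (p.coeff 0 : KK)⁻¹ ∈ C ∧
        ∀ᶠ m in atTop, aeval (a.eval (P m).X) p = 0 := by
  have step : ∀ (k : ℕ) (s : Stage), ∃ s', s.le s' ∧ dimg s.P < dimg s'.P ∧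
      ∀ a : NP, a.cs (· ∈ s.C) → a.depth ≤ k → s'.Frozen a := fun k s => by
    obtain ⟨s₁, h1, h2⟩ := s.freeze_finite (finite_terms s.fin k) fun a ha => ha.1
    obtain ⟨s₂, h3, h4⟩ := s₁.grow
    exact ⟨s₂, h1.trans h3, (h1.ext.dimg_le s₁.st.ok.2).trans_lt h4, fun a ha hk => (h2 a ⟨ha, hk⟩).mono h3⟩
  choose f hf1 hf2 hf3 using step
  obtain ⟨s₀, h0, h1, h2⟩ := exists_stage
  let s : ℕ → Stage := fun k => Nat.rec s₀ f k
  have hs : ∀ k, s (k + 1) = f k (s k) := fun _ => rfl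
  have hle : ∀ k m, k ≤ m → (s k).le (s m) := fun k m h => by
    induction m, h using Nat.le_induction with
    | base => exact (s k).le_refl
    | succ m _ ih => exact ih.trans (hf1 m (s m))
  refine ⟨fun m => (s m).P, ⋃ k, (s k).C, Set.countable_iUnion fun k => (s k).fin.countable,
    Set.mem_iUnion.2 ⟨0, h0⟩, Set.mem_iUnion.2 ⟨0, h1⟩, Set.mem_iUnion.2 ⟨0, h2⟩, fun c hc => ?_,
    fun m => ?_, fun a ha => ?_⟩
  · obtain ⟨k, hk⟩ := Set.mem_iUnion.1 hc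
    filter_upwards [eventually_ge_atTop k] with m hm
    exact (s m).hC c ((hle k m hm).sub hk)
  · induction m with
    | zero => exact Nat.zero_le _
    | succ m ih => exact ih.trans_lt (hf2 m (s m))
  · obtain ⟨k, hk⟩ := NP.cs_iUnion (fun k m h => (hle k m h).sub) ha
    obtain ⟨l, p, ⟨i, hi⟩, p1, p2, p3, p4⟩ := hf3 (max k a.depth) (s (max k a.depth)) a
      (NP.cs_mono (fun c hc => (hle _ _ (le_max_left _ _)).sub hc) hk) (le_max_right _ _)
    refine ⟨l, p, p1, p2, fun i => Set.mem_iUnion.2 ⟨max k a.depth + 1, p3 i⟩,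
      Set.mem_iUnion.2 ⟨max k a.depth + 1, p4⟩, ?_⟩
    filter_upwards [eventually_ge_atTop (max k a.depth + 1)] with m hm
    obtain ⟨i', e⟩ := (hle _ m hm).eqs i
    have := congrFun (s m).st.good.ev i'
    rw [Sys.ev_apply, e.trans hi, eval_poly] at this
    exact this

end Crest.Agent.R180
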