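import Crest.Agent.R180.WF

/-!
# Row 180, the algebra world

`A` is the twisted group algebra over `KK` of `G = ⨁ j, (ZMod (j+2))²`; it is the tensor product of the symbol
algebras `X_j^(j+2) = s (2j)`, `Y_j^(j+2) = s (2j+1)`, `Y_j X_j = ζ_j X_j Y_j`.  It is a division ring.
-/

set_option autoImplicit false

namespace Crest.Agent.R180

/-- the grading group -/
abbrev G : Type := Π₀ j : ℕ, ZMod (j + 2) × ZMod (j + 2)

noncomputable instance : DecidableEq G := Classical.decEq _

/-- support of a group element -/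
def gs (γ : G) : Finset ℕ := γ.support

/-- the element supported at `j` -/
def gj (j : ℕ) (a b : ZMod (j + 2)) : G := DFinsupp.single j (a, b)

theorem mem_gs {γ : G} {j : ℕ} : j ∈ gs γ ↔ γ j ≠ 0 := DFinsupp.mem_support_iff

theorem apply_eq_zero_of_notMem {γ : G} {S : Finset ℕ} (h : gs γ ⊆ S) {j : ℕ} (hj : j ∉ S) : γ j = 0 := by
  by_contra hne
  exact hj (h (mem_gs.2 hne))

theorem gs_finite (S : Finset ℕ) : {γ : G | gs γ ⊆ S}.Finite := by
  refine Set.Finite.of_injOn (f := fun (γ : G) (j : S) => γ j) (t := Set.univ) (Set.mapsTo_univ _ _) ?_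
    Set.finite_univ
  intro γ hγ δ hδ h
  apply DFinsupp.ext
  intro j
  by_cases hj : j ∈ S
  · exact congrFun h ⟨j, hj⟩
  · rw [apply_eq_zero_of_notMem hγ hj, apply_eq_zero_of_notMem hδ hj]

/-- the finite subgroup of elements supported in `S` -/
noncomputable def GF (S : Finset ℕ) : Finset G := (gs_finite S).toFinset

theorem mem_GF {S : Finset ℕ} {γ : G} : γ ∈ GF S ↔ gs γ ⊆ S := by simp [GF]

/-- its order -/
noncomputable def ν (S : Finset ℕ) : ℕ := (GF S).card

theorem gs_zero : gs 0 = ∅ := DFinsupp.support_zero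

theorem gs_eq_empty {γ : G} (h : gs γ = ∅) : γ = 0 := DFinsupp.support_eq_empty.1 h

theorem gs_add (γ δ : G) : gs (γ + δ) ⊆ gs γ ∪ gs δ := DFinsupp.support_add

theorem gs_neg (γ : G) : gs (-γ) = gs γ := DFinsupp.support_neg

theorem gs_gj (j : ℕ) (a b : ZMod (j + 2)) : gs (gj j a b) ⊆ {j} := DFinsupp.support_single_subset

theorem gj_add (j : ℕ) (a b a' b' : ZMod (j + 2)) : gj j a b + gj j a' b' = gj j (a + a') (b + b') := by
  unfold gj
  rw [← DFinsupp.single_add, Prod.mk_add_mk]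

theorem gj_apply (j : ℕ) (a b : ZMod (j + 2)) : gj j a b j = (a, b) := DFinsupp.single_eq_same

theorem gj_apply_ne {j i : ℕ} (h : i ≠ j) (a b : ZMod (j + 2)) : gj j a b i = 0 :=
  apply_eq_zero_of_notMem (gs_gj j a b) (by simpa using h)

theorem gj_zero (j : ℕ) : gj j 0 0 = 0 := DFinsupp.single_zero j

theorem eq_gj {j : ℕ} {γ : G} (h : gs γ ⊆ {j}) : γ = gj j (γ j).1 (γ j).2 := by
  apply DFinsupp.ext
  intro i
  by_cases hi' : i = j
  · subst hi'
    rw [gj_apply]
  · rw [gj_apply_ne hi', apply_eq_zero_of_notMem h (by simpa using hi')]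

/-- splitting along a subset of the indices -/
theorem exists_split (S : Finset ℕ) (ε : G) :
    ∃ γ δ : G, ε = γ + δ ∧ gs γ ⊆ gs ε ∩ S ∧ gs δ ⊆ gs ε \ S := by
  refine ⟨ε.filter (· ∈ S), ε.filter (fun j => ¬ j ∈ S), (DFinsupp.filter_add_filter_not _ _).symm, ?_, ?_⟩
  · intro j hj
    rw [mem_gs, DFinsupp.filter_apply] at hj
    rw [Finset.mem_inter, mem_gs]
    by_cases h : j ∈ S
    · exact ⟨by simpa [h] using hj, h⟩
    · simp [h] at hj
  · intro j hj
    rw [mem_gs, DFinsupp.filter_apply] at hj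
    rw [Finset.mem_sdiff, mem_gs]
    by_cases h : j ∈ S
    · simp [h] at hj
    · exact ⟨by simpa [h] using hj, h⟩

/-- if `γ + δ` is supported in `S`, `γ` too, and `δ` is supported away from `S`, then `δ = 0` -/
theorem eq_zero_of_gs_add {S : Finset ℕ} {γ δ : G} (hγ : gs γ ⊆ S) (hδ : Disjoint (gs δ) S)
    (h : gs (γ + δ) ⊆ S) : δ = 0 := by
  apply DFinsupp.ext
  intro j
  by_contra hne
  have hj : j ∉ S := Finset.disjoint_left.1 hδ (mem_gs.2 hne)
  have h1 := apply_eq_zero_of_notMem h hj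
  rw [DFinsupp.add_apply, apply_eq_zero_of_notMem hγ hj, zero_add] at h1
  exact hne h1

theorem ν_pos (S : Finset ℕ) : 0 < ν S :=
  Finset.card_pos.2 ⟨0, mem_GF.2 (by rw [gs_zero]; exact Finset.empty_subset S)⟩

theorem ν_empty : ν ∅ = 1 := by
  unfold ν
  rw [Finset.card_eq_one]
  refine ⟨0, Finset.eq_singleton_iff_unique_mem.2 ⟨mem_GF.2 (by rw [gs_zero]), fun γ hγ => ?_⟩⟩
  exact gs_eq_empty (Finset.subset_empty.1 (mem_GF.1 hγ))

theorem ν_single (j : ℕ) : ν {j} = (j + 2) ^ 2 := by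
  have e : GF {j} = (Finset.univ : Finset (ZMod (j + 2) × ZMod (j + 2))).image (fun p => gj j p.1 p.2) := by
    ext γ
    rw [mem_GF, Finset.mem_image]
    constructor
    · intro h
      exact ⟨γ j, Finset.mem_univ _, (eq_gj h).symm⟩
    · rintro ⟨p, -, rfl⟩
      exact gs_gj j _ _
  unfold ν
  rw [e, Finset.card_image_of_injective]
  · simp [sq]
  · intro p q h
    have h1 := gj_apply j p.1 p.2
    have h' : gj j p.1 p.2 = gj j q.1 q.2 := h
    rw [h', gj_apply] at h1
    exact h1.symm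

theorem ν_sdiff {S S' : Finset ℕ} (h : S ⊆ S') : ν S' = ν S * ν (S' \ S) := by
  unfold ν
  rw [← Finset.card_product]
  symm
  refine Finset.card_bij (fun p _ => p.1 + p.2) ?_ ?_ ?_
  · intro p hp
    rw [Finset.mem_product, mem_GF, mem_GF] at hp
    rw [mem_GF]
    exact (gs_add _ _).trans (Finset.union_subset (hp.1.trans h) (hp.2.trans Finset.sdiff_subset))
  · intro p hp q hq e
    rw [Finset.mem_product, mem_GF, mem_GF] at hp hq
    have e2 : p.2 = q.2 := by
      apply DFinsupp.ext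
      intro j
      by_cases hj : j ∈ S
      · have hj' : j ∉ S' \ S := fun h' => (Finset.mem_sdiff.1 h').2 hj
        rw [apply_eq_zero_of_notMem hp.2 hj', apply_eq_zero_of_notMem hq.2 hj']
      · have e3 : (p.1 + p.2) j = (q.1 + q.2) j := by rw [e]
        rwa [DFinsupp.add_apply, DFinsupp.add_apply, apply_eq_zero_of_notMem hp.1 hj,
          apply_eq_zero_of_notMem hq.1 hj, zero_add, zero_add] at e3
    rw [e2] at e
    exact Prod.ext (add_right_cancel e) e2
  · intro ε hε
    rw [mem_GF] at hε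
    obtain ⟨γ, δ, e, h1, h2⟩ := exists_split S ε
    refine ⟨(γ, δ), ?_, e.symm⟩
    rw [Finset.mem_product, mem_GF, mem_GF]
    exact ⟨h1.trans Finset.inter_subset_right, h2.trans (Finset.sdiff_subset_sdiff hε le_rfl)⟩

/-- the carries, an exponent: at index `2j` the carry of the first components, at `2j+1` of the second -/
noncomputable def carry (γ δ : G) : ℤ →₀ ℤ :=
  ∑ j ∈ gs γ ∪ gs δ,
    (Finsupp.single (2 * (j : ℤ)) ((((γ j).1.val + (δ j).1.val) / (j + 2) : ℕ) : ℤ) +
     Finsupp.single (2 * (j : ℤ) + 1) ((((γ j).2.val + (δ j).2.val) / (j + 2) : ℕ) : ℤ))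

/-- the bicharacter -/
noncomputable def chi (γ δ : G) : ℂ :=
  ∏ j ∈ gs γ ∪ gs δ, ((ZMod.toCircle ((γ j).2 * (δ j).1) : Circle) : ℂ)

/-- the cocycle -/
noncomputable def cc (γ δ : G) : KK := mono (carry γ δ) (chi γ δ)

/-- an exponent with prescribed values at the indices `2j`, `2j+1`, `j ∈ S` -/
noncomputable def EE (S : Finset ℕ) (f f' : ℕ → ℤ) : ℤ →₀ ℤ :=
  ∑ j ∈ S, (Finsupp.single (2 * (j : ℤ)) (f j) + Finsupp.single (2 * (j : ℤ) + 1) (f' j))

theorem EE_add (S : Finset ℕ) (f f' g g' : ℕ → ℤ) :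
    EE S f f' + EE S g g' = EE S (fun j => f j + g j) (fun j => f' j + g' j) := by
  unfold EE
  rw [← Finset.sum_add_distrib]
  refine Finset.sum_congr rfl fun j _ => ?_
  rw [Finsupp.single_add, Finsupp.single_add]
  abel

theorem EE_smul (S : Finset ℕ) (M : ℕ) (f f' : ℕ → ℤ) :
    M • EE S f f' = EE S (fun j => M * f j) (fun j => M * f' j) := by
  unfold EE
  rw [Finset.smul_sum]
  refine Finset.sum_congr rfl fun j _ => ?_
  rw [smul_add, Finsupp.smul_single, Finsupp.smul_single, nsmul_eq_mul, nsmul_eq_mul]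

theorem EE_congr {S : Finset ℕ} {f f' g g' : ℕ → ℤ} (h : ∀ j ∈ S, f j = g j) (h' : ∀ j ∈ S, f' j = g' j) :
    EE S f f' = EE S g g' := by
  unfold EE
  refine Finset.sum_congr rfl fun j hj => ?_
  rw [h j hj, h' j hj]

theorem EE_even {S : Finset ℕ} (f f' : ℕ → ℤ) {j : ℕ} (hj : j ∈ S) : EE S f f' (2 * (j : ℤ)) = f j := by
  unfold EE
  rw [Finsupp.finsetSum_apply, Finset.sum_eq_single_of_mem j hj]
  · rw [Finsupp.add_apply, Finsupp.single_eq_same, Finsupp.single_apply, if_neg (by omega), add_zero]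
  · intro i _ hij
    rw [Finsupp.add_apply, Finsupp.single_apply, Finsupp.single_apply, if_neg (by omega), if_neg (by omega),
      add_zero]

theorem EE_odd {S : Finset ℕ} (f f' : ℕ → ℤ) {j : ℕ} (hj : j ∈ S) : EE S f f' (2 * (j : ℤ) + 1) = f' j := by
  unfold EE
  rw [Finsupp.finsetSum_apply, Finset.sum_eq_single_of_mem j hj]
  · rw [Finsupp.add_apply, Finsupp.single_eq_same, Finsupp.single_apply, if_neg (by omega), zero_add]
  · intro i _ hij
    rw [Finsupp.add_apply, Finsupp.single_apply, Finsupp.single_apply, if_neg (by omega), if_neg (by omega),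
      add_zero]

theorem EE_neg (S : Finset ℕ) (f f' : ℕ → ℤ) {i : ℤ} (hi' : i < 0) : EE S f f' i = 0 := by
  unfold EE
  rw [Finsupp.finsetSum_apply]
  refine Finset.sum_eq_zero fun j _ => ?_
  rw [Finsupp.add_apply, Finsupp.single_apply, Finsupp.single_apply, if_neg (by omega), if_neg (by omega),
    add_zero]

/-- the carry of an addition in `ZMod (j+2)` -/
def cr {j : ℕ} (a b : ZMod (j + 2)) : ℤ := (((a.val + b.val) / (j + 2) : ℕ) : ℤ)

theorem cr_spec {j : ℕ} (a b : ZMod (j + 2)) :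
    ((j : ℤ) + 2) * cr a b + ((a + b).val : ℤ) = (a.val : ℤ) + (b.val : ℤ) := by
  have h := Nat.div_add_mod (a.val + b.val) (j + 2)
  rw [← ZMod.val_add] at h
  unfold cr
  exact_mod_cast h

theorem cr_comm {j : ℕ} (a b : ZMod (j + 2)) : cr a b = cr b a := by
  unfold cr
  rw [add_comm]

theorem cr_zero_right {j : ℕ} (a : ZMod (j + 2)) : cr a 0 = 0 := by
  unfold cr
  rw [ZMod.val_zero, add_zero, Nat.div_eq_of_lt (ZMod.val_lt a), Nat.cast_zero]

theorem cr_zero_left {j : ℕ} (a : ZMod (j + 2)) : cr 0 a = 0 := by rw [cr_comm, cr_zero_right]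

theorem cr_cocycle {j : ℕ} (a b c : ZMod (j + 2)) : cr a b + cr (a + b) c = cr b c + cr a (b + c) := by
  have h1 := cr_spec a b
  have h2 := cr_spec (a + b) c
  have h3 := cr_spec b c
  have h4 := cr_spec a (b + c)
  rw [← add_assoc] at h4
  have hj : ((j : ℤ) + 2) ≠ 0 := by omega
  apply mul_left_cancel₀ hj
  linarith only [h1, h2, h3, h4]

theorem carry_eq {γ δ : G} {T : Finset ℕ} (hγ : gs γ ⊆ T) (hδ : gs δ ⊆ T) :
    carry γ δ = EE T (fun j => cr (γ j).1 (δ j).1) (fun j => cr (γ j).2 (δ j).2) := by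
  change EE (gs γ ∪ gs δ) (fun j => cr (γ j).1 (δ j).1) (fun j => cr (γ j).2 (δ j).2) = _
  unfold EE
  apply Finset.sum_subset (Finset.union_subset hγ hδ)
  intro j _ hj
  simp [apply_eq_zero_of_notMem Finset.subset_union_left hj, cr_zero_left]

theorem chi_eq {γ δ : G} {T : Finset ℕ} (hγ : gs γ ⊆ T) (hδ : gs δ ⊆ T) :
    chi γ δ = ∏ j ∈ T, ((ZMod.toCircle ((γ j).2 * (δ j).1) : Circle) : ℂ) := by
  unfold chi
  apply Finset.prod_subset (Finset.union_subset hγ hδ)
  intro j _ hj
  rw [apply_eq_zero_of_notMem Finset.subset_union_left hj]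
  simp

theorem chi_ne (γ δ : G) : chi γ δ ≠ 0 :=
  Finset.prod_ne_zero_iff.2 fun _ _ => Circle.coe_ne_zero _

theorem carry_comm (γ δ : G) : carry γ δ = carry δ γ := by
  rw [carry_eq (T := gs γ ∪ gs δ) Finset.subset_union_left Finset.subset_union_right,
    carry_eq (T := gs γ ∪ gs δ) Finset.subset_union_right Finset.subset_union_left]
  exact EE_congr (fun j _ => cr_comm _ _) (fun j _ => cr_comm _ _)

theorem cc_comm_iff (γ δ : G) : cc γ δ = cc δ γ ↔ chi γ δ = chi δ γ := by
  unfold cc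
  rw [carry_comm δ γ]
  exact ⟨mono_inj _, fun h => by rw [h]⟩

theorem cc_mem (γ δ : G) : cc γ δ ∈ K 0 := by
  apply mono_mem_K0
  intro i hi'
  rw [carry_eq (T := gs γ ∪ gs δ) Finset.subset_union_left Finset.subset_union_right]
  exact EE_neg _ _ _ hi'

theorem cc_ne (γ δ : G) : cc γ δ ≠ 0 := mono_ne_zero _ (chi_ne γ δ)

theorem cc_cocycle (γ δ ε : G) : cc γ δ * cc (γ + δ) ε = cc δ ε * cc γ (δ + ε) := by
  have h1 : gs γ ⊆ gs γ ∪ gs δ ∪ gs ε := Finset.subset_union_left.trans Finset.subset_union_left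
  have h2 : gs δ ⊆ gs γ ∪ gs δ ∪ gs ε := Finset.subset_union_right.trans Finset.subset_union_left
  have h3 : gs ε ⊆ gs γ ∪ gs δ ∪ gs ε := Finset.subset_union_right
  have h4 : gs (γ + δ) ⊆ gs γ ∪ gs δ ∪ gs ε := (gs_add _ _).trans (Finset.union_subset h1 h2)
  have h5 : gs (δ + ε) ⊆ gs γ ∪ gs δ ∪ gs ε := (gs_add _ _).trans (Finset.union_subset h2 h3)
  unfold cc
  rw [mono_mul, mono_mul]
  congr 1
  · rw [carry_eq h1 h2, carry_eq h4 h3, carry_eq h2 h3, carry_eq h1 h5, EE_add, EE_add]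
    exact EE_congr (fun j _ => cr_cocycle _ _ _) (fun j _ => cr_cocycle _ _ _)
  · rw [chi_eq h1 h2, chi_eq h4 h3, chi_eq h2 h3, chi_eq h1 h5, ← Finset.prod_mul_distrib,
      ← Finset.prod_mul_distrib]
    refine Finset.prod_congr rfl fun j _ => ?_
    rw [← Circle.coe_mul, ← Circle.coe_mul, ← AddChar.map_add_eq_mul, ← AddChar.map_add_eq_mul]
    congr 2
    simp only [DFinsupp.add_apply, Prod.fst_add, Prod.snd_add]
    ring

theorem cc_disj {γ δ : G} (h : Disjoint (gs γ) (gs δ)) : cc γ δ = 1 := by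
  have hj : ∀ j, γ j = 0 ∨ δ j = 0 := by
    intro j
    by_contra hc
    push Not at hc
    exact Finset.disjoint_left.1 h (mem_gs.2 hc.1) (mem_gs.2 hc.2)
  have h1 : carry γ δ = 0 := by
    rw [carry_eq (T := gs γ ∪ gs δ) Finset.subset_union_left Finset.subset_union_right]
    unfold EE
    refine Finset.sum_eq_zero fun j _ => ?_
    rcases hj j with h2 | h2 <;> simp [h2, cr_zero_left, cr_zero_right]
  have h2 : chi γ δ = 1 := by
    unfold chi
    refine Finset.prod_eq_one fun j _ => ?_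
    rcases hj j with h2 | h2 <;> simp [h2]
  unfold cc
  rw [h1, h2, mono_zero_one]

theorem cc_zero_left (γ : G) : cc 0 γ = 1 := cc_disj (by rw [gs_zero]; exact Finset.disjoint_empty_left _)

theorem cc_zero_right (γ : G) : cc γ 0 = 1 := cc_disj (by rw [gs_zero]; exact Finset.disjoint_empty_right _)

theorem cc_neg (γ : G) : cc γ (-γ) = cc (-γ) γ := by
  rw [cc_comm_iff, chi_eq (T := gs γ) le_rfl (gs_neg γ).le, chi_eq (T := gs γ) (gs_neg γ).le le_rfl]
  refine Finset.prod_congr rfl fun j _ => ?_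
  congr 2
  simp only [DFinsupp.neg_apply, Prod.fst_neg, Prod.snd_neg]
  ring

theorem chi_gj_right (j : ℕ) (γ : G) (a b : ZMod (j + 2)) :
    chi γ (gj j a b) = ((ZMod.toCircle ((γ j).2 * a) : Circle) : ℂ) := by
  rw [chi_eq (T := gs γ ∪ {j}) Finset.subset_union_left ((gs_gj j a b).trans Finset.subset_union_right),
    Finset.prod_eq_single_of_mem j (by simp), gj_apply]
  intro i _ hij
  rw [gj_apply_ne hij]
  simp

theorem chi_gj_left (j : ℕ) (γ : G) (a b : ZMod (j + 2)) :
    chi (gj j a b) γ = ((ZMod.toCircle (b * (γ j).1) : Circle) : ℂ) := by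
  rw [chi_eq (T := gs γ ∪ {j}) ((gs_gj j a b).trans Finset.subset_union_right) Finset.subset_union_left,
    Finset.prod_eq_single_of_mem j (by simp), gj_apply]
  intro i _ hij
  rw [gj_apply_ne hij]
  simp

theorem cc_X (j : ℕ) (γ : G) : cc γ (gj j 1 0) = cc (gj j 1 0) γ ↔ (γ j).2 = 0 := by
  rw [cc_comm_iff, chi_gj_right, chi_gj_left, Circle.coe_inj, ZMod.injective_toCircle.eq_iff, mul_one, zero_mul]

theorem cc_Y (j : ℕ) (γ : G) : cc γ (gj j 0 1) = cc (gj j 0 1) γ ↔ (γ j).1 = 0 := by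
  rw [cc_comm_iff, chi_gj_right, chi_gj_left, Circle.coe_inj, ZMod.injective_toCircle.eq_iff, mul_zero, one_mul,
    eq_comm]

/-- the weight of a group element -/
noncomputable def WW (S : Finset ℕ) (q : ℕ → ℕ) (γ : G) : ℤ →₀ ℤ :=
  EE S (fun j => (q j : ℤ) * ((γ j).1.val : ℤ)) (fun j => (q j : ℤ) * ((γ j).2.val : ℤ))

theorem WW_carry {S : Finset ℕ} {q : ℕ → ℕ} {M : ℕ} (hq : ∀ j ∈ S, (j + 2) * q j = M) {γ δ : G}
    (hγ : gs γ ⊆ S) (hδ : gs δ ⊆ S) : M • carry γ δ + WW S q (γ + δ) = WW S q γ + WW S q δ := by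
  rw [carry_eq hγ hδ, EE_smul]
  unfold WW
  rw [EE_add, EE_add]
  refine EE_congr (fun j hj => ?_) (fun j hj => ?_)
  · have h1 := cr_spec (γ j).1 (δ j).1
    have h2 : ((j : ℤ) + 2) * q j = M := by exact_mod_cast hq j hj
    simp only [DFinsupp.add_apply, Prod.fst_add]
    rw [← h2]
    linear_combination (q j : ℤ) * h1
  · have h1 := cr_spec (γ j).2 (δ j).2
    have h2 : ((j : ℤ) + 2) * q j = M := by exact_mod_cast hq j hj
    simp only [DFinsupp.add_apply, Prod.snd_add]
    rw [← h2]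
    linear_combination (q j : ℤ) * h1

theorem val_eq_of_weight {j : ℕ} {q M : ℕ} (hq : (j + 2) * q = M) (hM : 0 < M) {u v : ℤ} {a b : ZMod (j + 2)}
    (h : (M : ℤ) * u + (q : ℤ) * (a.val : ℤ) = (M : ℤ) * v + (q : ℤ) * (b.val : ℤ)) : a = b := by
  have hq0 : (q : ℤ) ≠ 0 := by
    rintro h0
    have : q = 0 := by exact_mod_cast h0
    rw [this, mul_zero] at hq
    omega
  have h2 : ((j : ℤ) + 2) * q = M := by exact_mod_cast hq
  have h3 : ((j : ℤ) + 2) * u + (a.val : ℤ) = ((j : ℤ) + 2) * v + (b.val : ℤ) := by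
    apply mul_left_cancel₀ hq0
    rw [← h2] at h
    linear_combination h
  have h4 := congrArg (fun z : ℤ => (z : ZMod (j + 2))) h3
  have h5 : ((j : ZMod (j + 2)) + 2) = 0 := by exact_mod_cast ZMod.natCast_self (j + 2)
  push_cast at h4
  rw [h5, zero_mul, zero_mul, zero_add, zero_add, ZMod.natCast_zmod_val, ZMod.natCast_zmod_val] at h4
  exact h4

theorem WW_inj {S : Finset ℕ} {q : ℕ → ℕ} {M : ℕ} (hq : ∀ j ∈ S, (j + 2) * q j = M) (hM : 0 < M) {γ δ : G}
    (hγ : gs γ ⊆ S) (hδ : gs δ ⊆ S) {u v : Γ} (h : M • u + toLex (WW S q γ) = M • v + toLex (WW S q δ)) :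
    γ = δ := by
  have h' : ∀ i : ℤ, (M : ℤ) * ofLex u i + WW S q γ i = (M : ℤ) * ofLex v i + WW S q δ i := by
    intro i
    have h1 : (M • ofLex u + WW S q γ) i = (M • ofLex v + WW S q δ) i := congrArg (fun g : Γ => ofLex g i) h
    rwa [Finsupp.add_apply, Finsupp.add_apply, Finsupp.smul_apply, Finsupp.smul_apply, nsmul_eq_mul,
      nsmul_eq_mul] at h1
  apply DFinsupp.ext
  intro j
  by_cases hj : j ∈ S
  · have h1 := h' (2 * (j : ℤ))
    have h2 := h' (2 * (j : ℤ) + 1)
    unfold WW at h1 h2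
    rw [EE_even _ _ hj, EE_even _ _ hj] at h1
    rw [EE_odd _ _ hj, EE_odd _ _ hj] at h2
    exact Prod.ext (val_eq_of_weight (hq j hj) hM h1) (val_eq_of_weight (hq j hj) hM h2)
  · rw [apply_eq_zero_of_notMem hγ hj, apply_eq_zero_of_notMem hδ hj]

/-- the valuation argument, on coefficient families -/
theorem exists_coeff_ne (x y : G →₀ KK) (hx : x ≠ 0) (hy : y ≠ 0) :
    ∃ ε : G, ∑ p ∈ (x.support ×ˢ y.support).filter (fun p => p.1 + p.2 = ε), x p.1 * y p.2 * cc p.1 p.2 ≠ 0 := by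
  set S : Finset ℕ := (x.support ∪ y.support).biUnion gs with hS
  have hxS : ∀ γ ∈ x.support, gs γ ⊆ S := fun γ h =>
    Finset.subset_biUnion_of_mem gs (Finset.mem_union_left _ h)
  have hyS : ∀ γ ∈ y.support, gs γ ⊆ S := fun γ h =>
    Finset.subset_biUnion_of_mem gs (Finset.mem_union_right _ h)
  set M : ℕ := ∏ j ∈ S, (j + 2) with hMdef
  have hM : 0 < M := Finset.prod_pos fun j _ => by omega
  set q : ℕ → ℕ := fun j => M / (j + 2) with hqdef
  have hq : ∀ j ∈ S, (j + 2) * q j = M := fun j hj =>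
    Nat.mul_div_cancel' (Finset.dvd_prod_of_mem (fun j => j + 2) hj)
  obtain ⟨γ₀, hγ₀, hmx⟩ := Finset.exists_min_image x.support (fun γ => M • ov (x γ) + toLex (WW S q γ))
    (Finsupp.support_nonempty_iff.2 hx)
  obtain ⟨δ₀, hδ₀, hmy⟩ := Finset.exists_min_image y.support (fun γ => M • ov (y γ) + toLex (WW S q γ))
    (Finsupp.support_nonempty_iff.2 hy)
  have key : ∀ γ ∈ x.support, ∀ δ ∈ y.support, M • ov (x γ * y δ * cc γ δ) + toLex (WW S q (γ + δ)) =
      (M • ov (x γ) + toLex (WW S q γ)) + (M • ov (y δ) + toLex (WW S q δ)) := by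
    intro γ hγ δ hδ
    have h1 : x γ ≠ 0 := Finsupp.mem_support_iff.1 hγ
    have h2 : y δ ≠ 0 := Finsupp.mem_support_iff.1 hδ
    have h3 : M • toLex (carry γ δ) + toLex (WW S q (γ + δ)) = toLex (WW S q γ) + toLex (WW S q δ) :=
      congrArg toLex (WW_carry hq (hxS γ hγ) (hyS δ hδ))
    rw [ov_mul (mul_ne_zero h1 h2) (cc_ne γ δ), ov_mul h1 h2, cc, ov_mono _ (chi_ne γ δ), nsmul_add, nsmul_add,
      add_assoc, h3]
    abel
  refine ⟨γ₀ + δ₀, sum_ne_zero_of_ov _ (fun p : G × G => x p.1 * y p.2 * cc p.1 p.2) (γ₀, δ₀) ?_ ?_ ?_⟩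
  · exact Finset.mem_filter.2 ⟨Finset.mem_product.2 ⟨hγ₀, hδ₀⟩, rfl⟩
  · exact mul_ne_zero (mul_ne_zero (Finsupp.mem_support_iff.1 hγ₀) (Finsupp.mem_support_iff.1 hδ₀)) (cc_ne _ _)
  · rintro ⟨γ, δ⟩ hp hne -
    obtain ⟨hp1, hp2⟩ := Finset.mem_filter.1 hp
    obtain ⟨hγ, hδ⟩ := Finset.mem_product.1 hp1
    dsimp only at hγ hδ hp2 ⊢
    have hγne : γ₀ ≠ γ := by
      rintro rfl
      exact hne (by rw [add_left_cancel hp2])
    have h1 : M • ov (x γ₀) + toLex (WW S q γ₀) < M • ov (x γ) + toLex (WW S q γ) :=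
      lt_of_le_of_ne (hmx γ hγ) fun h => hγne (WW_inj hq hM (hxS _ hγ₀) (hxS _ hγ) h)
    have h2 := add_lt_add_of_lt_of_le h1 (hmy δ hδ)
    rw [← key γ₀ hγ₀ δ₀ hδ₀, ← key γ hγ δ hδ, hp2, add_lt_add_iff_right] at h2
    exact lt_of_nsmul_lt_nsmul_right M h2

/-- The big algebra. -/
def A : Type := G →₀ KK

section construction

noncomputable local instance acgA : AddCommGroup A := inferInstanceAs (AddCommGroup (G →₀ KK))
noncomputable local instance modA : Module KK A := inferInstanceAs (Module KK (G →₀ KK))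

noncomputable def zb0 : Module.Basis G KK A := (Finsupp.basisSingleOne : Module.Basis G KK (G →₀ KK))

/-- the product, as a bilinear map -/
noncomputable def mulA : A →ₗ[KK] A →ₗ[KK] A :=
  zb0.constr KK (fun γ => zb0.constr KK (fun δ => cc γ δ • zb0 (γ + δ)))

theorem mulA_zb0 (γ δ : G) : mulA (zb0 γ) (zb0 δ) = cc γ δ • zb0 (γ + δ) := by
  simp [mulA]

theorem A_ind0 {P : A → Prop} (hb : ∀ γ, P (zb0 γ)) (h0 : P 0) (hadd : ∀ x y, P x → P y → P (x + y))
    (hsmul : ∀ (c : KK) x, P x → P (c • x)) (x : A) : P x := by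
  have hx := zb0.mem_span x
  induction hx using Submodule.span_induction with
  | mem x hx =>
    obtain ⟨γ, rfl⟩ := hx
    exact hb γ
  | zero => exact h0
  | add x y _ _ h1 h2 => exact hadd x y h1 h2
  | smul c x _ h1 => exact hsmul c x h1

theorem mulA_assoc (x y w : A) : mulA (mulA x y) w = mulA x (mulA y w) := by
  induction x using A_ind0 with
  | h0 => simp
  | hadd x x' h1 h2 => simp only [map_add, LinearMap.add_apply, h1, h2]
  | hsmul c x h1 => simp only [map_smul, LinearMap.smul_apply, h1]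
  | hb γ =>
    induction y using A_ind0 with
    | h0 => simp
    | hadd x x' h1 h2 => simp only [map_add, LinearMap.add_apply, h1, h2]
    | hsmul c x h1 => simp only [map_smul, LinearMap.smul_apply, h1]
    | hb δ =>
      induction w using A_ind0 with
      | h0 => simp
      | hadd x x' h1 h2 => simp only [map_add, h1, h2]
      | hsmul c x h1 => simp only [map_smul, h1]
      | hb ε =>
        simp only [mulA_zb0, map_smul, LinearMap.smul_apply, smul_smul, cc_cocycle, add_assoc]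

theorem mulA_one_left (x : A) : mulA (zb0 0) x = x := by
  induction x using A_ind0 with
  | h0 => simp
  | hadd x x' h1 h2 => simp only [map_add, h1, h2]
  | hsmul c x h1 => simp only [map_smul, h1]
  | hb γ => rw [mulA_zb0, cc_zero_left, one_smul, zero_add]

theorem mulA_one_right (x : A) : mulA x (zb0 0) = x := by
  induction x using A_ind0 with
  | h0 => simp
  | hadd x x' h1 h2 => simp only [map_add, LinearMap.add_apply, h1, h2]
  | hsmul c x h1 => simp only [map_smul, LinearMap.smul_apply, h1]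
  | hb γ => rw [mulA_zb0, cc_zero_right, one_smul, add_zero]

noncomputable local instance ringA : Ring A :=
  { acgA with
    mul := fun x y => mulA x y
    one := zb0 0
    left_distrib := fun x y w => map_add (mulA x) y w
    right_distrib := fun x y w => by
      show mulA (x + y) w = mulA x w + mulA y w
      simp
    zero_mul := fun x => by
      show mulA 0 x = 0
      simp
    mul_zero := fun x => map_zero (mulA x)
    mul_assoc := mulA_assoc
    one_mul := mulA_one_left
    mul_one := mulA_one_right }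

noncomputable local instance algA : Algebra KK A :=
  Algebra.ofModule (fun c x y => by
      show mulA (c • x) y = c • mulA x y
      simp)
    (fun c x y => map_smul (mulA x) c y)

theorem zb0_mul (γ δ : G) : zb0 γ * zb0 δ = cc γ δ • zb0 (γ + δ) := by
  show mulA (zb0 γ) (zb0 δ) = _
  simp [mulA]

theorem eq_sum_repr0 (x : A) : x = ∑ γ ∈ (zb0.repr x).support, zb0.repr x γ • zb0 γ := by
  conv_lhs => rw [← zb0.linearCombination_repr x]
  rw [Finsupp.linearCombination_apply, Finsupp.sum]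

theorem repr_mulA (x y : A) (ε : G) : zb0.repr (mulA x y) ε =
    ∑ p ∈ ((zb0.repr x).support ×ˢ (zb0.repr y).support).filter (fun p => p.1 + p.2 = ε),
      zb0.repr x p.1 * zb0.repr y p.2 * cc p.1 p.2 := by
  conv_lhs => rw [eq_sum_repr0 x, eq_sum_repr0 y]
  rw [Finset.sum_filter, Finset.sum_product, map_sum mulA, LinearMap.sum_apply, map_sum, Finsupp.finsetSum_apply]
  refine Finset.sum_congr rfl fun γ _ => ?_
  rw [map_sum, map_sum, Finsupp.finsetSum_apply]
  refine Finset.sum_congr rfl fun δ _ => ?_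
  simp only [map_smul, LinearMap.smul_apply, mulA_zb0, smul_smul, Module.Basis.repr_self, Finsupp.smul_apply,
    Finsupp.single_apply, smul_eq_mul, mul_ite, mul_one, mul_zero]
  split_ifs
  · ring
  · rfl

/-- No zero divisors.  Fix a finite `S` containing the supports, `M = ∏ j ∈ S, (j+2)`, and weigh the term
`x_γ z_γ` by `M • ov x_γ + W γ` in `Γ`, where `W γ` has `(M/(j+2)) * val` at the indices `2j`, `2j+1`.  Distinct `γ` have
distinct weights (reduce mod `M`), and `M • carry γ δ = W γ + W δ - W (γ+δ)`.  The product of the two terms of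
least weight is the only term of least order in the coefficient at `γ₀ + δ₀` (`sum_ne_zero_of_ov`). -/
theorem mul_ne_zero_A {x y : A} (hx : x ≠ 0) (hy : y ≠ 0) : x * y ≠ 0 := by
  obtain ⟨ε, hε⟩ := exists_coeff_ne (zb0.repr x) (zb0.repr y) (zb0.repr.map_ne_zero_iff.2 hx)
    (zb0.repr.map_ne_zero_iff.2 hy)
  intro h
  have h' : mulA x y = 0 := h
  rw [← repr_mulA, h', map_zero] at hε
  exact hε rfl

/-- Inverses: left multiplication by `x` is an injective `KK`-linear endomorphism of the finite-dimensional span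
of the `zb0 γ`, `γ ∈ GF S`. -/
theorem exists_inv_A {x : A} (hx : x ≠ 0) : IsUnit x := by
  have : Nontrivial A := inferInstanceAs (Nontrivial (G →₀ KK))
  have : NoZeroDivisors A := ⟨fun {a b} h => by
    by_contra hc
    push Not at hc
    exact mul_ne_zero_A hc.1 hc.2 h⟩
  have : IsDomain A := NoZeroDivisors.to_isDomain A
  set S : Finset ℕ := (zb0.repr x).support.biUnion gs with hS
  set V : Submodule KK A := Submodule.span KK (zb0 '' {γ : G | gs γ ⊆ S}) with hV
  have hVb : ∀ γ : G, gs γ ⊆ S → zb0 γ ∈ V := fun γ h => Submodule.subset_span ⟨γ, h, rfl⟩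
  have h1 : (1 : A) ∈ V := hVb 0 (by rw [gs_zero]; exact Finset.empty_subset S)
  have hmul : ∀ a b : A, a ∈ V → b ∈ V → a * b ∈ V := by
    intro a b ha hb
    induction ha using Submodule.span_induction with
    | zero => rw [zero_mul]; exact V.zero_mem
    | add a a' _ _ h2 h3 => rw [add_mul]; exact V.add_mem h2 h3
    | smul c a _ h2 => rw [smul_mul_assoc]; exact V.smul_mem c h2
    | mem a ha =>
      obtain ⟨γ, hγ, rfl⟩ := ha
      induction hb using Submodule.span_induction with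
      | zero => rw [mul_zero]; exact V.zero_mem
      | add b b' _ _ h2 h3 => rw [mul_add]; exact V.add_mem h2 h3
      | smul c b _ h2 => rw [mul_smul_comm]; exact V.smul_mem c h2
      | mem b hb =>
        obtain ⟨δ, hδ, rfl⟩ := hb
        rw [zb0_mul]
        exact V.smul_mem _ (hVb _ ((gs_add γ δ).trans (Finset.union_subset hγ hδ)))
  have hxV : x ∈ V := by
    rw [eq_sum_repr0 x]
    exact V.sum_mem fun γ hγ => V.smul_mem _ (hVb γ (Finset.subset_biUnion_of_mem gs hγ))
  have hfg : V.FG := Submodule.fg_span ((gs_finite S).image _)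
  exact (IsIntegral.of_mem_of_fg (V.toSubalgebra h1 hmul) hfg x hxV).isUnit hx

theorem nontrivialA : Nontrivial A := inferInstanceAs (Nontrivial (G →₀ KK))

@[reducible] noncomputable def divA : DivisionRing A :=
  haveI := nontrivialA
  DivisionRing.ofIsUnitOrEqZero (fun x => by
    by_cases h : x = 0
    · exact Or.inr h
    · exact Or.inl (exists_inv_A h))

end construction

noncomputable instance instDivisionRingA : DivisionRing A := divA

noncomputable instance instAlgebraA : Algebra KK A := algA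

/-- the monomial basis -/
noncomputable def zb : Module.Basis G KK A := zb0

/-- monomials -/
noncomputable def z (γ : G) : A := zb γ

theorem z_mul (γ δ : G) : z γ * z δ = cc γ δ • z (γ + δ) := zb0_mul γ δ

theorem z_zero : z 0 = 1 := rfl

/-- the trace: coefficient of `1` -/
noncomputable def τ : A →ₗ[KK] KK := zb.coord 0

theorem A_ind {P : A → Prop} (hb : ∀ γ, P (z γ)) (h0 : P 0) (hadd : ∀ x y, P x → P y → P (x + y))
    (hsmul : ∀ (c : KK) x, P x → P (c • x)) (x : A) : P x := A_ind0 hb h0 hadd hsmul x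

theorem τ_z (γ : G) : τ (z γ) = if γ = 0 then 1 else 0 := by
  unfold τ z
  rw [Module.Basis.coord_apply, Module.Basis.repr_self, Finsupp.single_apply]

theorem τ_one : τ 1 = 1 := by rw [← z_zero, τ_z, if_pos rfl]

theorem τ_comm (x y : A) : τ (x * y) = τ (y * x) := by
  induction x using A_ind with
  | h0 => rw [zero_mul, mul_zero]
  | hadd x x' h1 h2 => rw [add_mul, mul_add, map_add, map_add, h1, h2]
  | hsmul c x h1 => rw [smul_mul_assoc, mul_smul_comm, map_smul, map_smul, h1]
  | hb γ =>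
    induction y using A_ind with
    | h0 => rw [zero_mul, mul_zero]
    | hadd x x' h1 h2 => rw [add_mul, mul_add, map_add, map_add, h1, h2]
    | hsmul c x h1 => rw [smul_mul_assoc, mul_smul_comm, map_smul, map_smul, h1]
    | hb δ =>
      rw [z_mul, z_mul, map_smul, map_smul, τ_z, τ_z, add_comm δ γ]
      split_ifs with h
      · rw [eq_neg_of_add_eq_zero_right h, cc_neg]
      · rw [smul_zero, smul_zero]

theorem z_ne (γ : G) : z γ ≠ 0 := zb.ne_zero γ

theorem z_inv (γ : G) : (z γ)⁻¹ = (cc γ (-γ))⁻¹ • z (-γ) := by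
  apply inv_eq_of_mul_eq_one_right
  rw [mul_smul_comm, z_mul, smul_smul, inv_mul_cancel₀ (cc_ne _ _), one_smul, add_neg_cancel, z_zero]

instance : CharZero A := charZero_of_injective_algebraMap (algebraMap KK A).injective

end Crest.Agent.R180
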