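import Mathlib

/-!
# Row 180, the field world

One Hahn series field `KK` with exponent group `Lex (ℤ →₀ ℤ)`.  Indices `i ≥ 0` carry the parameters `s i`
of the symbol algebras, index `-n-1` carries the arc parameter `t n`.  `K n` is the subfield of series whose
exponents vanish at all indices `< -n`; `O n`, `r n` are the place of `KK` onto `K n`.
-/

set_option autoImplicit false

namespace Crest.Agent.R180

abbrev Γ : Type := Lex (ℤ →₀ ℤ)

/-- The big field. -/
def KK : Type := HahnSeries Γ ℂ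

noncomputable instance : Field KK := inferInstanceAs (Field (HahnSeries Γ ℂ))

/-- view as a Hahn series -/
def hs (x : KK) : HahnSeries Γ ℂ := x

instance : CharZero KK :=
  charZero_of_injective_ringHom (f := (HahnSeries.C : ℂ →+* HahnSeries Γ ℂ)) HahnSeries.C_injective

theorem hs_add (x y : KK) : hs (x + y) = hs x + hs y := rfl
theorem hs_sub (x y : KK) : hs (x - y) = hs x - hs y := rfl
theorem hs_neg (x : KK) : hs (-x) = -hs x := rfl
theorem hs_mul (x y : KK) : hs (x * y) = hs x * hs y := rfl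
theorem hs_zero : hs 0 = 0 := rfl
theorem hs_one : hs 1 = 1 := rfl

theorem KK_ext {x y : KK} (h : ∀ g, (hs x).coeff g = (hs y).coeff g) : x = y :=
  HahnSeries.ext (funext h)

theorem co_add (x y : KK) (g : Γ) : (hs (x + y)).coeff g = (hs x).coeff g + (hs y).coeff g := by
  rw [hs_add]; simp

theorem co_sub (x y : KK) (g : Γ) : (hs (x - y)).coeff g = (hs x).coeff g - (hs y).coeff g := by
  rw [hs_sub]; simp

theorem co_neg (x : KK) (g : Γ) : (hs (-x)).coeff g = -(hs x).coeff g := by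
  rw [hs_neg]; simp

theorem co_zero (g : Γ) : (hs 0).coeff g = 0 := by
  rw [hs_zero]; simp

theorem co_one_ne {g : Γ} (h : (hs 1).coeff g ≠ 0) : g = 0 := by
  rw [hs_one, HahnSeries.coeff_one] at h
  by_contra hg
  simp [hg] at h

theorem co_add_ne {x y : KK} {g : Γ} (h : (hs (x + y)).coeff g ≠ 0) :
    (hs x).coeff g ≠ 0 ∨ (hs y).coeff g ≠ 0 := by
  by_contra hc
  push Not at hc
  rw [co_add, hc.1, hc.2, add_zero] at h
  exact h rfl

theorem co_mul_ne {x y : KK} {g : Γ} (h : (hs (x * y)).coeff g ≠ 0) :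
    ∃ a b, (hs x).coeff a ≠ 0 ∧ (hs y).coeff b ≠ 0 ∧ a + b = g := by
  have h1 : g ∈ (hs x * hs y).support := h
  obtain ⟨a, ha, b, hb, hab⟩ := HahnSeries.support_mul_subset h1
  exact ⟨a, b, ha, hb, hab⟩

theorem co_sum {ι : Type*} (s : Finset ι) (x : ι → KK) (g : Γ) :
    (hs (∑ i ∈ s, x i)).coeff g = ∑ i ∈ s, (hs (x i)).coeff g := by
  classical
  induction s using Finset.induction_on with
  | empty => simp [co_zero]
  | insert a s ha ih => rw [Finset.sum_insert ha, Finset.sum_insert ha, co_add, ih]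

/-- exponents that vanish at all indices `< -n` -/
def lowG (n : ℕ) (g : Γ) : Prop := ∀ i : ℤ, i < -(n : ℤ) → ofLex g i = 0

/-- the part of `g` at the indices `< -n` (monotone in `g`, additive) -/
noncomputable def hi (n : ℕ) (g : Γ) : Γ := toLex ((ofLex g).filter (fun i => i < -(n : ℤ)))

theorem Γ_ext {a b : Γ} (h : ∀ i, ofLex a i = ofLex b i) : a = b :=
  ofLex.injective (Finsupp.ext h)

theorem hi_apply (n : ℕ) (g : Γ) (i : ℤ) : ofLex (hi n g) i = if i < -(n : ℤ) then ofLex g i else 0 := by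
  simp [hi, Finsupp.filter_apply]

theorem hi_add (n : ℕ) (a b : Γ) : hi n (a + b) = hi n a + hi n b := by
  apply Γ_ext
  intro i
  simp only [ofLex_add, Finsupp.add_apply, hi_apply]
  split_ifs <;> simp

theorem hi_zero (n : ℕ) : hi n 0 = 0 := by
  apply Γ_ext
  intro i
  simp [hi_apply]

theorem hi_neg (n : ℕ) (a : Γ) : hi n (-a) = -hi n a := by
  have h := hi_add n (-a) a
  rw [neg_add_cancel, hi_zero] at h
  exact eq_neg_of_add_eq_zero_left h.symm

theorem lowG_iff {n : ℕ} {g : Γ} : lowG n g ↔ hi n g = 0 := by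
  constructor
  · intro h
    apply Γ_ext
    intro i
    rw [hi_apply]
    split_ifs with hi'
    · simpa using h i hi'
    · simp
  · intro h i hi'
    have := hi_apply n g i
    rw [h, if_pos hi'] at this
    simpa using this.symm

theorem hi_mono (n : ℕ) {a b : Γ} (h : a ≤ b) : hi n a ≤ hi n b := by
  rcases h.eq_or_lt with rfl | h
  · exact le_rfl
  obtain ⟨i, h1, h2⟩ := Finsupp.Lex.lt_iff.1 h
  by_cases hi' : i < -(n : ℤ)
  · apply le_of_lt
    refine Finsupp.Lex.lt_iff.2 ⟨i, fun j hj => ?_, ?_⟩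
    · have := h1 j hj
      change ofLex (hi n a) j = ofLex (hi n b) j
      rw [hi_apply, hi_apply]
      split_ifs
      · exact this
      · rfl
    · change ofLex (hi n a) i < ofLex (hi n b) i
      rw [hi_apply, hi_apply, if_pos hi', if_pos hi']
      exact h2
  · apply le_of_eq
    apply Γ_ext
    intro j
    rw [hi_apply, hi_apply]
    split_ifs with hj
    · exact h1 j (by omega)
    · rfl

theorem hi_hi {n m : ℕ} (h : n ≤ m) (g : Γ) : hi m (hi n g) = hi m g := by
  apply Γ_ext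
  intro i
  rw [hi_apply, hi_apply, hi_apply]
  split_ifs with h1 h2
  · rfl
  · omega
  · rfl

theorem lowG_zero (n : ℕ) : lowG n 0 := lowG_iff.2 (hi_zero n)

theorem lowG_add {n : ℕ} {a b : Γ} (ha : lowG n a) (hb : lowG n b) : lowG n (a + b) := by
  rw [lowG_iff] at *
  rw [hi_add, ha, hb, add_zero]

theorem lowG_add_iff {n : ℕ} {a b : Γ} (ha : lowG n a) : lowG n (a + b) ↔ lowG n b := by
  rw [lowG_iff] at *
  rw [lowG_iff, hi_add, ha, zero_add]

theorem lowG_mono {n m : ℕ} (h : n ≤ m) {g : Γ} (hg : lowG n g) : lowG m g :=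
  fun i hi' => hg i (by omega)

open Classical in
/-- restriction of a series to a set of exponents -/
noncomputable def filt (p : Γ → Prop) (x : KK) : KK :=
  (⟨fun g => if p g then (hs x).coeff g else 0,
    (hs x).isPWO_support.mono (by
      intro g hg
      simp only [Function.mem_support] at hg
      by_cases h : p g
      · simpa [h] using hg
      · simp [h] at hg)⟩ : HahnSeries Γ ℂ)

open Classical in
theorem co_filt (p : Γ → Prop) (x : KK) (g : Γ) :
    (hs (filt p x)).coeff g = if p g then (hs x).coeff g else 0 := rfl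

theorem co_filt_ne {p : Γ → Prop} {x : KK} {g : Γ} (h : (hs (filt p x)).coeff g ≠ 0) :
    p g ∧ (hs x).coeff g ≠ 0 := by
  rw [co_filt] at h
  by_cases hp : p g
  · exact ⟨hp, by simpa [hp] using h⟩
  · simp [hp] at h

theorem co_sub_filt_ne {p : Γ → Prop} {x : KK} {g : Γ} (h : (hs (x - filt p x)).coeff g ≠ 0) :
    ¬ p g ∧ (hs x).coeff g ≠ 0 := by
  rw [co_sub, co_filt] at h
  by_cases hp : p g
  · simp [hp] at h
  · exact ⟨hp, by simpa [hp] using h⟩

theorem low_mul {n : ℕ} {x y : KK} (hx : ∀ g, (hs x).coeff g ≠ 0 → lowG n g)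
    (hy : ∀ g, (hs y).coeff g ≠ 0 → lowG n g) : ∀ g, (hs (x * y)).coeff g ≠ 0 → lowG n g := by
  intro g hg
  obtain ⟨a, b, ha, hb, rfl⟩ := co_mul_ne hg
  exact lowG_add (hx a ha) (hy b hb)

theorem low_inv {n : ℕ} {x : KK} (hx : ∀ g, (hs x).coeff g ≠ 0 → lowG n g) :
    ∀ g, (hs x⁻¹).coeff g ≠ 0 → lowG n g := by
  by_cases hx0 : x = 0
  · intro g hg
    rw [hx0, inv_zero, co_zero] at hg
    exact absurd rfl hg
  set y0 := filt (lowG n) x⁻¹ with hy0
  have h0 : ∀ g, (hs y0).coeff g ≠ 0 → lowG n g := fun g hg => (co_filt_ne hg).1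
  have e : x * (x⁻¹ - y0) = 1 - x * y0 := by rw [mul_sub, mul_inv_cancel₀ hx0]
  have h1 : x * (x⁻¹ - y0) = 0 := by
    apply KK_ext
    intro g
    rw [co_zero]
    by_contra hg
    have hlow : lowG n g := by
      have hg' := hg
      rw [e, sub_eq_add_neg] at hg'
      rcases co_add_ne hg' with h | h
      · rw [co_one_ne h]; exact lowG_zero n
      · rw [co_neg, neg_ne_zero] at h
        exact low_mul hx h0 g h
    obtain ⟨a, b, ha, hb, rfl⟩ := co_mul_ne hg
    exact (co_sub_filt_ne hb).1 ((lowG_add_iff (hx a ha)).1 hlow)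
  have h2 : x⁻¹ = y0 := sub_eq_zero.1 ((mul_eq_zero.1 h1).resolve_left hx0)
  rw [h2]
  exact h0

/-- Series with exponents vanishing at all indices `< -n`.  Inverse: split `x⁻¹` into the part supported on
`lowG n` and the rest; `x * rest` is supported both inside and outside, hence is `0`. -/
def K (n : ℕ) : Subfield KK where
  carrier := {x | ∀ g, (hs x).coeff g ≠ 0 → lowG n g}
  mul_mem' := fun hx hy => low_mul hx hy
  one_mem' := fun g hg => by rw [co_one_ne hg]; exact lowG_zero n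
  add_mem' := fun hx hy g hg => (co_add_ne hg).elim (hx g) (hy g)
  zero_mem' := fun g hg => absurd (co_zero g) hg
  neg_mem' := fun hx g hg => hx g (by rwa [co_neg, neg_ne_zero] at hg)
  inv_mem' := fun _ hx => low_inv hx

/-- the valuation ring of the place `KK ⇝ K n` -/
def O (n : ℕ) : Subring KK where
  carrier := {x | ∀ g, (hs x).coeff g ≠ 0 → 0 ≤ hi n g}
  mul_mem' := fun hx hy g hg => by
    obtain ⟨a, b, ha, hb, rfl⟩ := co_mul_ne hg
    rw [hi_add]
    exact add_nonneg (hx a ha) (hy b hb)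
  one_mem' := fun g hg => by rw [co_one_ne hg, hi_zero]
  add_mem' := fun hx hy g hg => (co_add_ne hg).elim (hx g) (hy g)
  zero_mem' := fun g hg => absurd (co_zero g) hg
  neg_mem' := fun hx g hg => hx g (by rwa [co_neg, neg_ne_zero] at hg)

theorem mem_K {n : ℕ} {x : KK} : x ∈ K n ↔ ∀ g, (hs x).coeff g ≠ 0 → lowG n g := Iff.rfl

theorem mem_O {n : ℕ} {x : KK} : x ∈ O n ↔ ∀ g, (hs x).coeff g ≠ 0 → 0 ≤ hi n g := Iff.rfl

open Classical in
/-- restriction of a series to the exponents in `lowG n` (defined on all of `KK`) -/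
noncomputable def r (n : ℕ) : KK →+ KK where
  toFun x := (⟨fun g => if lowG n g then (hs x).coeff g else 0,
    (hs x).isPWO_support.mono (by
      intro g hg
      simp only [Function.mem_support] at hg
      by_cases h : lowG n g
      · simpa [h] using hg
      · simp [h] at hg)⟩ : HahnSeries Γ ℂ)
  map_zero' := by
    apply KK_ext
    intro g
    change (if lowG n g then (hs 0).coeff g else 0) = _
    rw [co_zero, ite_self]
  map_add' := fun x y => by
    apply KK_ext
    intro g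
    rw [co_add]
    change (if lowG n g then (hs (x + y)).coeff g else 0) =
      (if lowG n g then (hs x).coeff g else 0) + (if lowG n g then (hs y).coeff g else 0)
    rw [co_add]
    split_ifs <;> simp

theorem r_eq_filt (n : ℕ) (x : KK) : r n x = filt (lowG n) x := rfl

open Classical in
theorem co_r (n : ℕ) (x : KK) (g : Γ) :
    (hs (r n x)).coeff g = if lowG n g then (hs x).coeff g else 0 := rfl

theorem r_eq_zero_iff {n : ℕ} {x : KK} : r n x = 0 ↔ ∀ g, (hs x).coeff g ≠ 0 → ¬ lowG n g := by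
  constructor
  · intro h g hg hl
    have := co_r n x g
    rw [h, co_zero, if_pos hl] at this
    exact hg this.symm
  · intro h
    apply KK_ext
    intro g
    rw [co_r, co_zero]
    split_ifs with hl
    · by_contra hg
      exact h g hg hl
    · rfl

/-- monomials -/
noncomputable def mono (g : ℤ →₀ ℤ) (c : ℂ) : KK := (HahnSeries.single (toLex g) c : HahnSeries Γ ℂ)

/-- the arc parameter -/
noncomputable def t (n : ℕ) : KK := mono (Finsupp.single (-(n : ℤ) - 1) 1) 1

/-- the derivation `t n * d / d (t n)` -/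
noncomputable def θ (n : ℕ) : KK →+ KK where
  toFun x := (⟨fun g => ((ofLex g (-(n : ℤ) - 1) : ℤ) : ℂ) * (hs x).coeff g,
    (hs x).isPWO_support.mono (by
      intro g hg
      simp only [Function.mem_support] at hg
      exact right_ne_zero_of_mul hg)⟩ : HahnSeries Γ ℂ)
  map_zero' := by
    apply KK_ext
    intro g
    change ((ofLex g (-(n : ℤ) - 1) : ℤ) : ℂ) * (hs 0).coeff g = _
    rw [co_zero, mul_zero]
  map_add' := fun x y => by
    apply KK_ext
    intro g
    rw [co_add]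
    change ((ofLex g (-(n : ℤ) - 1) : ℤ) : ℂ) * (hs (x + y)).coeff g =
      ((ofLex g (-(n : ℤ) - 1) : ℤ) : ℂ) * (hs x).coeff g + ((ofLex g (-(n : ℤ) - 1) : ℤ) : ℂ) * (hs y).coeff g
    rw [co_add, mul_add]

theorem co_θ (n : ℕ) (x : KK) (g : Γ) :
    (hs (θ n x)).coeff g = ((ofLex g (-(n : ℤ) - 1) : ℤ) : ℂ) * (hs x).coeff g := rfl

/-- the order -/
noncomputable def ov (x : KK) : Γ := (hs x).order

theorem co_ov_ne {x : KK} (hx : x ≠ 0) : (hs x).coeff (ov x) ≠ 0 := by
  have hx' : hs x ≠ 0 := hx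
  exact fun h => hx' (HahnSeries.coeff_order_eq_zero.1 h)

theorem ov_le {x : KK} {g : Γ} (h : (hs x).coeff g ≠ 0) : ov x ≤ g :=
  HahnSeries.order_le_of_coeff_ne_zero h

theorem co_mono_ne {g : ℤ →₀ ℤ} {c : ℂ} {a : Γ} (h : (hs (mono g c)).coeff a ≠ 0) : a = toLex g := by
  by_contra ha
  apply h
  change (HahnSeries.single (toLex g) c : HahnSeries Γ ℂ).coeff a = 0
  rw [HahnSeries.coeff_single_of_ne ha]

theorem co_mono_self (g : ℤ →₀ ℤ) (c : ℂ) : (hs (mono g c)).coeff (toLex g) = c := by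
  change (HahnSeries.single (toLex g) c : HahnSeries Γ ℂ).coeff (toLex g) = c
  rw [HahnSeries.coeff_single_same]

theorem co_mono_mul (g : ℤ →₀ ℤ) (c : ℂ) (x : KK) (a : Γ) :
    (hs (mono g c * x)).coeff a = c * (hs x).coeff (a - toLex g) := by
  change ((HahnSeries.single (toLex g) c : HahnSeries Γ ℂ) * hs x).coeff a = _
  rw [HahnSeries.coeff_single_mul]

theorem mono_mul (g g' : ℤ →₀ ℤ) (c c' : ℂ) : mono g c * mono g' c' = mono (g + g') (c * c') := by
  change (HahnSeries.single (toLex g) c : HahnSeries Γ ℂ) * HahnSeries.single (toLex g') c' =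
    HahnSeries.single (toLex (g + g')) (c * c')
  rw [HahnSeries.single_mul_single, toLex_add]

theorem mono_zero_one : mono 0 1 = 1 := by
  change (HahnSeries.single (toLex (0 : ℤ →₀ ℤ)) (1 : ℂ) : HahnSeries Γ ℂ) = 1
  rw [toLex_zero, HahnSeries.single_zero_one]

theorem mono_ne_zero (g : ℤ →₀ ℤ) {c : ℂ} (hc : c ≠ 0) : mono g c ≠ 0 := by
  intro h
  have := co_mono_self g c
  rw [h, co_zero] at this
  exact hc this.symm

theorem ov_mono (g : ℤ →₀ ℤ) {c : ℂ} (hc : c ≠ 0) : ov (mono g c) = toLex g :=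
  co_mono_ne (co_ov_ne (mono_ne_zero g hc))

theorem mono_mem_K0 {g : ℤ →₀ ℤ} (hg : ∀ i < 0, g i = 0) (c : ℂ) : mono g c ∈ K 0 := by
  intro a ha
  rw [co_mono_ne ha]
  intro i hi'
  exact hg i (by simpa using hi')

theorem mono_inj (g : ℤ →₀ ℤ) {c c' : ℂ} (h : mono g c = mono g c') : c = c' := by
  rw [← co_mono_self g c, h, co_mono_self]

theorem ov_mul {x y : KK} (hx : x ≠ 0) (hy : y ≠ 0) : ov (x * y) = ov x + ov y :=
  HahnSeries.order_mul (x := hs x) (y := hs y) hx hy

theorem ov_one : ov 1 = 0 := co_one_ne (co_ov_ne one_ne_zero)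

theorem ov_inv {x : KK} (hx : x ≠ 0) : ov x⁻¹ = -ov x := by
  have h := ov_mul (inv_ne_zero hx) hx
  rw [inv_mul_cancel₀ hx, ov_one] at h
  exact eq_neg_of_add_eq_zero_left h.symm

theorem mem_O_of_ov {n : ℕ} {x : KK} (h : 0 ≤ hi n (ov x)) : x ∈ O n :=
  fun _ hg => h.trans (hi_mono n (ov_le hg))

theorem K_mono {n m : ℕ} (h : n ≤ m) : K n ≤ K m := fun _ hx g hg => lowG_mono h (hx g hg)

theorem K_le_O {n : ℕ} {x : KK} (h : x ∈ K n) : x ∈ O n := fun g hg => (lowG_iff.1 (h g hg)).ge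

theorem r_mem (n : ℕ) (x : KK) : r n x ∈ K n := fun _ hg => (co_filt_ne hg).1

theorem r_of_mem {n : ℕ} {x : KK} (h : x ∈ K n) : r n x = x := by
  apply KK_ext
  intro g
  rw [co_r]
  split_ifs with hl
  · rfl
  · by_contra hg
    exact hl (h g (Ne.symm hg))

/-- `r n` is `K n`-linear on all of `KK` -/
theorem r_mul_left {n : ℕ} {a : KK} (ha : a ∈ K n) (x : KK) : r n (a * x) = a * r n x := by
  have e : a * x = a * r n x + a * (x - r n x) := by ring
  have h1 : r n (a * (x - r n x)) = 0 := by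
    rw [r_eq_zero_iff]
    intro g hg
    obtain ⟨u, v, hu, hv, rfl⟩ := co_mul_ne hg
    rw [lowG_add_iff (ha u hu)]
    exact (co_sub_filt_ne hv).1
  rw [e, map_add, h1, add_zero, r_of_mem ((K n).mul_mem ha (r_mem n x))]

theorem r_mul {n : ℕ} {x y : KK} (hx : x ∈ O n) (hy : y ∈ O n) : r n (x * y) = r n x * r n y := by
  have e : x * y = r n x * y + (x - r n x) * y := by ring
  have h1 : r n ((x - r n x) * y) = 0 := by
    rw [r_eq_zero_iff]
    intro g hg
    obtain ⟨u, v, hu, hv, rfl⟩ := co_mul_ne hg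
    obtain ⟨h2, h3⟩ := co_sub_filt_ne hu
    rw [lowG_iff] at h2 ⊢
    rw [hi_add]
    exact (add_pos_of_pos_of_nonneg (lt_of_le_of_ne (hx u h3) (Ne.symm h2)) (hy v hv)).ne'
  rw [e, map_add, h1, add_zero, r_mul_left (r_mem n x)]

theorem O_total (n : ℕ) (x : KK) : x ∈ O n ∨ x⁻¹ ∈ O n := by
  by_cases hx : x = 0
  · left; rw [hx]; exact (O n).zero_mem
  rcases le_total 0 (hi n (ov x)) with h | h
  · exact Or.inl (mem_O_of_ov h)
  · right
    apply mem_O_of_ov
    rw [ov_inv hx, hi_neg]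
    exact neg_nonneg.2 h

theorem inv_mem_O {n : ℕ} {x : KK} (hx : x ∈ O n) (h : r n x ≠ 0) : x⁻¹ ∈ O n := by
  have hx0 : x ≠ 0 := by
    rintro rfl
    exact h (map_zero _)
  apply mem_O_of_ov
  rw [ov_inv hx0, hi_neg, neg_nonneg]
  obtain ⟨h1, h2⟩ := co_filt_ne (co_ov_ne h)
  have _ := hx
  exact (hi_mono n (ov_le h2)).trans (lowG_iff.1 h1).le

theorem O_comp {n m : ℕ} (h : n ≤ m) (x : KK) : x ∈ O n ↔ x ∈ O m ∧ r m x ∈ O n := by
  constructor
  · intro hx
    refine ⟨fun g hg => ?_, fun g hg => hx g (co_filt_ne hg).2⟩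
    rw [← hi_hi h, ← hi_zero m]
    exact hi_mono m (hx g hg)
  · rintro ⟨h1, h2⟩ g hg
    rcases (h1 g hg).eq_or_lt with h3 | h3
    · apply h2 g
      rw [co_r, if_pos (lowG_iff.2 h3.symm)]
      exact hg
    · by_contra h4
      have h5 := hi_mono m (not_le.1 h4).le
      rw [hi_hi h, hi_zero] at h5
      exact absurd h3 (not_lt.2 h5)

theorem r_r {n m : ℕ} (h : n ≤ m) (x : KK) : r n (r m x) = r n x := by
  apply KK_ext
  intro g
  rw [co_r, co_r, co_r]
  split_ifs with h1 h2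
  · rfl
  · exact absurd (lowG_mono h h1) h2
  · rfl

theorem single_nonneg_iff (i a : ℤ) : (0 : Γ) ≤ toLex (Finsupp.single i a) ↔ 0 ≤ a := by
  constructor
  · intro h
    by_contra ha
    refine absurd h (not_le.2 (Finsupp.Lex.lt_iff.2 ⟨i, fun j hj => ?_, ?_⟩))
    · simp [hj.ne']
    · simpa using ha
  · intro ha
    have : (0 : ℤ →₀ ℤ) ≤ Finsupp.single i a := Finsupp.single_nonneg.2 ha
    exact Finsupp.toLex_monotone this

theorem hi_of_low {n : ℕ} {g : Γ} (h : lowG (n + 1) g) :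
    hi n g = toLex (Finsupp.single (-(n : ℤ) - 1) (ofLex g (-(n : ℤ) - 1))) := by
  apply Γ_ext
  intro i
  rw [hi_apply, ofLex_toLex, Finsupp.single_apply]
  split_ifs with h1 h2 h2
  · rw [h2]
  · exact h i (by push_cast; omega)
  · omega
  · rfl

theorem lowG_single (n : ℕ) (a : ℤ) : lowG (n + 1) (toLex (Finsupp.single (-(n : ℤ) - 1) a)) := by
  intro i hi'
  rw [ofLex_toLex, Finsupp.single_apply, if_neg]
  push_cast at hi'
  omega

theorem t_mem (n : ℕ) : t n ∈ K (n + 1) := by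
  intro g hg
  rw [co_mono_ne hg]
  exact lowG_single n 1

theorem t_ne (n : ℕ) : t n ≠ 0 := mono_ne_zero _ one_ne_zero

theorem t_O (n : ℕ) : t n ∈ O n := by
  intro g hg
  rw [co_mono_ne hg, hi_of_low (lowG_single n 1), single_nonneg_iff]
  simp

theorem r_t (n : ℕ) : r n (t n) = 0 := by
  rw [r_eq_zero_iff]
  intro g hg hl
  rw [co_mono_ne hg] at hl
  simpa using hl (-(n : ℤ) - 1) (by omega)

theorem t_inv_pow (n l : ℕ) : (t n)⁻¹ ^ l = mono (Finsupp.single (-(n : ℤ) - 1) (-(l : ℤ))) 1 := by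
  have h1 : (t n)⁻¹ = mono (Finsupp.single (-(n : ℤ) - 1) (-1)) 1 := by
    apply inv_eq_of_mul_eq_one_right
    rw [t, mono_mul, ← Finsupp.single_add, add_neg_cancel, Finsupp.single_zero, mul_one, mono_zero_one]
  induction l with
  | zero => simp [mono_zero_one]
  | succ l ih =>
    rw [pow_succ, ih, h1, mono_mul, ← Finsupp.single_add, mul_one]
    congr 2
    push_cast
    ring

theorem tpow_mem_O_iff {n : ℕ} {x : KK} (h1 : x ∈ K (n + 1)) (l : ℕ) :
    (t n)⁻¹ ^ l * x ∈ O n ↔ ∀ g, (hs x).coeff g ≠ 0 → (l : ℤ) ≤ ofLex g (-(n : ℤ) - 1) := by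
  rw [t_inv_pow, mem_O]
  constructor
  · intro h g hg
    have h2 := h (g + toLex (Finsupp.single (-(n : ℤ) - 1) (-(l : ℤ)))) (by
      rw [co_mono_mul, one_mul, add_sub_cancel_right]; exact hg)
    rw [hi_of_low (lowG_add (h1 g hg) (lowG_single n _)), single_nonneg_iff] at h2
    simp only [ofLex_add, ofLex_toLex, Finsupp.add_apply, Finsupp.single_eq_same] at h2
    omega
  · intro h g hg
    rw [co_mono_mul, one_mul] at hg
    have e : g = (g - toLex (Finsupp.single (-(n : ℤ) - 1) (-(l : ℤ)))) +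
        toLex (Finsupp.single (-(n : ℤ) - 1) (-(l : ℤ))) := by rw [sub_add_cancel]
    have h2 := h _ hg
    rw [e, hi_of_low (lowG_add (h1 _ hg) (lowG_single n _)), single_nonneg_iff]
    simp only [ofLex_add, ofLex_toLex, Finsupp.add_apply, Finsupp.single_eq_same]
    omega

theorem lowG_of_succ {n : ℕ} {g : Γ} (h : lowG (n + 1) g) (h0 : ofLex g (-(n : ℤ) - 1) = 0) : lowG n g := by
  rw [lowG_iff, hi_of_low h, h0, Finsupp.single_zero, toLex_zero]

theorem div_t {n : ℕ} {x : KK} (h1 : x ∈ K (n + 1)) (h2 : x ∈ O n) (h3 : r n x = 0) :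
    (t n)⁻¹ * x ∈ O n := by
  have := (tpow_mem_O_iff h1 1).2 (fun g hg => by
    have h4 := h2 g hg
    rw [hi_of_low (h1 g hg), single_nonneg_iff] at h4
    have h5 : ofLex g (-(n : ℤ) - 1) ≠ 0 := fun h6 =>
      r_eq_zero_iff.1 h3 g hg (lowG_of_succ (h1 g hg) h6)
    push_cast
    omega)
  rwa [pow_one] at this

theorem t_sep {n : ℕ} {x : KK} (h1 : x ∈ K (n + 1)) (h : ∀ l : ℕ, (t n)⁻¹ ^ l * x ∈ O n) : x = 0 := by
  apply KK_ext
  intro g
  rw [co_zero]
  by_contra hg
  have := (tpow_mem_O_iff h1 _).1 (h ((ofLex g (-(n : ℤ) - 1)).toNat + 1)) g hg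
  push_cast at this
  omega

theorem θ_mul (n : ℕ) (x y : KK) : θ n (x * y) = θ n x * y + x * θ n y := by
  apply KK_ext
  intro g
  have s1 : (hs (θ n x)).support ⊆ (hs x).support := fun a ha => right_ne_zero_of_mul ha
  have s2 : (hs (θ n y)).support ⊆ (hs y).support := fun a ha => right_ne_zero_of_mul ha
  rw [co_add, co_θ, hs_mul, hs_mul, hs_mul, HahnSeries.coeff_mul,
    HahnSeries.coeff_mul_left' (hs x).isPWO_support s1,
    HahnSeries.coeff_mul_right' (hs y).isPWO_support s2, ← Finset.sum_add_distrib, Finset.mul_sum]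
  refine Finset.sum_congr rfl fun p hp => ?_
  have hp' : p.1 + p.2 = g := (Finset.mem_antidiagonal.1 hp).2.2
  rw [co_θ, co_θ, ← hp']
  simp only [ofLex_add, Finsupp.add_apply]
  push_cast
  ring

theorem θ_K {n : ℕ} {x : KK} (h : x ∈ K n) : θ n x = 0 := by
  apply KK_ext
  intro g
  rw [co_zero, co_θ]
  by_cases hg : (hs x).coeff g = 0
  · rw [hg, mul_zero]
  · rw [h g hg (-(n : ℤ) - 1) (by omega)]
    simp

theorem θ_mem {n : ℕ} {x : KK} (h : x ∈ K (n + 1)) : θ n x ∈ K (n + 1) :=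
  fun g hg => h g (right_ne_zero_of_mul hg)

theorem θ_t (n : ℕ) : θ n (t n) = t n := by
  apply KK_ext
  intro g
  rw [co_θ]
  by_cases hg : (hs (t n)).coeff g = 0
  · rw [hg, mul_zero]
  · rw [co_mono_ne hg]
    simp

theorem θ_O {n : ℕ} {x : KK} (h : x ∈ O n) : θ n x ∈ O n :=
  fun g hg => h g (right_ne_zero_of_mul hg)

theorem r_θ (n : ℕ) (x : KK) : r n (θ n x) = 0 := by
  rw [r_eq_zero_iff]
  intro g hg hl
  apply hg
  rw [co_θ, hl (-(n : ℤ) - 1) (by omega)]
  simp

theorem eq_r_of_θ {n : ℕ} {x : KK} (h1 : x ∈ K (n + 1)) (h : θ n x = 0) : r n x = x := by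
  apply r_of_mem
  intro g hg
  apply lowG_of_succ (h1 g hg)
  have h2 := co_θ n x g
  rw [h, co_zero] at h2
  exact_mod_cast (mul_eq_zero.1 h2.symm).resolve_right hg

theorem le_of_low_le {n : ℕ} {a b : Γ} (ha : lowG (n + 1) a) (hb : lowG (n + 1) b) (h : a ≤ b) :
    ofLex a (-(n : ℤ) - 1) ≤ ofLex b (-(n : ℤ) - 1) := by
  have h1 := hi_mono n h
  rw [hi_of_low ha, hi_of_low hb, ← sub_nonneg, ← toLex_sub, ← Finsupp.single_sub, single_nonneg_iff] at h1
  omega

/-- `t`-adic completeness of `K (n+1)`.  The limit has at `g` the coefficient of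
`x ((ofLex g (-n-1)).toNat + 1)` if `lowG (n+1) g`, else `0`; its support is well founded: in a nonempty subset take
the least value of `toNat (g (-n-1))`, then the least element of that layer. -/
theorem t_complete {n : ℕ} (x : ℕ → KK) (h1 : ∀ l, x l ∈ K (n + 1))
    (h2 : ∀ l : ℕ, (t n)⁻¹ ^ l * (x (l + 1) - x l) ∈ O n) :
    ∃ y ∈ K (n + 1), ∀ l : ℕ, (t n)⁻¹ ^ l * (y - x l) ∈ O n := by
  have st1 : ∀ (g : Γ) (l : ℕ), ofLex g (-(n : ℤ) - 1) < l →
      (hs (x (l + 1))).coeff g = (hs (x l)).coeff g := by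
    intro g l hl
    by_contra hne
    have h3 := (tpow_mem_O_iff ((K (n + 1)).sub_mem (h1 (l + 1)) (h1 l)) l).1 (h2 l) g (by
      rw [co_sub]; exact sub_ne_zero.2 hne)
    omega
  have st2 : ∀ (g : Γ) (l m : ℕ), ofLex g (-(n : ℤ) - 1) < l → l ≤ m →
      (hs (x m)).coeff g = (hs (x l)).coeff g := by
    intro g l m hl hlm
    induction m, hlm using Nat.le_induction with
    | base => rfl
    | succ m hm ih => rw [st1 g m (by omega), ih]
  have st3 : ∀ (g : Γ) (l : ℕ), ofLex g (-(n : ℤ) - 1) < l →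
      (hs (x ((ofLex g (-(n : ℤ) - 1)).toNat + 1))).coeff g = (hs (x l)).coeff g := by
    intro g l hl
    rcases le_total l ((ofLex g (-(n : ℤ) - 1)).toNat + 1) with h | h
    · exact st2 g l _ hl h
    · exact (st2 g _ l (by push_cast; omega) h).symm
  have hwf : (Function.support fun g : Γ =>
      (hs (x ((ofLex g (-(n : ℤ) - 1)).toNat + 1))).coeff g).IsPWO := by
    apply Set.IsWF.isPWO
    rw [Set.isWF_iff_no_descending_seq]
    intro f hf hmem
    have h3 := (hs (x ((ofLex (f 0) (-(n : ℤ) - 1)).toNat + 1))).isWF_support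
    rw [Set.isWF_iff_no_descending_seq] at h3
    refine h3 f hf fun k => ?_
    have h4 : ofLex (f k) (-(n : ℤ) - 1) ≤ ofLex (f 0) (-(n : ℤ) - 1) :=
      le_of_low_le (h1 _ _ (hmem k)) (h1 _ _ (hmem 0)) (hf.antitone (Nat.zero_le k))
    have h5 := hmem k
    rw [Function.mem_support, st3 (f k) ((ofLex (f 0) (-(n : ℤ) - 1)).toNat + 1) (by push_cast; omega)] at h5
    exact h5
  let y : KK := (⟨fun g : Γ => (hs (x ((ofLex g (-(n : ℤ) - 1)).toNat + 1))).coeff g, hwf⟩ : HahnSeries Γ ℂ)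
  have hy : ∀ g, (hs y).coeff g = (hs (x ((ofLex g (-(n : ℤ) - 1)).toNat + 1))).coeff g := fun _ => rfl
  have hyK : y ∈ K (n + 1) := fun g hg => h1 _ g hg
  refine ⟨y, hyK, fun l => ?_⟩
  rw [tpow_mem_O_iff ((K (n + 1)).sub_mem hyK (h1 l))]
  intro g hg
  by_contra hl
  apply hg
  rw [co_sub, hy, st3 g l (not_le.1 hl), sub_self]

theorem sum_ne_zero_of_ov {ι : Type*} (s : Finset ι) (x : ι → KK) (i₀ : ι) (h0 : i₀ ∈ s) (hx : x i₀ ≠ 0)
    (h : ∀ i ∈ s, i ≠ i₀ → x i ≠ 0 → ov (x i₀) < ov (x i)) : ∑ i ∈ s, x i ≠ 0 := by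
  intro hs0
  have h1 := co_sum s x (ov (x i₀))
  rw [hs0, co_zero, Finset.sum_eq_single_of_mem i₀ h0] at h1
  · exact co_ov_ne hx h1.symm
  · intro i hi' hne
    by_contra hc
    have hxi : x i ≠ 0 := by
      intro h2
      rw [h2, co_zero] at hc
      exact hc rfl
    exact absurd (ov_le hc) (not_le.2 (h i hi' hne hxi))

end Crest.Agent.R180
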